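import Crest.Agent.KR.Defs
import Crest.Agent.KS.Part
import Crest.Agent.GP.Gen
/-! Free unitaries commuting with matrix units. -/
set_option autoImplicit false
namespace Crest.Agent.KR
open scoped InnerProductSpace ComplexConjugate BigOperators
open Finset Filter Topology Crest.Agent.GP Crest.Agent.KS Crest.Agent.KS.Part

universe u

namespace AmfA
variable {A : Type u} [CStarAlgebra A]

theorem τ_cen (T : Tr A) (E : MU A (Fin 2)) {y : A} (hy : y ∈ Cen E) (i j : Fin 2) :
    T.τ (E.e i j * y) = if i = j then T.τ y / 2 else 0 := by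
  have hc := (mem_Cen E).mp hy
  have h : ∀ a b c d, T.τ (E.e a b * E.e c d * y) = T.τ (E.e c d * E.e a b * y) :=
    fun a b c d => by rw [mul_assoc, T.comm, mul_assoc, ← hc, mul_assoc]
  split_ifs with hij
  · subst hij
    have h1 := h 0 1 1 0
    have h2 : T.τ (E.e 0 0 * y) + T.τ (E.e 1 1 * y) = T.τ y := by
      rw [← map_add, ← add_mul, ← Fin.sum_univ_two fun i => E.e i i, E.sum_e, one_mul]
    simp only [E.mul_e, if_true] at h1
    fin_cases i
    · change T.τ (E.e 0 0 * y) = _
      linear_combination (h2 + h1) / 2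
    · change T.τ (E.e 1 1 * y) = _
      linear_combination (h2 - h1) / 2
  · have := h i i i j
    simpa [E.mul_e, Ne.symm hij] using this

theorem chain_rep {X : Type*} {Q : X → Prop} {l₁ l₂ : List (Bool × X)} {s : Bool} {a c : X}
    (h : (l₁ ++ (s, a) :: l₂).IsChain fun a b => a.1 ≠ b.1 → Q a.2) (hc : Q a → Q c) :
    (l₁ ++ (s, c) :: l₂).IsChain fun a b => a.1 ≠ b.1 → Q a.2 := by
  rw [List.isChain_append, List.isChain_cons] at h ⊢
  exact ⟨h.1, ⟨fun y hy e => hc (h.2.1.1 y hy e), h.2.1.2⟩, fun x hx y hy => by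
    obtain rfl : (s, c) = y := by simpa using hy
    exact h.2.2 x hx (s, a) (by simp)⟩

theorem coe_wd {Q : StarSubalgebra ℂ A} [IsClosed (Q : Set A)] (v : Q) (m : List (Bool × Q)) :
    ((wd v m : Q) : A) = wd (v : A) (m.map fun p => (p.1, (p.2 : A))) := by
  induction m with
  | nil => rfl
  | cons p m ih =>
    rw [List.map_cons, wd_cons, wd_cons, ← ih]
    cases p.1 <;> rfl

end AmfA
open AmfA

theorem amf' : AmfStmt.{u} := by
  intro A _ T G E
  have G' := gd G E
  haveI : IsClosed (Cen E : Set A) := G'.hQ.isClosed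
  obtain ⟨𝔉, hF⟩ := Tr.exists_free G'.res.lq
  refine ⟨𝔉.map fun v => (v.1 : A), ?_, fun x l h0 h1 => ?_⟩
  · rw [Ultrafilter.coe_map, eventually_map]
    refine Eventually.of_forall fun v => ⟨?_, fun i j => ((mem_Cen E).mp v.1.2 i j).symm⟩
    exact ⟨congrArg Subtype.val v.2.2.1, congrArg Subtype.val v.2.2.2⟩
  change Tendsto (fun v : UP ((Cen E).comap (Cen E).subtype) => T.τ (x * wd (v.1 : A) l)) 𝔉 (𝓝 0)
  suffices H : ∀ (l : List (Bool × A)) (m : List (Bool × Cen E)) (x : A),
      (m.map fun p => (p.1, (p.2 : A))) ++ l ≠ [] →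
      ((m.map fun p => (p.1, (p.2 : A))) ++ l).IsChain
        (fun a b => a.1 ≠ b.1 → ∀ i j, T.τ (E.e i j * a.2) = 0) →
      Tendsto (fun v : UP ((Cen E).comap (Cen E).subtype) =>
        T.τ (x * wd (v.1 : A) ((m.map fun p => (p.1, (p.2 : A))) ++ l))) 𝔉 (𝓝 0) from
    H l [] x h0 h1
  intro l
  induction l with
  | nil =>
    intro m x h0 h1
    simp only [List.append_nil] at h0 h1 ⊢
    obtain ⟨c, hc, rfl⟩ := dec E x
    have hm : (T.res (Cen E)).Ch m := by
      rw [List.isChain_map] at h1
      refine h1.imp fun a b h e => ?_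
      have := h e 0 0
      rw [τ_cen T E a.2.2, if_pos rfl] at this
      change T.τ a.2 = 0
      linear_combination 2 * this
    simp only [sum_mul, map_sum, ← coe_wd]
    have := tendsto_finsetSum univ fun i _ => tendsto_finsetSum univ fun j _ =>
      (hF ⟨c i j, hc i j⟩ m (by simpa using h0) hm).const_mul (if i = j then 1 / 2 else 0)
    simp only [mul_zero, sum_const_zero] at this
    refine this.congr fun v => sum_congr rfl fun i _ => sum_congr rfl fun j _ => ?_
    rw [mul_assoc, τ_cen T E (mul_mem (hc i j) (wd v.1 m).2)]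
    change _ * T.τ (c i j * ((wd v.1 m : Cen E) : A)) = _
    split_ifs <;> ring
  | cons p l ih =>
    intro m x _ h1
    obtain ⟨s, a⟩ := p
    obtain ⟨c, hc, ha⟩ := dec E a
    have := tendsto_finsetSum univ fun i _ => tendsto_finsetSum univ fun j _ =>
      ih (m ++ [(s, ⟨c i j, hc i j⟩)]) (x * E.e i j) (by simp) (by
        simp only [List.map_append, List.map_cons, List.map_nil, List.append_assoc,
          List.cons_append, List.nil_append]
        refine chain_rep (Q := fun a => ∀ i j, T.τ (E.e i j * a) = 0) h1 fun h k k' => ?_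
        have := h j i
        rw [ha] at this
        simp only [mul_sum, map_sum, ← mul_assoc, E.mul_e, ite_mul, zero_mul, apply_ite T.τ,
          map_zero, τ_cen T E (hc _ _)] at this
        rw [sum_comm] at this
        simp only [sum_ite_eq, mem_univ, if_true] at this
        rw [τ_cen T E (hc _ _), this, ite_self])
    simp only [sum_const_zero] at this
    refine this.congr fun v => ?_
    have h2 := (mem_Cen E).mp (wd v.1 m).2
    have h3 : ∀ i j, E.e i j * pw (v.1 : A) s = pw (v.1 : A) s * E.e i j := (mem_Cen E).mp (by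
      cases s
      · exact star_mem v.1.2
      · exact v.1.2)
    simp only [List.map_append, List.map_cons, List.map_nil, List.append_assoc,
      List.cons_append, List.nil_append, wd_append, wd_cons, ← coe_wd]
    rw [ha]
    simp only [mul_sum, sum_mul, map_sum]
    refine sum_congr rfl fun i _ => sum_congr rfl fun j _ => congrArg _ ?_
    rw [mul_assoc x, ← mul_assoc (E.e i j), h2, mul_assoc _ (E.e i j), ← mul_assoc (E.e i j),
      ← mul_assoc (E.e i j), h3, mul_assoc _ (E.e i j)]

theorem amf (_ : SubStmt.{u}) : AmfStmt.{u} := amf'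

end Crest.Agent.KR
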