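import Crest.Agent.KR.Kit1
/-! Comparison and halving of projections. -/
set_option autoImplicit false
set_option linter.deprecated false
namespace Crest.Agent.KR
open scoped InnerProductSpace ComplexConjugate
open Filter Topology Crest.Agent.GP VN

universe u

namespace Kt

/-- maximal pairwise related families -/
theorem exists_maxfam {X : Type*} (Q : X → Prop) (R : X → X → Prop) (hR : ∀ a b, R a b → R b a) :
    ∃ F : Set X, (∀ v ∈ F, Q v) ∧ F.Pairwise R ∧ ∀ v, Q v → (∀ w ∈ F, R v w) → v ∈ F := by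
  obtain ⟨F, hF⟩ := zorn_subset {F : Set X | (∀ v ∈ F, Q v) ∧ F.Pairwise R} fun c hc hch =>
    ⟨⋃₀ c, ⟨fun v ⟨s, hs, hv⟩ => (hc hs).1 v hv,
      (Set.pairwise_sUnion hch.directedOn).2 fun s hs => (hc hs).2⟩,
      fun s hs => Set.subset_sUnion_of_mem hs⟩
  refine ⟨F, hF.prop.1, hF.prop.2, fun v hv h => ?_⟩
  refine hF.mem_of_prop_insert ⟨?_, ?_⟩
  · rintro w (rfl | hw)
    exacts [hv, hF.prop.1 w hw]
  · exact hF.prop.2.insert fun b hb _ => ⟨h b hb, hR _ _ (h b hb)⟩

variable {A : Type u} [CStarAlgebra A] {H : Type u} [NormedAddCommGroup H]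
  [InnerProductSpace ℂ H] [CompleteSpace H] {ρ : A →⋆ₐ[ℂ] (H →L[ℂ] H)}

/-- the sum of an orthogonal family of partial isometries -/
theorem psum (hV : VN ρ) (F : Set A) (h0 : ∀ v ∈ F, v * star v * v = v)
    (h1 : F.Pairwise fun v w => star v * w = 0 ∧ v * star w = 0) :
    ∃ V : A, V * star V * V = V ∧ (∀ v ∈ F, V * (star v * v) = v) ∧
      (∀ v ∈ F, V * star V * v = v) ∧ (∀ v ∈ F, v * (star V * V) = v) ∧
      (∀ b, (∀ v ∈ F, v * b = 0) → V * b = 0) ∧ ∀ b, (∀ v ∈ F, b * v = 0) → b * V = 0 := by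
  obtain ⟨W, hW, a1, a2, a3, a4⟩ := glue (fun v : F => ρ v) (fun v : F => ρ (star v.1 * v))
    (fun _ => rho_mem hV _) (fun _ => rho_mem hV _) fun v w => by
      simp only [← map_star, ← map_mul]
      congr 1
      by_cases h : v = w
      · subst h
        rw [(pi_proj (h0 v v.2)).1, (pi_proj (h0 v v.2)).2]
      · have := h1 v.2 w.2 fun e => h (Subtype.ext e)
        rw [this.1, star_mul, star_star, mul_assoc, ← mul_assoc v.1, this.2]; simp
  obtain ⟨V, rfl⟩ := (mem_vM hV).1 hW
  have b0 : V * star V * V = V := hV.inj (by rw [map_mul, map_mul, map_star, a4])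
  have b1 : ∀ v ∈ F, V * (star v * v) = v := fun v hv => hV.inj (by rw [map_mul, a1 ⟨v, hv⟩])
  refine ⟨V, b0, b1, fun v hv => ?_, fun v hv => ?_, fun b hb => zero_of hV ?_,
    fun b hb => zero_of hV ?_⟩
  · rw [← b1 v hv, ← mul_assoc, b0]
  · have : star V * V * (star v * v) = star v * v := hV.inj (by
      rw [map_mul, map_mul, map_star, a2]; exact sp_mul ⟨⟨v, hv⟩, rfl⟩)
    have := congrArg star this
    simp only [star_mul, star_star] at this
    calc v * (star V * V) = v * (star v * v * (star V * V)) := by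
          rw [← mul_assoc v (star v * v), ← mul_assoc v (star v) v, h0 v hv]
      _ = v := by rw [this, ← mul_assoc, h0 v hv]
  · have : star (ρ V) * ρ V * ρ b = 0 := a2 ▸ sp_mul_zero (by
      rintro _ ⟨v, rfl⟩
      simp only [← map_star, ← map_mul, star_mul, star_star, mul_assoc, hb v v.2, mul_zero, map_zero])
    rw [map_mul, ← a4, mul_assoc (ρ V), mul_assoc, this, mul_zero]
  · have : ρ b * (ρ V * star (ρ V)) = 0 := a3 ▸ mul_sp (by
      rintro _ ⟨v, rfl⟩
      simp only [← map_mul, hb v v.2, map_zero])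
    rw [map_mul, ← a4, ← mul_assoc, this, zero_mul]

theorem Proj.sub' {e p : A} (he : Proj e) (hp : Proj p) (h : e * p = p) : Proj (e - p) := by
  have h' : p * e = p := by simpa [he.1, hp.1] using congrArg star h
  exact ⟨by simp [he.1, hp.1], by simp [mul_sub, sub_mul, he.2, hp.2, h, h']⟩

/-- a partial isometry between two projections -/
theorem pi_of (hK : Kit ρ) {a p q : A} (h0 : a ≠ 0) (hp : p * a = a) (hq : a * q = a) :
    ∃ v, v ≠ 0 ∧ v * star v * v = v ∧ p * v = v ∧ v * q = v := by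
  obtain ⟨v, h, k, -, h1, -, h2, h3, h4⟩ := hK.polar a
  refine ⟨v, fun hv => h0 (by rw [← h1, hv, zero_mul]), h2, ?_, ?_⟩
  · have := h4 (1 - p) (by rw [sub_mul, hp, one_mul, sub_self])
    rw [sub_mul, one_mul, sub_eq_zero] at this
    exact this.symm
  · have := h3 (1 - q) (by rw [mul_sub, hq, mul_one, sub_self])
    rw [mul_sub, mul_one, sub_eq_zero] at this
    exact this.symm

theorem mul_left_of {p x : A} (h : (1 - p) * x = 0) : p * x = x := by
  rw [sub_mul, one_mul, sub_eq_zero] at h; exact h.symm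

theorem mul_right_of {p x : A} (h : x * (1 - p) = 0) : x * p = x := by
  rw [mul_sub, mul_one, sub_eq_zero] at h; exact h.symm

/-- if all subprojections are central in the corner, the corner is abelian -/
theorem abel_of (hK : Kit ρ) {r : A} (hr : Proj r)
    (h : ∀ q, Proj q → r * q = q → ∀ x, q * x * (r - q) = 0) : Abel r := by
  have c1 : ∀ x ∈ cor r, r * x = x := fun x hx => by
    rw [← show r * x * r = x from hx, ← mul_assoc, ← mul_assoc, hr.2]
  have c2 : ∀ x ∈ cor r, x * r = x := fun x hx => by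
    rw [← show r * x * r = x from hx, mul_assoc, hr.2]
  have h1 : ∀ q, Proj q → r * q = q → ∀ x ∈ cor r, q * x = x * q := by
    intro q hq hrq x hx
    have a1 := h q hq hrq x
    have a2 := congrArg star (h q hq hrq (star x))
    simp only [star_mul, star_sub, star_star, hq.1, hr.1, star_zero] at a2
    rw [mul_sub, mul_assoc, c2 x hx, sub_eq_zero] at a1
    rw [sub_mul, ← mul_assoc, c1 x hx, sub_eq_zero] at a2
    rw [a2, ← mul_assoc, ← a1]
  have h2 : ∀ k, k * r = k → ∀ x ∈ cor r, star k * k * x = x * (star k * k) := by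
    intro k hk x hx
    rw [← sub_eq_zero, ← norm_le_zero_iff]
    refine le_of_forall_pos_le_add fun ε hε => ?_
    obtain ⟨n, e, e1, e2, e3⟩ := hK.layer k (ε / (2 * ‖x‖ + 1)) (by positivity)
    set S := ((ε / (2 * ‖x‖ + 1) : ℝ) : ℂ) • ∑ i, e i with hS
    have hSx : S * x = x * S := by
      rw [hS, smul_mul_assoc, mul_smul_comm, Finset.sum_mul, Finset.mul_sum]
      congr 1
      refine Finset.sum_congr rfl fun i _ => h1 _ (e1 i) ?_ x hx
      have := mul_right_of (e2 i (1 - r) (by rw [mul_sub, hk, mul_one, sub_self]))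
      simpa [hr.1, (e1 i).1] using congrArg star this
    have e4 : star k * k * x - x * (star k * k) = (star k * k - S) * x - x * (star k * k - S) := by
      rw [sub_mul, mul_sub, hSx]; abel
    rw [e4]
    have b1 := norm_mul_le' e3 (le_refl ‖x‖)
    have b2 := norm_mul_le' (le_refl ‖x‖) e3
    have b3 := norm_sub_le ((star k * k - S) * x) (x * (star k * k - S))
    have b4 : ε / (2 * ‖x‖ + 1) * (2 * ‖x‖ + 1) = ε := by field_simp
    have b5 : 0 ≤ ε / (2 * ‖x‖ + 1) := by positivity
    nlinarith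
  have h3 : ∀ y ∈ cor r, ∀ x ∈ cor r, (y + star y) * x = x * (y + star y) := by
    intro y hy x hx
    have a1 := h2 (r + y) (by rw [add_mul, hr.2, c2 y hy]) x hx
    have a2 := h2 y (c2 y hy) x hx
    have a3 : star y * r = star y := by simpa [hr.1] using congrArg star (c1 y hy)
    have a4 : star (r + y) * (r + y) = r + (y + star y) + star y * y := by
      rw [star_add, hr.1, add_mul, mul_add, mul_add, hr.2, c1 y hy, a3]; abel
    rw [a4, add_mul, add_mul, mul_add, mul_add, a2, c1 x hx, c2 x hx] at a1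
    exact add_left_cancel (add_right_cancel a1)
  refine ⟨hr, fun x hx y hy => ?_⟩
  have a1 := h3 y hy x hx
  have a2 := h3 (Complex.I • y) (by
    change r * (Complex.I • y) * r = _
    rw [mul_smul_comm, smul_mul_assoc, show r * y * r = y from hy]) x hx
  have a3 : y = (1 / 2 : ℂ) • (y + star y) +
      (-Complex.I / 2) • (Complex.I • y + star (Complex.I • y)) := by
    rw [star_smul, Complex.star_def, Complex.conj_I]
    match_scalars <;> ring_nf <;> simp <;> ring
  rw [a3, add_mul, mul_add, smul_mul_assoc, smul_mul_assoc, mul_smul_comm, mul_smul_comm, a1, a2]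

end Kt
open Kt

variable {A : Type u} [CStarAlgebra A] {H : Type u} [NormedAddCommGroup H]
  [InnerProductSpace ℂ H] [CompleteSpace H] (ρ : A →⋆ₐ[ℂ] (H →L[ℂ] H))

theorem cmp (hV : VN ρ) (hK : Kit ρ) : CmpStmt A := by
  intro e f he hf
  obtain ⟨F, hF1, hF2, hF3⟩ := exists_maxfam (fun v : A => v * star v * v = v ∧ f * v = v ∧ v * e = v)
    (fun v w => star v * w = 0 ∧ v * star w = 0) fun a b h =>
      ⟨by simpa using congrArg star h.1, by simpa using congrArg star h.2⟩
  obtain ⟨V, a0, -, a1, a2, a3, a4⟩ := psum hV F (fun v hv => (hF1 v hv).1) hF2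
  have b1 : f * V = V := mul_left_of (a4 _ fun v hv => by
    rw [sub_mul, (hF1 v hv).2.1, one_mul, sub_self])
  have b2 : V * e = V := mul_right_of (a3 _ fun v hv => by
    rw [mul_sub, (hF1 v hv).2.2, mul_one, sub_self])
  have b3 : e * star V = star V := by simpa [he.1] using congrArg star b2
  have he0 : Proj (e - star V * V) := Proj.sub' he (pi_proj a0) (by rw [← mul_assoc, b3])
  have hf0 : Proj (f - V * star V) := Proj.sub' hf (pi_proj' a0) (by rw [← mul_assoc, b1])
  have key : ∀ x, (f - V * star V) * x * (e - star V * V) = 0 := by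
    intro x
    by_contra hx
    obtain ⟨v, v0, v1, v2, v3⟩ := pi_of hK hx (p := f - V * star V) (q := e - star V * V)
      (by rw [← mul_assoc, ← mul_assoc, hf0.2]) (by rw [mul_assoc, he0.2])
    have o : ∀ w ∈ F, star v * w = 0 ∧ v * star w = 0 := by
      intro w hw
      constructor
      · rw [← v2, star_mul, hf0.1, mul_assoc, sub_mul, (hF1 w hw).2.1, a1 w hw, sub_self, mul_zero]
      · have : w * (e - star V * V) = 0 := by rw [mul_sub, (hF1 w hw).2.2, a2 w hw, sub_self]
        rw [← v3, mul_assoc, ← he0.1, ← star_mul, this, star_zero, mul_zero]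
    have := hF3 v ⟨v1, by
      rw [← v2, ← mul_assoc, mul_sub, hf.2, ← mul_assoc, b1], by
      rw [← v3, mul_assoc, sub_mul, he.2, mul_assoc, b2]⟩ o
    exact v0 ((CStarRing.star_mul_self_eq_zero_iff v).1 (o v this).1)
  obtain ⟨z, hz, z1, z2⟩ := hK.supp {e - star V * V}
  have z1' := z1 _ rfl
  have z2' := z2 (f - V * star V) (by rintro _ rfl x; exact key x)
  refine ⟨1 - z, V * (1 - z), star (V * z), ⟨hz.1.compl, fun y => by
    rw [sub_mul, mul_sub, hz.2, one_mul, mul_one]⟩, ?_, by rw [← mul_assoc, b1], ?_, ?_⟩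
  · have c1 : (1 - z) * (e - star V * V) = 0 := by rw [sub_mul, z1', one_mul, sub_self]
    rw [mul_sub, sub_eq_zero] at c1
    have c2 : ∀ y, (1 - z) * y = y * (1 - z) := fun y => by
      rw [sub_mul, mul_sub, hz.2, one_mul, mul_one]
    rw [c1, star_mul, hz.1.compl.1, mul_assoc, ← mul_assoc (star V), ← c2, ← mul_assoc,
      hz.1.compl.2]
  · rw [sub_mul, sub_eq_zero] at z2'
    rw [star_star, star_mul, hz.1.1, sub_sub_cancel, hz.2 f, z2', mul_assoc V z, ← mul_assoc z,
      hz.1.2, hz.2, mul_assoc]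
  · rw [star_mul, hz.1.1, hz.2, ← mul_assoc, b3]

theorem halv (hV : VN ρ) (hK : Kit ρ) : HalvStmt A := by
  intro c hc hab r hr hcr
  obtain ⟨F, hF1, hF2, hF3⟩ := exists_maxfam
    (fun v : A => v * star v * v = v ∧ r * v = v ∧ v * r = v ∧ v * v = 0)
    (fun v w => (star v * w = 0 ∧ v * star w = 0) ∧ v * w = 0 ∧ w * v = 0) fun a b h =>
      ⟨⟨by simpa using congrArg star h.1.1, by simpa using congrArg star h.1.2⟩, h.2.2, h.2.1⟩
  obtain ⟨V, a0, -, a1, a2, a3, a4⟩ := psum hV F (fun v hv => (hF1 v hv).1)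
    (hF2.mono' fun _ _ h => h.1)
  have o0 : ∀ v ∈ F, ∀ w ∈ F, v * w = 0 := fun v hv w hw => by
    by_cases h : v = w
    · subst h; exact (hF1 v hv).2.2.2
    · exact (hF2 hv hw h).2.1
  have o1 : ∀ w ∈ F, V * w = 0 := fun w hw => a3 _ fun v hv => o0 v hv w hw
  have o2 : ∀ w ∈ F, w * V = 0 := fun w hw => a4 _ fun v hv => o0 w hw v hv
  have o3 : V * V = 0 := a4 _ o1
  have b1 : r * V = V := mul_left_of (a4 _ fun v hv => by
    rw [sub_mul, (hF1 v hv).2.1, one_mul, sub_self])
  have b2 : V * r = V := mul_right_of (a3 _ fun v hv => by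
    rw [mul_sub, (hF1 v hv).2.2.1, mul_one, sub_self])
  have b3 : r * star V = star V := by simpa [hr.1] using congrArg star b2
  refine ⟨V, ?_, o3⟩
  have hr1 : Proj (r - star V * V) := Proj.sub' hr (pi_proj a0) (by rw [← mul_assoc, b3])
  have hr0 : Proj (r - star V * V - V * star V) := Proj.sub' hr1 (pi_proj' a0) (by
    rw [sub_mul, ← mul_assoc, b1, mul_assoc, ← mul_assoc V, o3]; simp)
  set r0 := r - star V * V - V * star V with hr0d
  have c1 : r * r0 = r0 := by
    rw [hr0d, mul_sub, mul_sub, hr.2, ← mul_assoc, ← mul_assoc, b3, b1]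
  have c2 : r0 * r = r0 := by simpa [hr.1, hr0.1] using congrArg star c1
  have : r0 = 0 := by
    refine hab r0 (abel_of hK hr0 fun q hq hrq x => ?_) (by rw [← c1, ← mul_assoc, hcr])
    by_contra hx
    have hq' := Proj.sub' hr0 hq hrq
    have hqr : q * r0 = q := by simpa [hq.1, hr0.1] using congrArg star hrq
    obtain ⟨v, v0, v1, v2, v3⟩ := pi_of hK hx (p := q) (q := r0 - q)
      (by rw [← mul_assoc, ← mul_assoc, hq.2]) (by rw [mul_assoc, hq'.2])
    have d1 : r0 * v = v := by rw [← v2, ← mul_assoc, hrq]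
    have d2 : v * r0 = v := by rw [← v3, mul_assoc, sub_mul, hr0.2, hqr]
    have o : ∀ w ∈ F, (star v * w = 0 ∧ v * star w = 0) ∧ v * w = 0 ∧ w * v = 0 := by
      intro w hw
      have g1 : r0 * w = 0 := by
        rw [hr0d, sub_mul, sub_mul, (hF1 w hw).2.1, a1 w hw, mul_assoc, o1 w hw]; simp
      have g2 : w * r0 = 0 := by
        rw [hr0d, mul_sub, mul_sub, (hF1 w hw).2.2.1, a2 w hw, ← mul_assoc, o2 w hw]; simp
      refine ⟨⟨?_, ?_⟩, ?_, ?_⟩
      · rw [← d1, star_mul, hr0.1, mul_assoc, g1, mul_zero]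
      · rw [← d2, mul_assoc, ← hr0.1, ← star_mul, g2, star_zero, mul_zero]
      · rw [← d2, mul_assoc, g1, mul_zero]
      · rw [← d1, ← mul_assoc, g2, zero_mul]
    have := hF3 v ⟨v1, by rw [← d1, ← mul_assoc, c1], by rw [← d2, mul_assoc, c2], by
      calc v * v = v * (r0 - q) * (q * v) := by rw [v2, v3]
        _ = 0 := by rw [mul_assoc, ← mul_assoc (r0 - q), sub_mul, hrq, hq.2]; simp⟩ o
    exact v0 ((CStarRing.star_mul_self_eq_zero_iff v).1 (o v this).1.1)
  rw [hr0d, sub_sub, sub_eq_zero] at this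
  exact this.symm

end Crest.Agent.KR
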