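import Crest.Agent.KR.Defs
import Crest.Agent.KS.Cut
import Crest.Agent.KS.ExtA
import Crest.Agent.KS.Dix1
import Crest.Agent.KS.Dix2
/-! Kadison–Ringrose (S0161): reduction of the averaging property to II₁ factors. -/
set_option autoImplicit false
namespace Crest.Agent.KR
open scoped InnerProductSpace ComplexConjugate BigOperators
open Filter Topology Crest.Agent.GP Crest.Agent.KS

universe u

namespace CutP
variable {A : Type*} [CStarAlgebra A]

theorem exists_cut (T : Tr A) {z : A} (hz : Proj z) (hc : ∀ y, z * y = y * z)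
    (ht : 0 < (T.τ z).re) : ∃ T' : Tr A, (∀ a, T'.τ a = (((T.τ z).re⁻¹ : ℝ) : ℂ) * T.τ (z * a)) ∧
      ∀ a, T'.n a = (√(T.τ z).re)⁻¹ * T.n (z * a) := by
  have e : ∀ a, z * (star a * a) = star (z * a) * (z * a) := fun a => by
    rw [star_mul, hz.1, mul_assoc (star a), ← mul_assoc z z, hz.2, ← mul_assoc, ← mul_assoc, hc]
  have hsa : (((T.τ z).re : ℝ) : ℂ) = T.τ z := T.τ_sa hz.1
  let T' : Tr A :=
    { τ := ((((T.τ z).re⁻¹ : ℝ)) : ℂ) • (T.τ ∘ₗ LinearMap.mulLeft ℂ z)
      one := by
        simp only [LinearMap.smul_apply, LinearMap.comp_apply, LinearMap.mulLeft_apply, mul_one,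
          smul_eq_mul]
        conv_lhs => rw [← hsa]
        rw [Complex.ofReal_re, ← Complex.ofReal_mul, inv_mul_cancel₀ ht.ne', Complex.ofReal_one]
      comm := fun a b => by
        simp only [LinearMap.smul_apply, LinearMap.comp_apply, LinearMap.mulLeft_apply]
        rw [← mul_assoc, T.comm, ← mul_assoc, ← hc, mul_assoc]
      map_star := fun a => by
        simp only [LinearMap.smul_apply, LinearMap.comp_apply, LinearMap.mulLeft_apply, smul_eq_mul,
          map_mul, Complex.conj_ofReal]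
        rw [← T.map_star, star_mul, hz.1, hc]
      pos := fun a => by
        simp only [LinearMap.smul_apply, LinearMap.comp_apply, LinearMap.mulLeft_apply, smul_eq_mul,
          Complex.re_ofReal_mul]
        rw [e]
        exact mul_nonneg (inv_nonneg.mpr ht.le) (T.pos _) }
  refine ⟨T', fun a => rfl, fun a => ?_⟩
  rw [← sq_eq_sq₀ (T'.n_nonneg _) (mul_nonneg (by positivity) (T.n_nonneg _)), mul_pow, T'.n_sq,
    T.n_sq, inv_pow, Real.sq_sqrt ht.le, ← e]
  simp only [T', LinearMap.smul_apply, LinearMap.comp_apply, LinearMap.mulLeft_apply, smul_eq_mul,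
    Complex.re_ofReal_mul]

theorem exists_lim {I : Type*} (𝔘 : Ultrafilter I) (T : I → Tr A) :
    ∃ T' : Tr A, (∀ a, Tendsto (fun i => (T i).τ a) 𝔘 (𝓝 (T'.τ a))) ∧
      ∀ a, Tendsto (fun i => (T i).n a) 𝔘 (𝓝 (T'.n a)) := by
  have : ∀ a : A, ∃ l, Tendsto (fun i => (T i).τ a) 𝔘 (𝓝 l) := fun a => by
    obtain ⟨l, -, hl⟩ := (isCompact_closedBall (0 : ℂ) ‖a‖).ultrafilter_le_nhds
      (𝔘.map fun i => (T i).τ a) (by
        rw [le_principal_iff, Ultrafilter.coe_map, mem_map]
        exact univ_mem' fun i => by simpa using (T i).τ_le a)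
    exact ⟨l, hl⟩
  choose l hl using this
  let T' : Tr A := ⟨⟨⟨l, fun f g => tendsto_nhds_unique (hl _) (by simpa using (hl f).add (hl g))⟩,
    fun c f => tendsto_nhds_unique (hl _) (by simpa using (hl f).const_mul c)⟩,
    tendsto_nhds_unique (hl _) (by simp [Tr.one]),
    fun f g => tendsto_nhds_unique (hl _) (by simpa [Tr.comm _ f] using hl (g * f)),
    fun f => tendsto_nhds_unique (hl _) (by
      simpa [Tr.map_star, Function.comp_def] using (Complex.continuous_conj.tendsto _).comp (hl f)),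
    fun f => ge_of_tendsto' ((Complex.continuous_re.tendsto _).comp (hl _)) fun i => (T i).pos _⟩
  refine ⟨T', hl, fun a => ?_⟩
  have h := (((Complex.continuous_re.tendsto _).comp (hl (star a * a)))).sqrt
  have e : ∀ S : Tr A, S.n a = √(S.τ (star a * a)).re := fun S => by
    rw [← S.n_sq, Real.sqrt_sq (S.n_nonneg _)]
  simp only [e]
  exact h

/-- central projections with sum one are orthogonal -/
theorem orth {T : Tr A} (hT : T.W) {J : Type} [Fintype J] (z : J → A) (h1 : ∀ j, Proj (z j))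
    (h2 : ∀ j y, z j * y = y * z j) (h3 : ∑ j, z j = 1) {j k : J} (hjk : j ≠ k) :
    z j * z k = 0 := by
  classical
  have pm : ∀ k, Proj (z j * z k) := fun k =>
    ⟨by rw [star_mul, (h1 j).1, (h1 k).1, h2], by
      rw [mul_assoc, ← mul_assoc (z k), ← h2 j, mul_assoc, (h1 k).2, ← mul_assoc, (h1 j).2]⟩
  have hs : ∑ k ∈ Finset.univ.erase j, z j * z k = 0 := by
    have := Finset.add_sum_erase Finset.univ (fun k => z j * z k) (Finset.mem_univ j)
    rw [← Finset.mul_sum Finset.univ, h3, (h1 j).2, mul_one] at this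
    exact add_eq_left.mp this
  have h4 : ∑ k ∈ Finset.univ.erase j, T.n (z j * z k) ^ 2 = 0 := by
    have := congrArg (fun x => (T.τ x).re) hs
    simp only [map_sum, Complex.re_sum, map_zero, Complex.zero_re] at this
    rw [← this]
    exact Finset.sum_congr rfl fun k _ => by rw [Tr.τ_proj (pm k), Complex.ofReal_re]
  have := (Finset.sum_eq_zero_iff_of_nonneg fun k _ => sq_nonneg _).1 h4 k
    (Finset.mem_erase.2 ⟨hjk.symm, Finset.mem_univ _⟩)
  exact hT.faith _ (pow_eq_zero_iff two_ne_zero |>.1 this)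

theorem infD [Nontrivial A] (h : ∀ n : ℕ, ∃ (ι : Type) (_ : Fintype ι) (_ : DecidableEq ι)
    (_ : MU A ι), n ≤ Fintype.card ι) : InfD (A := A) ⊤ := by
  intro s hs
  obtain ⟨ι, _, _, E, hn⟩ := h (s.card + 1)
  have hne : ∀ i, E.e i i ≠ 0 := fun i hi => by
    have : ∀ j, E.e j j = 0 := fun j => by
      have h1 := E.mul_e j i i i
      have h2 := E.mul_e j i i j
      rw [if_pos rfl] at h1 h2
      rw [← h2, ← h1, hi, mul_zero, zero_mul]
    have h3 := E.sum_e
    simp [this] at h3
  have hli : LinearIndependent ℂ fun i => E.e i i := by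
    rw [Fintype.linearIndependent_iff]
    intro g hg i
    have := congrArg (fun x => E.e i i * x) hg
    simp only [Finset.mul_sum, mul_smul_comm, E.mul_e, mul_zero, smul_ite, smul_zero,
      Finset.sum_ite_eq, Finset.mem_univ, if_true] at this
    exact (smul_eq_zero.1 this).resolve_right (hne i)
  have htop : Submodule.span ℂ (s : Set A) = ⊤ := eq_top_iff.2 fun x _ => hs x trivial
  have : Module.Finite ℂ A := ⟨⟨s, htop⟩⟩
  have h1 := hli.fintype_card_le_finrank
  have h2 := finrank_span_finset_le_card (R := ℂ) s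
  rw [Set.finrank, htop, finrank_top] at h2
  omega

theorem lip (T : Tr A) (θ : A →L[ℂ] A) {K : ℝ} (hK : ∀ x, T.n (θ x) ≤ K * T.n x) (c w : A) :
    ∃ C, 0 ≤ C ∧ ∀ u ∈ unitary A, ∀ v ∈ unitary A,
      ‖T.τ (θ (c * star u) * u * w) - T.τ (θ (c * star v) * v * w)‖ ≤ C * T.n (u - v) := by
  refine ⟨(|K| + ‖θ‖) * ‖c‖ * ‖w‖, by positivity, fun u hu v hv => ?_⟩
  have e : T.τ (θ (c * star u) * u * w) - T.τ (θ (c * star v) * v * w) =
      T.τ (θ (c * star (u - v)) * (u * w)) + T.τ (θ (c * star v) * (u - v) * w) := by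
    rw [← map_sub, ← map_add, star_sub, mul_sub c, map_sub θ]
    congr 1; noncomm_ring
  have hn := T.n_nonneg (u - v)
  have h1 : ‖T.τ (θ (c * star (u - v)) * (u * w))‖ ≤ |K| * (‖c‖ * T.n (u - v)) * ‖w‖ := by
    refine (T.cs _ _).trans (mul_le_mul ((hK _).trans ?_) ((T.n_l1 (norm_unit hu) _).trans
      (T.n_le _)) (T.n_nonneg _) (by positivity))
    refine mul_le_mul (le_abs_self _) ?_ (T.n_nonneg _) (abs_nonneg _)
    simpa only [Tr.n_star] using T.n_mul_le c (star (u - v))
  have h2 : ‖T.τ (θ (c * star v) * (u - v) * w)‖ ≤ ‖θ‖ * ‖c‖ * T.n (u - v) * ‖w‖ := by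
    refine (T.cs _ _).trans (mul_le_mul (T.n_l ?_ le_rfl) (T.n_le _) (T.n_nonneg _)
      (by positivity))
    refine (θ.le_opNorm _).trans (mul_le_mul_of_nonneg_left ?_ (norm_nonneg _))
    simpa using norm_mul_le' (le_refl ‖c‖) (norm_unit (Unitary.star_mem hv))
  rw [e]
  refine (norm_add_le _ _).trans ((add_le_add h1 h2).trans_eq (by ring))

end CutP
open CutP

theorem cut : FacStmt.{u} → UapStmt.{u} → ExtStmt.{u} → CutStmt.{u} := by
  intro fac uap ext A _ T hT hMU J _ θ y b hθ hb δ hδ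
  classical
  by_contra! hlt
  choose K hK using fun j => (hθ j).1
  have hm : ∀ j x c, (∀ t, c * t = t * c) → θ j (x * c) = θ j x * c := fun j x c hc =>
    (hθ j).2 () x c hc
  let D : J → A → A := fun j u => (θ j (b j * star u) * u - θ j (star u) * u * b j) * y j
  have hD : ∀ z, Proj z → (∀ t, z * t = t * z) → ∀ j u, z * D j u = D j (z * u) := by
    intro z hz hc j u
    have e : ∀ c, z * (θ j (c * star u) * u) = θ j (c * star (z * u)) * (z * u) := fun c => by
      rw [star_mul, hz.1, ← mul_assoc c, hm j _ z hc, mul_assoc _ z, ← mul_assoc z z, hz.2,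
        ← mul_assoc, hc, mul_assoc]
    have e1 := e 1
    simp only [one_mul] at e1
    simp only [D]
    rw [← mul_assoc, mul_sub, e, ← mul_assoc z, e1]
  let CP := {w : A // Proj w ∧ ∀ y, w * y = y * w}
  have good : ∀ F : Finset CP, ∃ z : A, Proj z ∧ (∀ y, z * y = y * z) ∧
      (∀ w ∈ F, z * w.1 = z ∨ z * w.1 = 0) ∧ 0 < (T.τ z).re ∧
      ∀ u ∈ unitary A, δ / 2 * (T.τ z).re < (∑ j, T.τ (z * D j u)).re := fun F => by
    obtain ⟨I, _, z, h1, h2, h3, h4⟩ := KS.Cut.exists_part F
    have : ∃ i, ∀ u ∈ unitary A, δ / 2 * (T.τ (z i)).re < (∑ j, T.τ (z i * D j u)).re := by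
      by_contra! h
      choose v hv hv' using h
      have ho : ∀ i k, z i * z k = if i = k then z i else 0 := fun i k => by
        split_ifs with hik
        · rw [← hik, (h1 i).2]
        · exact orth hT z h1 h2 h3 hik
      have hzu : ∀ i, z i * ∑ k, z k * v k = z i * v i := fun i => by
        simp only [Finset.mul_sum, ← mul_assoc, ho, ite_mul, zero_mul, Finset.sum_ite_eq,
          Finset.mem_univ, if_true]
      have hu : ∑ k, z k * v k ∈ unitary A := by
        constructor
        · rw [star_sum, Finset.sum_mul, ← h3]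
          refine Finset.sum_congr rfl fun i _ => ?_
          rw [star_mul, (h1 i).1, mul_assoc, hzu, ← mul_assoc, ← h2, mul_assoc, (hv i).1, mul_one]
        · have : ∀ i, z i * v i * star (∑ k, z k * v k) = z i := fun i => by
            have h5 := congrArg star (hzu i)
            rw [star_mul, star_mul, (h1 i).1] at h5
            rw [h2, mul_assoc, h2, h5, ← mul_assoc, (hv i).2, one_mul]
          rw [Finset.sum_mul, ← h3]
          exact Finset.sum_congr rfl fun i _ => this i
      have h5 := hlt _ hu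
      have h6 : ∑ j, T.τ (D j (∑ k, z k * v k)) = ∑ i, ∑ j, T.τ (z i * D j (v i)) := by
        rw [Finset.sum_comm]
        refine Finset.sum_congr rfl fun j _ => ?_
        rw [← map_sum]
        congr 1
        rw [← one_mul (D j _), ← h3, Finset.sum_mul]
        refine Finset.sum_congr rfl fun i _ => ?_
        rw [hD _ (h1 i) (h2 i), hD _ (h1 i) (h2 i), hzu]
      have h7 := Finset.sum_le_sum fun i (_ : i ∈ Finset.univ) => hv' i
      rw [← Finset.mul_sum, ← Complex.re_sum, ← Complex.re_sum, ← map_sum, h3, T.one,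
        Complex.one_re, ← h6] at h7
      simp only [D] at h7
      linarith
    obtain ⟨i, hi⟩ := this
    refine ⟨z i, h1 i, h2 i, fun w hw => h4 w hw i, ?_, hi⟩
    rw [Tr.τ_proj (h1 i), Complex.ofReal_re]
    refine pow_pos (lt_of_le_of_ne (T.n_nonneg _) fun h => ?_) 2
    have := hi 1 (one_mem _)
    rw [hT.faith _ h.symm] at this
    simp at this
  choose z hz hzc hzF hzt hzk using good
  choose S hSτ hS using fun F => exists_cut T (hz F) (hzc F) (hzt F)
  let 𝔘 : Ultrafilter (Finset CP) := Ultrafilter.of atTop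
  have h𝔘 : (𝔘 : Filter (Finset CP)) ≤ atTop := Ultrafilter.of_le _
  obtain ⟨T', hτ', hT'⟩ := exists_lim 𝔘 S
  have hK' : ∀ j x, T'.n (θ j x) ≤ K j * T'.n x := fun j x =>
    le_of_tendsto_of_tendsto' (hT' _) ((hT' x).const_mul _) fun F => by
      simp only [hS]
      rw [hzc, ← hm j x _ (hzc F), mul_left_comm, hzc]
      exact mul_le_mul_of_nonneg_left (hK j _) (by positivity)
  have hlow : ∀ u ∈ unitary A, δ / 2 ≤ (∑ j, T'.τ (D j u)).re := fun u hu =>
    ge_of_tendsto' ((Complex.continuous_re.tendsto _).comp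
      (tendsto_finset_sum Finset.univ fun j _ => hτ' (D j u))) fun F => by
      have h1 := mul_le_mul_of_nonneg_left (hzk F u hu).le (inv_pos.mpr (hzt F)).le
      rw [mul_left_comm, inv_mul_cancel₀ (hzt F).ne', mul_one] at h1
      simp only [Function.comp_apply, hSτ]
      rwa [← Finset.mul_sum, Complex.re_ofReal_mul]
  obtain ⟨M, _, T'', π, hT'', hπ, dense⟩ := extA T'
  have hn : ∀ a, T''.n (π a) = T'.n a := fun a => by
    rw [← sq_eq_sq₀ (T''.n_nonneg _) (T'.n_nonneg _), T''.n_sq, T'.n_sq, ← map_star, ← map_mul, hπ]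
  have zero : ∀ w, (∀ᶠ F in (𝔘 : Filter (Finset CP)), z F * w = 0) → T'.n w = 0 := fun w h =>
    tendsto_nhds_unique (hT' w) (tendsto_const_nhds.congr' (h.mono fun F hF => by
      simp [hS, hF]))
  have hirr := KS.Cut.irr dix1 dix2 T hT T' T'' hT'' π hπ dense (fun w hw hwc => by
    have h1 : ∀ᶠ F in (𝔘 : Filter (Finset CP)), z F * w = z F ∨ z F * w = 0 :=
      h𝔘 ((eventually_ge_atTop ({⟨w, hw, hwc⟩} : Finset CP)).mono fun F hF =>
        hzF F ⟨w, hw, hwc⟩ (hF (Finset.mem_singleton_self _)))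
    rcases Ultrafilter.eventually_or.mp h1 with h | h
    · exact Or.inr (zero _ (h.mono fun F hF => by rw [mul_sub, hF, mul_one, sub_self]))
    · exact Or.inl (zero _ h)) (fun b ε hb => by
    refine le_of_tendsto' ((hT' b).pow 2) fun F => ?_
    rw [hS, mul_pow, inv_pow, Real.sq_sqrt (hzt F).le, inv_mul_le_iff₀ (hzt F), mul_comm]
    exact hb _ (hz F) (hzc F))
  have := T''.nontrivial
  have hG : T''.Gd ⊤ ⊤ := ⟨hT'', fun _ _ => trivial, fun _ _ => trivial, le_rfl, hirr,
    infD fun n => by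
      obtain ⟨ι, _, _, E, hE⟩ := hMU.2 n
      exact ⟨ι, inferInstance, inferInstance, E.map π, hE⟩⟩
  choose θ' hθ' hL' using fun j => ext T'' π hT'' dense (θ j) (K j) fun a => by
    rw [hn, hn]; exact hK' j a
  obtain ⟨E⟩ := hMU.1
  obtain ⟨v, hv, hv'⟩ := fac T'' hG ⟨E.map π⟩ θ' (fun j => π (y j)) (fun j => π (b j))
    (fun j => ⟨K j, hL' j⟩) (fun j => Unitary.map_mem π (hb j)) (δ / 4) (by positivity)
  choose C1 hC1 h1 using fun j => lip T'' (θ' j) (hL' j) (π (b j)) (π (y j))
  choose C2 hC2 h2 using fun j => lip T'' (θ' j) (hL' j) 1 (π (b j) * π (y j))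
  have hC : 0 ≤ ∑ j, (C1 j + C2 j) := Finset.sum_nonneg fun j _ => add_nonneg (hC1 j) (hC2 j)
  obtain ⟨a, ha, ha'⟩ := uap T'' π dense v hv (δ / 4 / (∑ j, (C1 j + C2 j) + 1)) (by positivity)
  have hπa := Unitary.map_mem π ha
  have h3 : ‖∑ j, T'.τ (D j a) - ∑ j, T''.τ ((θ' j (π (b j) * star v) * v -
      θ' j (star v) * v * π (b j)) * π (y j))‖ ≤ (∑ j, (C1 j + C2 j)) * T''.n (π a - v) := by
    rw [← Finset.sum_sub_distrib, Finset.sum_mul]
    refine (norm_sum_le _ _).trans (Finset.sum_le_sum fun j _ => ?_)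
    have e1 := h1 j _ hπa _ hv
    have e2 := h2 j _ hπa _ hv
    simp only [one_mul] at e2
    have e3 : T'.τ (D j a) = T''.τ (θ' j (π (b j) * star (π a)) * π a * π (y j)) -
        T''.τ (θ' j (star (π a)) * π a * (π (b j) * π (y j))) := by
      rw [← hπ, ← map_sub, ← map_star, ← map_mul, hθ', hθ']
      simp only [D, map_mul, map_sub, sub_mul, mul_assoc]
    rw [e3, sub_mul, map_sub, mul_assoc (θ' j (star v) * v), add_mul]
    refine le_trans (le_of_eq ?_) ((norm_sub_le _ _).trans (add_le_add e1 e2))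
    congr 1; ring
  have h4 := (Complex.re_le_norm _).trans h3
  rw [Complex.sub_re] at h4
  have h5 := hlow a ha
  rw [lt_div_iff₀ (by positivity)] at ha'
  nlinarith [T''.n_nonneg (π a - v)]

end Crest.Agent.KR
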