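import Crest.Agent.KR.Dec1
/-! Kadison–Ringrose cohomology: decoupling of repeated random signs. -/
set_option autoImplicit false
set_option linter.deprecated false
set_option linter.unusedSectionVars false
namespace Crest.Agent.KR
open scoped InnerProductSpace ComplexConjugate BigOperators
open Filter Topology Crest.Agent.GP Crest.Agent.KS Crest.OpAlg Function

universe u

namespace Dec
variable {A : Type u} [CStarAlgebra A] {ι L : Type} [Fintype ι] [DecidableEq ι] [DecidableEq L]

theorem sum_upd {M : Type*} [AddCommMonoid M] (f : (ι → Bool) → M) (a : ι) :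
    ∑ ε, (f (update ε a true) + f (update ε a false)) = ∑ ε, f ε + ∑ ε, f ε := by
  let e : (ι → Bool) ≃ (ι → Bool) := Function.Involutive.toPerm (fun ε => update ε a (!ε a))
    fun ε => by simp
  have h : ∑ ε, f ε + ∑ ε, f ε = ∑ ε, (f ε + f (e ε)) := by rw [Finset.sum_add_distrib, e.sum_comp f]
  rw [h]
  refine Finset.sum_congr rfl fun ε _ => ?_
  have := update_eq_self a ε
  change _ = f ε + f (update ε a (!ε a))
  cases h : ε a <;> rw [h] at this <;> rw [this]
  · exact add_comm _ _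
  · rfl

theorem sum_upd_le (f : (ι → Bool) → ℝ) (hf : ∀ ε, 0 ≤ f ε) (a : ι) (σ : Bool) :
    ∑ ε, f (update ε a σ) ≤ 2 * ∑ ε, f ε := by
  rw [two_mul, ← sum_upd f a]
  refine Finset.sum_le_sum fun ε _ => ?_
  cases σ
  · exact le_add_of_nonneg_left (hf _)
  · exact le_add_of_nonneg_right (hf _)

variable {p : ι → A} {ty : ι → L} (hp : Parts p ty)

theorem wW_nil (ε : ι → Bool) : wW p ty [] ε = 1 := rfl
theorem wW_cons (m : L) (t : List L) (ε : ι → Bool) :
    wW p ty (m :: t) ε = sS p ty m ε * wW p ty t ε := rfl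
theorem wW_snoc (m : L) (t : List L) (ε : ι → Bool) :
    wW p ty (t ++ [m]) ε = wW p ty t ε * sS p ty m ε := by simp [wW]

theorem sS_eq (l : L) (ε : ι → Bool) :
    sS p ty l ε = ∑ a : {a // ty a = l}, Core.sg (ε a) • p a := by
  rw [sS, Finset.sum_subtype (p := fun a => ty a = l) _ (by simp)]

theorem sum_fil {M : Type*} [AddCommMonoid M] (l : L) (f : ι → M) :
    ∑ a with ty a = l, f a = ∑ a : {a // ty a = l}, f a :=
  Finset.sum_subtype (p := fun a => ty a = l) _ (by simp) _

theorem pin_sub (θ : A →L[ℂ] A) (l : L) : pin p ty θ l = ∑ a : {a // ty a = l}, act (p a) θ :=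
  sum_fil l _

include hp
theorem sum_sub (l : L) : ∑ a : {a // ty a = l}, p a = 1 := by
  rw [← hp.sum l, Finset.sum_subtype (p := fun a => ty a = l) _ (by simp)]

theorem orth_sub (l : L) (a b : {a // ty a = l}) (h : a ≠ b) : p a * p b = 0 :=
  hp.orth _ _ (a.2.trans b.2.symm) fun e => h (Subtype.ext e)

theorem sS_star (l : L) (ε : ι → Bool) : star (sS p ty l ε) = sS p ty l ε := by
  simp only [sS, star_sum, star_smul, (hp.proj _).1, RCLike.star_def, Core.sg_conj]

theorem sS_unit (l : L) (ε : ι → Bool) : sS p ty l ε ∈ unitary A := by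
  have : sS p ty l ε * sS p ty l ε = 1 := by
    rw [sS_eq, Finset.sum_mul_sum, ← sum_sub hp l]
    refine Finset.sum_congr rfl fun a _ => ?_
    rw [Finset.sum_eq_single a (fun b _ hb => by
      rw [smul_mul_smul_comm, orth_sub hp l a b hb.symm, smul_zero]) (by simp),
      smul_mul_smul_comm, Core.sg_sq, one_smul, (hp.proj _).2]
  rw [Unitary.mem_iff, sS_star hp]
  exact ⟨this, this⟩

theorem wW_unit (t : List L) (ε : ι → Bool) : wW p ty t ε ∈ unitary A := by
  induction t with
  | nil => exact one_mem _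
  | cons m t ih => exact mul_mem (sS_unit hp m ε) ih

omit hp in
theorem sS_diff (m : L) (ε : ι → Bool) (b : ι) :
    sS p ty m (update ε b true) = sS p ty m (update ε b false) +
      if ty b = m then (2 : ℂ) • p b else 0 := by
  rw [← sub_eq_iff_eq_add', sS, sS, ← Finset.sum_sub_distrib, Finset.sum_filter,
    Finset.sum_eq_single b (fun a _ h => by simp [update_of_ne h]) (by simp)]
  simp [Core.sg, two_smul]

omit hp
variable (p ty)
noncomputable def Δ (t : List L) (b : ι) (ε : ι → Bool) : A :=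
  (2 : ℂ)⁻¹ • (wW p ty t (update ε b true) - wW p ty t (update ε b false))
noncomputable def M (t : List L) (b : ι) (ε : ι → Bool) : A :=
  (2 : ℂ)⁻¹ • (wW p ty t (update ε b true) + wW p ty t (update ε b false))
variable {p ty}

theorem wW_dec (t : List L) (b : ι) (ε : ι → Bool) :
    Core.sg (ε b) • wW p ty t ε = Core.sg (ε b) • M p ty t b ε + Δ p ty t b ε := by
  have := update_eq_self b ε
  unfold M Δ
  cases h : ε b <;> rw [h] at this <;> rw [this] <;>
    simp only [Core.sg, if_true, Bool.false_eq_true, if_false] <;> module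

theorem Δ_cons (m : L) (t : List L) (b : ι) (ε : ι → Bool) :
    Δ p ty (m :: t) b ε = sS p ty m (update ε b true) * Δ p ty t b ε +
      if ty b = m then p b * wW p ty t (update ε b false) else 0 := by
  have := sS_diff (p := p) (ty := ty) m ε b
  rw [← sub_eq_iff_eq_add] at this
  simp only [Δ, wW_cons, ← this]
  split_ifs
  · simp only [sub_mul, mul_sub, smul_mul_assoc, mul_smul_comm]; module
  · simp [mul_sub]

include hp in
/-- telescoping -/
theorem tele (N : A → ℝ) (N0 : N 0 = 0) (Na : ∀ X Y, N (X + Y) ≤ 8 * (N X + N Y))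
    (Nu : ∀ u ∈ unitary A, ∀ X, N (u * X) = N X) {X : Type} [Fintype X] (e : X → ι → Bool)
    (a b : X → ι) (l : L) (hb : ∀ i, ty (b i) = l) {c : ℝ} (hc : 0 ≤ c) (t : List L)
    (h : ∀ β, (l :: β) <:+ t →
      ∑ i, N (p (b i) * wW p ty β (update (e i) (b i) false) * p (a i)) ≤ c) :
    ∑ i, N (Δ p ty t (b i) (e i) * p (a i)) ≤ 16 ^ t.length * c := by
  induction t with
  | nil => simpa [Δ, wW_nil, N0] using hc
  | cons m t ih =>
    have h1 := ih fun β hβ => h β (hβ.trans (List.suffix_cons m t))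
    have h2 : ∑ i, N ((if ty (b i) = m then p (b i) * wW p ty t (update (e i) (b i) false) else 0) *
        p (a i)) ≤ c := by
      by_cases hm : l = m
      · subst hm; simpa only [hb, if_true] using h t List.suffix_rfl
      · simpa [hb, hm, N0] using hc
    have h3 : c ≤ 16 ^ t.length * c := le_mul_of_one_le_left hc (one_le_pow₀ (by norm_num))
    calc _ ≤ ∑ i, 8 * (N (Δ p ty t (b i) (e i) * p (a i)) + N ((if ty (b i) = m then
          p (b i) * wW p ty t (update (e i) (b i) false) else 0) * p (a i))) :=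
          Finset.sum_le_sum fun i _ => by
            rw [Δ_cons, add_mul, mul_assoc, ← Nu _ (sS_unit hp m (update (e i) (b i) true))
              (Δ p ty t (b i) (e i) * p (a i))]
            exact Na _ _
      _ ≤ _ := by
          rw [← Finset.mul_sum, Finset.sum_add_distrib, List.length_cons, pow_succ]
          linarith

variable {T : Tr A} {θ : A →L[ℂ] A} {x y : A}

theorem B_smul (c d : ℂ) (X Y : A) : B T θ x y (c • X) (d • Y) = conj c * d * B T θ x y X Y := by
  simp [B]; ring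
theorem B_sub_left (X X' Y : A) : B T θ x y (X - X') Y = B T θ x y X Y - B T θ x y X' Y := by
  simp [B, mul_sub, sub_mul]
theorem B_sub_right (X Y Y' : A) : B T θ x y X (Y - Y') = B T θ x y X Y - B T θ x y X Y' := by
  simp [B, mul_sub, sub_mul]

/-- the signs disappear from the off-diagonal terms -/
theorem offdiag (t : List L) {a b : ι} (hab : a ≠ b) :
    ∑ ε : ι → Bool, B T θ x y (Core.sg (ε a) • M p ty t a ε * p a) (Core.sg (ε b) • M p ty t b ε * p b) =
      4⁻¹ * ∑ σ : Bool × Bool, ∑ ε : ι → Bool, B T θ x y (Δ p ty t b (update ε a σ.1) * p a)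
        (Δ p ty t a (update ε b σ.2) * p b) := by
  have k : ∀ f : (ι → Bool) → ℂ, ∑ ε, f ε = 4⁻¹ * ∑ ε, (f (update (update ε a true) b true) +
      f (update (update ε a true) b false) + (f (update (update ε a false) b true) +
      f (update (update ε a false) b false))) := fun f => by
    rw [sum_upd (fun ε => f (update ε b true) + f (update ε b false)) a, sum_upd]; ring
  rw [Finset.sum_comm, k]
  congr 1
  refine Finset.sum_congr rfl fun ε _ => ?_
  simp only [M, Δ, update_self, update_of_ne hab, update_comm hab.symm, update_idem,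
    Fintype.sum_prod_type, Fintype.sum_bool, Core.sg, smul_mul_assoc, smul_smul, B_smul, add_mul,
    sub_mul, B_add_left, B_add_right, B_sub_left, B_sub_right]
  simp
  ring

theorem upd2 {κ : Type} [Fintype κ] (f : κ → κ → (ι → Bool) → ℝ) (hf : ∀ a b ε, 0 ≤ f a b ε)
    (c d : κ → κ → ι) (σ σ' : Bool) :
    ∑ i : (ι → Bool) × κ × κ, f i.2.1 i.2.2 (update (update i.1 (c i.2.1 i.2.2) σ) (d i.2.1 i.2.2) σ') ≤
      4 * ∑ ε, ∑ a, ∑ b, f a b ε := by
  have e : ∑ ε, ∑ a, ∑ b, f a b ε = ∑ i : κ × κ, ∑ ε, f i.1 i.2 ε := by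
    rw [Finset.sum_comm (s := (Finset.univ : Finset (κ × κ)))]
    simp only [Fintype.sum_prod_type]
  rw [e, Fintype.sum_prod_type_right, Finset.mul_sum]
  refine Finset.sum_le_sum fun i _ => ?_
  have h1 := sum_upd_le (fun ε => f i.1 i.2 (update ε (d i.1 i.2) σ')) (fun _ => hf _ _ _) (c i.1 i.2) σ
  have h2 := sum_upd_le (f i.1 i.2) (hf _ _) (d i.1 i.2) σ'
  linarith

theorem F_nonneg (X : A) : 0 ≤ F T X := sq_nonneg _

include hp in
theorem norm_M (t : List L) (b : ι) (ε : ι → Bool) : ‖M p ty t b ε‖ ≤ 1 := by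
  rw [M, norm_smul]
  have := (norm_add_le _ _).trans (add_le_add (norm_unit (wW_unit hp t (update ε b true)))
    (norm_unit (wW_unit hp t (update ε b false))))
  simp only [norm_inv, Complex.norm_ofNat]
  linarith

theorem norm_sg (σ : Bool) : ‖Core.sg σ‖ = 1 := by cases σ <;> simp [Core.sg]

/-- the constant -/
noncomputable def Cst (K Q : ℝ) : ℝ := 2 * K * (2 * Q + 1) + (K ^ 2 + 4 * K * Q + 4 * (1 + K) * Q) / 2

theorem ar1 {K Q n γ S Z : ℝ} (K0 : 0 ≤ K) (hγ : 0 < γ) (e1 : S ≤ Q * (4 * (n * γ ^ 4)))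
    (e2 : Z ≤ Q * (4 * n)) : (K ^ 2 * (n * γ) + K * S / γ ^ 3 + (1 + K) * γ * Z) / 2 ≤
      n * γ * ((K ^ 2 + 4 * K * Q + 4 * (1 + K) * Q) / 2) := by
  have e2' : K * S / γ ^ 3 ≤ n * γ * (4 * K * Q) := by
    rw [div_le_iff₀ (pow_pos hγ 3)]
    linarith [mul_le_mul_of_nonneg_left e1 K0]
  have e3 := mul_le_mul_of_nonneg_left e2 (show 0 ≤ (1 + K) * γ by positivity)
  linarith

theorem ar2 {K Q n γ S : ℝ} (K0 : 0 ≤ K) (hγ : 0 < γ) (e : S ≤ Q * (2 * n * γ ^ 2)) :
    2 * K * (S / γ + n * γ) + n * γ * ((K ^ 2 + 4 * K * Q + 4 * (1 + K) * Q) / 2) ≤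
      n * (Cst K Q * γ) := by
  have e1 : S / γ ≤ Q * (2 * n * γ) := by
    rw [div_le_iff₀ hγ]; linarith
  have := mul_le_mul_of_nonneg_left e1 K0
  unfold Cst
  linarith

theorem ar3 {n γ S : ℝ} (hγ : 0 < γ) (e : S ≤ n * γ ^ 4) :
    S / γ ^ 2 + γ ^ 2 * (n * 1) ≤ 2 * n * γ ^ 2 := by
  have : S / γ ^ 2 ≤ n * γ ^ 2 := by
    rw [div_le_iff₀ (pow_pos hγ 2)]; linarith
  linarith

set_option maxHeartbeats 400000 in
include hp in
theorem step {K γ : ℝ} (h : L2 T K θ) (hr : Row T K θ) (hx : ‖x‖ ≤ 1) (hy : ‖y‖ ≤ 1) (hγ : 0 < γ)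
    (t : List L) (l : L) (hi : Inc T p ty (γ ^ 4) (t ++ [l])) :
    ‖𝔼 ε : ι → Bool, (T.τ (act (wW p ty (t ++ [l]) ε) θ x * y) -
      T.τ (pin p ty (act (wW p ty t ε) θ) l x * y))‖ ≤ Cst K (16 ^ t.length) * γ := by
  have K0 := K_nonneg h
  set Q : ℝ := 16 ^ t.length
  set n : ℝ := Nat.cast (Fintype.card (ι → Bool)) with hn
  have n0 : 0 < n := by positivity
  let κ := {a // ty a = l}
  have h1 : ∀ a : κ, Proj (p a) := fun a => hp.proj a
  have h2 := orth_sub hp l
  have h3 := sum_sub hp l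
  have pp : ∀ (X : A) (a : κ), X * p a * p a = X * p a := fun X a => by rw [mul_assoc, (h1 a).2]
  have inc : ∀ β, (l :: β) <:+ t →
      ∑ ε, ∑ a : κ, ∑ b : κ, F T (p a * wW p ty β ε * p b) ≤ n * γ ^ 4 := fun β ⟨s, hs⟩ => by
    have := hi l β ⟨s, [], by simp [← hs]⟩
    rw [Fintype.expect_eq_sum_div_card, div_le_iff₀' n0] at this
    simpa only [sum_fil, F] using this
  -- the three telescoping bounds
  have b1 : ∑ ε : ι → Bool, ∑ a : κ, T.n (Δ p ty t a ε * p a) ^ 2 ≤ Q * (2 * n * γ ^ 2) := by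
    rw [← Fintype.sum_prod_type']
    refine tele hp (fun X => T.n X ^ 2) (by simp) (G_add T) (fun u hu X => by rw [T.n_unit_l hu.1])
      (fun i : (ι → Bool) × κ => i.1) (fun i => i.2) (fun i => i.2) l (fun i => i.2.2)
      (by positivity) t fun β hβ => ?_
    rw [Fintype.sum_prod_type_right]
    calc _ ≤ ∑ a : κ, 2 * ∑ ε, T.n (p a * wW p ty β ε * p a) ^ 2 := Finset.sum_le_sum fun a _ =>
          sum_upd_le (fun ε => T.n (p a * wW p ty β ε * p a) ^ 2) (fun _ => sq_nonneg _) a false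
      _ ≤ ∑ ε : ι → Bool, ∑ a : κ, ((∑ b : κ, F T (p a * wW p ty β ε * p b)) / γ ^ 2 +
            γ ^ 2 * T.n (p a) ^ 2) := by
          simp only [Finset.mul_sum]
          rw [Finset.sum_comm]
          refine Finset.sum_le_sum fun ε _ => Finset.sum_le_sum fun a _ => ?_
          set X := p a * wW p ty β ε * p a with hX
          have e1 : T.n X ^ 2 ≤ T.n (star X * X) * T.n (p a) := by
            rw [T.n_sq]
            refine (Complex.re_le_norm _).trans (le_of_eq_of_le ?_ (T.cs _ _))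
            rw [mul_assoc (star X), hX, pp]
          have e2 := amgm (T.n (star X * X)) (T.n (p a)) (pow_pos hγ 2)
          have e3 : F T X / γ ^ 2 ≤ (∑ b : κ, F T (p a * wW p ty β ε * p b)) / γ ^ 2 :=
            div_le_div_of_nonneg_right (Finset.single_le_sum
              (f := fun b : κ => F T (p a * wW p ty β ε * p b)) (fun _ _ => F_nonneg _)
              (Finset.mem_univ a)) (sq_nonneg γ)
          unfold F at e3
          unfold F
          linarith
      _ ≤ _ := by
          simp only [Finset.sum_add_distrib, ← Finset.sum_div, ← Finset.mul_sum, sum_P T h1 h3,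
            Finset.sum_const, Finset.card_univ, nsmul_eq_mul]
          exact ar3 hγ (inc β hβ)
  have b2 : ∀ σ, ∑ ε : ι → Bool, ∑ a : κ, ∑ b : κ, T.n (Δ p ty t a (update ε b σ) * p b) ^ 2 ≤
      Q * (4 * n) := fun σ => by
    simp only [← Fintype.sum_prod_type']
    refine tele hp (fun X => T.n X ^ 2) (by simp) (G_add T) (fun u hu X => by rw [T.n_unit_l hu.1])
      (fun i : (ι → Bool) × κ × κ => update i.1 i.2.2 σ) (fun i => i.2.2) (fun i => i.2.1) l
      (fun i => i.2.1.2) (by positivity) t fun β _ => ?_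
    refine (upd2 (fun (a b : κ) ε => T.n (p a * wW p ty β ε * p b) ^ 2) (fun _ _ _ => sq_nonneg _)
      (fun _ b => b) (fun a _ => a) σ false).trans (le_of_eq ?_)
    simp only [pyth T h1 h3, pyth' T h1 h3]
    have : ∀ ε, T.n (wW p ty β ε) = 1 := fun ε => by
      simpa using T.n_unit_l (wW_unit hp β ε).1 1
    simp [this, n]
  have b3 : ∀ σ, ∑ ε : ι → Bool, ∑ a : κ, ∑ b : κ, F T (Δ p ty t b (update ε a σ) * p a) ≤
      Q * (4 * (n * γ ^ 4)) := fun σ => by
    simp only [← Fintype.sum_prod_type']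
    refine tele hp (F T) (by simp [F]) (F_add T) (fun u hu X => F_unit T hu X)
      (fun i : (ι → Bool) × κ × κ => update i.1 i.2.1 σ) (fun i => i.2.1) (fun i => i.2.2) l
      (fun i => i.2.2.2) (by positivity) t fun β hβ => ?_
    refine (upd2 (fun (a b : κ) ε => F T (p b * wW p ty β ε * p a)) (fun _ _ _ => F_nonneg _)
      (fun a _ => a) (fun _ b => b) σ false).trans (mul_le_mul_of_nonneg_left ?_ (by norm_num))
    refine le_of_eq_of_le (Finset.sum_congr rfl fun ε _ => Finset.sum_comm) (inc β hβ)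
  -- the off-diagonal sum
  let o : (ι → Bool) → κ → A := fun ε a => Core.sg (ε a) • M p ty t a ε * p a
  let O : (ι → Bool) → ℂ := fun ε => ∑ a, ∑ b, if a = b then 0 else B T θ x y (o ε a) (o ε b)
  let D : Bool → (ι → Bool) → κ → κ → A := fun σ ε a b =>
    if a = b then 0 else Δ p ty t b (update ε a σ) * p a
  have c1 : ∑ ε, O ε = 4⁻¹ * ∑ σ : Bool × Bool, ∑ ε : ι → Bool, ∑ a : κ, ∑ b : κ,
      B T θ x y (D σ.1 ε a b) (Δ p ty t a (update ε b σ.2) * p b) := by
    have k : ∀ a b : κ, ∑ ε, (if a = b then 0 else B T θ x y (o ε a) (o ε b)) =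
        4⁻¹ * ∑ σ : Bool × Bool, ∑ ε : ι → Bool,
          B T θ x y (D σ.1 ε a b) (Δ p ty t a (update ε b σ.2) * p b) := fun a b => by
      by_cases hab : a = b
      · simp [D, hab, B]
      · simp only [D, if_neg hab]
        exact offdiag t fun e => hab (Subtype.ext e)
    simp only [O, ← Fintype.sum_prod_type']
    rw [Fintype.sum_prod_type_right]
    simp only [k, ← Finset.mul_sum, ← Fintype.sum_prod_type']
    congr 1
    exact Fintype.sum_equiv ⟨fun i => (i.2.1, i.2.2, i.1), fun i => (i.2.2, i.1, i.2.1),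
      fun _ => rfl, fun _ => rfl⟩ _ _ fun _ => rfl
  have c2 : ∀ σ : Bool × Bool, ‖∑ ε : ι → Bool, ∑ a : κ, ∑ b : κ,
      B T θ x y (D σ.1 ε a b) (Δ p ty t a (update ε b σ.2) * p b)‖ ≤
        n * γ * ((K ^ 2 + 4 * K * Q + 4 * (1 + K) * Q) / 2) := fun σ => by
    refine (norm_sum_le_of_le _ fun ε _ => (norm_sum_le_of_le _ fun a _ => norm_sum_le _ _).trans
      (cross h1 h3 h hx hy hγ hr (D σ.1 ε) (fun a b => Δ p ty t a (update ε b σ.2) * p b)
        (fun a b => by simp only [D]; split_ifs <;> simp [pp]) fun a b => pp _ _)).trans ?_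
    simp only [← Finset.sum_div, Finset.sum_add_distrib, ← Finset.mul_sum, Finset.sum_const,
      Finset.card_univ, nsmul_eq_mul]
    have e1 : ∑ ε, ∑ a, ∑ b, F T (D σ.1 ε a b) ≤ Q * (4 * (n * γ ^ 4)) :=
      le_trans (Finset.sum_le_sum fun ε _ => Finset.sum_le_sum fun a _ =>
        Finset.sum_le_sum fun b _ => by
          by_cases hab : a = b
          · simp only [D, if_pos hab]
            exact le_of_eq_of_le (by simp [F]) (F_nonneg _)
          · simp only [D, if_neg hab, le_refl]) (b3 σ.1)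
    exact ar1 K0 hγ e1 (b2 σ.2)
  have c3 : ‖∑ ε, O ε‖ ≤ n * γ * ((K ^ 2 + 4 * K * Q + 4 * (1 + K) * Q) / 2) := by
    rw [c1, norm_mul]
    have := norm_sum_le_of_le Finset.univ fun σ _ => c2 σ
    simp only [Finset.sum_const, Finset.card_univ, Fintype.card_prod, Fintype.card_bool,
      nsmul_eq_mul] at this
    simp only [norm_inv, Complex.norm_ofNat]
    push_cast at this
    linarith
  have c4 : ∀ ε, ‖T.τ (act (wW p ty (t ++ [l]) ε) θ x * y) -
      T.τ (pin p ty (act (wW p ty t ε) θ) l x * y) - O ε‖ ≤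
        2 * K * ((∑ a : κ, T.n (Δ p ty t a ε * p a) ^ 2) / γ + γ) := fun ε => by
    have e : ∀ a : κ, o ε a + Δ p ty t a ε * p a = Core.sg (ε a) • (wW p ty t ε * p a) := fun a => by
      rw [← add_mul, ← wW_dec, smul_mul_assoc]
    have le1 : ∀ X : κ → A, (∀ a, ‖X a‖ ≤ 1) → ∑ a, T.n (X a * p a) ^ 2 ≤ 1 := fun X hX =>
      (Finset.sum_le_sum fun a _ => pow_le_pow_left₀ (T.n_nonneg _) (T.n_l1 (hX a) _) 2).trans_eq
        (sum_P T h1 h3)
    have := coh h1 h2 h3 h hx hy hγ (o ε) (fun a => Δ p ty t a ε * p a) (fun a => pp _ _)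
      (fun a => pp _ _) (le1 _ fun a => by rw [norm_smul, norm_sg, one_mul]; exact norm_M hp ..)
      (by
        simp only [e, ← smul_mul_assoc]
        exact le1 _ fun a => by rw [norm_smul, norm_sg, one_mul]; exact norm_unit (wW_unit hp ..))
    simp only [e, B_smul, Core.sg_conj, Core.sg_sq, one_mul] at this
    convert this using 4
    · simp only [wW_snoc, sS_eq, Finset.mul_sum, mul_smul_comm]; rfl
    · rw [pin_sub]
      simp only [ContinuousLinearMap.sum_apply, Finset.sum_mul, map_sum, act_apply, B, star_mul,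
        mul_assoc]
      rfl
  rw [Fintype.expect_eq_sum_div_card, norm_div, Complex.norm_natCast, div_le_iff₀' n0,
    ← sub_add_cancel (∑ ε, _) (∑ ε, O ε), ← Finset.sum_sub_distrib]
  refine (norm_add_le _ _).trans ((add_le_add (norm_sum_le_of_le _ fun ε _ => c4 ε) c3).trans ?_)
  simp only [← Finset.mul_sum, Finset.sum_add_distrib, ← Finset.sum_div, Finset.sum_const,
    Finset.card_univ, nsmul_eq_mul]
  exact ar2 K0 hγ b1

include hp in
theorem pin_eq (θ : A →L[ℂ] A) (l : L) (x y : A) : T.τ (pin p ty θ l x * y) =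
    𝔼 ε : ι → Bool, T.τ (θ (x * sS p ty l ε) * (sS p ty l ε * y)) := by
  have k : ∀ a b : {a // ty a = l}, 𝔼 ε : ι → Bool, Core.sg (ε a) * Core.sg (ε b) =
      if a = b then 1 else 0 := fun a b => by
    split_ifs with hab
    · simp [hab, Core.sg_sq]
    · have := sum_upd (fun ε : ι → Bool => Core.sg (ε a) * Core.sg (ε b)) a
      have hab' : (b : ι) ≠ a := fun e => hab (Subtype.ext e.symm)
      simp only [update_self, update_of_ne hab', Core.sg, if_true, Bool.false_eq_true, if_false,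
        one_mul, neg_mul, add_neg_cancel, Finset.sum_const_zero] at this
      rw [Fintype.expect_eq_sum_div_card, div_eq_zero_iff]
      exact Or.inl (add_self_eq_zero.1 this.symm)
  have e : ∀ ε : ι → Bool, T.τ (θ (x * sS p ty l ε) * (sS p ty l ε * y)) =
      ∑ a : {a // ty a = l}, ∑ b : {a // ty a = l}, Core.sg (ε a) * Core.sg (ε b) *
        T.τ (θ (x * p a) * (p b * y)) := fun ε => by
    simp only [sS_eq, Finset.mul_sum, Finset.sum_mul, map_sum, mul_smul_comm, smul_mul_assoc,
      map_smul, smul_eq_mul]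
    rw [Finset.sum_comm]
    exact Finset.sum_congr rfl fun _ _ => Finset.sum_congr rfl fun _ _ => by ring
  simp only [e, Finset.expect_sum_comm, ← Finset.expect_mul, k, ite_mul, one_mul, zero_mul,
    Finset.sum_ite_eq, Finset.mem_univ, if_true]
  rw [pin_sub]
  simp only [ContinuousLinearMap.sum_apply, Finset.sum_mul, map_sum, act_apply, mul_assoc,
    (hp.proj _).1]

include hp in
theorem main {K γ : ℝ} (h : L2 T K θ) (hr : Row T K θ) (hγ : 0 < γ) (r : ℕ) (t : List L) :
    t.length ≤ r → Inc T p ty (γ ^ 4) t → ∀ x y : A, ‖x‖ ≤ 1 → ‖y‖ ≤ 1 →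
    ‖𝔼 ε : ι → Bool, T.τ (act (wW p ty t ε) θ x * y) - T.τ (t.foldl (pin p ty) θ x * y)‖ ≤
      t.length * (Cst K (16 ^ r) * γ) := by
  have K0 := K_nonneg h
  induction t using List.reverseRecOn with
  | nil => intro _ _ x y _ _; simp [wW_nil]
  | append_singleton t l ih =>
    intro ht hi x y hx hy
    rw [List.length_append, List.length_singleton] at ht ⊢
    have h1 := step hp h hr hx hy hγ t l hi
    have h2 : Cst K (16 ^ t.length) * γ ≤ Cst K (16 ^ r) * γ := by
      have : (16 : ℝ) ^ t.length ≤ 16 ^ r := pow_le_pow_right₀ (by norm_num) (by omega)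
      refine mul_le_mul_of_nonneg_right ?_ hγ.le
      unfold Cst
      nlinarith [mul_le_mul_of_nonneg_left this K0]
    have h3 := fun ε : ι → Bool => ih (by omega)
      (fun l' β hβ => hi l' β (hβ.trans (List.prefix_append t [l]).isInfix))
      (x * sS p ty l ε) (sS p ty l ε * y) (norm_mul_one' hx (norm_unit (sS_unit hp l ε)))
      (norm_mul_one' (norm_unit (sS_unit hp l ε)) hy)
    have h4 : ‖𝔼 ε : ι → Bool, T.τ (pin p ty (act (wW p ty t ε) θ) l x * y) -
        T.τ (pin p ty (t.foldl (pin p ty) θ) l x * y)‖ ≤ t.length * (Cst K (16 ^ r) * γ) := by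
      simp only [pin_eq hp]
      rw [Finset.expect_comm, ← Finset.expect_sub_distrib]
      exact (RCLike.norm_expect_le (K := ℂ)).trans
        (Finset.expect_le Finset.univ_nonempty fun ε _ => h3 ε)
    rw [Finset.expect_sub_distrib] at h1
    rw [List.foldl_append, List.foldl_cons, List.foldl_nil]
    refine (norm_sub_le_norm_sub_add_norm_sub _ _ _).trans ((add_le_add h1 h4).trans ?_)
    push_cast
    linarith

end Dec

theorem dec : DecStmt.{u} := by
  intro r K η hη
  have C0 : 0 ≤ Dec.Cst |K| (16 ^ r) := by unfold Dec.Cst; positivity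
  set γ := η / ((r + 1) * (Dec.Cst |K| (16 ^ r) + 1)) with hγ
  have γ0 : 0 < γ := by positivity
  refine ⟨γ ^ 4, by positivity, fun T ι L _ _ _ p ty hp θ h hr t ht hi x y => ?_⟩
  have k : ∀ x y, ‖x‖ ≤ 1 → ‖y‖ ≤ 1 → ‖𝔼 ε : ι → Bool, T.τ (act (wW p ty t ε) θ x * y) -
      T.τ (t.foldl (pin p ty) θ x * y)‖ ≤ η := fun x y hx hy => by
    refine (Dec.main hp h hr γ0 r t ht hi x y hx hy).trans ?_
    rw [← abs_of_nonneg (Dec.K_nonneg h)]
    have h1 : (t.length : ℝ) ≤ r + 1 := by exact_mod_cast ht.trans r.le_succ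
    calc _ ≤ (r + 1) * ((Dec.Cst |K| (16 ^ r) + 1) * γ) := by gcongr; linarith
      _ = η := by rw [hγ]; field_simp
  rcases eq_or_ne x 0 with rfl | hx
  · simp
  rcases eq_or_ne y 0 with rfl | hy
  · simp
  have x0 := norm_pos_iff.2 hx
  have y0 := norm_pos_iff.2 hy
  have := k ((‖x‖ : ℂ)⁻¹ • x) ((‖y‖ : ℂ)⁻¹ • y) (by simp [norm_smul, hx]) (by simp [norm_smul, hy])
  simp only [map_smul, smul_mul_assoc, mul_smul_comm, smul_eq_mul, ← Finset.mul_expect, ← mul_sub,
    norm_mul, norm_inv, Complex.norm_real, norm_norm] at this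
  rw [inv_mul_le_iff₀ (by assumption), inv_mul_le_iff₀ (by assumption)] at this
  linarith

end Crest.Agent.KR
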