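import Crest.Agent.KR.Hull
import Crest.Agent.KS.Part
/-! Kadison–Ringrose cohomology: the II₁ factor case. -/
set_option autoImplicit false
set_option linter.deprecated false
namespace Crest.Agent.KR
open scoped InnerProductSpace ComplexConjugate BigOperators
open Filter Topology Crest.Agent.GP Crest.Agent.KS Crest.OpAlg

universe u

namespace Fac
variable {A : Type u} [CStarAlgebra A]

theorem mem_of_rot {B : Subalgebra ℂ A} {e v : A} (hB : ∀ g ∈ unitary A, g * e * star g ∈ B)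
    (he : Proj e) (h1 : star v * v = 1 - e) (h2 : v * star v = e) (h3 : e * v = v)
    (h4 : v * e = 0) : v ∈ B ∧ star v ∈ B := by
  have h3' : star v * e = star v := by simpa [he.1] using congrArg star h3
  have h4' : e * star v = 0 := by simpa [he.1] using congrArg star h4
  have h5 : v * v = 0 := by rw [← h3, mul_assoc, ← mul_assoc v, h4, zero_mul, mul_zero]
  have h5' : star v * star v = 0 := by simpa using congrArg star h5
  have heB : e ∈ B := by simpa using hB 1 (one_mem _)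
  have hs : star ((3 / 5 : ℂ) • (1 : A) + (4 / 5 : ℂ) • (star v - v)) =
      (3 / 5 : ℂ) • (1 : A) + (4 / 5 : ℂ) • (v - star v) := by
    simp [map_ofNat]
  have hg := hB ((3 / 5 : ℂ) • (1 : A) + (4 / 5 : ℂ) • (star v - v)) ⟨by
    rw [hs]
    simp only [mul_add, add_mul, mul_sub, sub_mul, smul_mul_assoc, mul_smul_comm, one_mul, mul_one,
      h1, h2, h5, h5']
    module, by
    rw [hs]
    simp only [mul_add, add_mul, mul_sub, sub_mul, smul_mul_assoc, mul_smul_comm, one_mul, mul_one,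
      h1, h2, h5, h5']
    module⟩
  rw [hs] at hg
  have h6 : v + star v ∈ B := by
    have := B.smul_mem (sub_mem (sub_mem hg (B.smul_mem heB (9 / 25 : ℂ)))
      (B.smul_mem (sub_mem (one_mem _) heB) (16 / 25 : ℂ))) (25 / 12 : ℂ)
    convert this using 1
    simp only [mul_add, add_mul, mul_sub, sub_mul, smul_mul_assoc, mul_smul_comm, one_mul, mul_one,
      h1, h3, h3', h4, h4', h5', sub_zero]
    module
  have h7 : v ∈ B := by simpa [mul_add, h3, h4'] using mul_mem heB h6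
  exact ⟨h7, by simpa using sub_mem h6 h7⟩

theorem mem_all {T : Tr A} (hT : T.W) (E : MU A (Fin 2)) {B : Subalgebra ℂ A}
    (hB : ∀ g ∈ unitary A, g * E.e 0 0 * star g ∈ B) (a : A) : a ∈ B := by
  have he : Proj (E.e 0 0) := ⟨E.star_e 0 0, by rw [E.mul_e, if_pos rfl]⟩
  have h1 : E.e 1 1 = 1 - E.e 0 0 := by rw [← E.sum_e, Fin.sum_univ_two, add_sub_cancel_left]
  have key : ∀ c ∈ Part.Cen E, c ∈ unitary A → E.e 0 1 * c ∈ B ∧ star (E.e 0 1 * c) ∈ B := by
    intro c hc hu
    have hc' := (Part.mem_Cen E).1 hc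
    refine mem_of_rot hB he ?_ ?_ ?_ ?_
    · rw [star_mul, E.star_e, mul_assoc, ← mul_assoc (E.e 1 0), E.mul_e, if_pos rfl, hc',
        ← mul_assoc, hu.1, one_mul, h1]
    · rw [star_mul, E.star_e, mul_assoc, ← mul_assoc c, hu.2, one_mul, E.mul_e, if_pos rfl]
    · rw [← mul_assoc, E.mul_e, if_pos rfl]
    · rw [hc', mul_assoc, E.mul_e, if_neg (by decide), mul_zero]
  have h01 : E.e 0 1 ∈ B := by simpa using (key 1 (one_mem _) (one_mem _)).1
  have h10 : E.e 1 0 ∈ B := by simpa [E.star_e] using (key 1 (one_mem _) (one_mem _)).2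
  have hee : ∀ i j, E.e i j ∈ B := by
    have h00 : E.e 0 0 ∈ B := by simpa [E.mul_e] using mul_mem h01 h10
    have h11 : E.e 1 1 ∈ B := by simpa [E.mul_e] using mul_mem h10 h01
    intro i j
    fin_cases i <;> fin_cases j <;> assumption
  have hu : ∀ c ∈ Part.Cen E, c ∈ unitary A → c ∈ B := by
    intro c hc hu
    have hc' := (Part.mem_Cen E).1 hc
    have := add_mem (mul_mem (key c hc hu).1 h10) (mul_mem h10 (key c hc hu).1)
    rwa [mul_assoc, ← hc', ← mul_assoc, ← mul_assoc, E.mul_e, E.mul_e, if_pos rfl, if_pos rfl,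
      ← add_mul, h1, add_sub_cancel, one_mul] at this
  have hc : ∀ c ∈ Part.Cen E, c ∈ B := by
    intro c hc
    have : IsClosed (Part.Cen E : Set A) := (Tr.cl_centralizer hT _).isClosed
    obtain ⟨w, d, e, -⟩ := CStarAlgebra.exists_sum_four_unitary (⟨c, hc⟩ : Part.Cen E)
    have e' : c = ∑ i, d i • ((w i : Part.Cen E) : A) := by
      simpa using congrArg Subtype.val e
    rw [e']
    exact sum_mem fun i _ => B.smul_mem (hu _ (w i).1.2
      ⟨congrArg Subtype.val (w i).2.1, congrArg Subtype.val (w i).2.2⟩) _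
  obtain ⟨c, h2, rfl⟩ := Part.dec E a
  exact sum_mem fun i _ => sum_mem fun j _ => mul_mem (hee i j) (hc _ (h2 i j))

end Fac

theorem fac (pre : PreTStmt.{u}) (row : RowStmt.{u}) (key : KeyStmt.{u}) : FacStmt.{u} := by
  rintro A _ T hT ⟨E⟩ J _ θ y b hθ hb δ hδ
  classical
  obtain ⟨P, hP⟩ := pre T hT.hT
  choose K hK using hθ
  obtain ⟨θ₁, K', h1, h2⟩ := row T hT.hT P hP θ (∑ j, |K j|) fun j x =>
    (hK j x).trans (mul_le_mul_of_nonneg_right ((le_abs_self _).trans
      (Finset.single_le_sum (fun i _ => abs_nonneg (K i)) (Finset.mem_univ j))) (T.n_nonneg _))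
  obtain ⟨θ₂, h3, h4⟩ := P.fip (G := unitary A) (θ := θ₁) (C := unitary A × {ε : ℝ // 0 < ε})
    (fun c => {η | ∀ j x y, ‖T.τ ((η j (x * (c.1 * E.e 0 0 * star c.1.1)) -
      η j x * (c.1 * E.e 0 0 * star c.1.1)) * y)‖ ≤ c.2.1 * ‖x‖ * ‖y‖})
    (fun c 𝔘 η h1 h2 j x y => by
      refine le_of_tendsto (Tendsto.norm ?_) (h1.mono fun _ h => h j x y)
      simp only [sub_mul, map_sub, mul_assoc]
      exact (hP.conv' h2 _ _ _).sub (hP.conv' h2 _ _ _)) (fun F => by
      obtain ⟨ε, hε, hε'⟩ : ∃ ε > 0, ∀ c ∈ F, ε ≤ c.2.1 := by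
        rcases F.eq_empty_or_nonempty with rfl | hF
        · exact ⟨1, one_pos, by simp⟩
        · obtain ⟨c, -, hc⟩ := F.exists_min_image (fun c => c.2.1) hF
          exact ⟨_, c.2.2, hc⟩
      obtain ⟨η, hη, h⟩ := key T hT E θ₁ K' h2 (F.image fun c => c.1.1) (fun g hg => by
        obtain ⟨c, -, rfl⟩ := Finset.mem_image.1 hg
        exact c.1.2) ε hε
      exact ⟨η, P.hull_of_avg subset_rfl hη, fun c hc j x y =>
        (h j _ (Finset.mem_image_of_mem _ hc) x y).trans (by gcongr; exact hε' c hc)⟩)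
  have h5 : ∀ j a, a ∈ modAlg (θ₂ j) := fun j => Fac.mem_all hT.hT E fun g hg x => by
    refine sub_eq_zero.1 (P.sep _ fun φ hφ => ?_)
    obtain ⟨w, hw⟩ := (hP φ).1 hφ
    rw [hw]
    refine norm_le_zero_iff.1 (le_of_forall_pos_le_add fun ε hε => ?_)
    have hp : 0 < ‖x‖ * ‖w‖ + 1 := by positivity
    refine (h4 (⟨g, hg⟩, ⟨ε / (‖x‖ * ‖w‖ + 1), by positivity⟩) j x w).trans ?_
    rw [zero_add, mul_assoc, div_mul_eq_mul_div, div_le_iff₀ hp]
    nlinarith
  refine hP.avred (h1.trans h3) y b (one_mem _) ?_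
  have : ∀ j, θ₂ j (b j) = θ₂ j 1 * b j := fun j => by simpa using h5 j (b j) 1
  simpa [this] using hδ

end Crest.Agent.KR
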