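import Crest.Agent.KR.Defs
import Crest.Agent.Ulam.Pos
/-! Kadison–Ringrose cohomology (S0161): piece `Fb`. -/
set_option autoImplicit false
set_option linter.deprecated false
namespace Crest.Agent.KR
open scoped InnerProductSpace ComplexConjugate BigOperators
open Filter Topology Crest.Agent.GP Crest.Agent.KS Crest.OpAlg

universe u

namespace FbP

theorem exists_pou {η : ℝ} (hη : 0 < η) : ∃ (t : Finset ℂ) (h : ℂ → ℂ → ℝ), (∀ w ∈ t, ‖w‖ = 1) ∧
    (∀ w, ContinuousOn (h w) (Metric.sphere 0 1)) ∧ (∀ w z, 0 ≤ h w z) ∧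
    (∀ z, ‖z‖ = 1 → ∑ w ∈ t, h w z = 1) ∧ ∀ w z, h w z ≠ 0 → ‖w - z‖ ≤ η := by
  obtain ⟨t, ht, hf, hc⟩ := finite_cover_balls_of_compact (isCompact_sphere (0 : ℂ) 1) hη
  lift t to Finset ℂ using hf
  let b : ℂ → ℂ → ℝ := fun w z => max 0 (η - ‖w - z‖)
  have b0 : ∀ w z, 0 ≤ b w z := fun w z => le_max_left _ _
  have hs : ∀ z : ℂ, ‖z‖ = 1 → 0 < ∑ w ∈ t, b w z := fun z hz => by
    have := hc (show z ∈ Metric.sphere (0 : ℂ) 1 by simpa using hz)
    simp only [Set.mem_iUnion, Metric.mem_ball] at this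
    obtain ⟨w, hw, hwz⟩ := this
    refine Finset.sum_pos' (fun w _ => b0 w z) ⟨w, hw, lt_max_of_lt_right ?_⟩
    rw [dist_comm, dist_eq_norm] at hwz
    linarith
  refine ⟨t, fun w z => b w z / ∑ w ∈ t, b w z, fun w hw => by simpa using ht hw, fun w => ?_,
    fun w z => div_nonneg (b0 w z) (Finset.sum_nonneg fun w _ => b0 w z), fun z hz => ?_,
    fun w z h => ?_⟩
  · exact ContinuousOn.div (by fun_prop) (by fun_prop) fun z hz => (hs z (by simpa using hz)).ne'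
  · rw [← Finset.sum_div, div_self (hs z hz).ne']
  · by_contra h'
    apply h
    simp only [b]
    rw [max_eq_left (by linarith), zero_div]

theorem exists_part {A : Type*} [CStarAlgebra A] {Z : A} (hZ : Z ∈ unitary A) {η : ℝ}
    (hη : 0 < η) : ∃ (t : Finset ℂ) (s : ℂ → A), (∀ w ∈ t, ‖w‖ = 1) ∧
    ∑ w ∈ t, star (s w) * s w = 1 ∧
    ∀ k : ℕ, ‖∑ w ∈ t, w ^ k • (star (s w) * s w) - Z ^ k‖ ≤ k * η := by
  have hn : IsStarNormal Z := isStarNormal_of_mem_unitary hZ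
  obtain ⟨t, h, ht, hc, h0, h1, h2⟩ := exists_pou hη
  have hsp := spectrum.subset_circle_of_unitary (𝕜 := ℂ) hZ
  have c1 : ∀ w, ContinuousOn (fun z => ((√(h w z) : ℝ) : ℂ)) (spectrum ℂ Z) := fun w =>
    Complex.continuous_ofReal.comp_continuousOn ((hc w).mono hsp).sqrt
  have c2 : ∀ w, ContinuousOn (fun z => ((h w z : ℝ) : ℂ)) (spectrum ℂ Z) := fun w =>
    Complex.continuous_ofReal.comp_continuousOn ((hc w).mono hsp)
  have e : ∀ w, star (cfc (fun z => ((√(h w z) : ℝ) : ℂ)) Z) * cfc (fun z => ((√(h w z) : ℝ) : ℂ)) Z =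
      cfc (fun z => ((h w z : ℝ) : ℂ)) Z := fun w => by
    rw [← cfc_star, ← cfc_mul _ _ _ (c1 w).star (c1 w)]
    refine cfc_congr fun z _ => ?_
    simp only [RCLike.star_def, Complex.conj_ofReal]
    rw [← Complex.ofReal_mul, Real.mul_self_sqrt (h0 w z)]
  have key : ∀ k : ℕ,
      ‖∑ w ∈ t, w ^ k • cfc (fun z => ((h w z : ℝ) : ℂ)) Z - Z ^ k‖ ≤ k * η := by
    intro k
    have c3 : ∀ w : ℂ, ContinuousOn (fun z => w ^ k • ((h w z : ℝ) : ℂ)) (spectrum ℂ Z) :=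
      fun w => (c2 w).const_smul (w ^ k)
    have e1 : ∑ w ∈ t, w ^ k • cfc (fun z => ((h w z : ℝ) : ℂ)) Z =
        cfc (fun z => ∑ w ∈ t, w ^ k • ((h w z : ℝ) : ℂ)) Z := by
      rw [← Finset.sum_congr rfl fun w _ => cfc_smul (w ^ k) _ Z (c2 w),
        ← cfc_sum (fun w z => w ^ k • ((h w z : ℝ) : ℂ)) Z t fun w _ => c3 w]
      exact cfc_congr fun z _ => by simp
    rw [e1, ← cfc_pow_id (R := ℂ) Z k,
      ← cfc_sub _ _ _ (continuousOn_finset_sum _ fun w _ => c3 w) (by fun_prop)]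
    refine norm_cfc_le (by positivity) fun z hz => ?_
    have hz1 : ‖z‖ = 1 := by simpa using hsp hz
    have e2 : ∑ w ∈ t, w ^ k • ((h w z : ℝ) : ℂ) - z ^ k =
        ∑ w ∈ t, (w ^ k - z ^ k) * ((h w z : ℝ) : ℂ) := by
      simp only [sub_mul, Finset.sum_sub_distrib, ← Finset.mul_sum, smul_eq_mul]
      rw [← Complex.ofReal_sum, h1 z hz1]; simp
    rw [e2, ← mul_one (k * η), ← h1 z hz1, Finset.mul_sum]
    refine (norm_sum_le _ _).trans (Finset.sum_le_sum fun w hw => ?_)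
    rw [norm_mul, Complex.norm_real, Real.norm_of_nonneg (h0 w z)]
    by_cases h3 : h w z = 0
    · simp [h3]
    refine mul_le_mul_of_nonneg_right ?_ (h0 w z)
    exact (Crest.Agent.Ulam.Pos.norm_pow_sub (ht w hw).le hz1.le k).trans
      (mul_le_mul_of_nonneg_left (h2 w z h3) (by positivity))
  refine ⟨t, fun w => cfc (fun z => ((√(h w z) : ℝ) : ℂ)) Z, ht, ?_, fun k => ?_⟩
  · have := key 0
    simp only [pow_zero, one_smul, Nat.cast_zero, zero_mul, norm_le_zero_iff, sub_eq_zero] at this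
    simpa only [e] using this
  · simpa only [e] using key k

theorem norm_G {A : Type*} [CStarAlgebra A] {Z : A} (hZ : Z ∈ unitary A) (L : ℕ) (ν : ℕ → ℝ)
    {ε : ℝ} (h : ∀ t : ℝ, |∑ k ∈ Finset.range L, ν k * Real.sin ((k + 1) * t)| ≤ ε) {w : ℂ}
    (hw : ‖w‖ = 1) : ‖∑ k ∈ Finset.range L, (ν k : ℂ) •
      (w ^ (k + 1) • star Z ^ (k + 1) - conj w ^ (k + 1) • Z ^ (k + 1))‖ ≤ 2 * ε := by
  have hn : IsStarNormal Z := isStarNormal_of_mem_unitary hZ
  have ε0 : 0 ≤ ε := (abs_nonneg _).trans (h 0)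
  have e : ∑ k ∈ Finset.range L, (ν k : ℂ) •
      (w ^ (k + 1) • star Z ^ (k + 1) - conj w ^ (k + 1) • Z ^ (k + 1)) =
      cfc (∑ k ∈ Finset.range L, fun z : ℂ => (ν k : ℂ) •
        (w ^ (k + 1) • star (z ^ (k + 1)) - conj w ^ (k + 1) • z ^ (k + 1))) Z := by
    rw [cfc_sum _ Z _ fun k _ => by fun_prop]
    refine Finset.sum_congr rfl fun k _ => ?_
    rw [cfc_smul _ _ Z (by fun_prop), cfc_sub _ _ Z (by fun_prop) (by fun_prop),
      cfc_smul _ _ Z (by fun_prop), cfc_smul _ _ Z (by fun_prop), cfc_star,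
      cfc_pow_id (R := ℂ) Z (k + 1), star_pow]
  rw [e]
  refine norm_cfc_le (by positivity) fun z hz => ?_
  have hz1 : ‖z‖ = 1 := by simpa using spectrum.subset_circle_of_unitary (𝕜 := ℂ) hZ hz
  obtain ⟨t, ht⟩ := (Complex.norm_eq_one_iff (w * conj z)).1 (by simp [hw, hz1])
  have e2 : ∀ k : ℕ, (ν k : ℂ) • (w ^ (k + 1) • star (z ^ (k + 1)) - conj w ^ (k + 1) • z ^ (k + 1))
      = ((ν k * Real.sin ((k + 1) * t) : ℝ) : ℂ) * (2 * Complex.I) := by
    intro k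
    have h1 : w ^ (k + 1) • star (z ^ (k + 1)) = Complex.exp (((k + 1) * t : ℝ) * Complex.I) := by
      rw [star_pow, smul_eq_mul, ← mul_pow, RCLike.star_def, ← ht, ← Complex.exp_nat_mul]
      congr 1; push_cast; ring
    have h2 : conj w ^ (k + 1) • z ^ (k + 1) = conj (w ^ (k + 1) • star (z ^ (k + 1))) := by
      simp
    rw [h2, h1, Complex.sub_conj, Complex.exp_ofReal_mul_I_im, smul_eq_mul]
    push_cast; ring
  rw [Finset.sum_apply]
  simp only [e2]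
  rw [← Finset.sum_mul, ← Complex.ofReal_sum, norm_mul, Complex.norm_real, Real.norm_eq_abs]
  have := h t
  simp only [norm_mul, Complex.norm_ofNat, Complex.norm_I]
  linarith

theorem τ_pos {A : Type*} [CStarAlgebra A] (T : Tr A) (X s y : A) :
    ‖T.τ (X * (star s * s) * y)‖ ≤ ‖X‖ * ‖y‖ * T.n s ^ 2 := by
  have e : T.τ (X * (star s * s) * y) = T.τ ((s * y) * (X * star s)) := by
    rw [T.comm (s * y)]; simp only [mul_assoc]
  rw [e]
  refine (T.cs _ _).trans ?_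
  have h1 := T.n_mul_le' s y
  have h2 := T.n_mul_le X (star s)
  rw [T.n_star] at h2
  calc _ ≤ (T.n s * ‖y‖) * (‖X‖ * T.n s) :=
        mul_le_mul h1 h2 (T.n_nonneg _) (mul_nonneg (T.n_nonneg _) (norm_nonneg _))
    _ = _ := by ring

end FbP

open FbP in
theorem fb : FbStmt.{u} := by
  intro A _ T θ Z hZ L ν ε h x y
  have ε0 : 0 ≤ ε := (abs_nonneg _).trans (h 0)
  set C := ∑ k ∈ Finset.range L, |ν k| * (2 * (‖θ‖ * ‖x‖ * (k + 1) * ‖y‖)) with hC
  have C0 : 0 ≤ C := Finset.sum_nonneg fun k _ => by positivity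
  refine le_of_forall_pos_le_add fun κ hκ => ?_
  obtain ⟨t, s, ht, h1, h2⟩ := exists_part hZ (η := κ / (C + 1)) (by positivity)
  set η := κ / (C + 1) with hη
  let G : ℂ → A := fun w => ∑ k ∈ Finset.range L, (ν k : ℂ) •
    (w ^ (k + 1) • star Z ^ (k + 1) - conj w ^ (k + 1) • Z ^ (k + 1))
  let P : ℕ → A := fun k => ∑ w ∈ t, w ^ k • (star (s w) * s w)
  have sP : ∀ k, star (P k) = ∑ w ∈ t, conj w ^ k • (star (s w) * s w) := fun k => by
    simp [P, star_sum]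
  have e : ∑ w ∈ t, T.τ (θ (x * G w) * (star (s w) * s w) * y) = ∑ k ∈ Finset.range L,
      ν k * (T.τ (θ (x * star Z ^ (k + 1)) * P (k + 1) * y) -
        T.τ (θ (x * Z ^ (k + 1)) * star (P (k + 1)) * y)) := by
    simp only [sP]
    simp only [G, P, Finset.mul_sum, Finset.sum_mul, map_sum, mul_smul_comm, smul_mul_assoc,
      map_smul, mul_sub, sub_mul, map_sub, smul_eq_mul, ← Finset.sum_sub_distrib]
    rw [Finset.sum_comm]
  have b1 : ‖∑ w ∈ t, T.τ (θ (x * G w) * (star (s w) * s w) * y)‖ ≤ 2 * ε * ‖θ‖ * ‖x‖ * ‖y‖ := by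
    have e1 : ∑ w ∈ t, T.n (s w) ^ 2 = 1 := by
      simp only [T.n_sq]
      rw [← Complex.re_sum, ← map_sum, h1, T.one, Complex.one_re]
    rw [← mul_one (2 * ε * ‖θ‖ * ‖x‖ * ‖y‖), ← e1, Finset.mul_sum]
    refine (norm_sum_le _ _).trans (Finset.sum_le_sum fun w hw => (τ_pos T _ _ _).trans ?_)
    refine mul_le_mul_of_nonneg_right (mul_le_mul_of_nonneg_right ?_ (norm_nonneg _)) (sq_nonneg _)
    refine (θ.le_opNorm _).trans ?_
    have := norm_mul_le' (le_refl ‖x‖) (norm_G hZ L ν h (ht w hw))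
    calc _ ≤ ‖θ‖ * (‖x‖ * (2 * ε)) := mul_le_mul_of_nonneg_left this (norm_nonneg _)
      _ = _ := by ring
  have b0 : ∀ u ∈ unitary A, ∀ (D : A) (r : ℝ), ‖D‖ ≤ r →
      ‖T.τ (θ (x * u) * D * y)‖ ≤ ‖θ‖ * ‖x‖ * r * ‖y‖ := fun u hu D r hD =>
    (T.τ_le _).trans (norm_mul_le' (norm_mul_le' ((θ.le_opNorm _).trans
      (mul_le_mul_of_nonneg_left (by simpa using norm_mul_le' (le_refl ‖x‖) (norm_unit hu))
        (norm_nonneg _))) hD) le_rfl)
  have b2 : ‖∑ k ∈ Finset.range L,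
      ν k * (T.τ (θ (x * star Z ^ (k + 1)) * (P (k + 1) - Z ^ (k + 1)) * y) -
        T.τ (θ (x * Z ^ (k + 1)) * star (P (k + 1) - Z ^ (k + 1)) * y))‖ ≤ C * η := by
    rw [hC, Finset.sum_mul]
    refine (norm_sum_le _ _).trans (Finset.sum_le_sum fun k _ => ?_)
    rw [norm_mul, Complex.norm_real, Real.norm_eq_abs, mul_assoc |ν k|]
    refine mul_le_mul_of_nonneg_left (le_trans (norm_sub_le _ _) ?_) (abs_nonneg _)
    have k1 := b0 _ (pow_mem (Unitary.star_mem hZ) (k + 1)) _ _ (h2 (k + 1))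
    have k2 := b0 _ (pow_mem hZ (k + 1)) (star (P (k + 1) - Z ^ (k + 1))) _
      ((norm_star _).trans_le (h2 (k + 1)))
    push_cast at k1 k2
    linarith
  have b3 : C * η ≤ κ := by
    rw [hη, mul_div_assoc', div_le_iff₀ (by positivity)]; nlinarith
  rw [e] at b1
  refine le_trans (le_of_eq ?_) ((norm_sub_le _ _).trans (add_le_add b1 (b2.trans b3)))
  congr 1
  rw [← Finset.sum_sub_distrib]
  refine Finset.sum_congr rfl fun k _ => ?_
  simp only [act_apply, star_pow, star_star, star_sub, mul_sub, sub_mul, map_sub]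
  ring

end Crest.Agent.KR
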