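import Crest.Agent.KR.Cmp
/-! Gluing primitives over central projections. -/
set_option autoImplicit false
set_option linter.deprecated false
namespace Crest.Agent.KR
open scoped InnerProductSpace ComplexConjugate
open Filter Topology Crest.Agent.GP Crest.OpAlg Kt

universe u

variable {A : Type u} [CStarAlgebra A] {H : Type u} [NormedAddCommGroup H]
  [InnerProductSpace ℂ H] [CompleteSpace H] (ρ : A →⋆ₐ[ℂ] (H →L[ℂ] H))

namespace Kt
variable {ρ}

/-- central direct sums -/
theorem csum (hV : VN ρ) (hK : Kit ρ) {I : Type u} (z : I → A) (hz : ∀ i, CP (z i))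
    (ho : ∀ i j, i ≠ j → z i * z j = 0) (b : I → A) {K : ℝ} (hK0 : 0 ≤ K) (hb : ∀ i, ‖b i‖ ≤ K) :
    ∃ V, ‖V‖ ≤ K ∧ ∀ i, z i * V = z i * b i := by
  rcases hK0.eq_or_lt with rfl | hpos
  · exact ⟨0, by simp, fun i => by rw [norm_le_zero_iff.1 (hb i)]⟩
  have hc : (K : ℂ) ≠ 0 := by exact_mod_cast hpos.ne'
  obtain ⟨V, h1, h2, -⟩ := hK.sum (fun i => (K : ℂ)⁻¹ • (z i * b i)) (fun i => by
    rw [norm_smul, norm_inv, Complex.norm_real, Real.norm_of_nonneg hK0, inv_mul_le_iff₀ hpos]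
    simpa using norm_mul_le' (hz i).1.norm (hb i)) (fun i j hij => by
    rw [star_smul, smul_mul_smul_comm, star_mul, (hz i).1.1, mul_assoc, ← mul_assoc (z i), ho i j hij]
    simp) fun i j hij => by
    rw [star_smul, smul_mul_smul_comm, star_mul, (hz j).1.1, ← mul_assoc, ← (hz j).2, ← mul_assoc,
      ← mul_assoc, ho j i hij.symm]
    simp
  refine ⟨(K : ℂ) • V, ?_, fun i => hV.inj ?_⟩
  · rw [norm_smul, Complex.norm_real, Real.norm_of_nonneg hK0]
    exact mul_le_of_le_one_right hK0 h1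
  · ext ξ
    have a1 := (h2 ξ).mapL (ρ (z i))
    have a2 := hasSum_single (f := fun j => ρ (z i) (ρ ((K : ℂ)⁻¹ • (z j * b j)) ξ)) i fun j hj => by
      rw [← ContinuousLinearMap.mul_apply, ← map_mul, mul_smul_comm, ← mul_assoc, ho i j hj.symm]
      simp
    have a3 := a1.unique a2
    simp only [← ContinuousLinearMap.mul_apply, ← map_mul] at a3
    rw [mul_smul_comm, ← mul_assoc, (hz i).1.2] at a3
    rw [mul_smul_comm, map_smul, ContinuousLinearMap.smul_apply, a3, map_smul,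
      ContinuousLinearMap.smul_apply, smul_smul, mul_inv_cancel₀ hc, one_smul]

theorem diff_congr {n : ℕ} {z : A} (hz : ∀ y, z * y = y * z) {g g' : (Fin n → A) → A}
    (h : ∀ a, z * g a = z * g' a) (a : Fin (n + 1) → A) :
    z * hochschildDiff g a = z * hochschildDiff g' a := by
  have e : ∀ x y y', z * y = z * y' → z * (x * y) = z * (x * y') := fun x y y' h => by
    rw [← mul_assoc, hz, mul_assoc, h, ← mul_assoc, ← hz, mul_assoc]
  simp only [hochschildDiff, mul_add, Finset.mul_sum, mul_smul_comm, h, ← mul_assoc z (g _),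
    ← mul_assoc z (g' _)]
  rw [e _ _ _ (h _)]

end Kt

theorem glue (hV : VN ρ) (hK : Kit ρ) : GlueStmt A := by
  intro n f C h
  obtain ⟨F, hF1, hF2, hF3⟩ := exists_maxfam (fun z : A => CP z ∧
    ∃ g : Co A n, ‖g‖ ≤ C ∧ ∀ a, z * hochschildDiff g a = z * f a) (fun z w => CP z ∧ CP w ∧ z * w = 0)
    fun a b h => ⟨h.2.1, h.1, by rw [← h.1.2, h.2.2]⟩
  obtain ⟨z0, hz0, s1, s2⟩ := hK.supp F
  have hone : z0 = 1 := by
    by_contra hne
    obtain ⟨z, hz, z1, z2, hg⟩ := h (1 - z0) ⟨hz0.1.compl, fun y => by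
      rw [sub_mul, mul_sub, hz0.2, one_mul, mul_one]⟩ fun e => hne (sub_eq_zero.1 e).symm
    have o : ∀ w ∈ F, CP z ∧ CP w ∧ z * w = 0 := fun w hw => ⟨hz, (hF1 w hw).1, by
      rw [← z2, ← hz.2, mul_assoc, sub_mul, s1 w hw, one_mul, sub_self, mul_zero]⟩
    have := (o z (hF3 z ⟨hz, hg⟩ o)).2.2
    rw [hz.1.2] at this
    exact z1 this
  have uniq : ∀ X Y : A, (∀ z : F, z.1 * X = z.1 * Y) → X = Y := by
    intro X Y hXY
    have := s2 (X - Y) fun z hz x => by
      rw [← (hF1 z hz).1.2, ← mul_assoc, mul_sub, hXY ⟨z, hz⟩, sub_self, zero_mul]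
    rwa [hone, mul_one, sub_eq_zero] at this
  choose g hg1 hg2 using fun z : F => (hF1 z z.2).2
  choose G hG1 hG2 using fun a : Fin n → A => csum hV hK (fun z : F => z.1)
    (fun z => (hF1 z z.2).1) (fun z w hzw => (hF2 z.2 w.2 fun e => hzw (Subtype.ext e)).2.2)
    (fun z => g z a) (K := |C| * ∏ i, ‖a i‖) (by positivity) fun z =>
      ((g z).le_opNorm a).trans (mul_le_mul_of_nonneg_right ((hg1 z).trans (le_abs_self C))
        (by positivity))
  let G' : MultilinearMap ℂ (fun _ : Fin n => A) A :=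
    { toFun := G
      map_update_add' := fun a i x y => uniq _ _ fun z => by
        rw [mul_add, hG2, hG2, hG2, ← mul_add, (g z).map_update_add]
      map_update_smul' := fun a i c x => uniq _ _ fun z => by
        rw [mul_smul_comm, hG2, hG2, ← mul_smul_comm, (g z).map_update_smul] }
  refine ⟨G'.mkContinuous |C| hG1, fun a => uniq _ _ fun z => ?_⟩
  rw [← hg2 z a]
  exact diff_congr (hF1 z z.2).1.2 (fun a => hG2 a z) a

end Crest.Agent.KR
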