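import Crest.Agent.KR.Inc1
import Crest.Agent.KS.Part
/-! Incoherence of free fine partitions. -/
set_option autoImplicit false
namespace Crest.Agent.KR
open scoped InnerProductSpace ComplexConjugate BigOperators
open Finset Filter Topology Crest.Agent.GP Crest.Agent.KS Crest.Agent.KS.Core

universe u

namespace IncA
variable {A : Type u} [CStarAlgebra A]

theorem parts (T : Tr A) (G : T.Gd ⊤ ⊤) (E : MU A (Fin 2)) {κ : ℝ} (hκ : 0 < κ) :
    ∃ (J : Type) (_ : Fintype J) (_ : DecidableEq J) (q : J → A) (i : J → Fin 2),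
      (∀ a, Proj (q a)) ∧ (∀ a b, a ≠ b → q a * q b = 0) ∧
      (∀ a, q a * E.e (i a) (i a) = q a) ∧ (∀ k, ∑ a with i a = k, q a = E.e k k) ∧
      ∀ a, (T.τ (q a)).re ≤ κ := by
  choose N p h1 h2 h3 h4 h5 using fun o => part T G E o κ hκ
  refine ⟨Σ o, Fin (N o), inferInstance, inferInstance, fun a => p a.1 a.2, Sigma.fst,
    fun a => h1 _ _, ?_, fun a => h2 _ _, fun k => ?_, fun a => h5 _ _⟩
  · rintro ⟨o, j⟩ ⟨o', j'⟩ h
    by_cases e : o = o'
    · subst e
      exact h3 o j j' fun e => h (by rw [e])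
    · have := congrArg star (h2 o' j')
      rw [star_mul, E.star_e, (h1 _ _).1] at this
      change p o j * p o' j' = 0
      rw [← h2 o j, ← this, mul_assoc, ← mul_assoc (E.e o o), E.mul_e, if_neg e]; simp
  · rw [sum_filter, Fintype.sum_sigma]
    simp [sum_ite_irrel, h4]

theorem τ_e (T : Tr A) (E : MU A (Fin 2)) {x : A} {i : Fin 2} (h : E.e i i * x * E.e i i = x)
    (k l : Fin 2) : T.τ (E.e k l * x) = if k = i ∧ l = i then T.τ x else 0 := by
  have : T.τ (E.e k l * x) = T.τ (E.e i i * E.e k l * E.e i i * x) := by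
    conv_lhs => rw [← h, ← mul_assoc, T.comm]
    simp only [mul_assoc]
  rw [this, E.mul_e]
  by_cases hk : i = k
  · subst hk
    rw [if_pos rfl, E.mul_e]
    by_cases hl : l = i
    · have h' : E.e i i * x = x := by
        rw [← h, ← mul_assoc, ← mul_assoc, E.mul_e, if_pos rfl]
      simp [hl, h']
    · simp [hl]
  · simp [hk, Ne.symm hk]

theorem τ_half (T : Tr A) (E : MU A (Fin 2)) (i : Fin 2) : 2 * T.τ (E.e i i) = 1 := by
  have h : T.τ (E.e 0 0) = T.τ (E.e 1 1) := by
    have := T.comm (E.e 0 1) (E.e 1 0)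
    simpa [E.mul_e] using this
  have h2 := congrArg T.τ E.sum_e
  rw [Fin.sum_univ_two, map_add, T.one] at h2
  fin_cases i
  · change 2 * T.τ (E.e 0 0) = 1
    linear_combination h2 + h
  · change 2 * T.τ (E.e 1 1) = 1
    linear_combination h2 - h

section Words
variable {L : Type} (par : L → Bool) (g : L → A) (v : A)

/-- a letter -/
def lt (x : L × A) : A := g x.1 * pw v (par x.1) * x.2 * star (g x.1 * pw v (par x.1))
/-- first constant -/
def hdg : List (L × A) → A
  | [] => 1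
  | x :: _ => g x.1
/-- encoding as a word in `v` -/
def enc : List (L × A) → List (Bool × A)
  | [] => []
  | x :: r => (par x.1, x.2) :: (!par x.1, star (g x.1) * hdg g r) :: enc r

theorem star_pw (b : Bool) : star (pw v b) = pw v (!b) := by cases b <;> simp [pw]

theorem prod_enc (l : List (L × A)) :
    (l.map (lt par g v)).prod = hdg g l * wd v (enc par g l) := by
  induction l with
  | nil => simp [hdg, enc]
  | cons x r ih => simp [hdg, enc, ih, lt, star_pw, mul_assoc]

theorem chain_enc (Q : A → Prop) (l : List (L × A)) (h1 : ∀ x ∈ l, Q x.2)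
    (h2 : (l.map Prod.fst).IsChain fun x y => par x ≠ par y) :
    (enc par g l).IsChain fun a b => a.1 ≠ b.1 → Q a.2 := by
  induction l with
  | nil => simp [enc]
  | cons x r ih =>
    have ih' := ih (fun y hy => h1 y (by simp [hy])) h2.tail
    refine List.isChain_cons_cons.mpr ⟨fun _ => h1 x (by simp), ?_⟩
    cases r with
    | nil => simp [enc]
    | cons y r =>
      refine List.isChain_cons_cons.mpr ⟨fun h => absurd ?_ h, ih'⟩
      have := (List.isChain_cons_cons.mp h2).1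
      revert this
      simp only
      cases par x.1 <;> cases par y.1 <;> simp

theorem star_prod (S : L → A) (hS : ∀ l, star (S l) = S l) (β : List L) :
    star (β.map S).prod = (β.reverse.map S).prod := by
  induction β with
  | nil => simp
  | cons l β ih => simp [ih, hS]

theorem chain4 {l : L} {β : List L} (h : (l :: β ++ [l]).IsChain fun x y => par x ≠ par y) :
    (l :: (β.reverse ++ l :: (β ++ l :: (β.reverse ++ l :: β)))).IsChain
      fun x y => par x ≠ par y := by
  have h' : (l :: (β.reverse ++ [l])).IsChain fun x y => par x ≠ par y := by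
    have := List.isChain_reverse.mpr (h.imp fun _ _ h => Ne.symm h)
    simpa using this
  exact List.isChain_cons_split.mpr ⟨h', List.isChain_cons_split.mpr ⟨h,
    List.isChain_cons_split.mpr ⟨h', h.left_of_append⟩⟩⟩

theorem tend (T : Tr A) (Q : A → Prop) (𝔉 : Filter A)
    (h : ∀ (x : A) (l : List (Bool × A)), l ≠ [] →
      l.IsChain (fun a b => a.1 ≠ b.1 → Q a.2) → Tendsto (fun v => T.τ (x * wd v l)) 𝔉 (𝓝 0))
    {l : L} {β : List L} (hc : (l :: β ++ [l]).IsChain fun x y => par x ≠ par y)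
    (D : L → A) (hD : ∀ m, Q (D m)) (sD : ∀ m, star (D m) = D m) {x y : A} (hx : Q x) (hy : Q y) :
    Tendsto (fun v => T.τ (lt par g v (l, x) * star (β.map fun m => lt par g v (m, D m)).prod *
      lt par g v (l, y) * (β.map fun m => lt par g v (m, D m)).prod *
      (lt par g v (l, x) * star (β.map fun m => lt par g v (m, D m)).prod *
      lt par g v (l, y) * (β.map fun m => lt par g v (m, D m)).prod))) 𝔉 (𝓝 0) := by
  let f : L → L × A := fun m => (m, D m)
  let w := (l, x) :: (β.reverse.map f ++ (l, y) :: (β.map f ++ (l, x) ::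
    (β.reverse.map f ++ (l, y) :: β.map f)))
  have := h (hdg g w) (enc par g w) (by simp [w, enc]) (chain_enc par g Q w ?_ ?_)
  · refine this.congr fun v => ?_
    rw [← prod_enc, star_prod _ fun m => by simp [lt, sD, mul_assoc]]
    simp [w, f, mul_assoc, Function.comp_def]
  · simp only [w, f, List.mem_cons, List.mem_append, List.mem_map]
    rintro z (rfl | ⟨_, _, rfl⟩ | rfl | ⟨_, _, rfl⟩ | rfl | ⟨_, _, rfl⟩ | rfl | ⟨_, _, rfl⟩) <;>
      simp only [hD, hx, hy]
  · simpa [w, f, Function.comp_def] using chain4 par hc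

end Words

theorem sum_fst {M L J : Type*} [AddCommMonoid M] [Fintype L] [Fintype J] [DecidableEq L]
    (l : L) (f : L × J → M) : ∑ a with a.1 = l, f a = ∑ j, f (l, j) := by
  rw [sum_filter, Fintype.sum_prod_type, sum_comm]
  simp

theorem norm_cj {w : A} (hw : w ∈ unitary A) (x : A) : ‖w * x * star w‖ ≤ ‖x‖ := by
  simpa using norm_mul_le' (norm_mul_le' (norm_unit hw) (le_refl ‖x‖))
    (norm_unit (Unitary.star_mem hw))

end IncA
open IncA

theorem inc (hA : AmfStmt.{u}) : IncStmt.{u} := by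
  intro A _ T G E L _ _ par g hg r δ hδ
  obtain ⟨𝔉, hF1, hF2⟩ := hA T G E
  set C : ℝ := 8 * 26 * 4 * (3 ^ r) ^ 4 + 8 * (2 * 3 ^ r) ^ 2 * (r * 3 ^ r) ^ 2 * Fintype.card L * 8
    with hC
  have hC0 : 0 ≤ C := by positivity
  obtain ⟨κ, hκ, hκ1, hκ2⟩ : ∃ κ : ℝ, 0 < κ ∧ 4 * κ ≤ 1 ∧ C * κ ≤ δ / 2 := by
    refine ⟨min (1 / 4) (δ / 2 / (C + 1)), by positivity, by linarith [min_le_left (1 / 4) (δ / 2 / (C + 1))], ?_⟩
    have := min_le_right (1 / 4) (δ / 2 / (C + 1))
    rw [le_div_iff₀ (by positivity)] at this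
    have : 0 < min (1 / 4) (δ / 2 / (C + 1)) := by positivity
    nlinarith
  obtain ⟨J, _, _, q, i, q1, q2, q3, q4, q5⟩ := parts T G E hκ
  have qs : ∑ a, q a = 1 := by
    rw [← E.sum_e, ← sum_fiberwise univ i]; simp only [q4]
  let t : J → ℝ := fun a => (T.τ (q a)).re
  have t0 : ∀ a, 0 ≤ t a := fun a => by simpa [(q1 a).1, (q1 a).2] using T.pos (q a)
  have t1 : ∑ a, t a = 1 := by simp only [t, ← Complex.re_sum, ← map_sum, qs, T.one, Complex.one_re]
  have t2 : ∀ a, (t a : ℂ) = T.τ (q a) := fun a => T.τ_sa (q1 a).1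
  have t3 : ∑ a, (2 * t a) ^ 2 ≤ 4 * κ := by
    calc ∑ a, (2 * t a) ^ 2 ≤ ∑ a, 4 * κ * t a := sum_le_sum fun a _ => by
          nlinarith [t0 a, q5 a]
      _ = _ := by rw [← mul_sum, t1, mul_one]
  have eP : ∀ k, Proj (E.e k k) := fun k => ⟨E.star_e _ _, by rw [E.mul_e, if_pos rfl]⟩
  let e : J → A := fun a => ((2 * t a : ℝ) : ℂ) • E.e (i a) (i a)
  have se : ∀ a, star (e a) = e a := fun a => by simp [e, E.star_e]
  have ne : ∀ a, ‖e a‖ ≤ 2 * t a := fun a => by
    rw [norm_smul, Complex.norm_real, Real.norm_of_nonneg (by linarith [t0 a])]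
    exact mul_le_of_le_one_right (by linarith [t0 a]) (eP _).norm
  let Q : A → Prop := fun x => ∀ k l, T.τ (E.e k l * x) = 0
  have Qq : ∀ a, Q (q a - e a) := fun a k l => by
    have h1 := congrArg star (q3 a)
    rw [star_mul, E.star_e, (q1 a).1] at h1
    rw [mul_sub, map_sub, mul_smul_comm, map_smul, τ_e T E (i := i a) (by rw [h1, q3]),
      τ_e T E (i := i a) (by rw [(eP _).2, (eP _).2])]
    split_ifs
    · push_cast
      rw [t2]; linear_combination (-T.τ (q a)) * τ_half T E (i a)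
    · simp
  let D : (L × J → Bool) → L → A := fun ε m => ∑ a, sg (ε (m, a)) • (q a - e a)
  have QD : ∀ ε m, Q (D ε m) := fun ε m k l => by
    simp only [D, mul_sum, mul_smul_comm, map_sum, map_smul, Qq _ k l, smul_zero, sum_const_zero]
  have sD : ∀ ε m, star (D ε m) = D ε m := fun ε m => by
    simp [D, star_sum, sg_conj, se, (q1 _).1]
  let W : A → (L × J → Bool) → List L → A := fun v ε β => (β.map fun m => lt par g v (m, D ε m)).prod
  let Γ : A → L → List L → ℝ := fun v l β => 𝔼 ε : L × J → Bool, ∑ a, ∑ b,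
    ‖T.τ (lt par g v (l, q b - e b) * star (W v ε β) * lt par g v (l, q a - e a) * W v ε β *
      (lt par g v (l, q b - e b) * star (W v ε β) * lt par g v (l, q a - e a) * W v ε β))‖
  have hΓ : ∀ l β, (l :: β ++ [l]).IsChain (fun x y => par x ≠ par y) →
      ∀ᶠ v in (𝔉 : Filter A), Γ v l β < δ / 32 := fun l β hc => by
    refine Tendsto.eventually (l₂ := 𝓝 (0 : ℝ)) (p := fun x => x < δ / 32) ?_
      (gt_mem_nhds (by positivity))
    simp only [Γ, expect_eq_sum_div_card]
    have := (tendsto_finsetSum univ fun (ε : L × J → Bool) _ => tendsto_finsetSum univ fun a _ =>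
      tendsto_finsetSum univ fun b _ =>
        (tend par g T Q 𝔉 hF2 hc (D ε) (QD ε) (sD ε) (Qq b) (Qq a)).norm).div_const
        ((univ : Finset (L × J → Bool)).card : ℝ)
    simpa using this
  have hfin : ∀ᶠ v in (𝔉 : Filter A), ∀ β ∈ {β : List L | β.length ≤ r}, ∀ l,
      (l :: β ++ [l]).IsChain (fun x y => par x ≠ par y) → Γ v l β < δ / 32 := by
    refine (eventually_all_finite (List.finite_length_le L r)).mpr fun β _ =>
      eventually_all.mpr fun l => ?_
    by_cases hc : (l :: β ++ [l]).IsChain (fun x y => par x ≠ par y)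
    · exact (hΓ l β hc).mono fun v h _ => h
    · exact Eventually.of_forall fun v h => absurd h hc
  obtain ⟨v, ⟨hv, hvE⟩, hΓv⟩ := (hF1.and hfin).exists
  have hu : ∀ l, g l * pw v (par l) ∈ unitary A := fun l => mul_mem (hg l) (pw_unit hv _)
  let φ : L → A →ₗ[ℂ] A := fun l =>
    LinearMap.mulRight ℂ (star (g l * pw v (par l))) ∘ₗ LinearMap.mulLeft ℂ (g l * pw v (par l))
  have hφ : ∀ l x, lt par g v (l, x) = φ l x := fun l x => rfl
  have φn : ∀ l x, ‖φ l x‖ ≤ ‖x‖ := fun l x => norm_cj (hu l) x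
  have φm : ∀ l x y, φ l x * φ l y = φ l (x * y) := fun l x y => by
    change _ * x * _ * (_ * y * _) = _ * (x * y) * _
    rw [mul_assoc _ (star _), ← mul_assoc (star _), ← mul_assoc (star _), (hu l).1]
    simp only [mul_assoc, one_mul]
  have φs : ∀ l x, star (φ l x) = φ l (star x) := fun l x => by
    change star (_ * x * star _) = _ * star x * _
    rw [star_mul, star_star, star_mul _ x, mul_assoc _ (star x)]
  have φ1 : ∀ l, φ l 1 = 1 := fun l => by
    change _ * (1 : A) * _ = _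
    rw [mul_one, (hu l).2]
  have pP : ∀ l a, Proj (φ l (q a)) := fun l a => ⟨by rw [φs, (q1 a).1], by rw [φm, (q1 a).2]⟩
  have ps : ∀ l, ∑ a, φ l (q a) = 1 := fun l => by rw [← map_sum, qs, φ1]
  refine ⟨L × J, inferInstance, inferInstance, fun a => φ a.1 (q a.2), Prod.fst,
    ⟨fun a => pP _ _, ?_, fun l => by rw [sum_fst, ps]⟩, fun l => ?_, fun w hw hc l β hi => ?_⟩
  · rintro ⟨l, a⟩ ⟨l', b⟩ (rfl : l = l') h
    rw [φm, q2 a b fun e => h (by rw [e]), map_zero]
  · refine ⟨(univ.filter fun a => i a = 0).map ⟨fun a => (l, a), fun _ _ h => (Prod.mk.inj h).2⟩,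
      by simp, ?_⟩
    rw [sum_map]
    change ∑ a with i a = 0, φ l (q a) = _
    rw [← map_sum, q4]
    change g l * pw v (par l) * E.e 0 0 * star (g l * pw v (par l)) = _
    have h1 : pw v (par l) * E.e 0 0 = E.e 0 0 * pw v (par l) := by
      cases par l
      · simpa [pw, E.star_e] using (congrArg star (hvE 0 0)).symm
      · exact hvE 0 0
    rw [star_mul, mul_assoc (g l), h1]
    simp only [mul_assoc]
    rw [← mul_assoc (pw v _), (pw_unit hv _).2, one_mul]
  have hβ : β.length ≤ r := by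
    have := hi.length_le
    simp at this; omega
  have h3 : (3 : ℝ) ^ β.length ≤ 3 ^ r := pow_le_pow_right₀ (by norm_num) hβ
  let μ : (L × J → Bool) → L → ℝ := fun ε m => ‖∑ a, sg (ε (m, a)) • e a‖
  have nsg : ∀ b, ‖sg b‖ = 1 := fun b => by cases b <;> simp [sg]
  have μ2 : ∀ ε m, μ ε m ≤ 2 := fun ε m => by
    refine (norm_sum_le _ _).trans ((sum_le_sum fun a _ => ?_).trans_eq
      (show ∑ a, 2 * t a = 2 by rw [← mul_sum, t1, mul_one]))
    rw [norm_smul, nsg, one_mul]; exact ne a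
  have μe : ∀ m, 𝔼 ε, μ ε m ^ 2 ≤ 8 * κ := fun m => by
    let c : Fin 2 → J → ℂ := fun k a => if i a = k then ((2 * t a : ℝ) : ℂ) else 0
    have h1 : ∀ ε, μ ε m ^ 2 ≤ 2 * ∑ k, ‖∑ a, sg (ε (m, a)) * c k a‖ ^ 2 := fun ε => by
      have e1 : ∑ a, sg (ε (m, a)) • e a = ∑ k, (∑ a, sg (ε (m, a)) * c k a) • E.e k k := by
        simp only [sum_smul]
        rw [sum_comm]
        refine sum_congr rfl fun a _ => ?_
        simp [c, e, smul_smul]
      have e2 : μ ε m ≤ ∑ k, ‖∑ a, sg (ε (m, a)) * c k a‖ := by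
        simp only [μ, e1]
        refine (norm_sum_le _ _).trans (sum_le_sum fun k _ => ?_)
        rw [norm_smul]; exact mul_le_of_le_one_right (norm_nonneg _) (eP k).norm
      refine (pow_le_pow_left₀ (norm_nonneg _) e2 2).trans ?_
      simp only [Fin.sum_univ_two]
      nlinarith [sq_nonneg (‖∑ a, sg (ε (m, a)) * c 0 a‖ - ‖∑ a, sg (ε (m, a)) * c 1 a‖)]
    refine (expect_le_expect fun ε _ => h1 ε).trans ?_
    rw [← mul_expect, expect_sum_comm]
    simp only [exp_sq (fun a : J => (m, a)) fun _ _ h => (Prod.mk.inj h).2]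
    rw [sum_comm]
    have : ∀ a, ∑ k, ‖c k a‖ ^ 2 = (2 * t a) ^ 2 := fun a => by
      simp only [c, apply_ite (fun z : ℂ => ‖z‖ ^ 2), norm_zero, Complex.norm_real,
        Real.norm_eq_abs, sq_abs]
      simp
    simp only [this]; linarith
  have main : ∀ ε, FF T (fun a => φ l (q a)) (wW (fun a : L × J => φ a.1 (q a.2)) Prod.fst β ε) ≤
      16 * (∑ a, ∑ b, ‖T.τ (lt par g v (l, q b - e b) * star (W v ε β) * lt par g v (l, q a - e a) *
        W v ε β * (lt par g v (l, q b - e b) * star (W v ε β) * lt par g v (l, q a - e a) *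
        W v ε β))‖) + 8 * 26 * 4 * (3 ^ r) ^ 4 * κ +
        8 * (2 * 3 ^ r) ^ 2 * (r * 3 ^ r) ^ 2 * ∑ m, μ ε m ^ 2 := by
    intro ε
    have hS : ∀ m, sS (fun a : L × J => φ a.1 (q a.2)) Prod.fst m ε =
        φ m (∑ a, sg (ε (m, a)) • q a) := fun m => by simp [sS, sum_fst]
    have nS : ∀ m, ‖φ m (∑ a, sg (ε (m, a)) • q a)‖ ≤ 1 := fun m => by
      refine (φn _ _).trans (norm_le_one_of_star_mul (le_of_eq_of_le (congrArg _ ?_) norm_one_le))
      simp only [star_sum, star_smul, sum_mul_sum, smul_mul_smul_comm, (q1 _).1, ← qs,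
        RCLike.star_def, sg_conj]
      refine sum_congr rfl fun a _ => ?_
      rw [sum_eq_single a (fun b _ h => by rw [q2 a b h.symm, smul_zero]) (by simp), sg_sq,
        one_smul, (q1 a).2]
    have dS : ∀ m, ‖φ m (∑ a, sg (ε (m, a)) • q a) - φ m (D ε m)‖ ≤ μ ε m := fun m => by
      rw [← map_sub]
      refine (φn _ _).trans (le_of_eq (congrArg _ ?_))
      simp [D, smul_sub]
    have hM : 0 ≤ ∑ m, μ ε m ^ 2 := sum_nonneg fun _ _ => sq_nonneg _
    obtain ⟨n1, n2, n3⟩ := prod_close (fun m => φ m (∑ a, sg (ε (m, a)) • q a))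
      (fun m => φ m (D ε m)) (μ := √(∑ m, μ ε m ^ 2)) (fun m => (nS m).trans (by norm_num))
      (fun m => by
        have := norm_sub_norm_le (φ m (D ε m)) (φ m (∑ a, sg (ε (m, a)) • q a))
        rw [norm_sub_rev] at this
        linarith [dS m, μ2 ε m, nS m])
      (fun m => (dS m).trans (Real.le_sqrt_of_sq_le
        (single_le_sum (f := fun m => μ ε m ^ 2) (fun _ _ => sq_nonneg _) (mem_univ m)))) β
    simp only [wW, hS]
    set X := (β.map fun m => φ m (∑ a, sg (ε (m, a)) • q a)).prod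
    change ‖W v ε β‖ ≤ _ at n2
    change ‖X - W v ε β‖ ≤ _ at n3
    have a1 := FF_add T (fun a => φ l (q a)) (W v ε β) (X - W v ε β)
    rw [add_sub_cancel] at a1
    have a2 := FF_cen T (pP l) (ps l) (c := fun a => φ l (e a)) (γ := 4 * κ)
      (fun a => by rw [φs, se]) hκ1
      (fun a => (φn _ _).trans ((ne a).trans (by linarith [q5 a])))
      ((sum_le_sum fun a _ => pow_le_pow_left₀ (norm_nonneg _) ((φn _ _).trans (ne a)) 2).trans t3)
      (W v ε β) (n2.trans h3)
    have a3 := FF_le T (pP l) (ps l) (X - W v ε β)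
    have a4 : ‖X - W v ε β‖ ^ 2 ≤ (2 * 3 ^ r) ^ 2 := pow_le_pow_left₀ (norm_nonneg _)
      ((norm_sub_le _ _).trans (by linarith)) 2
    have a5 : ‖X - W v ε β‖ ^ 2 ≤ (r * 3 ^ r) ^ 2 * ∑ m, μ ε m ^ 2 := by
      rw [← Real.sq_sqrt hM, ← mul_pow]
      refine pow_le_pow_left₀ (norm_nonneg _) (n3.trans ?_) 2
      gcongr
    have a6 := mul_le_mul a4 a5 (by positivity) (by positivity)
    have a7 : ∀ a, φ l (q a) - φ l (e a) = lt par g v (l, q a - e a) :=
      fun a => (map_sub _ _ _).symm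
    simp only [a7] at a2
    have a8 : ‖X - W v ε β‖ ^ 4 = ‖X - W v ε β‖ ^ 2 * ‖X - W v ε β‖ ^ 2 := by ring
    linarith
  simp only [sum_fst]
  refine (expect_le_expect fun ε _ => main ε).trans ?_
  rw [expect_add_distrib, expect_add_distrib, Fintype.expect_const, ← mul_expect, ← mul_expect,
    expect_sum_comm univ univ fun ε m => μ ε m ^ 2]
  have b1 := hΓv β hβ l (hc.infix hi)
  have b2 : ∑ m, 𝔼 ε, μ ε m ^ 2 ≤ Fintype.card L * (8 * κ) :=
    (sum_le_sum fun m _ => μe m).trans (by simp)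
  have b3 := mul_le_mul_of_nonneg_left b2
    (show (0 : ℝ) ≤ 8 * (2 * 3 ^ r) ^ 2 * (r * 3 ^ r) ^ 2 by positivity)
  change 16 * Γ v l β + _ + 8 * (2 * 3 ^ r) ^ 2 * (r * 3 ^ r) ^ 2 * ∑ m, 𝔼 ε, μ ε m ^ 2 ≤ δ
  rw [hC] at hκ2
  linarith

end Crest.Agent.KR
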