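import Crest.Agent.KR.Hull
/-! Kadison–Ringrose cohomology: the key averaging estimate. -/
set_option autoImplicit false
set_option linter.unusedSectionVars false
set_option linter.deprecated false
namespace Crest.Agent.KR
open scoped InnerProductSpace ComplexConjugate BigOperators
open Filter Topology Crest.Agent.GP Crest.Agent.KS Crest.OpAlg

universe u

namespace Key
variable {A : Type u} [CStarAlgebra A]

/-- smallness in the trace pairing -/
def Sm (T : Tr A) (η : ℝ) (D : A →L[ℂ] A) : Prop := ∀ x y, ‖T.τ (D x * y)‖ ≤ η * ‖x‖ * ‖y‖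

/-- the invariant class -/
def Cls (T : Tr A) (K : ℝ) (θ : A →L[ℂ] A) : Prop := ‖θ‖ ≤ K ∧ L2 T K θ ∧ Row T K θ

/-- properties stable under averaging -/
structure Stab (Q : (A →L[ℂ] A) → Prop) : Prop where
  act : ∀ u ∈ unitary A, ∀ θ, Q θ → Q (act u θ)
  conv : Convex ℝ {θ | Q θ}

theorem Stab.avg {Q : (A →L[ℂ] A) → Prop} (h : Stab Q) {J : Type*} {θ θ' : J → A →L[ℂ] A}
    (h' : θ' ∈ Avg (unitary A) θ) (j : J) (hj : Q (θ j)) : Q (θ' j) :=
  avg_ind (S := {η | Q (η j)}) (fun u hu => h.act u hu _ hj)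
    (fun _ hx _ hy _ _ ha hb hab => h.conv hx hy ha hb hab) h'

variable {T : Tr A}

theorem Sm.tri {a b : ℝ} {X Y Z : A →L[ℂ] A} (h : Sm T a (X - Y)) (h' : Sm T b (Y - Z)) :
    Sm T (a + b) (X - Z) := fun x y => by
  have e : (X - Z) x * y = (X - Y) x * y + (Y - Z) x * y := by
    simp only [ContinuousLinearMap.sub_apply]; noncomm_ring
  rw [e, map_add]
  have := h x y
  have := h' x y
  have := norm_add_le (T.τ ((X - Y) x * y)) (T.τ ((Y - Z) x * y))
  linarith

theorem Sm.symm {a : ℝ} {X Y : A →L[ℂ] A} (h : Sm T a (X - Y)) : Sm T a (Y - X) := fun x y => by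
  rw [← neg_sub, ContinuousLinearMap.neg_apply, neg_mul, map_neg, norm_neg]
  exact h x y

theorem Sm.mono {a b : ℝ} {X : A →L[ℂ] A} (h : Sm T a X) (hab : a ≤ b) : Sm T b X := fun x y =>
  (h x y).trans (by gcongr)

theorem stab_Sm (η : ℝ) : Stab (Sm T η) where
  act u hu θ h x y := by
    have := h (x * star u) (u * y)
    rwa [CStarRing.norm_mul_mem_unitary _ (Unitary.star_mem hu),
      CStarRing.norm_mem_unitary_mul _ hu, ← mul_assoc] at this
  conv X hX Y hY a b ha hb hab x y := by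
    simp only [ContinuousLinearMap.add_apply, ContinuousLinearMap.smul_apply, add_mul,
      smul_mul_assoc, map_add]
    rw [← Complex.coe_smul, ← Complex.coe_smul, map_smul, map_smul]
    refine (norm_add_le _ _).trans ?_
    rw [norm_smul, norm_smul, Complex.norm_real, Complex.norm_real, Real.norm_of_nonneg ha,
      Real.norm_of_nonneg hb]
    have h1 := mul_le_mul_of_nonneg_left (hX x y) ha
    have h2 := mul_le_mul_of_nonneg_left (hY x y) hb
    calc _ ≤ (a + b) * (η * ‖x‖ * ‖y‖) := by linarith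
      _ = _ := by rw [hab, one_mul]

theorem stab_Cls (K : ℝ) : Stab (Cls T K) where
  act u hu θ h := ⟨(norm_act_le hu θ).trans h.1, h.2.1.act hu, fun {I} _ x w => by
    have := h.2.2 (fun i => x i * star u) w
    have e : ∀ i, x i * star u * star (x i * star u) = x i * star (x i) := fun i => by
      rw [star_mul, star_star, mul_assoc, ← mul_assoc (star u), hu.1, one_mul]
    simp only [e] at this
    refine le_trans (le_of_eq (Finset.sum_congr rfl fun i _ => ?_)) this
    rw [act_apply, ← mul_assoc, T.n_unit_r hu.2]⟩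
  conv X hX Y hY a b ha hb hab := by
    refine ⟨?_, convex_L2 (J := Unit) K () (x := fun _ => X) hX.2.1 (y := fun _ => Y) hY.2.1
      ha hb hab, fun {I} _ x w => ?_⟩
    · have := convex_closedBall (0 : A →L[ℂ] A) K (x := X) (by simpa using hX.1) (y := Y)
        (by simpa using hY.1) ha hb hab
      simpa using this
    · have h1 := mul_le_mul_of_nonneg_left (hX.2.2 x w) ha
      have h2 := mul_le_mul_of_nonneg_left (hY.2.2 x w) hb
      calc _ ≤ ∑ i, (a * T.n (w * X (x i)) ^ 2 + b * T.n (w * Y (x i)) ^ 2) := by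
            refine Finset.sum_le_sum fun i _ => ?_
            have h3 : T.n (w * (a • X + b • Y) (x i)) ≤
                a * T.n (w * X (x i)) + b * T.n (w * Y (x i)) := by
              simp only [ContinuousLinearMap.add_apply, ContinuousLinearMap.smul_apply, mul_add,
                mul_smul_comm]
              refine (T.n_add_le _ _).trans ?_
              rw [← Complex.coe_smul, ← Complex.coe_smul, T.n_smul, T.n_smul, Complex.norm_real,
                Complex.norm_real, Real.norm_of_nonneg ha, Real.norm_of_nonneg hb]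
            refine (pow_le_pow_left₀ (T.n_nonneg _) h3 2).trans ?_
            obtain rfl : b = 1 - a := by linarith
            nlinarith [mul_nonneg (mul_nonneg ha hb)
              (sq_nonneg (T.n (w * X (x i)) - T.n (w * Y (x i))))]
        _ ≤ (a + b) * (K ^ 2 * T.n w ^ 2 * ‖∑ i, x i * star (x i)‖) := by
            rw [Finset.sum_add_distrib, ← Finset.mul_sum, ← Finset.mul_sum]; linarith
        _ = _ := by rw [hab, one_mul]

theorem sum_sg {ι : Type} [Fintype ι] [DecidableEq ι] (a b : ι) :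
    ∑ ε : ι → Bool, Core.sg (ε a) * Core.sg (ε b) =
      if a = b then (Fintype.card (ι → Bool) : ℂ) else 0 := by
  split_ifs with h
  · subst h
    simp only [Core.sg_sq, Finset.sum_const, Finset.card_univ, nsmul_eq_mul, mul_one]
  · refine Finset.sum_involution (fun ε _ => Function.update ε a (!ε a)) (fun ε _ => ?_)
      (fun ε _ _ h' => ?_) (fun _ _ => Finset.mem_univ _) fun ε _ => ?_
    · rw [Function.update_self, Function.update_of_ne (Ne.symm h)]
      cases ε a <;> cases ε b <;> simp [Core.sg]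
    · have := congrFun h' a
      simp at this
    · simp

/-- repetition of a list -/
def rep {L : Type} (c : List L) : ℕ → List L
  | 0 => []
  | k + 1 => c ++ rep c k

theorem rep_succ' {L : Type} (c : List L) (k : ℕ) : rep c (k + 1) = rep c k ++ c := by
  induction k with
  | zero => simp [rep]
  | succ k ih => rw [rep, ih, ← List.append_assoc, ← rep, ih]

theorem length_rep {L : Type} (c : List L) (k : ℕ) : (rep c k).length = k * c.length := by
  induction k with
  | zero => simp [rep]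
  | succ k ih => rw [rep, List.length_append, ih]; ring

theorem rep_rot {L : Type} (l : L) (c : List L) (k : ℕ) :
    l :: rep (c ++ [l]) k = rep (l :: c) k ++ [l] := by
  induction k with
  | zero => rfl
  | succ k ih => simp only [rep, List.cons_append, List.append_assoc, List.nil_append, ih]

section Signs
variable {ι L : Type} [Fintype ι] [DecidableEq ι] [DecidableEq L] {p : ι → A} {ty : ι → L}

theorem star_sS (h : Parts p ty) (l : L) (ε : ι → Bool) : star (sS p ty l ε) = sS p ty l ε := by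
  simp only [sS, star_sum, star_smul, (h.proj _).1]
  exact Finset.sum_congr rfl fun a _ => by rw [RCLike.star_def, Core.sg_conj]

theorem sS_mul (h : Parts p ty) (l : L) (ε : ι → Bool) : sS p ty l ε * sS p ty l ε = 1 := by
  rw [← h.sum l, sS, Finset.sum_mul_sum]
  refine Finset.sum_congr rfl fun a ha => ?_
  rw [Finset.sum_eq_single a]
  · rw [smul_mul_smul_comm, Core.sg_sq, (h.proj a).2, one_smul]
  · intro b hb hne
    rw [smul_mul_smul_comm, h.orth a b
      ((Finset.mem_filter.1 ha).2.trans (Finset.mem_filter.1 hb).2.symm) hne.symm, smul_zero]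
  · intro h'; exact absurd ha h'

theorem sS_unit (h : Parts p ty) (l : L) (ε : ι → Bool) : sS p ty l ε ∈ unitary A :=
  ⟨by rw [star_sS h, sS_mul h], by rw [star_sS h, sS_mul h]⟩

theorem wW_append (t t' : List L) (ε : ι → Bool) :
    wW p ty (t ++ t') ε = wW p ty t ε * wW p ty t' ε := by simp [wW]

theorem wW_unit (h : Parts p ty) (t : List L) (ε : ι → Bool) : wW p ty t ε ∈ unitary A :=
  list_prod_mem fun x hx => by
    obtain ⟨l, -, rfl⟩ := List.mem_map.1 hx
    exact sS_unit h l ε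

theorem wW_reverse (h : Parts p ty) (t : List L) (ε : ι → Bool) :
    wW p ty t.reverse ε = star (wW p ty t ε) := by
  induction t with
  | nil => simp [wW]
  | cons l t ih =>
    rw [List.reverse_cons, wW_append, ih]
    simp [wW, star_sS h]

theorem wW_rep (c : List L) (k : ℕ) (ε : ι → Bool) : wW p ty (rep c k) ε = wW p ty c ε ^ k := by
  induction k with
  | zero => simp [wW, rep]
  | succ k ih => rw [rep, wW_append, ih, pow_succ']

theorem pin_apply (θ : A →L[ℂ] A) (l : L) (x : A) (h : Parts p ty) :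
    pin p ty θ l x = ∑ a with ty a = l, θ (x * p a) * p a := by
  simp only [pin, ContinuousLinearMap.sum_apply, act_apply, (h.proj _).1]

theorem pin_eq (h : Parts p ty) (θ : A →L[ℂ] A) (l : L) : pin p ty θ l =
    (Fintype.card (ι → Bool) : ℂ)⁻¹ • ∑ ε : ι → Bool, act (sS p ty l ε) θ := by
  ext x
  have hc : (Fintype.card (ι → Bool) : ℂ) ≠ 0 := by exact_mod_cast Fintype.card_ne_zero
  have e : ∀ ε : ι → Bool, act (sS p ty l ε) θ x = ∑ a with ty a = l, ∑ b with ty b = l,
      (Core.sg (ε a) * Core.sg (ε b)) • (θ (x * p a) * p b) := fun ε => by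
    rw [act_apply, star_sS h, sS, Finset.mul_sum _ _ x, map_sum, Finset.sum_mul_sum]
    simp only [mul_smul_comm, map_smul, smul_mul_assoc, smul_smul, mul_comm]
  rw [pin_apply _ _ _ h, ContinuousLinearMap.smul_apply, ContinuousLinearMap.sum_apply]
  simp only [e]
  rw [Finset.sum_comm, Finset.smul_sum]
  refine Finset.sum_congr rfl fun a ha => ?_
  rw [Finset.sum_comm]
  simp only [← Finset.sum_smul, sum_sg, ite_smul, zero_smul, Finset.sum_ite_eq, if_pos ha]
  rw [smul_smul, inv_mul_cancel₀ hc, one_smul]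

theorem pin_avg (h : Parts p ty) {J : Type*} (θ : J → A →L[ℂ] A) (l : L) :
    (fun j => pin p ty (θ j) l) ∈ Avg (unitary A) θ := by
  simp only [pin_eq h]
  exact avg_expect (fun ε j => act (sS p ty l ε) (θ j)) fun ε => avg_act (sS_unit h l ε) θ

theorem fold_avg (h : Parts p ty) {J : Type*} (t : List L) (θ : J → A →L[ℂ] A) :
    (fun j => t.foldl (pin p ty) (θ j)) ∈ Avg (unitary A) θ := by
  induction t generalizing θ with
  | nil => exact avg_self (one_mem _) θ
  | cons l t ih => exact avg_trans unit_mul (pin_avg h θ l) (ih _)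

theorem Stab.pin {Q : (A →L[ℂ] A) → Prop} (hQ : Stab Q) (h : Parts p ty) {θ : A →L[ℂ] A}
    (hθ : Q θ) (l : L) : Q (pin p ty θ l) :=
  hQ.avg (pin_avg h (fun _ : Unit => θ) l) () hθ

theorem pin_sub (X Y : A →L[ℂ] A) (l : L) : pin p ty (X - Y) l = pin p ty X l - pin p ty Y l := by
  simp only [pin, act_sub, Finset.sum_sub_distrib]

theorem pin_sum {I : Type*} (s : Finset I) (c : I → ℂ) (X : I → A →L[ℂ] A) (l : L) :
    pin p ty (∑ i ∈ s, c i • X i) l = ∑ i ∈ s, c i • pin p ty (X i) l := by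
  simp only [pin, act_sum, act_smul, Finset.smul_sum]
  exact Finset.sum_comm

theorem pin_mod (h : Parts p ty) (X : A →L[ℂ] A) {a : ι} {l : L} (ha : ty a = l) (x : A) :
    pin p ty X l (x * p a) = X (x * p a) * p a ∧ pin p ty X l x * p a = X (x * p a) * p a := by
  have hm : a ∈ Finset.univ.filter fun a => ty a = l := by simpa using ha
  rw [pin_apply _ _ _ h, pin_apply _ _ _ h, Finset.sum_mul, Finset.sum_eq_single_of_mem a hm,
    Finset.sum_eq_single_of_mem a hm, mul_assoc, mul_assoc, (h.proj a).2]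
  · exact ⟨rfl, rfl⟩
  · intro b hb hne
    rw [mul_assoc, h.orth b a ((Finset.mem_filter.1 hb).2.trans ha.symm) hne, mul_zero]
  · intro b hb hne
    rw [mul_assoc, h.orth a b (ha.trans (Finset.mem_filter.1 hb).2.symm) hne.symm, mul_zero,
      map_zero, zero_mul]

theorem pin_pin (h : Parts p ty) (X : A →L[ℂ] A) (l : L) :
    pin p ty (pin p ty X l) l = pin p ty X l := by
  ext x
  rw [pin_apply _ _ _ h, pin_apply X _ _ h]
  refine Finset.sum_congr rfl fun a ha => ?_
  rw [(pin_mod h X (Finset.mem_filter.1 ha).2 x).1, mul_assoc, (h.proj a).2]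

variable (p ty) in
/-- the forward average -/
noncomputable def Phi (n : ℕ) (ν : ℕ → ℝ) (c : List L) (θ : A →L[ℂ] A) : A →L[ℂ] A :=
  ∑ k ∈ Finset.range n, (ν k : ℂ) • (rep c (k + 1)).foldl (pin p ty) θ

variable (p ty) in
/-- the backward average -/
noncomputable def Psi (n : ℕ) (ν : ℕ → ℝ) (c : List L) (θ : A →L[ℂ] A) : A →L[ℂ] A :=
  ∑ k ∈ Finset.range n, (ν k : ℂ) • (rep c (k + 1)).reverse.foldl (pin p ty) θ

theorem pin_Phi (n : ℕ) (ν : ℕ → ℝ) (l : L) (c : List L) (θ : A →L[ℂ] A) :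
    pin p ty (Phi p ty n ν (l :: c) θ) l = Phi p ty n ν (c ++ [l]) (pin p ty θ l) := by
  rw [Phi, Phi, pin_sum]
  refine Finset.sum_congr rfl fun k _ => ?_
  rw [← List.foldl_cons, rep_rot, List.foldl_append]
  rfl

theorem pin_Psi (h : Parts p ty) (n : ℕ) (ν : ℕ → ℝ) (l : L) (c : List L) (θ : A →L[ℂ] A) :
    pin p ty (Psi p ty n ν (l :: c) θ) l = Psi p ty n ν (l :: c) θ := by
  rw [Psi, pin_sum]
  refine Finset.sum_congr rfl fun k _ => ?_
  rw [rep, List.cons_append, List.reverse_cons, List.foldl_append]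
  exact congrArg _ (pin_pin h _ l)

theorem Phi_Psi (fb : FbStmt.{u}) (h : Parts p ty) {n : ℕ} {ν : ℕ → ℝ} {η η' K : ℝ}
    (hη' : 0 ≤ η') (h0 : ∀ k, 0 ≤ ν k) (h1 : ∑ k ∈ Finset.range n, ν k = 1)
    (h2 : ∀ t : ℝ, |∑ k ∈ Finset.range n, ν k * Real.sin ((k + 1) * t)| ≤ η') {c : List L}
    {θ : A →L[ℂ] A} (hθ : ‖θ‖ ≤ K)
    (hd : ∀ k < n, ∀ t, t = rep c (k + 1) ∨ t = (rep c (k + 1)).reverse → ∀ x y,
      ‖𝔼 ε : ι → Bool, T.τ (act (wW p ty t ε) θ x * y) - T.τ (t.foldl (pin p ty) θ x * y)‖ ≤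
        η * ‖x‖ * ‖y‖) :
    Sm T (2 * η' * K + 2 * η) (Phi p ty n ν c θ - Psi p ty n ν c θ) := by
  intro x y
  set a : ℕ → (ι → Bool) → ℂ := fun k ε => T.τ (act (wW p ty (rep c (k + 1)) ε) θ x * y)
  set b : ℕ → (ι → Bool) → ℂ := fun k ε => T.τ (act (wW p ty (rep c (k + 1)).reverse ε) θ x * y)
  set a' : ℕ → ℂ := fun k => T.τ ((rep c (k + 1)).foldl (pin p ty) θ x * y)
  set b' : ℕ → ℂ := fun k => T.τ ((rep c (k + 1)).reverse.foldl (pin p ty) θ x * y)
  have e : T.τ ((Phi p ty n ν c θ - Psi p ty n ν c θ) x * y) =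
      𝔼 ε : ι → Bool, ∑ k ∈ Finset.range n, ν k * (a k ε - b k ε) +
        ∑ k ∈ Finset.range n, ν k * ((𝔼 ε, b k ε - b' k) - (𝔼 ε, a k ε - a' k)) := by
    rw [Finset.expect_sum_comm, ← Finset.sum_add_distrib]
    simp only [Phi, Psi, ContinuousLinearMap.sub_apply, ContinuousLinearMap.sum_apply,
      ContinuousLinearMap.smul_apply, sub_mul, Finset.sum_mul, map_sub, map_sum, smul_mul_assoc,
      map_smul, smul_eq_mul, ← Finset.sum_sub_distrib]
    refine Finset.sum_congr rfl fun k _ => ?_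
    rw [← Finset.mul_expect, Finset.expect_sub_distrib]
    ring
  have e1 : ‖𝔼 ε : ι → Bool, ∑ k ∈ Finset.range n, ν k * (a k ε - b k ε)‖ ≤
      2 * η' * K * ‖x‖ * ‖y‖ := by
    refine (RCLike.norm_expect_le (K := ℂ)).trans (Finset.expect_le Finset.univ_nonempty
      fun ε _ => ?_)
    have := fb T θ _ (wW_unit h c ε) n ν η' h2 x y
    simp only [a, b, wW_reverse h, wW_rep, star_pow]
    exact this.trans (by gcongr)
  have e2 : ‖∑ k ∈ Finset.range n, ν k * ((𝔼 ε, b k ε - b' k) - (𝔼 ε, a k ε - a' k))‖ ≤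
      2 * η * ‖x‖ * ‖y‖ := by
    calc _ ≤ ∑ k ∈ Finset.range n, ν k * (2 * η * ‖x‖ * ‖y‖) := by
          refine (norm_sum_le _ _).trans (Finset.sum_le_sum fun k hk => ?_)
          rw [norm_mul, Complex.norm_real, Real.norm_of_nonneg (h0 k)]
          refine mul_le_mul_of_nonneg_left ((norm_sub_le _ _).trans ?_) (h0 k)
          have := hd k (Finset.mem_range.1 hk) _ (Or.inl rfl) x y
          have := hd k (Finset.mem_range.1 hk) _ (Or.inr rfl) x y
          linarith
      _ = _ := by rw [← Finset.sum_mul, h1, one_mul]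
  rw [e]
  refine (norm_add_le _ _).trans ?_
  linarith

theorem chain_rot {R : L → L → Prop} {l : L} {c : List L} (h : ∀ k, (rep (l :: c) k).IsChain R)
    (k : ℕ) : (rep (c ++ [l]) k).IsChain R := by
  have := h (k + 1)
  rw [rep_succ', show rep (l :: c) k ++ l :: c = rep (l :: c) k ++ [l] ++ c by simp,
    ← rep_rot] at this
  exact this.left_of_append.tail

theorem near_pin (h : Parts p ty) {n m : ℕ} {ν : ℕ → ℝ} {β K : ℝ} {R : L → L → Prop}
    (hs : ∀ c : List L, c.length = m → (∀ k, (rep c k).IsChain R) → ∀ θ, Cls T K θ →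
      Sm T β (Phi p ty n ν c θ - Psi p ty n ν c θ)) (l : L) (c₁ : List L) :
    ∀ c₂ : List L, (c₁ ++ l :: c₂).length = m → (∀ k, (rep (c₁ ++ l :: c₂) k).IsChain R) →
      ∀ θ, Cls T K θ →
      ∃ X, Sm T ((c₁.length + 1) * (2 * β)) (Phi p ty n ν (c₁ ++ l :: c₂) θ - pin p ty X l) := by
  have step : ∀ (l : L) (c : List L), (l :: c).length = m → (∀ k, (rep (l :: c) k).IsChain R) →
      ∀ θ, Cls T K θ → Sm T (2 * β) (Phi p ty n ν (l :: c) θ - pin p ty (Phi p ty n ν (l :: c) θ) l) := by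
    intro l c hc hR θ hθ
    have h1 := hs _ hc hR θ hθ
    have h2 := (stab_Sm β).pin h h1.symm l
    rw [pin_sub, pin_Psi h] at h2
    rw [two_mul]
    exact h1.tri h2
  induction c₁ with
  | nil => exact fun c₂ hc hR θ hθ => ⟨_, by simpa using step l c₂ hc hR θ hθ⟩
  | cons l₀ c₁ ih =>
    intro c₂ hc hR θ hθ
    have h1 := step l₀ _ hc hR θ hθ
    rw [pin_Phi] at h1
    have e : c₁ ++ l :: (c₂ ++ [l₀]) = (c₁ ++ l :: c₂) ++ [l₀] := by simp
    obtain ⟨X, hX⟩ := ih (c₂ ++ [l₀]) (by rw [e, ← hc]; simp [add_assoc]) (by rw [e]; exact chain_rot hR) _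
      ((stab_Cls K).pin h hθ l₀)
    rw [e] at hX
    refine ⟨X, (h1.tri hX).mono (le_of_eq ?_)⟩
    rw [List.length_cons]; push_cast; ring

end Signs

theorem chain_flat {B : Type} (gs : List B) (g₀ : B) :
    ((g₀, true) :: gs.flatMap fun g => [(g, false), (g, true)]).IsChain fun a b => a.2 ≠ b.2 := by
  induction gs generalizing g₀ with
  | nil => simp
  | cons g gs ih =>
    rw [List.flatMap_cons]
    exact .cons_cons (by simp) (.cons_cons (by simp) (ih g))

theorem rep_flat {B C : Type} (gs : List B) (f : B → List C) (k : ℕ) :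
    rep (gs.flatMap f) k = (rep gs k).flatMap f := by
  induction k with
  | zero => rfl
  | succ k ih => rw [rep, rep, ih, List.flatMap_append]

end Key

open Key in
theorem key (fb : FbStmt.{u}) (nu : NuStmt) (dec : DecStmt.{u}) (inc : IncStmt.{u}) :
    KeyStmt.{u} := by
  intro A _ T hT E J _ θ K hθ s hs ε hε
  classical
  rcases isEmpty_or_nonempty J with hJ | ⟨⟨j₀⟩⟩
  · exact ⟨θ, avg_self (one_mem _) θ, fun j => hJ.elim j⟩
  have hK : 0 ≤ K := (norm_nonneg _).trans (hθ j₀).1
  let c : List (Fin s.card × Bool) :=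
    (List.finRange s.card).flatMap fun g => [(g, false), (g, true)]
  have hc : ∀ k, (rep c k).IsChain fun a b => a.2 ≠ b.2 := fun k => by
    rw [rep_flat]
    rcases h : rep (List.finRange s.card) k with _ | ⟨g, gs⟩
    · simp
    · exact (chain_flat (g :: gs) g).tail
  set m := c.length with hm
  set η := ε / (4 * (m + 1) * (2 * K + 2)) with hη
  have hη0 : 0 < η := by positivity
  obtain ⟨n, ν, h0, h1, h2⟩ := nu η hη0
  obtain ⟨δ, hδ, hdec⟩ := dec (n * m) K η hη0
  obtain ⟨ι, _, _, p, ty, hp, hP, hI⟩ := inc T hT E (L := Fin s.card × Bool) Prod.snd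
    (fun l => (s.equivFin.symm l.1 : A)) (fun l => hs _ (s.equivFin.symm l.1).2) (n * m) δ hδ
  refine ⟨fun j => Phi p ty n ν c (θ j), avg_sum _ ν (fun k _ => h0 k) h1
    (fun k j => (rep c (k + 1)).foldl (pin p ty) (θ j)) fun k _ => fold_avg hp _ θ,
    fun j g hg x y => ?_⟩
  obtain ⟨c₁, c₂, e⟩ := List.append_of_mem (show (s.equivFin ⟨g, hg⟩, false) ∈ c from
    List.mem_flatMap.2 ⟨_, List.mem_finRange _, List.mem_cons_self⟩)
  obtain ⟨X, hX⟩ := near_pin (T := T) hp (n := n) (m := m) (ν := ν) (β := 2 * η * K + 2 * η) (K := K)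
    (R := fun a b => a.2 ≠ b.2) (fun c' hc' hR θ' hθ' => Phi_Psi fb hp hη0.le h0 h1 h2 hθ'.1 (by
      intro k hk t ht
      have hl : t.length ≤ n * m := by
        have : t.length = (k + 1) * m := by
          rcases ht with rfl | rfl <;> simp [length_rep, hc']
        rw [this]
        exact Nat.mul_le_mul_right m hk
      refine hdec T p ty hp θ' hθ'.2.1 hθ'.2.2 t hl (hI t hl ?_)
      rcases ht with rfl | rfl
      · exact hR _
      · exact List.isChain_reverse.2 ((hR _).imp fun _ _ h => h.symm)))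
    _ c₁ c₂ (by rw [← e]) (by rw [← e]; exact hc) _ (hθ j)
  rw [← e] at hX
  obtain ⟨S, hS, hS'⟩ := hP (s.equivFin ⟨g, hg⟩, false)
  simp only [Equiv.symm_apply_apply] at hS'
  set Q := g * E.e 0 0 * star g with hQ
  have hQ1 : ‖Q‖ ≤ 1 := by
    refine norm_mul_one' (norm_mul_one' (norm_unit (hs g hg)) (Proj.norm ⟨E.star_e 0 0, ?_⟩))
      (norm_unit (Unitary.star_mem (hs g hg)))
    rw [E.mul_e, if_pos rfl]
  have hmod : pin p ty X (s.equivFin ⟨g, hg⟩, false) (x * Q) =
      pin p ty X (s.equivFin ⟨g, hg⟩, false) x * Q := by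
    rw [← hS', Finset.mul_sum, Finset.mul_sum, map_sum]
    exact Finset.sum_congr rfl fun a ha =>
      (pin_mod hp X (hS a ha) x).1.trans (pin_mod hp X (hS a ha) x).2.symm
  have hlen : (c₁.length : ℝ) + 1 ≤ m + 1 := by
    have : c₁.length ≤ m := by rw [hm, e]; simp
    exact_mod_cast Nat.succ_le_succ this
  have hX' : Sm T (ε / 2) _ := hX.mono (by
    calc _ ≤ ((m : ℝ) + 1) * (2 * (2 * η * K + 2 * η)) := by gcongr
      _ = ε / 2 := by rw [hη]; field_simp; ring)
  set D := Phi p ty n ν c (θ j) - pin p ty X (s.equivFin ⟨g, hg⟩, false) with hD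
  have e2 : (Phi p ty n ν c (θ j) (x * Q) - Phi p ty n ν c (θ j) x * Q) * y =
      D (x * Q) * y - D x * (Q * y) := by
    simp only [hD, ContinuousLinearMap.sub_apply, hmod]; noncomm_ring
  rw [e2, map_sub]
  refine (norm_sub_le _ _).trans ?_
  have a1 := hX' (x * Q) y
  have a2 := hX' x (Q * y)
  have a3 : ‖x * Q‖ ≤ ‖x‖ := (norm_mul_le _ _).trans (mul_le_of_le_one_right (norm_nonneg _) hQ1)
  have a4 : ‖Q * y‖ ≤ ‖y‖ := (norm_mul_le _ _).trans (mul_le_of_le_one_left (norm_nonneg _) hQ1)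
  have a5 : ε / 2 * ‖x * Q‖ * ‖y‖ ≤ ε / 2 * ‖x‖ * ‖y‖ := by gcongr
  have a6 : ε / 2 * ‖x‖ * ‖Q * y‖ ≤ ε / 2 * ‖x‖ * ‖y‖ := by gcongr
  linarith

end Crest.Agent.KR
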