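import Crest.Agent.KR.Kit1
/-! The von Neumann algebra toolkit, part 2. -/
set_option autoImplicit false
set_option linter.deprecated false
namespace Crest.Agent.KR
open scoped InnerProductSpace ComplexConjugate
open Filter Topology Crest.Agent.GP VN

universe u

variable {A : Type u} [CStarAlgebra A] {H : Type u} [NormedAddCommGroup H]
  [InnerProductSpace ℂ H] [CompleteSpace H] (ρ : A →⋆ₐ[ℂ] (H →L[ℂ] H))

namespace Kt

theorem layer0 {M : VonNeumannAlgebra H} {δ : ℝ} (hδ : 0 < δ) (m : ℕ) : ∀ h ∈ M, 0 ≤ h →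
    h ≤ ((m + 1) * δ : ℝ) • (1 : H →L[ℂ] H) → ∃ e : Fin m → (H →L[ℂ] H), (∀ i, e i ∈ M) ∧
      (∀ i, Proj (e i)) ∧ (∀ i b, h * b = 0 → e i * b = 0) ∧ 0 ≤ h - δ • ∑ i, e i ∧
      h - δ • ∑ i, e i ≤ δ • (1 : H →L[ℂ] H) := by
  induction m with
  | zero =>
    intro h _ h0 h1
    exact ⟨fun i => i.elim0, fun i => i.elim0, fun i => i.elim0, fun i => i.elim0, by simpa using h0,
      by simpa using h1⟩
  | succ m ih =>
    intro h hM h0 h1
    have hs : star h = h := (IsSelfAdjoint.of_nonneg h0).star_eq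
    have hsm : ∀ (r : ℝ) {x : H →L[ℂ] H}, x ∈ M → r • x ∈ M := fun r x hx => by
      rw [← Complex.coe_smul]; exact smul_mem _ hx
    obtain ⟨e, heM, he, hc, h2, h3, -⟩ := exists_spec (a := h - δ • 1)
      (sub_mem hM (hsm _ (one_mem M))) (by simp [hs])
    have hc' : h * e = e * h := hc h (by simp [mul_sub, sub_mul]) (by simp [hs, mul_sub, sub_mul])
    have p2 : 0 ≤ e * (h - δ • 1) := h2 ▸ CFC.posPart_nonneg _
    have p3 : 0 ≤ -((1 - e) * (h - δ • 1)) := by rw [h3, neg_neg]; exact CFC.negPart_nonneg _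
    have hee : ∀ x, e * (e * x) = e * x := fun x => by rw [← mul_assoc, he.2]
    have hz : ∀ b, h * b = 0 → e * b = 0 := by
      intro b hb
      have q1 := star_left_conjugate_nonneg p2 b
      have q2 : star b * (e * (h - δ • 1)) * b = -(δ • (star (e * b) * (e * b))) := by
        simp only [mul_sub, sub_mul, mul_assoc, hb, mul_zero, star_mul, he.1, hee, smul_mul_assoc,
          mul_smul_comm, mul_one, zero_sub]
      rw [q2, neg_nonneg] at q1
      have q3 : 0 ≤ δ • (star (e * b) * (e * b)) := smul_nonneg hδ.le (star_mul_self_nonneg _)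
      have q4 := le_antisymm q1 q3
      rw [smul_eq_zero, CStarRing.star_mul_self_eq_zero_iff] at q4
      exact q4.resolve_left hδ.ne'
    obtain ⟨f, f1, f2, f3, f4, f5⟩ := ih (h - δ • e) (sub_mem hM (hsm _ heM)) (by
      have q1 := star_left_conjugate_nonneg h0 (1 - e)
      have q2 : h - δ • e = star (1 - e) * h * (1 - e) + e * (h - δ • 1) := by
        simp only [star_sub, star_one, he.1, mul_sub, sub_mul, mul_assoc, hc', hee, mul_smul_comm,
          mul_one, one_mul]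
        abel
      rw [q2]
      exact add_nonneg q1 p2) (by
      have q1 := star_left_conjugate_nonneg (sub_nonneg.2 h1) e
      have q0 : 0 ≤ (m * δ : ℝ) • (1 - e) :=
        smul_nonneg (by positivity) (by
          have := star_mul_self_nonneg (1 - e)
          rwa [he.compl.1, he.compl.2] at this)
      rw [← sub_nonneg]
      have q2 : ((m + 1) * δ : ℝ) • (1 : H →L[ℂ] H) - (h - δ • e) = -((1 - e) * (h - δ • 1)) +
          (m * δ : ℝ) • (1 - e) +
          star e * ((((m + 1 : ℕ) + 1) * δ : ℝ) • (1 : H →L[ℂ] H) - h) * e := by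
        simp only [he.1, mul_sub, sub_mul, mul_assoc, hc', hee, mul_smul_comm, smul_mul_assoc,
          mul_one, one_mul, he.2, Nat.cast_add, Nat.cast_one]
        module
      rw [q2]
      exact add_nonneg (add_nonneg p3 q0) q1)
    refine ⟨Fin.cons e f, ?_, ?_, ?_, ?_, ?_⟩
    · exact fun i => Fin.cases heM f1 i
    · exact fun i => Fin.cases he f2 i
    · exact fun i => Fin.cases hz (fun i b hb => f3 i b (by
        rw [sub_mul, smul_mul_assoc, hb, hz b hb, smul_zero, sub_zero])) i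
    · simpa only [Fin.sum_univ_succ, Fin.cons_zero, Fin.cons_succ, smul_add, ← sub_sub] using f4
    · simpa only [Fin.sum_univ_succ, Fin.cons_zero, Fin.cons_succ, smul_add, ← sub_sub] using f5

end Kt
open Kt

theorem kit_polar (hV : VN ρ) : ∀ a : A, ∃ v h k : A, h = star k * k ∧ v * h = a ∧ star v * a = h ∧
    v * star v * v = v ∧ (∀ b, a * b = 0 → v * b = 0) ∧ ∀ b, b * a = 0 → b * v = 0 := by
  intro a
  obtain ⟨v, hv, h, hh, h0, -, h1, h2, h3, h4, h5⟩ := polar (rho_mem hV a)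
  obtain ⟨v, rfl⟩ := (mem_vM hV).1 hv
  obtain ⟨k, hk⟩ := (mem_vM hV).1 (cfc_mem' Real.sqrt hh)
  obtain ⟨h, rfl⟩ := (mem_vM hV).1 hh
  refine ⟨v, h, k, hV.inj ?_, hV.inj (by rw [map_mul, h1]), hV.inj (by rw [map_mul, map_star, h5]),
    hV.inj (by rw [map_mul, map_mul, map_star, h2]), fun b hb => zero_of hV ?_,
    fun b hb => zero_of hV ?_⟩
  · have hk0 : 0 ≤ ρ k := hk ▸ cfc_nonneg fun t _ => Real.sqrt_nonneg t
    rw [map_mul, map_star, (IsSelfAdjoint.of_nonneg hk0).star_eq, hk, ← cfc_mul ..]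
    conv_lhs => rw [← cfc_id' ℝ (ρ h)]
    exact cfc_congr fun t ht => (Real.mul_self_sqrt (spectrum_nonneg_of_nonneg h0 ht)).symm
  · have : rp (star (ρ a)) * ρ b = 0 := sp_mul_zero (by
      rintro _ rfl
      rw [star_star, ← map_mul, hb, map_zero])
    rw [map_mul, ← h2, mul_assoc (ρ v), h3, mul_assoc, this, mul_zero]
  · have : ρ b * rp (ρ a) = 0 := mul_rp (by rw [← map_mul, hb, map_zero])
    rw [map_mul, ← h2, h4, ← mul_assoc, this, zero_mul]

theorem kit_layer (hV : VN ρ) : ∀ (k : A) (δ : ℝ), 0 < δ → ∃ (n : ℕ) (e : Fin n → A),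
    (∀ i, Proj (e i)) ∧ (∀ i b, k * b = 0 → e i * b = 0) ∧
      ‖star k * k - (δ : ℂ) • ∑ i, e i‖ ≤ δ := by
  intro k δ hδ
  have h0 : 0 ≤ ρ (star k * k) := by rw [map_mul, map_star]; exact star_mul_self_nonneg _
  obtain ⟨m, hm⟩ := exists_nat_ge (‖ρ (star k * k)‖ / δ)
  obtain ⟨e, e1, e2, e3, e4, e5⟩ := layer0 hδ m _ (rho_mem hV (star k * k)) h0 (by
    rw [← Algebra.algebraMap_eq_smul_one, ← CStarAlgebra.norm_le_iff_le_algebraMap _ (by positivity) h0]
    rw [div_le_iff₀ hδ] at hm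
    linarith)
  choose f hf using fun i => (mem_vM hV).1 (e1 i)
  refine ⟨m, f, fun i => proj_of hV (hf i ▸ e2 i), fun i b hb => zero_of hV ?_, ?_⟩
  · rw [map_mul, hf]
    exact e3 i _ (by rw [← map_mul, mul_assoc, hb, mul_zero, map_zero])
  · rw [← Algebra.algebraMap_eq_smul_one, ← CStarAlgebra.norm_le_iff_le_algebraMap _ hδ.le e4] at e5
    rw [← norm_rho hV, map_sub, map_smul, map_sum]
    simpa only [hf, Complex.coe_smul] using e5

theorem kit (hV : VN ρ) : Kit ρ :=
  ⟨kit_pre ρ hV, kit_cyc ρ hV, kit_polar ρ hV, kit_supp ρ hV, kit_sum ρ hV, kit_layer ρ hV⟩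

end Crest.Agent.KR
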