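import Crest.Agent.KR.H8
import Crest.Agent.KS.Part
/-! Kadison–Ringrose cohomology: `L²`-boundedness after averaging. -/
set_option autoImplicit false
set_option linter.deprecated false
namespace Crest.Agent.KR
open scoped InnerProductSpace ComplexConjugate BigOperators
open Filter Topology Crest.Agent.GP Crest.Agent.KS Crest.OpAlg H8

universe u

namespace L2P
variable {A : Type u} [CStarAlgebra A] {T : Tr A} {ι : Type} [Fintype ι] [DecidableEq ι]

/-- the conditional expectation onto the commutant of the matrix units -/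
noncomputable def ce (E : MU A ι) (X : A) : A :=
  (Fintype.card ι : ℂ)⁻¹ • ∑ c, ∑ b, E.e c b * X * E.e b c

theorem e_mul_ce (E : MU A ι) (X : A) (i j : ι) :
    E.e i j * ce E X = (Fintype.card ι : ℂ)⁻¹ • ∑ b, E.e i b * X * E.e b j := by
  rw [ce, mul_smul_comm, Finset.mul_sum, Finset.sum_eq_single j]
  · simp only [Finset.mul_sum, ← mul_assoc, E.mul_e, if_true]
  · intro c _ hc
    simp only [Finset.mul_sum, ← mul_assoc, E.mul_e, if_neg (Ne.symm hc), zero_mul,
      Finset.sum_const_zero]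
  · simp

theorem ce_mul_e (E : MU A ι) (X : A) (i j : ι) :
    ce E X * E.e i j = (Fintype.card ι : ℂ)⁻¹ • ∑ b, E.e i b * X * E.e b j := by
  rw [ce, smul_mul_assoc, Finset.sum_mul, Finset.sum_eq_single i]
  · simp only [Finset.sum_mul, mul_assoc, E.mul_e, if_true]
  · intro c _ hc
    simp only [Finset.sum_mul, mul_assoc, E.mul_e, if_neg hc, mul_zero, Finset.sum_const_zero]
  · simp

theorem ce_mem (E : MU A ι) (X : A) : ce E X ∈ Part.Cen E :=
  (Part.mem_Cen E).2 fun i j => by rw [e_mul_ce, ce_mul_e]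

theorem tau_ce [Nonempty ι] (E : MU A ι) (X : A) {z : A} (hz : ∀ y, z * y = y * z) :
    T.τ (ce E X * z) = T.τ (X * z) := by
  have h1 : ∀ c b, T.τ (E.e c b * X * E.e b c * z) = T.τ (X * z * E.e b b) := fun c b => by
    rw [mul_assoc, mul_assoc, T.comm, ← hz, mul_assoc, mul_assoc, E.mul_e, if_pos rfl, mul_assoc]
  have hc : (Fintype.card ι : ℂ) ≠ 0 := by simp
  simp only [ce, smul_mul_assoc, Finset.sum_mul, map_smul, map_sum, h1]
  have h2 : ∑ b, T.τ (X * z * E.e b b) = T.τ (X * z) := by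
    rw [← map_sum, ← Finset.mul_sum, E.sum_e, mul_one]
  simp [h2, hc]

theorem n_ez (E : MU A ι) (o : ι) {z : A} (hz : CP z) :
    Fintype.card ι * T.n (E.e o o * z) ^ 2 = (T.τ z).re := by
  rw [← n_proj T hz.1, n_split T (fun b => E.e b o)
    (by simp only [E.star_e, E.mul_e, if_true, E.sum_e]) z]
  have : ∀ b, T.n (z * E.e b o) = T.n (z * E.e o o) := fun b => T.n_eq_of (by
    have h : ∀ b, star (z * E.e b o) * (z * E.e b o) = E.e o o * z := fun b => by
      rw [star_mul, E.star_e, hz.1.1, mul_assoc, ← mul_assoc z, hz.1.2, hz.2, ← mul_assoc, E.mul_e,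
        if_pos rfl]
    rw [h, h])
  rw [← hz.2]
  simp [this]

theorem est1 (hgt : Gt2Stmt.{u}) (E : MU A ι) (o : ι) {n : ℕ} {w : Fin n → ℝ}
    {u : Fin n → A} (h0 : ∀ k, 0 ≤ w k) (h1 : ∑ k, w k = 1) (hu : ∀ k, u k ∈ unitary A)
    (hu' : ∀ k, u k ∈ Part.Cen E) (θ : A →L[ℂ] A) {M : ℝ} (hM : ‖θ‖ ≤ M)
    (hc : ∀ y, ∀ b ∈ cen A, θ (y * b) = θ y * b) (he : ∀ y b, θ (y * E.e b o) = θ y * E.e b o)
    (x : A) {z : A} (hz : CP z) :
    T.n ((∑ k, (w k : ℂ) • act (u k) θ) x * z) ^ 2 ≤ 2 * M ^ 2 * (T.τ z).re *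
      (‖x‖ ^ 2 / Fintype.card ι +
        ‖(∑ k, (w k : ℂ) • (u k * ce E (star x * x) * star (u k))) * z‖) := by
  have M0 : 0 ≤ M := (norm_nonneg _).trans hM
  haveI : Nonempty ι := ⟨o⟩
  have hn : (0 : ℝ) < Fintype.card ι := by exact_mod_cast Fintype.card_pos
  have hn' : (Fintype.card ι : ℂ) ≠ 0 := by simp
  have a2 := hgt T (LinearMap.mulRight ℂ (E.e o o * z) ∘ₗ θ.toLinearMap) (M * T.n (E.e o o * z))
    (mul_nonneg M0 (T.n_nonneg _)) (fun b => by
      rw [mul_right_comm]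
      exact T.n_l ((θ.le_opNorm b).trans (by gcongr)) le_rfl)
    (fun p : Fin n × ι => ((√(w p.1) : ℝ) : ℂ) • (x * star (u p.1) * E.e p.2 o * z))
  simp only [sqrt_mul_star (h0 _), star_mul_sqrt (h0 _), map_smul, n_sqrt_smul T (h0 _),
    Fintype.sum_prod_type, LinearMap.comp_apply, LinearMap.mulRight_apply,
    ContinuousLinearMap.coe_coe] at a2
  have e1 : ∑ k, ∑ b, (w k : ℂ) • (x * star (u k) * E.e b o * z *
      star (x * star (u k) * E.e b o * z)) = x * star x * z := by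
    have h2 : ∀ k b, x * star (u k) * E.e b o * z * star (x * star (u k) * E.e b o * z) =
        x * star (u k) * E.e b b * (u k * star x * z) := fun k b => by
      simp only [star_mul, star_star, E.star_e, hz.1.1]
      rw [mul_assoc _ z, ← mul_assoc z z, hz.1.2, hz.2]
      simp only [mul_assoc]
      rw [← mul_assoc (E.e b o), E.mul_e, if_pos rfl]
    have h3 : ∀ k, x * star (u k) * (u k * star x * z) = x * star x * z := fun k => by
      simp only [mul_assoc]
      rw [← mul_assoc (star (u k)), (hu k).1, one_mul]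
    simp only [h2, ← Finset.smul_sum, ← Finset.sum_mul, ← Finset.mul_sum, E.sum_e, mul_one, h3,
      ← Finset.sum_smul]
    rw [← Complex.ofReal_sum, h1]; simp
  have e2 : ∑ k, ∑ b, (w k : ℂ) • (star (x * star (u k) * E.e b o * z) *
      (x * star (u k) * E.e b o * z)) = (Fintype.card ι : ℂ) • (E.e o o *
      ((∑ k, (w k : ℂ) • (u k * ce E (star x * x) * star (u k))) * z)) := by
    simp only [Finset.mul_sum, Finset.sum_mul, Finset.smul_sum, smul_mul_assoc, mul_smul_comm]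
    refine Finset.sum_congr rfl fun k _ => ?_
    have c1 := (Part.mem_Cen E).1 (hu' k)
    have c2 := (Part.mem_Cen E).1 (star_mem (hu' k))
    rw [smul_comm, ← Finset.smul_sum]
    congr 1
    rw [← mul_assoc, ← mul_assoc, ← mul_assoc, c1, mul_assoc (u k), e_mul_ce, mul_smul_comm,
      smul_mul_assoc, smul_mul_assoc, smul_smul, mul_inv_cancel₀ hn', one_smul, Finset.mul_sum,
      Finset.sum_mul, Finset.sum_mul]
    refine Finset.sum_congr rfl fun b _ => ?_
    simp only [star_mul, star_star, E.star_e, hz.1.1]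
    rw [mul_assoc z, hz.2, mul_assoc x, ← c2]
    simp only [mul_assoc, hz.1.2]
    rw [← mul_assoc (E.e o b), c1, mul_assoc]
  rw [e1, e2] at a2
  have a4 : T.n ((∑ k, (w k : ℂ) • act (u k) θ) x * z) ^ 2 ≤
      ∑ k, ∑ b, w k * T.n (θ (x * star (u k) * E.e b o * z) * (E.e o o * z)) ^ 2 := by
    have := n_conv T w h0 h1 fun k => θ (x * star (u k)) * z * u k
    simp only [T.n_unit_r (hu _).2] at this
    refine le_trans (le_of_eq ?_) (this.trans (le_of_eq ?_))
    · simp only [ContinuousLinearMap.sum_apply, ContinuousLinearMap.smul_apply, act_apply,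
        Finset.sum_mul, smul_mul_assoc, mul_assoc, hz.2]
    · refine Finset.sum_congr rfl fun k _ => ?_
      rw [n_split T (fun b => E.e b o) (by simp only [E.star_e, E.mul_e, if_true, E.sum_e]),
        Finset.mul_sum]
      refine Finset.sum_congr rfl fun b _ => ?_
      rw [hc _ z hz.2, he, mul_assoc _ z (E.e o o * z), hz.2 (E.e o o * z), mul_assoc (E.e o o),
        hz.1.2, mul_assoc _ z, hz.2, mul_assoc _ (E.e b o), ← mul_assoc (E.e b o), E.mul_e,
        if_pos rfl]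
  refine a4.trans (a2.trans ?_)
  have b1 : ‖x * star x * z‖ ≤ ‖x‖ ^ 2 :=
    (norm_mul_le' le_rfl hz.1.norm).trans (by rw [CStarRing.norm_self_mul_star, mul_one, sq])
  have b2 : ‖(Fintype.card ι : ℂ) • (E.e o o *
      ((∑ k, (w k : ℂ) • (u k * ce E (star x * x) * star (u k))) * z))‖ ≤ Fintype.card ι *
      ‖(∑ k, (w k : ℂ) • (u k * ce E (star x * x) * star (u k))) * z‖ := by
    rw [norm_smul, Complex.norm_natCast]
    gcongr
    exact (norm_mul_le' (Proj.norm ⟨E.star_e o o, by rw [E.mul_e, if_pos rfl]⟩) le_rfl).trans_eq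
      (one_mul _)
  rw [← n_ez E o hz]
  calc _ ≤ 2 * (M * T.n (E.e o o * z)) ^ 2 * (‖x‖ ^ 2 + Fintype.card ι *
        ‖(∑ k, (w k : ℂ) • (u k * ce E (star x * x) * star (u k))) * z‖) := by gcongr
    _ = _ := by field_simp

theorem est2 (hcp : CpStmt.{u}) (hgt : Gt2Stmt.{u}) (hT : T.W) (E : MU A ι) (o : ι) {n : ℕ}
    {w : Fin n → ℝ} {u : Fin n → A} (h0 : ∀ k, 0 ≤ w k) (h1 : ∑ k, w k = 1)
    (hu : ∀ k, u k ∈ unitary A) (hu' : ∀ k, u k ∈ Part.Cen E) (θ : A →L[ℂ] A) {M : ℝ}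
    (hM : ‖θ‖ ≤ M) (hc : ∀ y, ∀ b ∈ cen A, θ (y * b) = θ y * b)
    (he : ∀ y b, θ (y * E.e b o) = θ y * E.e b o) (x : A) {c : A} (hcc : c ∈ cen A) {δ : ℝ}
    (hδ : 0 < δ) (h : ‖∑ k, (w k : ℂ) • (u k * ce E (star x * x) * star (u k)) - c‖ ≤ δ) :
    T.n ((∑ k, (w k : ℂ) • act (u k) θ) x) ^ 2 ≤ 2 * M ^ 2 *
      (‖x‖ ^ 2 / Fintype.card ι + 4 * δ + T.n x ^ 2) := by
  haveI : Nonempty ι := ⟨o⟩
  obtain ⟨J, _, z, β, z1, -, -, z4, z5⟩ := hcp T hT (fun _ : Unit => c) (fun _ => hcc) δ hδ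
  have hs : ∑ j, z j * star (z j) = 1 := by simp only [(z1 _).1.1, (z1 _).1.2, z4]
  have ht : ∑ j, (T.τ (z j)).re = 1 := by
    rw [← Complex.re_sum, ← map_sum, z4, T.one, Complex.one_re]
  rw [n_split T z hs, n_split T z hs x]
  have key : ∀ j, T.n ((∑ k, (w k : ℂ) • act (u k) θ) x * z j) ^ 2 ≤
      2 * M ^ 2 * ((‖x‖ ^ 2 / Fintype.card ι + 4 * δ) * (T.τ (z j)).re + T.n (x * z j) ^ 2) := by
    intro j
    refine (est1 hgt E o h0 h1 hu hu' θ hM hc he x (z1 j)).trans ?_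
    have t0 := tau_nonneg T (z1 j).1
    have b0 := tau_avg T w h1 u hu (ce E (star x * x)) (z1 j).2
    rw [tau_ce E _ (z1 j).2] at b0
    generalize ∑ k, (w k : ℂ) • (u k * ce E (star x * x) * star (u k)) = Y at h b0
    have b1 := norm_mul_tau T (z1 j) (z5 () j)
    have b2 := tau_mul_proj T (z1 j).1 (Y - c)
    rw [sub_mul, map_sub] at b2
    have b3 := norm_sub_le (T.τ (Y * z j)) (T.τ (Y * z j) - T.τ (c * z j))
    rw [sub_sub_cancel] at b3
    have b4 : ‖T.τ (Y * z j)‖ = T.n (x * z j) ^ 2 := by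
      have : star x * x * z j = star (x * z j) * (x * z j) := by
        rw [star_mul, (z1 j).1.1, mul_assoc (z j), (z1 j).2]
        simp only [mul_assoc, (z1 j).1.2]
      rw [b0, this, T.n_sq', Complex.norm_real, Real.norm_of_nonneg (sq_nonneg _)]
    have b5 : ‖Y * z j‖ ≤ δ + ‖c * z j‖ := by
      have := norm_add_le ((Y - c) * z j) (c * z j)
      rw [← add_mul, sub_add_cancel] at this
      have := norm_mul_le' h (z1 j).1.norm
      linarith
    have b6 := mul_le_mul_of_nonneg_right h t0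
    have b7 := mul_le_mul_of_nonneg_right b5 t0
    rw [mul_assoc (2 * M ^ 2)]
    refine mul_le_mul_of_nonneg_left ?_ (by positivity)
    linarith
  refine (Finset.sum_le_sum fun j _ => key j).trans (le_of_eq ?_)
  rw [← Finset.mul_sum, Finset.sum_add_distrib, ← Finset.mul_sum, ht, mul_one]

end L2P

open L2P in
theorem l2 (hmat : MatStmt.{u, 0}) (hnd : NdStmt.{u}) (hsub : SubStmt.{u}) (hcp : CpStmt.{u})
    (hgt : Gt2Stmt.{u}) : L2Stmt.{u} := by
  intro A _ T hT hB P hP J _ θ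
  set M := ∑ j, ‖θ j‖ with hM
  have hθ : ∀ j, ‖θ j‖ ≤ M := fun j =>
    Finset.single_le_sum (f := fun j => ‖θ j‖) (fun _ _ => norm_nonneg _) (Finset.mem_univ j)
  have M0 : 0 ≤ M := Finset.sum_nonneg fun _ _ => norm_nonneg _
  obtain ⟨θ', h1, h2⟩ := P.fip (G := unitary A) (θ := θ)
    (C := Option (J × A × {ε : ℝ // 0 < ε}))
    (fun c => c.elim {η | ModS (cen A) η} fun c =>
      {η | ∑ _i : Unit, T.n (1 * η c.1 c.2.1) ^ 2 ≤ 2 * M ^ 2 * T.n c.2.1 ^ 2 + c.2.2.1})
    (by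
      rintro (_ | c)
      · exact Pre.closed_modS _
      · exact hP.closed_sum (fun _ => c.1) (fun _ => c.2.1) (fun _ => 1) _) fun F => by
      obtain ⟨δ, hδ, hF⟩ := exists_small F.eraseNone (fun c => 2 * M ^ 2 * (‖c.2.1‖ ^ 2 + 4))
        (fun c => c.2.2.1) (fun _ => by positivity) fun c => c.2.2.2
      obtain ⟨m, hm⟩ := exists_nat_gt δ⁻¹
      obtain ⟨ι, _, _, E, hι⟩ := hB.2 m
      have hι' : δ⁻¹ < Fintype.card ι := hm.trans_le (by exact_mod_cast hι)
      have hι0 : (0 : ℝ) < Fintype.card ι := (inv_pos.2 hδ).trans hι'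
      obtain ⟨o⟩ : Nonempty ι := Fintype.card_pos_iff.1 (by exact_mod_cast hι0)
      let σ := (Fintype.equivFin ι).symm
      obtain ⟨θ₁, g1, g2, g3⟩ := hmat P (E.e o o) 1 ⟨⟨star_one _, one_mul _⟩, by simp⟩ _
        (fun i => E.e (σ i) o) (fun i j => by simp [E.star_e, E.mul_e]) (by
          simp only [E.star_e, E.mul_e, if_true]
          rw [σ.sum_comp fun i => E.e i i, E.sum_e]) θ
      obtain ⟨N, _, T₀, π, hT₀, hinj, -, hr⟩ := hsub T hT (Part.Cen E) (Tr.cl_centralizer hT _)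
      choose a ha using fun x : A => (hr _).1 (ce_mem E (star x * x))
      obtain ⟨n, w, u, c, h0, h1, hu, hc, h⟩ := nd' hnd hT₀ (fun c : F.eraseNone => a c.1.2.1) hδ
      have hu1 : ∀ k, π (u k) ∈ unitary A := fun k => by
        rw [Unitary.mem_iff, ← map_star, ← map_mul, ← map_mul, (hu k).1, (hu k).2, map_one]
        exact ⟨rfl, rfl⟩
      have hh := P.hull_of_avg subset_rfl
        (avg_sum _ w (fun k _ => h0 k) h1 _ fun k _ => avg_act (hu1 k) θ₁)
      refine ⟨_, g1.trans hh, ?_⟩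
      rintro (_ | t) ht
      · exact hh.modS_cen g2
      · have ht' : t ∈ F.eraseNone := Finset.mem_eraseNone.2 ht
        have hcc : π (c ⟨t, ht'⟩) ∈ cen A := fun y => by
          obtain ⟨d, hd, rfl⟩ := Part.dec E y
          simp only [Finset.sum_mul, Finset.mul_sum]
          refine Finset.sum_congr rfl fun i _ => Finset.sum_congr rfl fun j _ => ?_
          obtain ⟨d', hd'⟩ := (hr _).1 (hd i j)
          rw [← mul_assoc, ← (Part.mem_Cen E).1 ((hr _).2 ⟨_, rfl⟩), mul_assoc, mul_assoc, ← hd',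
            ← map_mul, ← map_mul, hc]
        have h3 := est2 hcp hgt hT E o h0 h1 hu1 (fun k => (hr _).2 ⟨_, rfl⟩) (θ₁ t.1)
          ((g1.1 _).trans (hθ _)) (g2 t.1) (fun y b => g3 t.1 y _ ⟨σ.symm b, σ.symm o, by
            simp [E.star_e, E.mul_e]⟩) t.2.1 hcc hδ (by
            have := h ⟨t, ht'⟩
            rw [← NonUnitalStarAlgHom.norm_map π hinj] at this
            simpa only [map_sub, map_sum, map_smul, map_mul, map_star, ha] using this)
        have h4 := hF t ht'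
        have h5 : ‖t.2.1‖ ^ 2 / Fintype.card ι ≤ ‖t.2.1‖ ^ 2 * δ := by
          rw [div_eq_mul_inv]
          gcongr
          exact inv_le_of_inv_le₀ hδ hι'.le
        have h6 := mul_le_mul_of_nonneg_left h5 (show 0 ≤ 2 * M ^ 2 by positivity)
        simp only [Option.elim, Set.mem_setOf_eq, Finset.univ_unique, Finset.sum_singleton, one_mul]
        linarith
  refine ⟨θ', 2 * M, h1, h2 none, fun j x => ?_⟩
  have h3 : T.n (θ' j x) ^ 2 ≤ 2 * M ^ 2 * T.n x ^ 2 :=
    le_of_forall_pos_le_add fun ε hε => by simpa using h2 (some (j, x, ⟨ε, hε⟩))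
  refine (pow_le_pow_iff_left₀ (T.n_nonneg _) (mul_nonneg (by positivity) (T.n_nonneg _))
    two_ne_zero).1 (h3.trans ?_)
  nlinarith [sq_nonneg (M * T.n x)]

end Crest.Agent.KR
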