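import Crest.Prelude.Def_Hochschild
/-! The cocycle identity with a distinguished last variable. -/
set_option autoImplicit false
namespace Crest.Agent.KR.Pr
open Crest.OpAlg Finset

variable {A : Type*} [Ring A]

theorem diff_snoc {n : ℕ} (f : (Fin (n + 1) → A) → A) (b : Fin (n + 1) → A) (y : A) :
    hochschildDiff f (Fin.snoc b y : Fin (n + 2) → A) =
      b 0 * f (Fin.snoc (fun i : Fin n => b i.succ) y) +
      ∑ j : Fin n, (-1 : ℤ) ^ (j.val + 1) • f (Fin.snoc (mergeArgs j b) y) +
      (-1 : ℤ) ^ (n + 1) • f (Fin.snoc (fun i : Fin n => b i.castSucc) (b (Fin.last n) * y)) +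
      (-1 : ℤ) ^ (n + 2) • (f b * y) := by
  have e1 : (fun i : Fin (n + 1) => (Fin.snoc b y : Fin (n + 2) → A) i.succ) =
      Fin.snoc (fun i : Fin n => b i.succ) y := by
    funext i
    refine Fin.lastCases ?_ (fun i => ?_) i
    · simp
    · rw [Fin.succ_castSucc, Fin.snoc_castSucc, Fin.snoc_castSucc]
  have e2 : ∀ j : Fin n, mergeArgs j.castSucc (Fin.snoc b y : Fin (n + 2) → A) =
      Fin.snoc (mergeArgs j b) y := fun j => by
    funext i
    refine Fin.lastCases ?_ (fun i => ?_) i
    · have := j.2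
      simp only [mergeArgs, Fin.val_last, Fin.val_castSucc, Fin.snoc_last]
      rw [if_neg (by omega), if_neg (by omega), Fin.succ_last, Fin.snoc_last]
    · simp only [mergeArgs, Fin.val_castSucc, Fin.snoc_castSucc, Fin.succ_castSucc]
  have e3 : mergeArgs (Fin.last n) (Fin.snoc b y : Fin (n + 2) → A) =
      Fin.snoc (fun i : Fin n => b i.castSucc) (b (Fin.last n) * y) := by
    funext i
    refine Fin.lastCases ?_ (fun i => ?_) i
    · simp [mergeArgs]
    · simp [mergeArgs]
  have e4 : (fun i : Fin (n + 1) => (Fin.snoc b y : Fin (n + 2) → A) i.castSucc) = b := by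
    funext i; simp
  have e5 : (Fin.snoc b y : Fin (n + 2) → A) 0 = b 0 := by
    rw [← Fin.castSucc_zero, Fin.snoc_castSucc]
  rw [hochschildDiff, Fin.sum_univ_castSucc, e1, e3, e4, e5, Fin.snoc_last]
  simp only [e2, Fin.val_castSucc, Fin.val_last, add_assoc]

theorem merge_map {n : ℕ} (σ : A → A) (hσ : ∀ a b, σ (a * b) = σ a * σ b) (j : Fin n)
    (a : Fin (n + 1) → A) : mergeArgs j (fun i => σ (a i)) = fun i => σ (mergeArgs j a i) := by
  funext i
  simp only [mergeArgs]
  split_ifs <;> simp [hσ]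

end Crest.Agent.KR.Pr
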