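import Crest.Agent.KR.Defs
import Crest.Agent.KR.Snoc
/-! A bimodule splitting kills the cohomology. -/
set_option autoImplicit false
namespace Crest.Agent.KR
open Crest.OpAlg

theorem diff_zsmul {A : Type*} [Ring A] {n : ℕ} (c : ℤ) (g : (Fin n → A) → A)
    (a : Fin (n + 1) → A) : hochschildDiff (fun x => c • g x) a = c • hochschildDiff g a := by
  simp only [hochschildDiff, smul_add, Finset.smul_sum, mul_smul_comm, smul_mul_assoc]
  congr 1
  · congr 1
    exact Finset.sum_congr rfl fun j _ => smul_comm _ _ _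
  · exact smul_comm _ _ _

theorem norm_sign {V : Type*} [SeminormedAddCommGroup V] (k : ℕ) (v : V) :
    ‖(-1 : ℤ) ^ k • v‖ = ‖v‖ := by
  rcases neg_one_pow_eq_or ℤ k with h | h <;> simp [h]

universe u

theorem lc1 : Lc1Stmt.{u} := by
  intro A _ z E hE n f hf
  let E' : (A →L[ℂ] A) →L[ℂ] A := LinearMap.mkContinuous
    { toFun := E, map_add' := hE.add, map_smul' := fun c θ => hE.smul θ c } 1 fun θ => by
      simpa using hE.norm θ
  have hE' : ∀ θ, E' θ = E θ := fun _ => rfl
  let θ := f.curryRight
  refine ⟨(-1 : ℤ) ^ (n + 1) • E'.compContinuousMultilinearMap θ, ?_, fun a => ?_⟩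
  · refine ContinuousMultilinearMap.opNorm_le_bound (norm_nonneg _) fun x => ?_
    rw [smul_apply, norm_sign]
    refine (hE.norm _).trans ((θ.le_opNorm x).trans_eq ?_)
    rw [ContinuousMultilinearMap.curryRight_norm]
  · have h1 : bim (a 0) 1 (θ fun i => a i.succ) +
        ∑ j : Fin n, (-1 : ℤ) ^ (j.val + 1) • θ (mergeArgs j a) +
        (-1 : ℤ) ^ (n + 1) • bim 1 (a (Fin.last n)) (θ fun i => a i.castSucc) +
        (-1 : ℤ) ^ (n + 2) • bim (f a) 1 (ContinuousLinearMap.id ℂ A) = 0 := by
      ext y
      have := Pr.diff_snoc f a y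
      rw [hf] at this
      simpa only [θ, ContinuousMultilinearMap.curryRight_apply, add_apply, smul_apply, bim_apply,
        sum_apply, one_mul, ContinuousLinearMap.id_apply, zero_apply] using this.symm
    have h2 := congrArg E' h1
    simp only [map_add, map_sum, map_zsmul, map_zero] at h2
    simp only [hE', hE.bim, hE.id, mul_one, one_mul] at h2
    have h3 : hochschildDiff (fun x => E (θ x)) a = (-1 : ℤ) ^ (n + 1) • (f a * z) := by
      rw [hochschildDiff, eq_neg_of_add_eq_zero_left h2, pow_succ _ (n + 1)]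
      simp
    refine (diff_zsmul _ (fun x => E (θ x)) a).trans ?_
    rw [h3, smul_smul, ← mul_pow]
    simp

end Crest.Agent.KR
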