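import Crest.Agent.KR.SS
/-! (Loc) local decomposition by comparison. -/
set_option autoImplicit false
namespace Crest.Agent.KR
open Crest.Agent.GP

universe u

namespace Loc

variable {A : Type u} [CStarAlgebra A]

/-- admissible families -/
def Fam (e : A) (F : Set A) : Prop :=
  (∀ v ∈ F, star v * v = e) ∧ ∀ v ∈ F, ∀ w ∈ F, v ≠ w → star v * w = 0

theorem exists_max (e : A) (F₀ : Set A) (h : Fam e F₀) : ∃ F, F₀ ⊆ F ∧ Maximal (Fam e) F := by
  refine zorn_subset_nonempty {F | Fam e F} (fun c hc hch _ => ⟨⋃₀ c, ⟨?_, ?_⟩, fun s hs =>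
    Set.subset_sUnion_of_mem hs⟩) F₀ h
  · rintro v ⟨s, hs, hv⟩; exact (hc hs).1 v hv
  · rintro v ⟨s, hs, hv⟩ w ⟨t, ht, hw⟩ hvw
    rcases hch.total hs ht with h | h
    · exact (hc ht).2 v (h hv) w hw hvw
    · exact (hc hs).2 v hv w (h hw) hvw

theorem Fam.pi {e : A} {F : Set A} (h : Fam e F) (he : Proj e) {v : A} (hv : v ∈ F) :
    v * star v * v = v := pi_of_idem (by rw [h.1 v hv, he.2])

theorem Fam.mul_e {e : A} {F : Set A} (h : Fam e F) (he : Proj e) {v : A} (hv : v ∈ F) :
    v * e = v := by rw [← h.1 v hv, ← mul_assoc, h.pi he hv]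

variable {H : Type u} [NormedAddCommGroup H] [InnerProductSpace ℂ H] [CompleteSpace H]
  {ρ : A →⋆ₐ[ℂ] (H →L[ℂ] H)}

theorem core (hV : VN ρ) (hK : Kit ρ) (hC : CmpStmt A) {c e : A} (hc : CP c) (he : Proj e)
    (he0 : e ≠ 0) (hce : c * e = e) (F₀ : Set A) (h : Fam e F₀) :
    ∃ (F : Set A) (z : A) (a : F ⊕ PUnit.{u + 1} → A), F₀ ⊆ F ∧ Fam e F ∧ CP z ∧ z * e ≠ 0 ∧
      c * z = z ∧ (∀ i, a i * e = a i) ∧ (∀ i, a i * star (a i) * a i = a i) ∧
      (∀ i j, i ≠ j → star (a i) * a j = 0) ∧ SS ρ (fun i => a i * star (a i)) z ∧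
      (∀ v : F, a (Sum.inl v) = v * z) ∧ ∀ i, a i * z = a i := by
  obtain ⟨F, hF0, hF⟩ := exists_max e F₀ h
  have hFa := hF.prop
  obtain ⟨P, hP, hPs, hPv⟩ := hK.sum_proj hV (fun v : F => v.1 * star v.1)
    (fun v => pi_proj' (hFa.pi he v.2)) (fun v w hvw => by
      rw [mul_assoc, ← mul_assoc (star v.1), hFa.2 v v.2 w w.2 (fun h => hvw (Subtype.ext h)),
        zero_mul, mul_zero])
  have hcv : ∀ v ∈ F, c * v = v := fun v hv => by
    rw [← hFa.mul_e he hv, ← mul_assoc, hc.2, mul_assoc, hce]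
  have hcP : c * P = P := ((hPs.mul_left c).congr fun v => by
    rw [← mul_assoc, hcv v v.2]).unique hV hPs
  have hPx : ∀ v ∈ F, (c - P) * v = 0 := fun v hv => by
    have h1 := hPv ⟨v, hv⟩
    have h2 : P * v = v := by
      conv_lhs => rw [← hFa.pi he hv]
      rw [← mul_assoc, h1, hFa.pi he hv]
    rw [sub_mul, hcv v hv, h2, sub_self]
  have hQ := proj_sub hc.1 hP hcP
  obtain ⟨z, v, w, hz, h1, h2, h3, h4⟩ := hC (c - P) e hQ he
  have hxw : ∀ x ∈ F, star x * w = 0 := fun x hx => by
    have := congrArg star (hPx x hx)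
    rw [star_mul, hQ.1, star_zero] at this
    rw [← h4, ← mul_assoc, this, zero_mul]
  have hze : z * e ≠ 0 := by
    intro h0
    rw [sub_mul, one_mul, h0, sub_zero] at h3
    have hw : w ∉ F := fun hw => he0 (h3.symm.trans (hxw w hw))
    refine hw (hF.2 (y := insert w F) ⟨?_, ?_⟩ (Set.subset_insert _ _) (Set.mem_insert _ _))
    · rintro x (rfl | hx)
      · exact h3
      · exact hFa.1 x hx
    · rintro x (rfl | hx) y (rfl | hy) hxy
      · exact absurd rfl hxy
      · have := congrArg star (hxw y hy)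
        simpa using this
      · exact hxw x hx
      · exact hFa.2 x hx y hy hxy
  have hz' : CP (z * c) := hz.mul hc
  set y := z * c with hy
  clear_value y
  have hcy : c * y = y := by rw [hy, ← mul_assoc, ← hz.2, mul_assoc, hc.1.2]
  have huu : star (v * c) * (v * c) = y * (c - P) := by
    rw [star_mul, hc.1.1, mul_assoc, ← mul_assoc (star v), h1, ← hc.2, ← mul_assoc, hc.1.2,
      ← mul_assoc, ← hz.2, hy]
  set t := v * c with ht
  clear_value t
  have htp : t * star t * t = t := pi_of_idem (by rw [huu]; exact (hz'.mul_proj hQ).2)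
  have hty : t * y = t := by
    conv_lhs => rw [← htp, mul_assoc t, huu, mul_assoc, mul_assoc, ← hz'.2, ← mul_assoc y,
      hz'.1.2, ← huu, ← mul_assoc, htp]
  have htx : ∀ x ∈ F, t * x = 0 := fun x hx => by
    rw [← htp, mul_assoc t, huu, mul_assoc, mul_assoc, hPx x hx, mul_zero, mul_zero]
  have hsy : ∀ x : A, star (x * y) = y * star x := fun x => by rw [star_mul, hz'.1.1]
  refine ⟨F, y, Sum.elim (fun x => x.1 * y) fun _ => star t, hF0, hFa, hz', ?_, hcy, ?_, ?_, ?_, ?_,
    fun _ => rfl, ?_⟩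
  · rwa [hy, mul_assoc, hce]
  · rintro (x | _)
    · simp only [Sum.elim_inl]
      rw [mul_assoc, hz'.2, ← mul_assoc, hFa.mul_e he x.2]
    · simp only [Sum.elim_inr]
      rw [← he.1, ← star_mul, ht, ← mul_assoc, h2]
  · rintro (x | _)
    · simp only [Sum.elim_inl, hsy]
      rw [mul_assoc x.1, ← mul_assoc y, hz'.1.2, hz'.2, mul_assoc, mul_assoc, ← mul_assoc y,
        hz'.2, mul_assoc, hz'.1.2, ← mul_assoc, ← mul_assoc, hFa.pi he x.2]
    · simp only [Sum.elim_inr, star_star]
      exact pi_star htp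
  · rintro (x | _) (x' | _) hij
    · simp only [Sum.elim_inl, hsy]
      rw [mul_assoc, ← mul_assoc (star x.1), hFa.2 x x.2 x' x'.2
        (fun h => hij (congrArg _ (Subtype.ext h))), zero_mul, mul_zero]
    · simp only [Sum.elim_inl, Sum.elim_inr]
      rw [← star_mul, ← mul_assoc, htx x x.2, zero_mul, star_zero]
    · simp only [Sum.elim_inl, Sum.elim_inr, star_star]
      rw [← mul_assoc, htx x' x'.2, zero_mul]
    · exact absurd rfl hij
  · have e1 : y = y * P + ∑ _i : PUnit.{u + 1}, star t * t := by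
      rw [Finset.univ_unique, Finset.sum_singleton, huu, mul_sub, hz'.2 c, hcy]; abel
    refine (congrArg (SS ρ _) e1).mpr
      (SS.sum ((hPs.mul_left y).congr fun x => ?_) ((SS.fin _).congr fun _ => ?_))
    · simp only [Sum.elim_inl, hsy]
      rw [mul_assoc x.1 y, ← mul_assoc y y, hz'.1.2, ← mul_assoc, ← mul_assoc, hz'.2]
    · simp
  · rintro (x | _)
    · simp only [Sum.elim_inl]
      rw [mul_assoc, hz'.1.2]
    · simp only [Sum.elim_inr]
      rw [← hz'.2, ← hsy, hty]

theorem iso (hV : VN ρ) (hK : Kit ρ) {e z : A} (he : Proj e) {F : Set A} (hF : Fam e F)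
    (hinf : F.Infinite) (a : F ⊕ PUnit.{u + 1} → A) (h1 : ∀ i, a i * e = a i)
    (h2 : ∀ i, a i * star (a i) * a i = a i) (h3 : ∀ i j, i ≠ j → star (a i) * a j = 0)
    (h4 : SS ρ (fun i => a i * star (a i)) z) : Iso z := by
  classical
  intro L
  have : Infinite F := hinf.to_subtype
  obtain ⟨g⟩ : Nonempty ((F ⊕ PUnit.{u + 1}) × Fin L ↪ F) := by
    rw [← Cardinal.le_def]
    have h0 : Cardinal.aleph0 ≤ Cardinal.mk F := Cardinal.aleph0_le_mk _
    simp only [Cardinal.mk_prod, Cardinal.mk_sum, Cardinal.lift_id, Cardinal.mk_punit,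
      Cardinal.lift_uzero, Cardinal.mk_fin, Cardinal.lift_natCast]
    rw [Cardinal.add_one_eq h0]
    calc Cardinal.mk F * (L : Cardinal) ≤ Cardinal.mk F * Cardinal.mk F := by
          gcongr; exact (Cardinal.natCast_lt_aleph0.le).trans h0
      _ = Cardinal.mk F := Cardinal.mul_eq_self h0
  have hg : ∀ p q, star (g p).1 * (g q).1 = if p = q then e else 0 := fun p q => by
    split_ifs with h
    · rw [h]; exact hF.1 _ (g q).2
    · exact hF.2 _ (g p).2 _ (g q).2 fun h' => h (g.injective (Subtype.ext h'))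
  have h1' : ∀ i, e * star (a i) = star (a i) := fun i => by rw [← he.1, ← star_mul, h1]
  have key : ∀ i l j m, star ((g (i, l)).1 * star (a i)) * ((g (j, m)).1 * star (a j)) =
      if (i, l) = (j, m) then a i * star (a j) else 0 := fun i l j m => by
    rw [star_mul, star_star, mul_assoc, ← mul_assoc (star _), hg]
    split_ifs
    · rw [h1']
    · simp
  have hs := fun l : Fin L => hK.sum_pi hV (fun i => (g (i, l)).1 * star (a i))
    (fun i => pi_of_idem (by rw [key, if_pos rfl]; exact (pi_proj' (h2 i)).2))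
    (fun i j hij => by rw [key, if_neg (fun h => hij (congrArg Prod.fst h))])
    (fun i j hij => by
      rw [star_mul, star_star, mul_assoc, ← mul_assoc (star (a i)), h3 i j hij, zero_mul, mul_zero])
  choose s s1 s2 s3 s4 s5 s6 s7 using hs
  refine ⟨s, fun l m => ?_⟩
  split_ifs with h
  · subst h
    exact ((s6 l).congr fun i => by rw [key, if_pos rfl]).unique hV h4
  · refine ((s2 l).mul_right (s m)).eq_zero hV fun i => ?_
    exact ((s1 m).mul_left _).eq_zero hV fun j => by
      rw [key, if_neg (fun h' => h (congrArg Prod.snd h'))]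

theorem gen_of {e z : A} {I : Type u} [Finite I] (hV : VN ρ) (a : I → A) (h1 : ∀ i, a i * e = a i)
    (h2 : ∀ i, a i * star (a i) * a i = a i) (h3 : ∀ i j, i ≠ j → star (a i) * a j = 0)
    (h4 : SS ρ (fun i => a i * star (a i)) z) : Gen e z := by
  have := Fintype.ofFinite I
  let f := (Fintype.equivFin I).symm
  refine ⟨_, fun i => a (f i), fun i => h1 _, fun i => h2 _,
    fun i j h => h3 _ _ fun h' => h (f.injective h'), ?_⟩
  rw [Equiv.sum_comp f fun i => a i * star (a i)]
  exact (SS.fin _).unique hV h4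

theorem hom_of {e z : A} {I : Type u} [Finite I] (hV : VN ρ) (a : I → A)
    (h1 : ∀ i, star (a i) * a i = e) (h3 : ∀ i j, i ≠ j → star (a i) * a j = 0)
    (h4 : SS ρ (fun i => a i * star (a i)) z) : Hom e z := by
  have := Fintype.ofFinite I
  let f := (Fintype.equivFin I).symm
  refine ⟨_, fun i => a (f i), fun i j => ?_, ?_⟩
  · split_ifs with h
    · rw [h, h1]
    · exact h3 _ _ fun h' => h (f.injective h')
  · rw [Equiv.sum_comp f fun i => a i * star (a i)]
    exact (SS.fin _).unique hV h4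

theorem finite_part (hV : VN ρ) (hK : Kit ρ) (hC : CmpStmt A) {c : A} (hc : CP c) (hN : NoPI c)
    (v : A) (hcv : c * v = v) (h1 : v * star v * v = v)
    (h2 : star v * v * (v * star v) = v * star v) : v * star v = star v * v := by
  by_contra hne
  have hp := pi_proj h1
  have hq := pi_proj' h1
  have he := proj_sub hp hq h2
  set e := star v * v - v * star v with hed
  have hpv : star v * v * v = v := by
    calc star v * v * v = star v * v * (v * star v * v) := by rw [h1]
      _ = v := by rw [← mul_assoc, h2, h1]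
  have hpe : star v * v * e = e := by rw [hed, mul_sub, hp.2, h2]
  have hev : e * v = 0 := by rw [hed, sub_mul, hpv, h1, sub_self]
  have hpt : ∀ k : ℕ, star v * v * (v ^ k * e) = v ^ k * e := by
    rintro (_ | k)
    · rw [pow_zero, one_mul, hpe]
    · rw [pow_succ', ← mul_assoc, ← mul_assoc, hpv]
  have key : ∀ k l : ℕ, star (v ^ k * e) * (v ^ l * e) = if k = l then e else 0 := by
    have z0 : ∀ l : ℕ, star (v ^ 0 * e) * (v ^ (l + 1) * e) = 0 := fun l => by
      rw [pow_zero, one_mul, he.1, pow_succ', ← mul_assoc, ← mul_assoc, hev, zero_mul, zero_mul]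
    intro k
    induction k with
    | zero =>
      rintro (_ | l)
      · rw [pow_zero, one_mul, he.1, he.2, if_pos rfl]
      · rw [z0, if_neg (by omega)]
    | succ k ih =>
      rintro (_ | l)
      · have := congrArg star (z0 k)
        rw [star_mul, star_star, star_zero] at this
        rw [this, if_neg (by omega)]
      · rw [pow_succ', pow_succ', mul_assoc v, mul_assoc v, star_mul, mul_assoc,
          ← mul_assoc (star v), hpt, ih]
        simp
  have he0 : e ≠ 0 := fun h => hne (sub_eq_zero.1 h).symm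
  have hce : c * e = e := by
    rw [hed, mul_sub, ← mul_assoc, hc.2, mul_assoc, hcv, ← mul_assoc, hcv]
  have hinj : Function.Injective fun k : ℕ => v ^ k * e := fun k l h => by
    by_contra hkl
    have h3 := key k l
    simp only at h
    rw [if_neg hkl, h, key, if_pos rfl] at h3
    exact he0 h3
  obtain ⟨F, z, a, hF0, hF, hz, hze, hcz, a1, a2, a3, a4, -, -⟩ := core hV hK hC hc he he0 hce
    (Set.range fun k : ℕ => v ^ k * e) ⟨by
      rintro _ ⟨k, rfl⟩; rw [key, if_pos rfl], by
      rintro _ ⟨k, rfl⟩ _ ⟨l, rfl⟩ h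
      rw [key, if_neg (fun h' => h (by rw [h']))]⟩
  exact hN z hz (fun h => hze (by rw [h, zero_mul])) hcz
    (iso hV hK he hF ((Set.infinite_range_of_injective hinj).mono hF0) a a1 a2 a3 a4)

end Loc

variable {A : Type u} [CStarAlgebra A] {H : Type u} [NormedAddCommGroup H]
  [InnerProductSpace ℂ H] [CompleteSpace H]

open Loc in
theorem loc (ρ : A →⋆ₐ[ℂ] (H →L[ℂ] H)) (hV : VN ρ) (hK : Kit ρ) (hC : CmpStmt A) : LocStmt A := by
  intro c e hc hN he he0 hce
  refine ⟨fun v h0 h1 h2 => finite_part hV hK hC hc hN v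
    (by rw [← h0, ← mul_assoc, ← mul_assoc, hce]) h1 h2, ?_⟩
  obtain ⟨F, z, a, -, hF, hz, hze, hcz, a1, a2, a3, a4, a5, a6⟩ := core hV hK hC hc he he0 hce {e}
    ⟨by rintro _ rfl; rw [he.1, he.2], by rintro _ rfl _ rfl h; exact absurd rfl h⟩
  have hfin : F.Finite := by
    by_contra h
    exact hN z hz (fun h => hze (by rw [h, zero_mul])) hcz (iso hV hK he hF h a a1 a2 a3 a4)
  have : Finite F := hfin.to_subtype
  by_cases hA : Abel e
  swap
  · exact ⟨z, hz, hze, hcz, gen_of hV a a1 a2 a3 a4, fun h => absurd h hA⟩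
  set t := a (Sum.inr PUnit.unit) with ht
  have hin : ∀ v : F, star (a (Sum.inl v)) * a (Sum.inl v) = e * z := fun v => by
    rw [a5, star_mul, hz.1.1, mul_assoc, ← mul_assoc (star v.1), hF.1 v v.2, ← mul_assoc, hz.2,
      mul_assoc, hz.1.2]
  by_cases h0 : t = 0
  · refine ⟨z, hz, hze, hcz, gen_of hV a a1 a2 a3 a4, fun _ => hom_of hV (fun v : F => a (Sum.inl v))
      hin (fun i j h => a3 _ _ fun h' => h (Sum.inl_injective h')) ?_⟩
    have := Fintype.ofFinite F
    have e1 := (SS.fin _).unique hV a4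
    rw [Fintype.sum_sum_type, Fintype.sum_unique (ι := PUnit.{u + 1})] at e1
    change _ + t * star t = _ at e1
    rw [h0, zero_mul, add_zero] at e1
    rw [← e1]
    exact SS.fin _
  set f := star t * t with hf
  have hfp : Proj f := pi_proj (a2 _)
  have hfe : f * e = f := by rw [hf, mul_assoc, a1]
  have hef : e * f = f := by
    have := congrArg star hfe
    rwa [star_mul, he.1, hfp.1] at this
  have hfz : z * f = f := by rw [hz.2, hf, mul_assoc, a6]
  clear_value f
  obtain ⟨y, hy, hy1, hy2⟩ := hK.supp {f}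
  have hyf := hy1 f rfl
  have hey : e * y = f := by
    have := hy2 (e - f) (by
      intro b hb x
      rw [Set.mem_singleton_iff.1 hb]
      have h1 := hA.2 (e * x * e) (by
        change e * (e * x * e) * e = e * x * e
        rw [← mul_assoc, ← mul_assoc, he.2, mul_assoc _ e, he.2]) f (by
        change e * f * e = f
        rw [hef, hfe])
      have h2 : (e - f) * x * f = (e - f) * (e * x * e * f) := by
        rw [mul_assoc (e * x), hef, ← mul_assoc, ← mul_assoc, sub_mul e f e, he.2, hfe]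
      rw [h2, h1, ← mul_assoc, sub_mul, hef, hfp.2, sub_self, zero_mul])
    rw [sub_mul, ← hy.2 f, hyf] at this
    exact sub_eq_zero.1 this
  have hez : e * (z * y) = f := by rw [← mul_assoc, ← hz.2, mul_assoc, hey, hfz]
  have hst : ∀ i j, star (a i * y) * (a j * y) = star (a i) * a j * y := fun i j => by
    rw [star_mul, hy.1.1, mul_assoc, hy.2, mul_assoc, mul_assoc, hy.1.2, mul_assoc]
  have hss : SS ρ (fun i => a i * y * star (a i * y)) (z * y) := (a4.mul_right y).congr fun i => by
    rw [star_mul, hy.1.1, mul_assoc (a i) y, ← mul_assoc y, hy.1.2, hy.2, mul_assoc]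
  refine ⟨z * y, hz.mul hy, ?_, by rw [← mul_assoc, hcz], gen_of hV (fun i => a i * y) (fun i => ?_)
    (fun i => ?_) (fun i j h => by rw [hst, a3 i j h, zero_mul]) hss, fun _ =>
      hom_of hV (fun i => a i * y) ?_ (fun i j h => by rw [hst, a3 i j h, zero_mul]) hss⟩
  · rw [(hz.mul hy).2, hez]
    exact fun h => h0 (eq_zero_of_star_mul (hf.symm.trans h))
  · rw [mul_assoc, hy.2, ← mul_assoc, a1]
  · rw [mul_assoc, hst, mul_assoc (a i), hy.2, mul_assoc, hy.1.2, ← mul_assoc, ← mul_assoc, a2]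
  · rintro (v | _)
    · rw [hst, hin, mul_assoc]
    · rw [hst, hez, ← hy.2, ← hyf, hf]

end Crest.Agent.KR
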