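import Crest.Agent.KR.Hull
/-! Averaging over the centre and over matrix units; the homogeneous finite type I case. -/
set_option autoImplicit false
set_option linter.deprecated false
namespace Crest.Agent.KR
open scoped InnerProductSpace ComplexConjugate BigOperators
open Finset Filter Topology Crest.Agent.GP Crest.Agent.KS

universe u v

namespace MatA
variable {A : Type u} [CStarAlgebra A] {J : Type*} (P : Pre A)

theorem ces {G : Set A} (hG : G ⊆ unitary A) {u : A} (hu : ∀ n : ℕ, u ^ n ∈ G)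
    (θ : J → A →L[ℂ] A) : ∃ θ', P.Hull G θ θ' ∧ ∀ j, act u (θ' j) = θ' j := by
  let η : ℕ → J → A →L[ℂ] A := fun N j =>
    ((Fintype.card (Fin (N + 1)) : ℂ))⁻¹ • ∑ i : Fin (N + 1), act (u ^ (i : ℕ)) (θ j)
  obtain ⟨θ', h1, h2⟩ := P.ulim (G := G) (θ := θ) (Ultrafilter.of atTop) η
    (Eventually.of_forall fun N => P.hull_of_avg hG (avg_expect
      (fun (i : Fin (N + 1)) j => act (u ^ (i : ℕ)) (θ j)) fun i => avg_act (hu _) θ))
  refine ⟨θ', h1, fun j => ContinuousLinearMap.ext fun x => P.ext fun φ hφ => ?_⟩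
  have h3 : ∀ N, ‖act u (η N j) - η N j‖ ≤ 2 * ‖θ j‖ * (1 / ((N : ℝ) + 1)) := fun N => by
    have e : act u (η N j) - η N j = ((N + 1 : ℕ) : ℂ)⁻¹ • (act (u ^ (N + 1)) (θ j) - θ j) := by
      simp only [η, act_smul, act_sum, ← act_mul, ← pow_succ, Fintype.card_fin, ← smul_sub]
      rw [Fin.sum_univ_eq_sum_range fun i => act (u ^ (i + 1)) (θ j),
        Fin.sum_univ_eq_sum_range fun i => act (u ^ i) (θ j)]
      refine (smul_sub _ _ _).symm.trans (congrArg _ ?_)
      rw [← sum_sub_distrib, sum_range_sub fun i => act (u ^ i) (θ j), pow_zero, act_one]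
    rw [e, norm_smul, norm_inv, Complex.norm_natCast, mul_comm, one_div]
    push_cast
    gcongr
    linarith [norm_sub_le (act (u ^ (N + 1)) (θ j)) (θ j), norm_act_le (hG (hu (N + 1))) (θ j)]
  have h4 : Tendsto (fun N => φ (act u (η N j) x) - φ (η N j x)) atTop (𝓝 0) := by
    refine squeeze_zero_norm (fun N => ?_) (by
      simpa using tendsto_one_div_add_atTop_nhds_zero_nat.const_mul (‖φ‖ * ‖x‖ * (2 * ‖θ j‖)))
    rw [← map_sub, ← ContinuousLinearMap.sub_apply]
    refine (φ.le_opNorm _).trans ?_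
    have := (ContinuousLinearMap.le_opNorm _ x).trans
      (mul_le_mul_of_nonneg_right (h3 N) (norm_nonneg x))
    have := mul_le_mul_of_nonneg_left this (norm_nonneg φ)
    simp only [one_div] at this
    linarith
  exact sub_eq_zero.1 (tendsto_nhds_unique ((h2.act u j x φ hφ).sub (h2 j x φ hφ))
    (h4.mono_left (Ultrafilter.of_le _)))

theorem mk (S : Set A) (hS : S ⊆ unitary A) (hc : ∀ a ∈ S, ∀ b ∈ S, a * b = b * a)
    (θ : J → A →L[ℂ] A) : ∃ θ', P.Hull (unitary A) θ θ' ∧ ModS S θ' := by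
  classical
  obtain ⟨η, h1, h2⟩ := P.fip (G := unitary A) (θ := θ) (fun c : S => {η | ModS {c.1} η})
    (fun c => Pre.closed_modS _) fun F => by
      induction F using Finset.induction_on with
      | empty => exact ⟨θ, P.hull_refl (one_mem _) θ, by simp⟩
      | insert u F _ ih =>
        obtain ⟨η, h1, h2⟩ := ih
        obtain ⟨η', h3, h4⟩ := ces P (G := {v | v ∈ unitary A ∧ ∀ b ∈ S, Commute v b})
          (fun _ h => h.1) (u := u) (fun n => ⟨pow_mem (hS u.2) n,
            fun b hb => Commute.pow_left (hc u u.2 b hb) n⟩) η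
        refine ⟨η', h1.trans (h3.mono fun _ h => h.1), fun c hc' => ?_⟩
        rcases mem_insert.1 hc' with rfl | hc'
        · rintro j y _ rfl
          exact (act_eq_iff (hS c.2)).1 (h4 j) y
        · refine h3.modS (h2 c hc') ?_
          rintro v ⟨hv, hv'⟩ _ rfl
          refine ⟨hv' _ c.2, ?_⟩
          calc star v * c = star v * (c * v) * star v := by
                rw [mul_assoc, mul_assoc, hv.2, mul_one]
            _ = c * star v := by rw [← (hv' _ c.2).eq, ← mul_assoc, hv.1, one_mul]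
  exact ⟨η, h1, fun j y b hb => h2 ⟨b, hb⟩ j y b rfl⟩

theorem cen_mem {B : Subalgebra ℂ A} (h : ∀ u ∈ unitary A, u ∈ cen A → u ∈ B) {c : A}
    (hc : c ∈ cen A) : c ∈ B := by
  let Z := StarSubalgebra.centralizer ℂ (Set.univ : Set A)
  have hZ : ∀ y, y ∈ Z ↔ y ∈ cen A := fun y => by
    rw [StarSubalgebra.mem_centralizer_iff]
    exact ⟨fun h t => (h t trivial).1.symm, fun h t _ => ⟨(h _).symm, (h _).symm⟩⟩
  have : IsClosed (Z : Set A) := Set.isClosed_centralizer _
  obtain ⟨u, a, e, -⟩ := CStarAlgebra.exists_sum_four_unitary (⟨c, (hZ c).2 hc⟩ : Z)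
  have e' : c = ∑ i, a i • ((u i : Z) : A) := by simpa using congrArg Subtype.val e
  rw [e']
  exact sum_mem fun i _ => B.smul_mem (h _ ⟨congrArg Subtype.val (u i).2.1,
    congrArg Subtype.val (u i).2.2⟩ ((hZ _).1 (u i).1.2)) _

variable {e z : A} (hz : CP z) {k : ℕ} {w : Fin k → A}
  (h1 : ∀ i j, star (w i) * w j = if i = j then e else 0) (h2 : ∑ i, w i * star (w i) = z)
include hz h1 h2

omit h1 in
theorem zw (i : Fin k) : z * w i = w i := by
  letI := CStarAlgebra.spectralOrder A
  haveI := CStarAlgebra.spectralOrderedRing A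
  have h : ∑ i, (1 - z) * w i * star ((1 - z) * w i) = 0 := by
    simp only [star_mul, hz.1.compl.1, mul_assoc, ← mul_sum]
    simp only [← mul_assoc, ← sum_mul, h2]
    simp [sub_mul, hz.1.2]
  have := (sum_eq_zero_iff_of_nonneg fun i _ => mul_star_self_nonneg _).1 h i (mem_univ _)
  rw [CStarRing.mul_star_self_eq_zero_iff, sub_mul, one_mul, sub_eq_zero] at this
  exact this.symm

theorem we (i : Fin k) : w i * e = w i := by
  conv_rhs => rw [← zw hz h2 i, ← h2, sum_mul]
  simp [mul_assoc, h1]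

theorem wmul (i j l : Fin k) : w i * star (w j) * w l = if j = l then w i else 0 := by
  rw [mul_assoc, h1]; split_ifs <;> simp [we hz h1 h2]

end MatA
open MatA

theorem mat : MatStmt.{u, v} := by
  intro A _ P e z hz k w h1 h2 J θ
  have zw := zw hz h2
  have wm := wmul hz h1 h2
  have cw : ∀ i, (1 - z) * w i = 0 := fun i => by rw [sub_mul, zw, one_mul, sub_self]
  have wc : ∀ i, star (w i) * (1 - z) = 0 := fun i => by
    simpa [hz.1.1] using congrArg star (cw i)
  have pm : ∀ i j l m, w i * star (w j) * (w l * star (w m)) =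
      if j = l then w i * star (w m) else 0 := fun i j l m => by
    rw [← mul_assoc, wm]; split_ifs <;> simp
  have pP : ∀ i, Proj (w i * star (w i)) := fun i => ⟨by simp, by rw [pm, if_pos rfl]⟩
  obtain ⟨η, a1, a2⟩ := mk P ({u | u ∈ unitary A ∧ u ∈ cen A} ∪
    Set.range fun i => 1 - (2 : ℂ) • (w i * star (w i))) (by
      rintro _ (h | ⟨i, rfl⟩)
      exacts [h.1, (pP i).sym.unit]) (by
      rintro a (ha | ⟨i, rfl⟩) b (hb | ⟨j, rfl⟩)
      · exact ha.2 _
      · exact ha.2 _
      · exact (hb.2 _).symm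
      · refine Commute.sub_left (Commute.one_left _) (Commute.smul_left (Commute.sub_right
          (Commute.one_right _) (Commute.smul_right ?_ _)) _)
        change _ * _ = _ * _
        rw [pm, pm]
        by_cases h : i = j
        · rw [h]
        · rw [if_neg h, if_neg (Ne.symm h)]) θ
  have a3 : ModS (cen A) η := fun j y b hb =>
    cen_mem (B := modAlg (η j)) (fun u hu hu' y => a2 j y u (Or.inl ⟨hu, hu'⟩)) hb y
  have a4 : ∀ j i, w i * star (w i) ∈ modAlg (η j) := fun j i => by
    have h : 1 - (2 : ℂ) • (w i * star (w i)) ∈ modAlg (η j) := fun y => a2 j y _ (Or.inr ⟨i, rfl⟩)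
    convert (modAlg (η j)).smul_mem (sub_mem (one_mem _) h) (1 / 2 : ℂ) using 1
    module
  let V : Equiv.Perm (Fin k) → A := fun σ => ∑ i, w (σ i) * star (w i) + (1 - z)
  have Vw : ∀ σ i, V σ * w i = w (σ i) := fun σ i => by simp [V, add_mul, sum_mul, wm, cw]
  have Vc : ∀ σ, V σ * (1 - z) = 1 - z := fun σ => by
    simp only [V, add_mul, sum_mul, mul_assoc, wc, mul_zero, sum_const_zero, zero_add,
      hz.1.compl.2]
  have Vm : ∀ σ τ, V σ * V τ = V (σ * τ) := fun σ τ => by
    conv_lhs => rw [show V τ = ∑ i, w (τ i) * star (w i) + (1 - z) from rfl]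
    simp only [mul_add, mul_sum, ← mul_assoc, Vw, Vc]
    rfl
  have Vs : ∀ σ, star (V σ) = V σ⁻¹ := fun σ => by
    simp only [V, star_add, star_sum, star_mul, star_star, hz.1.compl.1]
    rw [← Equiv.sum_comp σ fun i => w (σ⁻¹ i) * star (w i)]
    simp
  have V1 : V 1 = 1 := by simp [V, h2]
  have Vu : ∀ σ, V σ ∈ unitary A := fun σ =>
    ⟨by rw [Vs, Vm, inv_mul_cancel, V1], by rw [Vs, Vm, mul_inv_cancel, V1]⟩
  let η' : J → A →L[ℂ] A := fun j =>
    ((Fintype.card (Equiv.Perm (Fin k)) : ℂ))⁻¹ • ∑ σ, act (V σ) (η j)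
  have b1 : P.Hull (unitary A) η η' := P.hull_of_avg subset_rfl
    (avg_expect (fun σ j => act (V σ) (η j)) fun σ => avg_act (Vu σ) η)
  refine ⟨η', a1.trans b1, b1.modS_cen a3, ?_⟩
  rintro j y _ ⟨i, l, rfl⟩
  have b2 : ∀ τ, V τ ∈ modAlg (η' j) := fun τ => (act_eq_iff (Vu τ)).1 (by
    simp only [η', act_smul, act_sum, ← act_mul, Vm]
    exact congrArg _ (Equiv.sum_comp (Equiv.mulRight τ) fun σ => act (V σ) (η j)))
  have b3 : w l * star (w l) ∈ modAlg (η' j) := fun y => by
    simp only [η', ContinuousLinearMap.smul_apply, ContinuousLinearMap.sum_apply, act_apply,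
      smul_mul_assoc, sum_mul]
    refine congrArg _ (sum_congr rfl fun σ _ => ?_)
    have c1 : V σ * (w l * star (w l)) = w (σ l) * star (w (σ l)) * V σ := by
      rw [← mul_assoc, Vw, mul_assoc, ← star_star (V σ), ← star_mul, Vs, Vw]; simp
    have c2 : w l * star (w l) * star (V σ) = star (V σ) * (w (σ l) * star (w (σ l))) := by
      simpa [mul_assoc] using congrArg star c1
    rw [mul_assoc y, c2, ← mul_assoc, a4 j (σ l), mul_assoc, mul_assoc _ (V σ), c1]
  have b4 := mul_mem (b2 (Equiv.swap i l)) b3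
  rw [← mul_assoc, Vw, Equiv.swap_apply_right] at b4
  exact b4 y

theorem sf1 : Sf1Stmt.{u} := by
  rintro A _ P e z hz he ⟨k, w, h1, h2⟩ J θ
  obtain ⟨θ', a1, a2, a3⟩ := mat.{u, u} P e z hz k w h1 h2 θ
  refine ⟨θ', a1, fun j y x hx => ?_⟩
  have we := we hz h1 h2
  have ew : ∀ i, e * star (w i) = star (w i) := fun i => by
    simpa [he.1.1] using congrArg star (we i)
  have hc : ∀ i l (t : A), star (w i) * t * w l ∈ cor e := fun i l t => by
    change e * _ * e = _
    rw [← mul_assoc, ← mul_assoc, ew, mul_assoc, we]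
  have zw := zw hz h2
  have wz : ∀ i, star (w i) * z = star (w i) := fun i => by
    simpa [hz.1.1] using congrArg star (zw i)
  have hσ : ∀ c ∈ cor e, ∑ l, w l * c * star (w l) ∈ cen A := fun c hc' t => by
    calc (∑ l, w l * c * star (w l)) * t = ∑ l, ∑ m, w l * (c * (star (w l) * t * w m)) * star (w m) := by
          rw [sum_mul]
          refine sum_congr rfl fun l _ => ?_
          simp only [mul_assoc, ← mul_sum, h2]
          rw [← hz.2, ← mul_assoc (star (w l)), wz]
      _ = ∑ m, ∑ l, w l * (star (w l) * t * w m * c) * star (w m) := by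
          rw [sum_comm]
          exact sum_congr rfl fun m _ => sum_congr rfl fun l _ => by rw [he.2 c hc' _ (hc l m t)]
      _ = t * ∑ l, w l * c * star (w l) := by
          rw [mul_sum]
          refine sum_congr rfl fun m _ => ?_
          simp only [← mul_assoc, ← sum_mul, h2]
          rw [hz.2, mul_assoc t, zw]
  have e1 : x = ∑ i, ∑ l, (∑ m, w m * (star (w i) * x * w l) * star (w m)) * (w i * star (w l)) := by
    have : ∀ i l, (∑ m, w m * (star (w i) * x * w l) * star (w m)) * (w i * star (w l)) =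
        w i * star (w i) * x * (w l * star (w l)) := fun i l => by
      rw [sum_mul, sum_eq_single i (fun m _ h => by
        rw [mul_assoc, ← mul_assoc (star (w m)), h1, if_neg h]; simp) (by simp),
        mul_assoc, ← mul_assoc (star (w i)) (w i), h1, if_pos rfl, ew]
      simp only [mul_assoc]
    simp only [this, ← mul_sum, ← sum_mul, h2]
    exact hx.symm
  have : x ∈ modAlg (θ' j) := by
    rw [e1]
    exact sum_mem fun i _ => sum_mem fun l _ => mul_mem (fun y => a2 j y _ (hσ _ (hc i l x)))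
      fun y => a3 j y _ ⟨i, l, rfl⟩
  exact this y

end Crest.Agent.KR
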