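import Crest.Agent.KR.Defs
import Crest.Agent.Ulam.Pos
/-! Kadison–Ringrose cohomology (S0161): piece `Nu`. -/
set_option autoImplicit false
namespace Crest.Agent.KR
open Finset

theorem nu : NuStmt := by
  intro ε hε
  obtain ⟨T, hT⟩ := exists_nat_gt (10 / ε)
  have hT0 : (0 : ℝ) < T := lt_trans (by positivity) hT
  have key : ∀ f : ℕ → ℝ, ∑ k ∈ range (2 ^ T), ((T : ℝ)⁻¹ * ∑ t ∈ range T,
      if k < 2 ^ t then ((2 ^ t : ℕ) : ℝ)⁻¹ else 0) * f k =
      (T : ℝ)⁻¹ * ∑ t ∈ range T, ((2 ^ t : ℕ) : ℝ)⁻¹ * ∑ j ∈ range (2 ^ t), f j := by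
    intro f
    simp only [mul_assoc, ← Finset.mul_sum, Finset.sum_mul]
    congr 1
    rw [Finset.sum_comm]
    refine Finset.sum_congr rfl fun t ht => ?_
    simp only [ite_mul, zero_mul]
    rw [← Finset.sum_filter, Finset.mul_sum]
    refine Finset.sum_congr ?_ fun _ _ => rfl
    ext k
    have : 2 ^ t ≤ 2 ^ T := Nat.pow_le_pow_right (by norm_num) (Finset.mem_range.1 ht).le
    simp only [Finset.mem_filter, Finset.mem_range]
    omega
  refine ⟨2 ^ T, fun k => (T : ℝ)⁻¹ * ∑ t ∈ range T,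
    if k < 2 ^ t then ((2 ^ t : ℕ) : ℝ)⁻¹ else 0, fun k => ?_, ?_, fun t => ?_⟩
  · refine mul_nonneg (by positivity) (Finset.sum_nonneg fun t _ => ?_)
    split_ifs <;> positivity
  · have := key fun _ => 1
    simp only [mul_one, Finset.sum_const, Finset.card_range, nsmul_eq_mul] at this
    rw [this, Finset.sum_congr rfl fun t _ => inv_mul_cancel₀ (by positivity)]
    simp [hT0.ne']
  · rw [key fun k => Real.sin ((k + 1) * t)]
    have h := Crest.Agent.Ulam.Pos.im_av (z := Complex.exp (t * Complex.I))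
      (Complex.norm_exp_ofReal_mul_I t) T
    have e : ∀ j : ℕ, (Complex.exp (t * Complex.I) ^ (j + 1)).im = Real.sin ((j + 1) * t) := by
      intro j
      rw [← Complex.exp_nat_mul, ← Complex.exp_ofReal_mul_I_im]
      congr 2
      push_cast; ring
    simp only [Crest.Agent.Ulam.Pos.av, Crest.Agent.Ulam.Pos.dk, Complex.smul_im, Complex.im_sum,
      e, smul_eq_mul] at h
    refine h.trans ?_
    rw [div_le_iff₀ hT0]
    rw [div_lt_iff₀ hε] at hT
    linarith

end Crest.Agent.KR
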