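import Crest.Agent.KR.H8
/-! Kadison–Ringrose cohomology: row boundedness after averaging. -/
set_option autoImplicit false
set_option linter.deprecated false
namespace Crest.Agent.KR
open scoped InnerProductSpace ComplexConjugate BigOperators
open Filter Topology Crest.Agent.GP Crest.Agent.KS Crest.OpAlg H8

universe u

namespace RowP
variable {A : Type u} [CStarAlgebra A] {T : Tr A}

theorem cnorm (hcp : CpStmt.{u}) (hT : T.W) {c : A} (hc : c ∈ cen A) {R : ℝ}
    (h : ∀ z, CP z → ‖T.τ (c * z)‖ ≤ R * (T.τ z).re) : ‖c‖ ≤ R := by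
  have R0 : 0 ≤ R := by
    have := (norm_nonneg _).trans (h 1 ⟨⟨star_one _, one_mul _⟩, by simp⟩)
    simpa [T.one] using this
  refine le_of_forall_pos_le_add fun ε hε => ?_
  obtain ⟨J, _, z, β, z1, z2, -, z4, z5⟩ := hcp T hT (fun _ : Unit => c) (fun _ => hc) (ε / 2)
    (by positivity)
  refine norm_le_of_part z z1 z4 (by positivity) fun j => ?_
  refine le_of_mul_le_mul_right ?_ (tau_pos T hT (z1 j).1 (z2 j))
  have h1 := norm_mul_tau T (z1 j) (z5 () j)
  have h2 := h _ (z1 j)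
  linarith

theorem est (hcp : CpStmt.{u}) (hgt : Gt2Stmt.{u}) (hT : T.W) {n : ℕ} {w : Fin n → ℝ}
    {u : Fin n → A} (h0 : ∀ k, 0 ≤ w k) (h1 : ∑ k, w k = 1) (hu : ∀ k, u k ∈ unitary A)
    (θ : A →L[ℂ] A) {M : ℝ} (hM : ‖θ‖ ≤ M) {I : Type} [Fintype I] (x : I → A) (v : A) {c : A}
    (hc : c ∈ cen A) {δ : ℝ}
    (h : ‖∑ k, (w k : ℂ) • (u k * (∑ i, star (x i) * x i) * star (u k)) - c‖ ≤ δ) :
    ∑ i, T.n (v * (∑ k, (w k : ℂ) • act (u k) θ) (x i)) ^ 2 ≤
      (2 * M) ^ 2 * T.n v ^ 2 * ‖∑ i, x i * star (x i)‖ + 4 * (T.n v * M) ^ 2 * δ := by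
  have M0 : 0 ≤ M := (norm_nonneg _).trans hM
  have a1 : ‖c‖ ≤ ‖∑ i, x i * star (x i)‖ + δ := cnorm hcp hT hc fun z hz => by
    have b1 := tau_mul_proj T hz.1
      (∑ k, (w k : ℂ) • (u k * (∑ i, star (x i) * x i) * star (u k)) - c)
    rw [sub_mul, map_sub, tau_avg T w h1 u hu _ hz.2] at b1
    have b2 : T.τ ((∑ i, star (x i) * x i) * z) = T.τ ((∑ i, x i * star (x i)) * z) := by
      simp only [Finset.sum_mul, map_sum]
      refine Finset.sum_congr rfl fun i _ => ?_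
      rw [mul_assoc, T.comm, mul_assoc, hz.2, mul_assoc]
    rw [b2] at b1
    have b3 := tau_mul_proj T hz.1 (∑ i, x i * star (x i))
    have b4 := norm_sub_le (T.τ ((∑ i, x i * star (x i)) * z))
      (T.τ ((∑ i, x i * star (x i)) * z) - T.τ (c * z))
    rw [sub_sub_cancel] at b4
    have b5 := mul_le_mul_of_nonneg_right h (tau_nonneg T hz.1)
    linarith
  have a2 := hgt T (LinearMap.mulLeft ℂ v ∘ₗ θ.toLinearMap) (T.n v * M)
    (mul_nonneg (T.n_nonneg _) M0) (fun b => by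
      rw [mul_assoc]
      exact T.n_r le_rfl ((θ.le_opNorm b).trans (by gcongr)))
    (fun p : Fin n × I => ((√(w p.1) : ℝ) : ℂ) • (x p.2 * star (u p.1)))
  simp only [sqrt_mul_star (h0 _), star_mul_sqrt (h0 _), map_smul, n_sqrt_smul T (h0 _),
    Fintype.sum_prod_type, LinearMap.comp_apply, LinearMap.mulLeft_apply,
    ContinuousLinearMap.coe_coe] at a2
  have e1 : ∑ k, ∑ i, (w k : ℂ) • (x i * star (u k) * star (x i * star (u k))) =
      ∑ i, x i * star (x i) := by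
    have : ∀ k i, x i * star (u k) * star (x i * star (u k)) = x i * star (x i) := fun k i => by
      rw [star_mul, star_star, mul_assoc, ← mul_assoc (star (u k)), (hu k).1, one_mul]
    simp only [this, ← Finset.smul_sum, ← Finset.sum_smul]
    rw [← Complex.ofReal_sum, h1]; simp
  have e2 : ∑ k, ∑ i, (w k : ℂ) • (star (x i * star (u k)) * (x i * star (u k))) =
      ∑ k, (w k : ℂ) • (u k * (∑ i, star (x i) * x i) * star (u k)) := by
    simp only [Finset.mul_sum, Finset.sum_mul, Finset.smul_sum, star_mul, star_star, mul_assoc]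
  rw [e1, e2] at a2
  have a3 : ‖∑ k, (w k : ℂ) • (u k * (∑ i, star (x i) * x i) * star (u k))‖ ≤ δ + ‖c‖ := by
    have := norm_add_le (∑ k, (w k : ℂ) • (u k * (∑ i, star (x i) * x i) * star (u k)) - c) c
    rw [sub_add_cancel] at this
    linarith
  have a4 : ∀ i, T.n (v * (∑ k, (w k : ℂ) • act (u k) θ) (x i)) ^ 2 ≤
      ∑ k, w k * T.n (v * θ (x i * star (u k))) ^ 2 := fun i => by
    have := n_conv T w h0 h1 fun k => v * θ (x i * star (u k)) * u k
    simp only [T.n_unit_r (hu _).2] at this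
    simpa only [ContinuousLinearMap.sum_apply, ContinuousLinearMap.smul_apply, act_apply,
      Finset.mul_sum, mul_smul_comm, mul_assoc] using this
  refine (Finset.sum_le_sum fun i _ => a4 i).trans ?_
  rw [Finset.sum_comm]
  refine a2.trans ?_
  have := mul_le_mul_of_nonneg_left (show ‖∑ i, x i * star (x i)‖ +
    ‖∑ k, (w k : ℂ) • (u k * (∑ i, star (x i) * x i) * star (u k))‖ ≤
    2 * ‖∑ i, x i * star (x i)‖ + 2 * δ by linarith) (show 0 ≤ 2 * (T.n v * M) ^ 2 by positivity)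
  refine this.trans (le_of_eq ?_)
  ring

end RowP

open RowP in
theorem row (hnd : NdStmt.{u}) (hcp : CpStmt.{u}) (hgt : Gt2Stmt.{u}) : RowStmt.{u} := by
  intro A _ T hT P hP J _ θ K hK
  set M := ∑ j, ‖θ j‖ with hM
  have hθ : ∀ j, ‖θ j‖ ≤ M := fun j =>
    Finset.single_le_sum (f := fun j => ‖θ j‖) (fun _ _ => norm_nonneg _) (Finset.mem_univ j)
  have M0 : 0 ≤ M := Finset.sum_nonneg fun _ _ => norm_nonneg _
  obtain ⟨θ', h1, h2⟩ := P.fip (G := unitary A) (θ := θ)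
    (C := (Σ n : ℕ, Fin n → A) × A × J × {ε : ℝ // 0 < ε})
    (fun c => {η | ∑ i, T.n (c.2.1 * η c.2.2.1 (c.1.2 i)) ^ 2 ≤
      (2 * M) ^ 2 * T.n c.2.1 ^ 2 * ‖∑ i, c.1.2 i * star (c.1.2 i)‖ + c.2.2.2.1})
    (fun c => hP.closed_sum (fun _ => c.2.2.1) c.1.2 (fun _ => c.2.1) _) fun F => by
      obtain ⟨δ, hδ, hF⟩ := exists_small F (fun c => 4 * (T.n c.2.1 * M) ^ 2) (fun c => c.2.2.2.1)
        (fun _ => by positivity) fun c => c.2.2.2.2
      obtain ⟨n, w, u, c, h0, h1, hu, hc, h⟩ := nd' hnd hT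
        (fun c : F => ∑ i, star (c.1.1.2 i) * c.1.1.2 i) hδ
      refine ⟨fun j => ∑ k, (w k : ℂ) • act (u k) (θ j), P.hull_of_avg subset_rfl
        (avg_sum _ w (fun k _ => h0 k) h1 _ fun k _ => avg_act (hu k) θ), fun t ht => ?_⟩
      exact (est hcp hgt hT h0 h1 hu _ (hθ _) t.1.2 t.2.1 (hc ⟨t, ht⟩) (h ⟨t, ht⟩)).trans
        (add_le_add le_rfl (hF t ht))
  refine ⟨θ', 2 * M + |K|, h1, fun j => ⟨?_, fun x => ?_, fun {I} _ x w => ?_⟩⟩
  · have := (h1.1 j).trans (hθ j)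
    have := abs_nonneg K
    linarith
  · refine (hP.hull_L2 subset_rfl h1 (hK j) x).trans (mul_le_mul_of_nonneg_right ?_ (T.n_nonneg _))
    have := le_abs_self K
    linarith
  · let e := (Fintype.equivFin I).symm
    have h3 : ∑ i, T.n (w * θ' j (x i)) ^ 2 ≤
        (2 * M) ^ 2 * T.n w ^ 2 * ‖∑ i, x i * star (x i)‖ := by
      refine le_of_forall_pos_le_add fun ε hε => ?_
      have := h2 (⟨_, x ∘ e⟩, w, j, ⟨ε, hε⟩)
      simp only [Set.mem_setOf_eq, Function.comp_apply] at this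
      rwa [e.sum_comp fun i => T.n (w * θ' j (x i)) ^ 2, e.sum_comp fun i => x i * star (x i)]
        at this
    refine h3.trans ?_
    have := abs_nonneg K
    gcongr
    linarith

end Crest.Agent.KR
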