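import Crest.Agent.KR.Hull
/-! Kadison–Ringrose cohomology: splittings and separation. -/
set_option autoImplicit false
set_option linter.deprecated false
namespace Crest.Agent.KR
open scoped InnerProductSpace ComplexConjugate BigOperators
open Filter Topology Crest.Agent.GP Crest.Agent.KS Crest.OpAlg

universe u

theorem spl : SplStmt.{u} := by
  intro A _ P z hz hG
  obtain ⟨θ', hH, hM⟩ := hG (J := A →L[ℂ] A) fun j => j
  have hzz : z ∈ cor z := by
    change z * z * z = z
    rw [hz.1.2, hz.1.2]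
  refine ⟨fun j => θ' j z, fun j j' => ?_, fun j c => ?_, fun j => ?_, fun j a b => ?_, ?_⟩
  · refine hH.ind (S := {η | η (j + j') z = η j z + η j' z}) (fun 𝔘 η h1 h2 => P.ext fun φ hφ =>
      tendsto_nhds_unique (h2 _ _ φ hφ) ?_) (fun x hx y hy a b _ _ _ => ?_) fun u _ => ?_
    · rw [map_add]
      exact ((h2 j z φ hφ).add (h2 j' z φ hφ)).congr' (h1.mono fun _ h => ((congrArg φ h).trans (map_add _ _ _)).symm)
    · simp only [Set.mem_setOf_eq, Pi.add_apply, Pi.smul_apply, ContinuousLinearMap.add_apply,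
        ContinuousLinearMap.smul_apply] at hx hy ⊢
      rw [hx, hy]; module
    · simp [add_mul]
  · refine hH.ind (S := {η | η (c • j) z = c • η j z}) (fun 𝔘 η h1 h2 => P.ext fun φ hφ =>
      tendsto_nhds_unique (h2 _ _ φ hφ) ?_) (fun x hx y hy a b _ _ _ => ?_) fun u _ => ?_
    · rw [map_smul]
      exact ((h2 j z φ hφ).const_smul c).congr' (h1.mono fun _ h => ((congrArg φ h).trans (map_smul _ _ _)).symm)
    · simp only [Set.mem_setOf_eq, Pi.add_apply, Pi.smul_apply, ContinuousLinearMap.add_apply,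
        ContinuousLinearMap.smul_apply] at hx hy ⊢
      rw [hx, hy, smul_add, smul_comm c a, smul_comm c b]
    · simp
  · exact ((θ' j).le_opNorm z).trans ((mul_le_of_le_one_right (norm_nonneg _) hz.1.norm).trans
      (hH.1 j))
  · have h1 : θ' (bim a b j) z = a * θ' j (b * z) := by
      refine hH.ind (S := {η | η (bim a b j) z = a * η j (b * z)}) (fun 𝔘 η h1 h2 =>
        P.ext fun φ hφ => tendsto_nhds_unique (h2 _ _ φ hφ) ?_) (fun x hx y hy a b _ _ _ => ?_)
        fun u _ => ?_
      · have := h2.mul j (b * z) a 1 hφ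
        simp only [mul_one] at this
        exact this.congr' (h1.mono fun _ h => (congrArg φ h).symm)
      · simp only [Set.mem_setOf_eq, Pi.add_apply, Pi.smul_apply, ContinuousLinearMap.add_apply,
          ContinuousLinearMap.smul_apply] at hx hy ⊢
        rw [hx, hy, mul_add, mul_smul_comm, mul_smul_comm]
      · simp [mul_assoc]
    have h2 : z * b ∈ cor z := by
      change z * (z * b) * z = z * b
      rw [← mul_assoc, hz.1.2, mul_assoc, ← hz.2, ← mul_assoc, hz.1.2]
    have h3 := hM j z _ h2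
    rw [← mul_assoc, hz.1.2, ← mul_assoc, ← hM j z z hzz, hz.1.2, hz.2] at h3
    change θ' (bim a b j) z = a * θ' j z * b
    rw [h1, h3, mul_assoc]
  · refine hH.ind (S := {η | η (ContinuousLinearMap.id ℂ A) z = z}) (fun 𝔘 η h1 h2 =>
      P.ext fun φ hφ => tendsto_nhds_unique (h2 _ _ φ hφ) ?_) (fun x hx y hy a b _ _ hab => ?_)
      fun u hu => ?_
    · exact tendsto_const_nhds.congr' (h1.mono fun _ h => (congrArg φ h).symm)
    · simp only [Set.mem_setOf_eq, Pi.add_apply, Pi.smul_apply, ContinuousLinearMap.add_apply,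
        ContinuousLinearMap.smul_apply] at hx hy ⊢
      rw [hx, hy, ← add_smul, hab, one_smul]
    · change z * star u * u = z
      rw [mul_assoc, hu.1, mul_one]

theorem mem_of_unitary {A : Type u} [CStarAlgebra A] (B : Subalgebra ℂ A)
    (h : ∀ b ∈ unitary A, b ∈ B) (x : A) : x ∈ B := by
  have : Submodule.span ℂ (unitary A : Set A) ≤ B.toSubmodule := Submodule.span_le.2 h
  rw [CStarAlgebra.span_unitary] at this
  exact this trivial

theorem sep : SepStmt.{u} := by
  intro A _ T P hP hA J θ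
  obtain ⟨θ', hH, h⟩ := P.fip (G := unitary A) (θ := θ)
    (C := (J × A × unitary A × A) × {ε : ℝ // 0 < ε})
    (fun c => {η | ‖T.τ ((η c.1.1 (c.1.2.1 * c.1.2.2.1) - η c.1.1 c.1.2.1 * c.1.2.2.1) *
      c.1.2.2.2)‖ ≤ c.2.1}) (fun c 𝔘 η h1 h2 => by
      refine le_of_tendsto (Tendsto.norm ?_) h1
      simp only [sub_mul, map_sub, mul_assoc]
      exact (hP.conv' h2 _ _ _).sub (hP.conv' h2 _ _ _)) (fun F => by
      let t : Fin F.card → (J × A × unitary A × A) × {ε : ℝ // 0 < ε} :=
        fun k => F.equivFin.symm k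
      let Λ : (J → A →L[ℂ] A) →ₗ[ℝ] (Fin F.card → ℂ) :=
        { toFun := fun η k => T.τ ((η (t k).1.1 ((t k).1.2.1 * (t k).1.2.2.1) -
            η (t k).1.1 (t k).1.2.1 * (t k).1.2.2.1) * (t k).1.2.2.2)
          map_add' := fun a b => by
            funext k
            simp only [Pi.add_apply, ContinuousLinearMap.add_apply, ← map_add]
            congr 1
            noncomm_ring
          map_smul' := fun c a => by
            funext k
            simp only [Pi.smul_apply, ContinuousLinearMap.smul_apply, RingHom.id_apply,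
              ← Complex.coe_smul, smul_mul_assoc, ← smul_sub, map_smul] }
      have h0 : (0 : Fin F.card → ℂ) ∈ closure (Λ '' Avg (unitary A) θ) := by
        by_contra h0
        obtain ⟨f, δ, h1, h2⟩ := RCLike.geometric_hahn_banach_point_closed (𝕜 := ℂ)
          ((avg_convex _ θ).linear_image Λ).closure isClosed_closure h0
        obtain ⟨v, hv, h3⟩ := hA (fun k => bim 1 (t k).1.2.1 (θ (t k).1.1))
          (fun k => f (Pi.single k 1) • (t k).1.2.2.2) (fun k => (t k).1.2.2.1) (fun _ => trivial)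
          (fun k => (t k).1.2.2.1.2) δ (by simpa using h1)
        refine absurd (h2 _ (subset_closure ⟨_, avg_act hv θ, rfl⟩)) (not_lt.2 (le_of_lt ?_))
        refine lt_of_eq_of_lt (congrArg Complex.re ?_) h3
        rw [pi_eq_sum_univ' (Λ _), map_sum]
        refine Finset.sum_congr rfl fun k _ => ?_
        simp only [map_smul, mul_smul_comm, smul_eq_mul, Λ, LinearMap.coe_mk, AddHom.coe_mk,
          act_apply, bim_apply, one_mul, mul_assoc]
        rw [mul_comm]
      obtain ⟨ε, hε, hε'⟩ : ∃ ε > 0, ∀ c ∈ F, ε ≤ c.2.1 := by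
        rcases F.eq_empty_or_nonempty with rfl | hF
        · exact ⟨1, one_pos, by simp⟩
        · obtain ⟨c, -, hc⟩ := F.exists_min_image (fun c => c.2.1) hF
          exact ⟨_, c.2.2, hc⟩
      obtain ⟨_, ⟨η, hη, rfl⟩, h1⟩ := Metric.mem_closure_iff.1 h0 ε hε
      refine ⟨η, P.hull_of_avg subset_rfl hη, fun c hc => ?_⟩
      rw [dist_zero_left] at h1
      have := ((norm_le_pi_norm _ (F.equivFin ⟨c, hc⟩)).trans h1.le).trans (hε' c hc)
      simpa only [Λ, t, LinearMap.coe_mk, AddHom.coe_mk, Equiv.symm_apply_apply,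
        Set.mem_setOf_eq] using this)
  refine ⟨θ', hH, fun j y b _ => mem_of_unitary (modAlg (θ' j)) (fun b hb y => ?_) b y⟩
  refine sub_eq_zero.1 (P.sep _ fun φ hφ => ?_)
  obtain ⟨w, hw⟩ := (hP φ).1 hφ
  rw [hw]
  exact norm_le_zero_iff.1 (le_of_forall_pos_le_add fun ε hε => by
    simpa using h ((j, y, ⟨b, hb⟩, w), ⟨ε, hε⟩))

end Crest.Agent.KR
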