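import Crest.Agent.KR.Defs
import Crest.Agent.KS.Cut
/-! Kadison–Ringrose (S0161): corners, traces on central corners, tracial models. -/
set_option autoImplicit false
namespace Crest.Agent.KR
open scoped InnerProductSpace ComplexConjugate BigOperators
open Filter Topology Crest.Agent.GP Crest.Agent.KS

universe u

namespace TW
section Cor
variable {A : Type u} [CStarAlgebra A] {p : A}

theorem cor_l (hp : Proj p) {x : A} (hx : x ∈ cor p) : p * x = x := by
  have h : p * x * p = x := hx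
  rw [← h, ← mul_assoc, ← mul_assoc, hp.2]

theorem cor_r (hp : Proj p) {x : A} (hx : x ∈ cor p) : x * p = x := by
  have h : p * x * p = x := hx
  rw [← h, mul_assoc, hp.2]

theorem mem_cor {x : A} (h1 : p * x = x) (h2 : x * p = x) : x ∈ cor p := by
  change p * x * p = x
  rw [h1, h2]

def sub (hp : Proj p) : NonUnitalStarSubalgebra ℂ A where
  carrier := cor p
  add_mem' ha hb := mem_cor (by rw [mul_add, cor_l hp ha, cor_l hp hb])
    (by rw [add_mul, cor_r hp ha, cor_r hp hb])
  zero_mem' := mem_cor (mul_zero _) (zero_mul _)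
  mul_mem' ha hb := mem_cor (by rw [← mul_assoc, cor_l hp ha]) (by rw [mul_assoc, cor_r hp hb])
  smul_mem' c a ha := mem_cor (by rw [mul_smul_comm, cor_l hp ha])
    (by rw [smul_mul_assoc, cor_r hp ha])
  star_mem' ha := mem_cor (by rw [← hp.1, ← star_mul, cor_r hp ha])
    (by rw [← hp.1, ← star_mul, cor_l hp ha])

instance (hp : Proj p) : IsClosed (sub hp : Set A) :=
  isClosed_eq (f := fun x => p * x * p) (by fun_prop) continuous_id

/-- the corner algebra -/
def Cor (hp : Proj p) : Type u := sub hp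

noncomputable abbrev nu (hp : Proj p) : NonUnitalCStarAlgebra (Cor hp) :=
  inferInstanceAs (NonUnitalCStarAlgebra (sub hp))

noncomputable abbrev nr (hp : Proj p) : NormedRing (Cor hp) :=
  { nu hp with
    one := (⟨p, mem_cor hp.2 hp.2⟩ : sub hp)
    one_mul := fun a => Subtype.ext (cor_l hp a.2)
    mul_one := fun a => Subtype.ext (cor_r hp a.2) }

noncomputable abbrev alg (hp : Proj p) : letI := nr hp; Algebra ℂ (Cor hp) :=
  letI := nr hp
  letI : Module ℂ (Cor hp) := (nu hp).toModule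
  Algebra.ofModule (fun r x y => Subtype.ext (smul_mul_assoc r x.1 y.1))
    (fun r x y => Subtype.ext (mul_smul_comm r x.1 y.1))

noncomputable instance (hp : Proj p) : CStarAlgebra (Cor hp) :=
  { nr hp, alg hp, nu hp with }

noncomputable def inc (hp : Proj p) : Cor hp →⋆ₙₐ[ℂ] A where
  toFun a := a.1
  map_smul' _ _ := rfl
  map_zero' := rfl
  map_add' _ _ := rfl
  map_mul' _ _ := rfl
  map_star' _ := rfl

end Cor
end TW
open TW

theorem cor_ : CorStmt.{u} := fun p hp =>
  ⟨Cor hp, inferInstance, inc hp, fun _ _ h => Subtype.ext h, rfl,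
    fun x => ⟨fun h => ⟨(⟨x, h⟩ : sub hp), rfl⟩, fun ⟨y, hy⟩ => hy ▸ y.2⟩⟩

variable {A : Type u} [CStarAlgebra A] {H : Type u} [NormedAddCommGroup H]
  [InnerProductSpace ℂ H] [CompleteSpace H] (ρ : A →⋆ₐ[ℂ] (H →L[ℂ] H))

theorem trz : TrZStmt ρ := by
  rintro e z he hz hz0 ⟨k, w, h1, h2, h3, h4⟩ ⟨τ, I, _, η, Ω, hτ, -, t2, t3, t4, t5⟩
  classical
  have h1' : ∀ i, e * star (w i) = star (w i) := fun i => by rw [← he.1, ← star_mul, h1]
  have hm : ∀ i j x, star (w i) * x * w j ∈ cor e := fun i j x =>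
    mem_cor (by rw [← mul_assoc, ← mul_assoc, h1']) (by rw [mul_assoc, h1])
  have hzw : ∀ i, z * w i = w i := fun i => by
    rw [← h4, Finset.sum_mul, Finset.sum_eq_single i (fun j _ hj => by
      rw [mul_assoc, h3 j i hj, mul_zero]) (by simp), h2]
  let σ : A →ₗ[ℂ] ℂ := ∑ i, τ ∘ₗ LinearMap.mulRight ℂ (w i) ∘ₗ LinearMap.mulLeft ℂ (star (w i))
  have hσ : ∀ x, σ x = ∑ i, τ (star (w i) * x * w i) := fun x => by
    simp [σ, LinearMap.sum_apply]
  have hσ2 : ∀ x y, x ∈ cor z → σ (x * y) =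
      ∑ i, ∑ j, τ (star (w i) * x * w j * (star (w j) * y * w i)) := fun x y hx => by
    rw [hσ]
    refine Finset.sum_congr rfl fun i _ => ?_
    rw [← map_sum]
    congr 1
    conv_lhs => rw [← cor_r hz.1 hx, ← h4]
    simp only [Finset.mul_sum, Finset.sum_mul, mul_assoc]
  have hst : ∀ x, x ∈ cor z → star x ∈ cor z := fun x hx => (sub hz.1).star_mem' hx
  have hσ3 : ∀ x, x ∈ cor z → σ (star x * x) =
      ∑ i, ∑ j, τ (star (star (w j) * x * w i) * (star (w j) * x * w i)) := fun x hx => by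
    rw [hσ2 _ _ (hst x hx)]
    simp only [star_mul, star_star, mul_assoc]
  have hpos : ∀ x, x ∈ cor z → 0 ≤ (σ (star x * x)).re := fun x hx => by
    rw [hσ3 x hx]
    simp only [Complex.re_sum]
    exact Finset.sum_nonneg fun i _ => Finset.sum_nonneg fun j _ => t4 _ (hm _ _ _)
  have hfa : ∀ x, x ∈ cor z → (σ (star x * x)).re = 0 → x = 0 := fun x hx h => by
    rw [hσ3 x hx] at h
    simp only [Complex.re_sum] at h
    have h5 : ∀ i j, star (w j) * x * w i = 0 := fun i j => by
      have a1 := (Finset.sum_eq_zero_iff_of_nonneg fun i _ =>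
        Finset.sum_nonneg fun j _ => t4 _ (hm _ _ _)).1 h i (Finset.mem_univ _)
      have a2 := (Finset.sum_eq_zero_iff_of_nonneg fun j _ => t4 _ (hm _ _ _)).1 a1 j
        (Finset.mem_univ _)
      refine t5 _ (hm _ _ _) ?_
      have a3 := t3 _ ((sub he).mul_mem' ((sub he).star_mem' (hm j i x)) (hm j i x))
      rw [star_mul, star_star] at a3
      rw [← Complex.conj_eq_iff_re.1 a3.symm, a2, Complex.ofReal_zero]
    have h6 : z * x * z = x := hx
    rw [← h6]
    conv_lhs => rw [← h4]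
    simp only [Finset.mul_sum, Finset.sum_mul]
    refine Finset.sum_eq_zero fun i _ => Finset.sum_eq_zero fun j _ => ?_
    rw [show w j * star (w j) * x * (w i * star (w i)) =
      w j * (star (w j) * x * w i) * star (w i) by simp only [mul_assoc], h5, mul_zero, zero_mul]
  have hsa : ∀ x, σ (star x) = conj (σ x) := fun x => by
    rw [hσ, hσ, map_sum]
    refine Finset.sum_congr rfl fun i _ => ?_
    rw [← t3 _ (hm i i x)]
    simp only [star_mul, star_star, mul_assoc]
  have hzz : z ∈ cor z := mem_cor hz.1.2 hz.1.2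
  set c := (σ z).re with hc
  have hc0 : 0 < c := by
    have a1 := hpos z hzz
    have a2 := hfa z hzz
    rw [hz.1.1, hz.1.2] at a1 a2
    exact lt_of_le_of_ne a1 fun h => hz0 (a2 h.symm)
  have hc1 : σ z = c := by
    have := hsa z
    rw [hz.1.1] at this
    exact (Complex.conj_eq_iff_re.1 this.symm).symm
  refine ⟨((c⁻¹ : ℝ) : ℂ) • σ, Fin k × I, inferInstance,
    fun q => ((c⁻¹ : ℝ) : ℂ) • ρ (w q.1) (η q.2), fun q => ρ (w q.1) (Ω q.2), fun x => ?_, ?_,
    fun x hx y hy => ?_, fun x _ => ?_, fun x hx => ?_, fun x hx h => ?_⟩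
  · rw [LinearMap.smul_apply, hσ, Fintype.sum_prod_type, smul_eq_mul, Finset.mul_sum]
    refine Finset.sum_congr rfl fun i _ => ?_
    rw [hτ, Finset.mul_sum]
    refine Finset.sum_congr rfl fun l _ => ?_
    rw [inner_smul_left, Complex.conj_ofReal, KS.Cut.inner_rho, map_mul, map_mul]
    rfl
  · rw [LinearMap.smul_apply, hc1, smul_eq_mul, ← Complex.ofReal_mul, inv_mul_cancel₀ hc0.ne',
      Complex.ofReal_one]
  · simp only [LinearMap.smul_apply]
    rw [hσ2 x y hx, hσ2 y x hy, Finset.sum_comm]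
    congr 1
    exact Finset.sum_congr rfl fun i _ => Finset.sum_congr rfl fun j _ =>
      t2 _ (hm _ _ _) _ (hm _ _ _)
  · simp only [LinearMap.smul_apply, smul_eq_mul, map_mul, Complex.conj_ofReal, hsa]
  · simp only [LinearMap.smul_apply, smul_eq_mul, Complex.re_ofReal_mul]
    exact mul_nonneg (inv_nonneg.2 hc0.le) (hpos x hx)
  · have := congrArg Complex.re h
    simp only [LinearMap.smul_apply, smul_eq_mul, Complex.re_ofReal_mul, Complex.zero_re] at this
    exact hfa x hx ((mul_eq_zero.1 this).resolve_left (inv_ne_zero hc0.ne'))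

theorem tw (_hV : VN ρ) (hK : Kit ρ) : TWStmt ρ := by
  rintro z hz ⟨τ, I, _, η, Ω, hτ, t1, t2, t3, t4, t5⟩
  obtain ⟨N, _, ι, hι, h1, hc⟩ := cor_ z hz.1
  have hm : ∀ y, ι y ∈ cor z := fun y => (hc _).2 ⟨y, rfl⟩
  have hza : ∀ a, z * a ∈ cor z := fun a =>
    mem_cor (by rw [← mul_assoc, hz.1.2]) (by rw [← hz.2, ← mul_assoc, hz.1.2])
  choose π0 hπ0 using fun a => (hc _).1 (hza a)
  let π : A →⋆ₐ[ℂ] N :=
    { toFun := π0
      map_one' := hι (by rw [hπ0, h1, mul_one])
      map_mul' := fun a b => hι (by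
        rw [map_mul, hπ0, hπ0, hπ0, mul_assoc z a, ← mul_assoc a z, ← hz.2 a, mul_assoc z a,
          ← mul_assoc z z, hz.1.2])
      map_zero' := hι (by rw [hπ0, map_zero, mul_zero])
      map_add' := fun a b => hι (by rw [map_add, hπ0, hπ0, hπ0, mul_add])
      commutes' := fun c => hι (by
        rw [hπ0, Algebra.algebraMap_eq_smul_one, Algebra.algebraMap_eq_smul_one, map_smul, h1,
          mul_smul_comm, mul_one])
      map_star' := fun a => hι (by rw [map_star, hπ0, hπ0, star_mul, hz.1.1, hz.2]) }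
  have hπ : ∀ a, ι (π a) = z * a := hπ0
  let T : Tr N :=
    { τ := { toFun := fun y => τ (ι y)
             map_add' := fun a b => by rw [map_add, map_add]
             map_smul' := fun c a => by rw [map_smul, map_smul]; rfl }
      one := by change τ (ι 1) = 1; rw [h1, t1]
      comm := fun a b => by
        change τ (ι (a * b)) = τ (ι (b * a))
        rw [map_mul ι, map_mul ι, t2 _ (hm a) _ (hm b)]
      map_star := fun a => by
        change τ (ι (star a)) = conj (τ (ι a))
        rw [map_star, t3 _ (hm a)]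
      pos := fun a => by
        change 0 ≤ (τ (ι (star a * a))).re
        rw [map_mul, map_star]; exact t4 _ (hm a) }
  have hT : ∀ y, T.τ y = τ (ι y) := fun _ => rfl
  refine ⟨N, inferInstance, T, ι, π, ⟨fun x hx => ?_, fun x C hx hcau => ?_⟩,
    fun y => hι (by rw [hπ, cor_l hz.1 (hm y)]), hπ⟩
  · have := T.n_sq' x
    rw [hx, hT, map_mul, map_star] at this
    exact hι (by rw [t5 _ (hm x) (by simpa using this), map_zero])
  obtain ⟨P, hP⟩ := hK.pre
  let 𝔘 : Ultrafilter ℕ := Ultrafilter.of atTop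
  have h𝔘 : (𝔘 : Filter ℕ) ≤ atTop := Ultrafilter.of_le _
  obtain ⟨y, hy, hy'⟩ := P.lim (𝔘.map fun k => ι (x k)) C (by
    rw [Ultrafilter.coe_map, eventually_map]
    exact Eventually.of_forall fun k => (NonUnitalStarAlgHom.norm_apply_le ι _).trans (hx k))
  have hlim : ∀ b, Tendsto (fun k => T.τ (b * x k)) 𝔘 (𝓝 (T.τ (b * π y))) := fun b => by
    have e : ι (b * π y) = ι b * y := by rw [map_mul, hπ, ← mul_assoc, cor_r hz.1 (hm b)]
    simp only [hT, e, hτ]
    refine tendsto_finset_sum _ fun i _ => ?_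
    obtain ⟨φ, hφ⟩ : ∃ φ : A →L[ℂ] ℂ, ∀ a, φ a = ⟪ρ (star (ι b)) (η i), ρ a (Ω i)⟫_ℂ := by
      refine ⟨LinearMap.mkContinuous
        { toFun := fun a => ⟪ρ (star (ι b)) (η i), ρ a (Ω i)⟫_ℂ
          map_add' := fun a b => by simp [inner_add_right]
          map_smul' := fun c a => by simp [inner_smul_right] }
        (‖ρ (star (ι b)) (η i)‖ * ‖Ω i‖) fun a => ?_, fun a => rfl⟩
      refine (norm_inner_le_norm _ _).trans ?_
      rw [mul_assoc]
      refine mul_le_mul_of_nonneg_left (((ρ a).le_opNorm _).trans ?_) (norm_nonneg _)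
      rw [mul_comm]
      exact mul_le_mul_of_nonneg_left (NonUnitalStarAlgHom.norm_apply_le ρ a) (norm_nonneg _)
    have h2 := hy' φ ((hP φ).2 ⟨_, _, hφ⟩)
    have h3 : ∀ a, φ a = ⟪η i, ρ (ι b * a) (Ω i)⟫_ℂ := fun a => by
      rw [hφ, KS.Cut.inner_rho, star_star, map_mul]; rfl
    rw [Ultrafilter.coe_map, tendsto_map'_iff, h3] at h2
    simpa only [Function.comp_def, h3, map_mul ι] using h2
  refine ⟨π y, (NonUnitalStarAlgHom.norm_apply_le π y).trans hy, ?_⟩
  rw [Metric.tendsto_atTop]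
  intro ε hε
  obtain ⟨n, hn⟩ := Metric.cauchySeq_iff.1 hcau (ε / 2) (by positivity)
  refine ⟨n, fun k hk => ?_⟩
  rw [Real.dist_eq, sub_zero, abs_of_nonneg (T.n_nonneg _)]
  have h2 : T.n (x k - π y) ^ 2 ≤ T.n (x k - π y) * (ε / 2) := by
    have h3 := ((hlim (star (x k - π y))).const_sub (T.τ (star (x k - π y) * x k))).norm
    rw [← map_sub, ← mul_sub, T.n_sq', Complex.norm_real, Real.norm_of_nonneg (sq_nonneg _)] at h3
    refine le_of_tendsto h3 (h𝔘 ((eventually_ge_atTop n).mono fun l hl => ?_))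
    rw [← map_sub, ← mul_sub]
    refine (T.cs _ _).trans ?_
    rw [T.n_star]
    exact mul_le_mul_of_nonneg_left (by rw [← T.dist_ι]; exact (hn k hk l hl).le) (T.n_nonneg _)
  nlinarith [T.n_nonneg (x k - π y)]

end Crest.Agent.KR
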