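import Crest.Agent.KR.SS
/-! (Tr1) a finite projection dominates a corner with an almost tracial vector. -/
set_option autoImplicit false
namespace Crest.Agent.KR
open Crest.Agent.GP
open scoped InnerProductSpace

universe u

namespace Tr1

variable {A : Type u} [CStarAlgebra A] {H : Type u} [NormedAddCommGroup H]
  [InnerProductSpace ℂ H] [CompleteSpace H] {ρ : A →⋆ₐ[ℂ] (H →L[ℂ] H)}

theorem zorn_pi (hV : VN ρ) (hK : Kit ρ) (Q : A → Prop) (hQ : ∀ v, Q v → v * star v * v = v) :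
    ∃ (F : Set A) (V : A), (∀ v ∈ F, Q v) ∧ V * star V * V = V ∧ SS ρ (fun v : F => v.1) V ∧
      SS ρ (fun v : F => star v.1) (star V) ∧
      SS ρ (fun v : F => star v.1 * v.1) (star V * V) ∧
      SS ρ (fun v : F => v.1 * star v.1) (V * star V) ∧
      ∀ w, Q w → w * (star V * V) = 0 → V * star V * w = 0 → w = 0 := by
  obtain ⟨F, -, hF⟩ := zorn_subset_nonempty {F : Set A | (∀ v ∈ F, Q v) ∧ ∀ v ∈ F, ∀ w ∈ F, v ≠ w →
      star v * w = 0 ∧ v * star w = 0} (fun c hc hch _ => ⟨⋃₀ c, ⟨by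
        rintro v ⟨s, hs, hv⟩; exact (hc hs).1 v hv, by
        rintro v ⟨s, hs, hv⟩ w ⟨t, ht, hw⟩ hvw
        rcases hch.total hs ht with h | h
        · exact (hc ht).2 v (h hv) w hw hvw
        · exact (hc hs).2 v hv w (h hw) hvw⟩, fun s hs =>
    Set.subset_sUnion_of_mem hs⟩) ∅ ⟨by simp, by simp⟩
  obtain ⟨h1, h2⟩ := hF.prop
  obtain ⟨V, a1, a2, a3, a4, a5, a6, a7⟩ := hK.sum_pi hV (fun v : F => v.1)
    (fun v => hQ _ (h1 v v.2)) (fun v w h => (h2 v v.2 w w.2 fun h' => h (Subtype.ext h')).1)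
    (fun v w h => (h2 v v.2 w w.2 fun h' => h (Subtype.ext h')).2)
  refine ⟨F, V, h1, a3, a1, a2, a6, a7, fun w hw b1 b2 => ?_⟩
  have c1 : ∀ v ∈ F, w * star v = 0 := fun v hv => by
    have e1 : star V * v = star v * v := by simpa using congrArg star (a4 ⟨v, hv⟩)
    have e : star V * V * star v = star v := by
      rw [mul_assoc, a5 ⟨v, hv⟩, ← mul_assoc, e1, pi_star (hQ v (h1 v hv))]
    rw [← e, ← mul_assoc, b1, zero_mul]
  have c2 : ∀ v ∈ F, star v * w = 0 := fun v hv => by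
    have e1 : v * star V = v * star v := by simpa using congrArg star (a5 ⟨v, hv⟩)
    have e : star v * (V * star V) = star v := by
      rw [← mul_assoc, a4 ⟨v, hv⟩, mul_assoc, e1, ← mul_assoc, pi_star (hQ v (h1 v hv))]
    rw [← e, mul_assoc, b2, mul_zero]
  refine eq_zero_of_mul_star (c1 w (hF.2 (y := insert w F) ⟨?_, ?_⟩ (Set.subset_insert _ _)
    (Set.mem_insert _ _)))
  · rintro x (rfl | hx)
    · exact hw
    · exact h1 x hx
  · rintro x (rfl | hx) y (rfl | hy) hxy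
    · exact absurd rfl hxy
    · exact ⟨by simpa using congrArg star (c2 y hy), c1 y hy⟩
    · exact ⟨c2 x hx, by simpa using congrArg star (c1 x hx)⟩
    · exact h2 x hx y hy hxy

variable (ρ) in
/-- vector functional -/
noncomputable def om (ξ : H) (x : A) : ℝ := (⟪ξ, ρ x ξ⟫_ℂ).re

theorem om_conj (ξ : H) (w x : A) : om ρ ξ (w * x * star w) = om ρ (ρ (star w) ξ) x := by
  unfold om
  rw [map_star, ContinuousLinearMap.star_eq_adjoint, ContinuousLinearMap.adjoint_inner_left,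
    map_mul, map_mul, map_star, ContinuousLinearMap.star_eq_adjoint]
  rfl

theorem om_sq (ξ : H) (x : A) : om ρ ξ (star x * x) = ‖ρ x ξ‖ ^ 2 := by
  unfold om
  rw [map_mul, map_star, ContinuousLinearMap.star_eq_adjoint, mul_apply_eq_comp,
    ContinuousLinearMap.adjoint_inner_right, inner_self_eq_norm_sq_to_K]
  norm_cast

theorem om_proj (ξ : H) {x : A} (h : Proj x) : om ρ ξ x = ‖ρ x ξ‖ ^ 2 := by
  rw [← om_sq, h.1, h.2]

theorem om_sub (ξ : H) (x y : A) : om ρ ξ (x - y) = om ρ ξ x - om ρ ξ y := by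
  simp [om]

theorem om_zero (ξ : H) : om ρ ξ 0 = 0 := by simp [om]

theorem om_sum (ξ : H) (δ : ℝ) {n : ℕ} (e : Fin n → A) :
    om ρ ξ ((δ : ℂ) • ∑ i, e i) = δ * ∑ i, om ρ ξ (e i) := by
  unfold om
  rw [map_smul, map_sum, _root_.smul_apply, _root_.sum_apply, inner_smul_right, inner_sum,
    Complex.re_ofReal_mul, Complex.re_sum]

theorem om_abs (ξ : H) (x : A) : |om ρ ξ x| ≤ ‖x‖ * ‖ξ‖ ^ 2 := by
  refine (Complex.abs_re_le_norm _).trans ((norm_inner_le_norm _ _).trans ?_)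
  have h1 := (ρ x).le_opNorm ξ
  have h2 : ‖ρ x‖ ≤ ‖x‖ := NonUnitalStarAlgHom.norm_apply_le ρ x
  have h3 := mul_le_mul_of_nonneg_right h2 (norm_nonneg ξ)
  nlinarith [norm_nonneg ξ]

theorem SS.om {I : Type*} {v : I → A} {V : A} (h : SS ρ v V) (ξ : H) :
    HasSum (fun i => om ρ ξ (v i)) (om ρ ξ V) :=
  ((h ξ).mapL (innerSL ℂ ξ)).mapL Complex.reCLM

theorem sub_dom (hV : VN ρ) (hK : Kit ρ) {r : A} (hr : Proj r) (ξ η : H) (h : 0 < om ρ η r) :
    ∃ (r' : A) (l : ℝ), Proj r' ∧ r' ≠ 0 ∧ r * r' = r' ∧ 0 < l ∧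
      ∀ y, Proj y → r' * y = y → om ρ ξ y ≤ l * om ρ η y := by
  have h0 : 0 ≤ om ρ ξ r := by rw [om_proj ξ hr]; positivity
  set l := om ρ ξ r / om ρ η r + 1 with hl
  have hl1 : om ρ ξ r < l * om ρ η r := by rw [hl, add_mul, div_mul_cancel₀ _ h.ne']; linarith
  obtain ⟨F, Y, a1, a2, a3, -, a5, -, a7⟩ := zorn_pi hV hK
    (fun y => Proj y ∧ r * y = y ∧ l * om ρ η y ≤ om ρ ξ y) fun y hy => proj_pi hy.1
  have hY : Proj Y := by
    rw [← (a5.congr fun v => by rw [(a1 v v.2).1.1, (a1 v v.2).1.2]).unique hV a3]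
    exact pi_proj a2
  have hrY : r * Y = Y := ((a3.mul_left r).congr fun v => (a1 v v.2).2.1).unique hV a3
  have hle : l * om ρ η Y ≤ om ρ ξ Y :=
    hasSum_le (fun v : F => (a1 v v.2).2.2) ((SS.om a3 η).mul_left l) (SS.om a3 ξ)
  have hr' := proj_sub hr hY hrY
  refine ⟨r - Y, l, hr', fun h' => ?_, by rw [mul_sub, hr.2, hrY], by positivity,
    fun y hy hy' => ?_⟩
  · rw [← sub_eq_zero.1 h'] at hle; linarith
  · by_contra hc
    rw [not_le] at hc
    have e1 : Y * y = 0 := by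
      rw [← hy', ← mul_assoc, mul_sub, proj_comm hr hY hrY, hY.2, sub_self, zero_mul]
    have e2 : y * Y = 0 := by simpa [hy.1, hY.1] using congrArg star e1
    have := a7 y ⟨hy, by rw [← hy', ← mul_assoc, mul_sub, hr.2, hrY], hc.le⟩
      (by rw [hY.1, hY.2, e2]) (by rw [hY.1, hY.2, e1])
    rw [this, om_zero, om_zero] at hc
    simp at hc

theorem one_sub_zero {a p : A} (h : a * (1 - p) = 0) : a * p = a := by
  rw [mul_sub, mul_one] at h; exact (sub_eq_zero.1 h).symm

theorem one_sub_zero' {a p : A} (h : (1 - p) * a = 0) : p * a = a := by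
  rw [sub_mul, one_mul] at h; exact (sub_eq_zero.1 h).symm

theorem claim (hV : VN ρ) (hK : Kit ρ) {q p : A} (hp : Proj p) (hqp : q * p = p) (hpq : p * q = p)
    (hfin : ∀ v, q * v * q = v → v * star v * v = v → star v * v * (v * star v) = v * star v →
      v * star v = star v * v) (Ω : H) (hΩ : 0 < om ρ Ω p) (hf : ∀ x, ρ x Ω = 0 → x * p = 0) :
    ∃ (r : A) (C : ℝ), Proj r ∧ r ≠ 0 ∧ p * r = r ∧ 0 ≤ C ∧ ∀ v, r * v = v → v * r = v →
      v * star v * v = v → om ρ Ω (v * star v) ≤ C * om ρ Ω (star v * v) := by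
  by_contra hcon
  push Not at hcon
  obtain ⟨F, V, a1, a2, a3, -, a5, a6, a7⟩ := zorn_pi hV hK
    (fun v => v * star v * v = v ∧ p * v = v ∧ v * p = v ∧
      2 * om ρ Ω (star v * v) ≤ om ρ Ω (v * star v)) fun y hy => hy.1
  have hpV : p * V = V := ((a3.mul_left p).congr fun v => (a1 v v.2).2.1).unique hV a3
  have hVp : V * p = V := ((a3.mul_right p).congr fun v => (a1 v v.2).2.2.1).unique hV a3
  have hle : 2 * om ρ Ω (star V * V) ≤ om ρ Ω (V * star V) :=
    hasSum_le (fun v : F => (a1 v v.2).2.2.2) ((SS.om a5 Ω).mul_left 2) (SS.om a6 Ω)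
  have hE := pi_proj a2
  have hF := pi_proj' a2
  have hpV' : p * star V = star V := by rw [← hp.1, ← star_mul, hVp]
  have hpE : p * (star V * V) = star V * V := by rw [← mul_assoc, hpV']
  have hpF : p * (V * star V) = V * star V := by rw [← mul_assoc, hpV]
  have hE0 := proj_sub hp hE hpE
  have hF0 := proj_sub hp hF hpF
  obtain ⟨E0, hE0d⟩ : ∃ E0, E0 = p - star V * V := ⟨_, rfl⟩
  obtain ⟨F0, hF0d⟩ : ∃ F0, F0 = p - V * star V := ⟨_, rfl⟩
  rw [← hE0d] at hE0
  rw [← hF0d] at hF0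
  have hE00 : E0 ≠ 0 := by
    intro h
    have h1 : 0 ≤ om ρ Ω F0 := by rw [om_proj Ω hF0]; positivity
    rw [hF0d, om_sub] at h1
    rw [hE0d, sub_eq_zero] at h
    rw [← h] at hle
    linarith
  have hE0p : E0 * p = E0 := by rw [hE0d, sub_mul, hp.2, proj_comm hp hE hpE]
  have hpF0 : p * F0 = F0 := by rw [hF0d, mul_sub, hp.2, hpF]
  have hE0E : E0 * (star V * V) = 0 := by rw [hE0d, sub_mul, hpE, hE.2, sub_self]
  have hFF0 : V * star V * F0 = 0 := by rw [hF0d, mul_sub, proj_comm hp hF hpF, hF.2, sub_self]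
  by_cases hx : ∀ x, F0 * x * E0 = 0
  · obtain ⟨z, hz, hz1, hz2⟩ := hK.supp {E0}
    have z1 := hz1 E0 rfl
    have z2 := hz2 F0 (by intro b hb x; rw [Set.mem_singleton_iff.1 hb]; exact hx x)
    have e1 : star (z * star V) * (z * star V) = z * p := by
      rw [star_mul, star_star, hz.1.1, mul_assoc, ← mul_assoc z, hz.1.2, ← mul_assoc, ← hz.2,
        mul_assoc]
      rw [← hz.2, hF0d, mul_sub] at z2
      exact (sub_eq_zero.1 z2).symm
    have e2 : (z * star V) * star (z * star V) = z * (star V * V) := by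
      rw [star_mul, star_star, hz.1.1, mul_assoc, ← mul_assoc (star V), ← hz.2, ← mul_assoc, hz.1.2]
    have e3 := hfin (z * star V) (by
        have b1 : q * star V = star V := by rw [← hpV', ← mul_assoc, hqp]
        have b2 : star V * q = star V := by
          rw [← hpV, star_mul, hp.1, mul_assoc, hpq]
        rw [← mul_assoc, ← hz.2, mul_assoc z, b1, mul_assoc, b2])
      (pi_of_idem (by rw [e1]; exact (hz.mul_proj hp).2))
      (by rw [e1, e2, mul_assoc, ← mul_assoc p, ← hz.2, mul_assoc, hpE, ← mul_assoc, hz.1.2])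
    rw [e1, e2] at e3
    apply hE00
    rw [← z1, hE0d, mul_sub, e3, sub_self]
  · push Not at hx
    obtain ⟨x, hx⟩ := hx
    obtain ⟨w, h, k, -, b2, -, b4, b5, b6⟩ := hK.polar (F0 * x * E0)
    have c1 : w * E0 = w := one_sub_zero (b5 _ (by rw [mul_assoc, mul_sub, hE0.2, mul_one, sub_self,
      mul_zero]))
    have c2 : F0 * w = w := one_sub_zero' (b6 _ (by
      rw [← mul_assoc, ← mul_assoc, sub_mul, hF0.2, one_mul, sub_self, zero_mul, zero_mul]))
    have hw0 : w ≠ 0 := fun h0 => hx (by rw [← b2, h0, zero_mul])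
    have hpw : p * w = w := by rw [← c2, ← mul_assoc, hpF0]
    have hwp : w * p = w := by rw [← c1, mul_assoc, hE0p]
    have hη : ρ (star w) Ω ≠ 0 := fun h0 => hw0 (by
      have := congrArg star (hf _ h0)
      rwa [star_mul, star_star, hp.1, hpw, star_zero] at this)
    obtain ⟨r, l, hr, hr0, hr1, hl, hdom⟩ := sub_dom hV hK (pi_proj b4) Ω (ρ (star w) Ω) (by
      rw [← om_conj, ← mul_assoc, b4]
      have := om_sq (ρ := ρ) Ω (star w)
      rw [star_star] at this
      rw [this]; positivity)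
    have hE0r : E0 * r = r := by
      have : E0 * star w = star w := by rw [← hE0.1, ← star_mul, c1]
      rw [← hr1, ← mul_assoc, ← mul_assoc, this]
    have hpr : p * r = r := by
      have : p * E0 = E0 := by simpa [hp.1, hE0.1] using congrArg star hE0p
      rw [← hE0r, ← mul_assoc, this]
    obtain ⟨v, d1, d2, d3, d4⟩ := hcon r (2 * l) hr hr0 hpr (by positivity)
    have hwv : star w * w * v = v := by rw [← d1, ← mul_assoc, hr1]
    have e1 : star (w * v) * (w * v) = star v * v := by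
      rw [star_mul, mul_assoc, ← mul_assoc (star w), hwv]
    have e2 : w * v * star (w * v) = w * (v * star v) * star w := by
      rw [star_mul]; simp only [mul_assoc]
    have f1 := hdom (v * star v) (pi_proj' d3) (by rw [← mul_assoc, d1])
    have hrE0 : r * E0 = r := proj_comm hE0 hr hE0r
    have := a7 (w * v) ⟨pi_of_idem (by rw [e1]; exact (pi_proj d3).2), by rw [← mul_assoc, hpw],
        by rw [mul_assoc, ← d2, mul_assoc v, proj_comm hp hr hpr], by
          rw [e1, e2, om_conj]; nlinarith⟩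
      (by rw [← d2, ← hrE0]; simp only [mul_assoc]; rw [hE0E]; simp)
      (by rw [← c2, ← mul_assoc, ← mul_assoc, hFF0, zero_mul, zero_mul])
    rw [this, mul_zero] at e1
    have hv0 := eq_zero_of_star_mul e1.symm
    rw [hv0, mul_zero, zero_mul, om_zero] at d4
    simp at d4

theorem general (hK : Kit ρ) {r : A} {C : ℝ} (hC : 0 ≤ C) (Ω : H)
    (h : ∀ v, r * v = v → v * r = v → v * star v * v = v →
      om ρ Ω (v * star v) ≤ C * om ρ Ω (star v * v)) (x : A) (h1 : r * x = x) (h2 : x * r = x) :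
    om ρ Ω (x * star x) ≤ C * om ρ Ω (star x * x) := by
  obtain ⟨v, g, k, b1, b2, b3, b4, b5, b6⟩ := hK.polar x
  have hg : star g = g := by rw [b1]; simp
  have c1 : v * r = v := one_sub_zero (b5 _ (by rw [mul_sub, mul_one, h2, sub_self]))
  have c2 : r * v = v := one_sub_zero' (b6 _ (by rw [sub_mul, one_mul, h1, sub_self]))
  have b3' : star x * v = g := by rw [← hg, ← b3]; simp
  have c3 : x * (star v * v) = x := by
    calc x * (star v * v) = v * (star x * v) * (star v * v) := by rw [b3', b2]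
      _ = v * (star x * (v * star v * v)) := by simp only [mul_assoc]
      _ = x := by rw [b4, b3', b2]
  have c4 : x * star x = v * (star x * x) * star v := by
    calc x * star x = v * g * (g * star v) := by rw [b2, ← b2, star_mul, hg]
      _ = v * ((star x * v) * (star v * x)) * star v := by rw [b3, b3']; simp only [mul_assoc]
      _ = _ := by rw [mul_assoc (star x), ← mul_assoc v (star v), mul_assoc v (star v), b3, b2]
  refine le_of_forall_pos_le_add fun ε hε => ?_
  set N := (C + 1) * ‖Ω‖ ^ 2 + 1 with hN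
  have hN0 : 0 < N := by positivity
  obtain ⟨n, e, e1, e2, e3⟩ := hK.layer x (ε / N) (by positivity)
  have f1 : ∀ i, om ρ (ρ (star v) Ω) (e i) ≤ C * om ρ Ω (e i) := fun i => by
    have g1 : e i * (star v * v) = e i :=
      one_sub_zero (e2 i _ (by rw [mul_sub, mul_one, c3, sub_self]))
    have g2 : e i * r = e i := one_sub_zero (e2 i _ (by rw [mul_sub, mul_one, h2, sub_self]))
    have g3 : star (v * e i) * (v * e i) = e i := by
      rw [star_mul, (e1 i).1, mul_assoc, ← mul_assoc (star v), ← mul_assoc, g1, (e1 i).2]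
    have g4 : v * e i * star (v * e i) = v * e i * star v := by
      rw [star_mul, (e1 i).1, ← mul_assoc, mul_assoc v, (e1 i).2]
    have := h (v * e i) (by rw [← mul_assoc, c2]) (by rw [mul_assoc, g2])
      (pi_of_idem (by rw [g3, (e1 i).2]))
    rwa [g3, g4, om_conj] at this
  have f2 := om_abs (ρ := ρ) (ρ (star v) Ω) (star x * x - ((ε / N : ℝ) : ℂ) • ∑ i, e i)
  have f3 := om_abs (ρ := ρ) Ω (star x * x - ((ε / N : ℝ) : ℂ) • ∑ i, e i)
  rw [om_sub, om_sum] at f2 f3
  have f4 : ‖ρ (star v) Ω‖ ≤ ‖Ω‖ := by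
    have h1 := (ρ (star v)).le_opNorm Ω
    have h2 : ‖ρ (star v)‖ ≤ ‖star v‖ := NonUnitalStarAlgHom.norm_apply_le ρ _
    rw [norm_star] at h2
    have h3 := mul_le_mul_of_nonneg_right (h2.trans (pi_norm b4)) (norm_nonneg Ω)
    linarith
  have f5 := f2.trans (mul_le_mul e3 (pow_le_pow_left₀ (norm_nonneg _) f4 2) (by positivity)
    (by positivity))
  have f6 := f3.trans (mul_le_mul_of_nonneg_right e3 (by positivity))
  have f7 : ∑ i, om ρ (ρ (star v) Ω) (e i) ≤ C * ∑ i, om ρ Ω (e i) := by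
    rw [Finset.mul_sum]; exact Finset.sum_le_sum fun i _ => f1 i
  rw [c4, om_conj]
  have g1 := (abs_le.1 f5).2
  have g2 := mul_le_mul_of_nonneg_left (abs_le.1 f6).1 hC
  have g3 := mul_le_mul_of_nonneg_left f7 (show 0 ≤ ε / N by positivity)
  have g4 : ε / N * N = ε := div_mul_cancel₀ _ hN0.ne'
  have g5 : 0 < ε / N := by positivity
  rw [hN] at g4
  nlinarith

end Tr1

variable {A : Type u} [CStarAlgebra A] {H : Type u} [NormedAddCommGroup H]
  [InnerProductSpace ℂ H] [CompleteSpace H]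

open Tr1 in
theorem tr1 (ρ : A →⋆ₐ[ℂ] (H →L[ℂ] H)) (hV : VN ρ) (hK : Kit ρ) : Tr1Stmt ρ := by
  intro q hq hq0 hfin
  obtain ⟨ξ, hξ⟩ : ∃ ξ, ρ q ξ ≠ 0 := by
    by_contra h
    push Not at h
    exact hq0 (hV.inj (by rw [map_zero]; exact ContinuousLinearMap.ext h))
  obtain ⟨p, hp, p1, p2⟩ := hK.cyc {ρ q ξ}
  have p1 := p1 _ rfl
  have p2 : ∀ x, ρ x (ρ q ξ) = 0 → x * p = 0 := fun x hx => p2 x (by rintro _ rfl; exact hx)
  have hqp : q * p = p := one_sub_zero' (p2 _ (by
    rw [← mul_apply_eq_comp, ← map_mul, sub_mul, one_mul, hq.2, sub_self, map_zero]; rfl))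
  obtain ⟨r, C, hr, hr0, hpr, hC, h⟩ := claim hV hK hp hqp (proj_comm hq hp hqp) hfin (ρ q ξ)
    (by rw [om_proj _ hp, p1]; positivity) p2
  have hc : ∀ x ∈ cor r, r * x = x ∧ x * r = x := fun x hx => by
    have hx : r * x * r = x := hx
    exact ⟨by rw [← hx, ← mul_assoc, ← mul_assoc, hr.2], by rw [← hx, mul_assoc, hr.2]⟩
  refine ⟨r, ρ q ξ, C, hr, hr0, by rw [← hpr, ← mul_assoc, hqp], fun x hx h0 => ?_,
    fun x hx => ?_⟩
  · rw [← (hc x hx).2, ← proj_comm hp hr hpr, ← mul_assoc, (hc x hx).2, p2 x h0]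
  · have := general hK hC _ h x (hc x hx).1 (hc x hx).2
    have e := om_sq (ρ := ρ) (ρ q ξ) (star x)
    rw [star_star] at e
    rwa [om_sq, e] at this

end Crest.Agent.KR
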