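import Crest.Agent.KR.Defs
import Crest.Agent.KS.Trace
import Crest.Agent.KS.Form
import Crest.Agent.KS.Cut
/-! Kadison–Ringrose (S0161): a quasi-tracial vector gives a normal faithful trace. -/
set_option autoImplicit false
namespace Crest.Agent.KR
open scoped InnerProductSpace ComplexConjugate BigOperators
open Filter Topology Crest.Agent.GP Crest.Agent.KS

universe u

open KS.Trace in
theorem Tr2.trace {A : Type u} [CStarAlgebra A] {H : Type u} [NormedAddCommGroup H]
    [InnerProductSpace ℂ H] [CompleteSpace H] (ρ : A →⋆ₐ[ℂ] (H →L[ℂ] H)) (ζ : H) (C : ℝ)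
    (hζ : ζ ≠ 0) (hC : ∀ x, ‖ρ (star x) ζ‖ ^ 2 ≤ C * ‖ρ x ζ‖ ^ 2) :
    ∃ (T : Tr A) (K : ℝ), (∀ a, T.n a ≤ K * ‖ρ a ζ‖) ∧ ∀ a, T.n a = 0 → ρ a ζ = 0 := by
  let := CStarAlgebra.spectralOrder A
  have := CStarAlgebra.spectralOrderedRing A
  have z0 : 0 < ‖ζ‖ ^ 2 := by positivity
  have C0 : 0 ≤ C := by
    have := hC 1
    simp only [map_one, ContinuousLinearMap.one_apply, star_one] at this
    by_contra hn
    nlinarith
  have up : ∀ {J : Type} [Fintype J] (y : J → A),
      ∑ j, ‖ρ (y j) ζ‖ ^ 2 ≤ C * (⟪ζ, ρ (∑ j, y j * star (y j)) ζ⟫_ℂ).re := by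
    intro J _ y
    rw [map_sum, ContinuousLinearMap.sum_apply, inner_sum, Complex.re_sum, Finset.mul_sum]
    refine Finset.sum_le_sum fun j _ => ?_
    have h1 := hC (star (y j))
    rwa [star_star, sq_eq ρ ζ (star (y j)), star_star] at h1
  set lam := C * ‖ζ‖ ^ 2 with hlam
  have h0 : 0 ≤ lam := by positivity
  have h : ∀ {J : Type} [Fintype J] (y : J → A),
      ∑ j, ‖ρ (y j) ζ‖ ^ 2 ≤ lam * ‖∑ j, y j * star (y j)‖ := by
    intro J _ y
    refine (up y).trans ?_
    rw [hlam, mul_assoc]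
    refine mul_le_mul_of_nonneg_left ((Complex.re_le_norm _).trans ((norm_inner_le_norm _ _).trans
      ?_)) C0
    have h1 := (ρ (∑ j, y j * star (y j))).le_opNorm ζ
    have h2 := NonUnitalStarAlgHom.norm_apply_le ρ (∑ j, y j * star (y j))
    have h3 := norm_nonneg ζ
    calc _ ≤ ‖ζ‖ * (‖∑ j, y j * star (y j)‖ * ‖ζ‖) := by gcongr; exact h1.trans (by gcongr)
      _ = _ := by ring
  have hi : ∀ a, t ρ ζ (star a * a) ≤ C * ‖ρ a ζ‖ ^ 2 := fun a =>
    t_le (star_mul_self_nonneg a) fun s ⟨J, _, x, hx, e⟩ => by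
      rw [e]
      refine (up x).trans (mul_le_mul_of_nonneg_left ?_ C0)
      obtain ⟨b, hb, e⟩ := CStarAlgebra.nonneg_iff_exists_isSelfAdjoint_and_eq_mul_self.mp
        (sub_nonneg.2 hx)
      have h1 := sq_eq ρ ζ b
      rw [hb.star_eq, ← e, map_sub, ContinuousLinearMap.sub_apply, inner_sub_right,
        Complex.sub_re, ← sq_eq] at h1
      nlinarith [sq_nonneg ‖ρ b ζ‖]
  obtain ⟨L, hL⟩ := lin h0 h
  have lo : ∀ a, ‖ρ a ζ‖ ^ 2 ≤ t ρ ζ (a * star a) := fun a =>
    le_t h0 h ⟨Unit, inferInstance, fun _ => a, by simp, by simp⟩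
  set c := t ρ ζ 1 with hc
  have c0 : 0 < c := by
    have := lo 1
    simp only [map_one, ContinuousLinearMap.one_apply, star_one, mul_one] at this
    linarith
  have c1 : c ≤ lam := t_le zero_le_one fun s hs =>
    (V_le h0 h hs).trans (mul_le_of_le_one_right h0 norm_one_le)
  let τ : A →ₗ[ℂ] ℂ :=
    { toFun := fun a => (L a + conj (L (star a))) / (2 * c)
      map_add' := fun a b => by simp only [star_add, map_add]; ring
      map_smul' := fun z a => by
        simp only [star_smul, map_smul, smul_eq_mul, map_mul, Complex.star_def, Complex.conj_conj,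
          RingHom.id_apply]
        ring }
  have hτ : ∀ a, 0 ≤ a → τ a = ((t ρ ζ a / c : ℝ) : ℂ) := fun a ha => by
    change (L a + conj (L (star a))) / (2 * c) = _
    rw [(IsSelfAdjoint.of_nonneg ha).star_eq, Complex.add_conj, hL a ha]
    have : (c : ℂ) ≠ 0 := by exact_mod_cast c0.ne'
    push_cast
    field_simp
  have sw : ∀ d, t ρ ζ (star d * d) = t ρ ζ (d * star d) := fun d =>
    le_antisymm (t_swap h0 h d) (by simpa using t_swap h0 h (star d))
  have sw' : ∀ d, τ (star d * d) = τ (d * star d) := fun d => by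
    rw [hτ _ (star_mul_self_nonneg d), hτ _ (mul_star_self_nonneg d), sw]
  let T : Tr A :=
    { τ := τ
      one := by rw [hτ 1 zero_le_one, ← hc, div_self c0.ne', Complex.ofReal_one]
      comm := fun a b => by
        have e1 := sw' (star a + b)
        have e2 := sw' (star a + Complex.I • b)
        have e3 := sw' (star a)
        have e4 := sw' b
        simp only [star_add, star_smul, star_star, add_mul, mul_add, map_add, smul_mul_assoc,
          mul_smul_comm, map_smul, smul_eq_mul, Complex.star_def, Complex.conj_I] at e1 e2 e3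
        have i2 := Complex.I_mul_I
        linear_combination (1 / 2 : ℂ) * e1 - (Complex.I / 2) * e2 - ((1 - Complex.I) / 2) * e3 -
          ((1 - Complex.I) / 2) * e4 + (τ (a * b) / 2 - τ (star b * star a) / 2 -
          τ (b * a) / 2 + τ (star a * star b) / 2 - Complex.I / 2 * τ (star b * b) +
          Complex.I / 2 * τ (b * star b)) * i2
      map_star := fun a => by
        change (L (star a) + conj (L (star (star a)))) / (2 * c) =
          conj ((L a + conj (L (star a))) / (2 * c))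
        simp only [star_star, map_div₀, map_add, Complex.conj_conj, map_mul, Complex.conj_ofReal,
          map_ofNat]
        ring
      pos := fun a => by
        rw [hτ _ (star_mul_self_nonneg a), Complex.ofReal_re, sw]
        exact div_nonneg ((sq_nonneg _).trans (lo a)) c0.le }
  have e : ∀ a, T.n a ^ 2 = t ρ ζ (star a * a) / c := fun a => by
    rw [T.n_sq]
    change (τ (star a * a)).re = _
    rw [hτ _ (star_mul_self_nonneg a), Complex.ofReal_re]
  refine ⟨T, √(C / c), fun a => ?_, fun a ha => ?_⟩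
  · refine (pow_le_pow_iff_left₀ (T.n_nonneg _) (by positivity) two_ne_zero).1 ?_
    rw [mul_pow, Real.sq_sqrt (by positivity), e, div_mul_eq_mul_div]
    exact div_le_div_of_nonneg_right (hi a) c0.le
  · have h1 := e a
    have h2 := lo a
    rw [ha, eq_div_iff c0.ne', sw] at h1
    exact norm_eq_zero.1 (by nlinarith [norm_nonneg (ρ a ζ)])

theorem tr2 {A : Type u} [CStarAlgebra A] {H : Type u} [NormedAddCommGroup H]
    [InnerProductSpace ℂ H] [CompleteSpace H] (ρ : A →⋆ₐ[ℂ] (H →L[ℂ] H)) (hcor : CorStmt.{u}) :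
    Tr2Stmt ρ := by
  intro r Ω C hr hr0 hf hC
  obtain ⟨N, _, ι, hι, h1, hc⟩ := hcor r hr
  have hm : ∀ y, ι y ∈ cor r := fun y => (hc _).2 ⟨y, rfl⟩
  let j : N →ₗ[ℂ] H :=
    { toFun := fun a => ρ (ι a) Ω
      map_add' := fun a b => by rw [map_add, map_add]; rfl
      map_smul' := fun c a => by rw [map_smul, map_smul]; rfl }
  have hj : ∀ a, j a = ρ (ι a) Ω := fun _ => rfl
  have hj0 : ∀ a, j a = 0 → a = 0 := fun a ha => hι (by rw [hf _ (hm a) ha, map_zero])
  have hjinj : Function.Injective j := (injective_iff_map_eq_zero j).2 hj0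
  obtain ⟨H', _, _, _, ρ', ζ, -, -, hN⟩ := Form.gns ((innerₛₗ ℂ Ω) ∘ₗ j) (fun a => ‖j a‖)
    (fun a => norm_nonneg _) fun a => by
      change ⟪Ω, ρ (ι (star a * a)) Ω⟫_ℂ = _
      rw [map_mul ι, map_mul ρ, map_star ι, ContinuousLinearMap.mul_apply, ← KS.Cut.inner_rho,
        inner_self_eq_norm_sq_to_K, hj]
      simp
  obtain ⟨T, K, hK, hF⟩ := Tr2.trace ρ' ζ C (fun h => by
    have := hN 1
    rw [h, map_zero, norm_zero] at this
    have h2 := hj0 1 (norm_eq_zero.1 this.symm)
    rw [h2, map_zero] at h1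
    exact hr0 h1.symm) fun x => by
      rw [hN, hN, hj, hj, map_star ι]; exact hC _ (hm x)
  let e := LinearEquiv.ofInjective j hjinj
  let f : LinearMap.range j →L[ℂ] ℂ := (T.τ ∘ₗ e.symm.toLinearMap).mkContinuous K fun v => by
    obtain ⟨a, rfl⟩ := e.surjective v
    have := (T.τ_le_n a).trans (hK a)
    rw [hN] at this
    simpa [e] using this
  obtain ⟨g, hg, -⟩ := exists_extension_norm_eq (LinearMap.range j) f
  let η := (InnerProductSpace.toDual ℂ H).symm g
  have hη : ∀ a, ⟪η, ρ (ι a) Ω⟫_ℂ = T.τ a := fun a => by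
    rw [InnerProductSpace.toDual_symm_apply]
    have := hg (e a)
    simpa [f, e, hj] using this
  let σ : A →ₗ[ℂ] ℂ :=
    { toFun := fun a => ⟪η, ρ a Ω⟫_ℂ
      map_add' := fun a b => by rw [map_add, ContinuousLinearMap.add_apply, inner_add_right]
      map_smul' := fun c a => by
        rw [map_smul, ContinuousLinearMap.smul_apply, inner_smul_right]; rfl }
  have hσ : ∀ a, σ (ι a) = T.τ a := hη
  refine ⟨σ, Unit, inferInstance, fun _ => η, fun _ => Ω, fun x => by simp [σ], ?_,
    fun x hx y hy => ?_, fun x hx => ?_, fun x hx => ?_, fun x hx h => ?_⟩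
  · rw [← h1, hσ, T.one]
  · obtain ⟨a, rfl⟩ := (hc x).1 hx
    obtain ⟨b, rfl⟩ := (hc y).1 hy
    rw [← map_mul ι, ← map_mul ι, hσ, hσ, T.comm]
  · obtain ⟨a, rfl⟩ := (hc x).1 hx
    rw [← map_star ι, hσ, hσ, T.map_star]
  · obtain ⟨a, rfl⟩ := (hc x).1 hx
    rw [← map_star ι, ← map_mul ι, hσ]; exact T.pos a
  · obtain ⟨a, rfl⟩ := (hc x).1 hx
    rw [← map_star ι, ← map_mul ι, hσ, T.n_sq'] at h
    have h2 := hF a (by simpa using h)
    have h3 := hN a
    rw [h2, norm_zero] at h3
    rw [hj0 a (norm_eq_zero.1 h3.symm), map_zero]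

end Crest.Agent.KR
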