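import Crest.Agent.KR.Defs
/-! Kadison–Ringrose cohomology (S0161): piece `Uap` (unitary Kaplansky density). -/
set_option autoImplicit false
set_option linter.deprecated false
namespace Crest.Agent.KR
open scoped InnerProductSpace ComplexConjugate BigOperators
open Filter Topology Crest.Agent.GP Crest.Agent.KS Crest.OpAlg

universe u

namespace UapP

theorem cay {A : Type*} [CStarAlgebra A] {b Q : A} (hb : IsSelfAdjoint b)
    (h1 : Q * (1 - Complex.I • b) = 1) (h2 : (1 - Complex.I • b) * Q = 1) :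
    (2 : ℂ) • Q - 1 ∈ unitary A ∧ ‖Q‖ ≤ 1 := by
  have s : star (1 - Complex.I • b) = 1 + Complex.I • b := by
    rw [star_sub, star_one, star_smul, hb.star_eq, RCLike.star_def, Complex.conj_I]; module
  have h3 : (1 + Complex.I • b) * star Q = 1 := by rw [← s, ← star_mul, h1, star_one]
  have h4 : star Q * (1 + Complex.I • b) = 1 := by rw [← s, ← star_mul, h2, star_one]
  have e1 : Q + star Q = (2 : ℂ) • (star Q * Q) := by
    calc Q + star Q = star Q * (1 + Complex.I • b) * Q + star Q * ((1 - Complex.I • b) * Q) := by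
          rw [h4, h2, one_mul, mul_one]
      _ = _ := by simp only [mul_add, add_mul, mul_sub, sub_mul, mul_one, one_mul, mul_assoc]; module
  have e2 : Q + star Q = (2 : ℂ) • (Q * star Q) := by
    calc Q + star Q = Q * ((1 + Complex.I • b) * star Q) + Q * (1 - Complex.I • b) * star Q := by
          rw [h3, h1, one_mul, mul_one]
      _ = _ := by simp only [mul_add, add_mul, mul_sub, sub_mul, mul_one, one_mul, mul_assoc]; module
  have s2 : star ((2 : ℂ) • Q - 1) = (2 : ℂ) • star Q - 1 := by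
    rw [star_sub, star_one, star_smul]; simp
  have hu : (2 : ℂ) • Q - 1 ∈ unitary A := by
    rw [Unitary.mem_iff, s2]
    constructor
    · simp only [mul_sub, sub_mul, mul_one, one_mul, smul_mul_assoc, mul_smul_comm]
      rw [← e1]; module
    · simp only [mul_sub, sub_mul, mul_one, one_mul, smul_mul_assoc, mul_smul_comm]
      rw [← e2]; module
  refine ⟨hu, ?_⟩
  have : Q = (1 / 2 : ℂ) • (((2 : ℂ) • Q - 1) + 1) := by module
  rw [this, norm_smul]
  have h5 := norm_add_le ((2 : ℂ) • Q - 1) 1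
  have h6 := norm_unit hu
  have h7 := norm_one_le (A := A)
  have h8 : ‖(1 / 2 : ℂ)‖ = 1 / 2 := by simp
  rw [h8]; linarith

theorem exists_res {A : Type*} [CStarAlgebra A] {b : A} (hb : IsSelfAdjoint b) :
    ∃ Q : A, Q * (1 - Complex.I • b) = 1 ∧ (1 - Complex.I • b) * Q = 1 := by
  have h : -Complex.I ∉ spectrum ℂ b := fun h => by
    have := congrArg Complex.im (hb.mem_spectrum_eq_re h)
    simp at this
  rw [spectrum.notMem_iff] at h
  obtain ⟨v, hv⟩ := h
  have e : 1 - Complex.I • b = Complex.I • (v : A) := by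
    rw [hv, Algebra.algebraMap_eq_smul_one, smul_sub, smul_smul]; simp
  refine ⟨(-Complex.I) • (↑v⁻¹ : A), ?_, ?_⟩ <;> rw [e, smul_mul_smul_comm] <;> simp

/-- the error function -/
noncomputable def ee (δ : ℝ) (w z : ℂ) : ℂ := δ * (1 - w * z) / (1 + δ + conj (w * z))

theorem den_ge {δ : ℝ} (hδ : 0 < δ) {u : ℂ} (hu : ‖u‖ = 1) : δ ≤ ‖1 + δ + conj u‖ := by
  have h := norm_sub_norm_le ((1 + δ : ℝ) : ℂ) (-conj u)
  rw [Complex.norm_real, norm_neg, RCLike.norm_conj, hu, Real.norm_of_nonneg (by linarith)] at h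
  push_cast at h
  rw [sub_neg_eq_add] at h
  linarith

theorem ee_le {δ : ℝ} (hδ : 0 < δ) {w z : ℂ} (hu : ‖w * z‖ = 1) {t : ℝ} (ht : 0 < t)
    (h : t ≤ ‖1 + δ + conj (w * z)‖) : ‖ee δ w z‖ ≤ 2 * δ / t := by
  rw [ee, norm_div, norm_mul, Complex.norm_real, Real.norm_of_nonneg hδ.le]
  have h1 := norm_sub_le 1 (w * z)
  rw [hu, norm_one] at h1
  exact div_le_div₀ (by positivity) (by nlinarith) ht h

theorem sum_ee {N : ℕ} (w : Fin N → ℂ) (hw : ∀ j, ‖w j‖ = 1) {d δ : ℝ} (hδ : 0 < δ)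
    (hd : 4 * δ ≤ d) (hs : ∀ j k, j ≠ k → d ≤ ‖w j - w k‖) {z : ℂ} (hz : ‖z‖ = 1) :
    ∑ j, ‖ee δ (w j) z‖ ^ 2 ≤ 4 + N * (8 * δ / d) ^ 2 := by
  have hu : ∀ j, ‖w j * z‖ = 1 := fun j => by rw [norm_mul, hw, hz, one_mul]
  have h1 : ∀ j, ‖ee δ (w j) z‖ ^ 2 ≤ 4 := fun j => by
    have := ee_le hδ (hu j) hδ (den_ge hδ (hu j))
    rw [mul_div_cancel_right₀ _ hδ.ne'] at this
    nlinarith [norm_nonneg (ee δ (w j) z)]
  have h2 : ∀ j, d / 2 ≤ ‖1 + w j * z‖ → ‖ee δ (w j) z‖ ^ 2 ≤ (8 * δ / d) ^ 2 := fun j hj => by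
    have h3 := norm_sub_norm_le (1 + conj (w j * z)) (-(δ : ℂ))
    have h4 : ‖1 + conj (w j * z)‖ = ‖1 + w j * z‖ := by
      rw [← RCLike.norm_conj (1 + w j * z), map_add, map_one]
    rw [h4, norm_neg, Complex.norm_real, Real.norm_of_nonneg hδ.le, sub_neg_eq_add,
      add_right_comm] at h3
    have := ee_le hδ (hu j) (t := d / 4) (by linarith) (by linarith)
    rw [show 2 * δ / (d / 4) = 8 * δ / d by field_simp; ring] at this
    exact pow_le_pow_left₀ (norm_nonneg _) this 2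
  by_cases h : ∃ j, ‖1 + w j * z‖ < d / 2
  · obtain ⟨j, hj⟩ := h
    rw [← Finset.add_sum_erase _ _ (Finset.mem_univ j)]
    refine add_le_add (h1 j) ?_
    refine (Finset.sum_le_card_nsmul _ _ _ fun k hk => h2 k ?_).trans ?_
    · by_contra h3
      have h4 := hs k j (Finset.ne_of_mem_erase hk)
      have h5 := norm_sub_le (1 + w k * z) (1 + w j * z)
      rw [add_sub_add_left_eq_sub, ← sub_mul, norm_mul, hz, mul_one] at h5
      linarith
    · rw [nsmul_eq_mul]
      refine mul_le_mul_of_nonneg_right ?_ (sq_nonneg _)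
      exact_mod_cast (Finset.card_le_univ _).trans_eq (Fintype.card_fin N)
  · push Not at h
    refine (Finset.sum_le_card_nsmul _ _ _ fun k _ => h2 k (h k)).trans ?_
    simp

theorem approx {M : Type*} [CStarAlgebra M] {y : M} (hy : y ∈ unitary M) {δ : ℝ} (hδ : 0 < δ)
    {w : ℂ} (hw : ‖w‖ = 1) : ∃ h q : M, IsSelfAdjoint h ∧ q * (1 - Complex.I • h) = 1 ∧
      (1 - Complex.I • h) * q = 1 ∧ (2 : ℂ) • q - 1 - w • y = cfc (ee δ w) y := by
  have hn : IsStarNormal y := isStarNormal_of_mem_unitary hy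
  have hs : ∀ z ∈ spectrum ℂ y, ‖w * z‖ = 1 := fun z hz => by
    have := spectrum.subset_circle_of_unitary hy hz
    rw [norm_mul, hw, one_mul]; simpa using this
  have d1 : ∀ z ∈ spectrum ℂ y, (1 + δ + conj (w * z) : ℂ) ≠ 0 := fun z hz h => by
    have := den_ge hδ (hs z hz)
    rw [h, norm_zero] at this; linarith
  have d2 : ∀ z ∈ spectrum ℂ y, 1 + δ + (w * z).re ≠ 0 := fun z hz => by
    have := Complex.abs_re_le_norm (w * z)
    rw [hs z hz, abs_le] at this
    linarith [this.1]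
  let g : ℂ → ℂ := fun z => (((w * z).im / (1 + δ + (w * z).re) : ℝ) : ℂ)
  let k : ℂ → ℂ := fun z => ((1 + δ + (w * z).re : ℝ) : ℂ) / (1 + δ + conj (w * z))
  have cg : ContinuousOn g (spectrum ℂ y) :=
    Complex.continuous_ofReal.comp_continuousOn (ContinuousOn.div (by fun_prop) (by fun_prop) d2)
  have ck : ContinuousOn k (spectrum ℂ y) := ContinuousOn.div (by fun_prop) (by fun_prop) d1
  have cg0 : ContinuousOn (fun z => Complex.I • g z) (spectrum ℂ y) := cg.const_smul Complex.I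
  have ck0 : ContinuousOn (fun z => (2 : ℂ) • k z) (spectrum ℂ y) := ck.const_smul (2 : ℂ)
  have ck1 : ContinuousOn (fun z => (2 : ℂ) • k z - 1) (spectrum ℂ y) := ck0.sub continuousOn_const
  have e0 : 1 - Complex.I • cfc g y = cfc (fun z => 1 - Complex.I • g z) y := by
    rw [cfc_sub (fun _ => 1) _ _ continuousOn_const cg0, cfc_smul _ _ _ cg, cfc_const_one ℂ y]
  have e1 : ∀ z ∈ spectrum ℂ y, k z * (1 - Complex.I • g z) = 1 := fun z hz => by
    have h1 := d1 z hz
    have h2 : ((1 + δ + (w * z).re : ℝ) : ℂ) ≠ 0 := by exact_mod_cast d2 z hz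
    have h3 : conj (w * z) = ((w * z).re : ℂ) - Complex.I * (w * z).im := by
      apply Complex.ext <;> simp [-Complex.mul_re, -Complex.mul_im, -map_mul, Complex.I_mul_re,
        Complex.I_mul_im]
    simp only [k, g, smul_eq_mul, Complex.ofReal_div]
    field_simp
    rw [h3]; push_cast; ring
  have cg' : ContinuousOn (fun z => 1 - Complex.I • g z) (spectrum ℂ y) :=
    continuousOn_const.sub cg0
  refine ⟨cfc g y, cfc k y, ?_, ?_, ?_, ?_⟩
  · rw [IsSelfAdjoint, ← cfc_star]
    exact cfc_congr fun z _ => Complex.conj_ofReal _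
  · rw [e0, ← cfc_mul _ _ _ ck cg', ← cfc_const_one ℂ y]
    exact cfc_congr e1
  · rw [e0, ← cfc_mul _ _ _ cg' ck, ← cfc_const_one ℂ y]
    exact cfc_congr fun z hz => (mul_comm _ _).trans (e1 z hz)
  · conv_lhs => enter [2, 2]; rw [← cfc_id' ℂ y]
    rw [← cfc_smul _ _ _ ck, ← cfc_smul _ _ _ (continuousOn_id' _), ← cfc_const_one ℂ y,
      ← cfc_sub _ _ _ ck0 continuousOn_const,
      ← cfc_sub _ (fun z => w • z) _ ck1 (by fun_prop)]
    refine cfc_congr fun z hz => ?_
    have h1 := d1 z hz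
    have h2 : (w * z) * conj (w * z) = 1 := by
      rw [Complex.mul_conj, Complex.normSq_eq_norm_sq, hs z hz]; simp
    have h3 : (((w * z).re : ℝ) : ℂ) = (w * z + conj (w * z)) / 2 := by
      rw [Complex.add_conj]; push_cast; ring
    simp only [k, ee, smul_eq_mul]
    field_simp
    push_cast
    rw [h3]
    linear_combination (-1 : ℂ) * h2

theorem choose_w {M : Type*} [CStarAlgebra M] (T : Tr M) {y : M} (hy : y ∈ unitary M) {ε : ℝ}
    (hε : 0 < ε) : ∃ (δ : ℝ) (w : ℂ), 0 < δ ∧ ‖w‖ = 1 ∧ T.n (cfc (ee δ w) y) ≤ ε := by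
  have hn : IsStarNormal y := isStarNormal_of_mem_unitary hy
  obtain ⟨N, hN⟩ := exists_nat_gt (5 / ε ^ 2)
  have N0 : (0 : ℝ) < N := lt_trans (by positivity) hN
  let w : Fin N → ℂ := fun j => (1 + Complex.I * (j : ℕ)) / (1 - Complex.I * (j : ℕ))
  have dn : ∀ j : ℕ, (1 - Complex.I * j : ℂ) ≠ 0 := fun j h => by
    simpa using congrArg Complex.re h
  have hw : ∀ j, ‖w j‖ = 1 := fun j => by
    have : ‖(1 + Complex.I * (j : ℕ) : ℂ)‖ = ‖(1 - Complex.I * (j : ℕ) : ℂ)‖ := by
      rw [← RCLike.norm_conj]; simp [sub_eq_add_neg]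
    simp only [w]
    rw [norm_div, this, div_self (norm_ne_zero_iff.2 (dn j))]
  have winj : ∀ j k, j ≠ k → w j ≠ w k := fun j k hjk h => by
    simp only [w] at h
    rw [div_eq_div_iff (dn j) (dn k)] at h
    have h2 : ((j : ℕ) : ℂ) = (k : ℕ) := by
      have : (2 * Complex.I) * ((j : ℕ) : ℂ) = (2 * Complex.I) * (k : ℕ) := by
        linear_combination h
      exact mul_left_cancel₀ (by simp) this
    exact hjk (Fin.ext (by exact_mod_cast h2))
  obtain ⟨d, hs, hd⟩ : ∃ d : ℝ, (∀ j k, j ≠ k → d ≤ ‖w j - w k‖) ∧ 0 < d := by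
    refine (Eventually.and (f := 𝓝[>] (0 : ℝ)) ?_ self_mem_nhdsWithin).exists
    refine eventually_all.2 fun j => eventually_all.2 fun k => eventually_all.2 fun hjk => ?_
    exact nhdsWithin_le_nhds (Iic_mem_nhds (norm_pos_iff.2 (sub_ne_zero.2 (winj j k hjk))))
  set δ := d / (8 * (N + 1)) with hδd
  have hδ : 0 < δ := by positivity
  have h1 : 4 * δ ≤ d := by
    rw [hδd, mul_div_assoc', div_le_iff₀ (by positivity)]; nlinarith
  have h2 : (N : ℝ) * (8 * δ / d) ^ 2 ≤ 1 := by
    rw [show 8 * δ / d = 1 / (N + 1) by rw [hδd]; field_simp, div_pow, mul_div_assoc',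
      div_le_one (by positivity)]
    nlinarith
  have hsp : ∀ z ∈ spectrum ℂ y, ‖z‖ = 1 := fun z hz => by
    simpa using spectrum.subset_circle_of_unitary hy hz
  have ce : ∀ j, ContinuousOn (ee δ (w j)) (spectrum ℂ y) := fun j =>
    ContinuousOn.div (by fun_prop) (by fun_prop) fun z hz h => by
      have := den_ge hδ (u := w j * z) (by rw [norm_mul, hw, hsp z hz, one_mul])
      rw [h, norm_zero] at this; linarith
  have h3 : ∑ j, T.n (cfc (ee δ (w j)) y) ^ 2 ≤ 5 := by
    have e : ∑ j, star (cfc (ee δ (w j)) y) * cfc (ee δ (w j)) y =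
        cfc (∑ j, fun z => star (ee δ (w j) z) * ee δ (w j) z) y := by
      rw [cfc_sum (fun j z => star (ee δ (w j) z) * ee δ (w j) z) _ _
        fun j _ => (ce j).star.mul (ce j)]
      exact Finset.sum_congr rfl fun j _ => by rw [cfc_mul _ _ _ (ce j).star (ce j), cfc_star]
    simp only [T.n_sq]
    rw [← Complex.re_sum, ← map_sum, e]
    refine (Complex.re_le_norm _).trans ((T.τ_le _).trans (norm_cfc_le (by norm_num) fun z hz => ?_))
    rw [Finset.sum_apply]
    refine (norm_sum_le _ _).trans ?_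
    simp only [norm_mul, norm_star, ← sq]
    linarith [sum_ee w hw hδ h1 hs (hsp z hz)]
  by_contra hc
  push Not at hc
  have h4 : (N : ℝ) * ε ^ 2 ≤ ∑ j, T.n (cfc (ee δ (w j)) y) ^ 2 := by
    have := Finset.card_nsmul_le_sum Finset.univ (fun j => T.n (cfc (ee δ (w j)) y) ^ 2) (ε ^ 2)
      fun j _ => pow_le_pow_left₀ hε.le (hc δ (w j) hδ (hw j)).le 2
    simpa using this
  rw [div_lt_iff₀ (by positivity)] at hN
  linarith

end UapP

open UapP in
theorem uap : UapStmt.{u} := by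
  intro A M _ _ T π hd y hy ε hε
  obtain ⟨δ, w, hδ, hw, h0⟩ := choose_w T hy (ε := ε / 3) (by positivity)
  obtain ⟨h, q, hh, q1, q2, e⟩ := approx hy hδ hw
  obtain ⟨a, ha⟩ := hd h (ε / 3) (by positivity)
  have hb : IsSelfAdjoint ((1 / 2 : ℂ) • (a + star a)) := by
    rw [IsSelfAdjoint, star_smul, star_add, star_star, add_comm]; simp
  set b := (1 / 2 : ℂ) • (a + star a) with hbd
  have hb2 : T.n (π b - h) < ε / 3 := by
    have : π b - h = (1 / 2 : ℂ) • ((π a - h) + star (π a - h)) := by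
      rw [hbd, map_smul, map_add, map_star, star_sub, hh.star_eq]; module
    rw [this, T.n_smul]
    have h2 := T.n_add_le (π a - h) (star (π a - h))
    rw [T.n_star] at h2
    have h7 : ‖(1 / 2 : ℂ)‖ = 1 / 2 := by simp
    rw [h7]; linarith
  obtain ⟨Q, Q1, Q2⟩ := exists_res hb
  obtain ⟨hu, hQ⟩ := cay hb Q1 Q2
  have hq := (cay hh q1 q2).2
  have ww : conj w * w = 1 := by
    rw [mul_comm, Complex.mul_conj, Complex.normSq_eq_norm_sq, hw]; simp
  refine ⟨conj w • ((2 : ℂ) • Q - 1), ?_, ?_⟩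
  · rw [Unitary.mem_iff, star_smul, smul_mul_smul_comm, smul_mul_smul_comm, hu.1, hu.2,
      RCLike.star_def, Complex.conj_conj, ww, mul_comm w, ww, one_smul]
    exact ⟨rfl, rfl⟩
  · have Q' : π Q * (1 - Complex.I • π b) = 1 := by
      have := congrArg π Q1
      rwa [map_mul, map_sub, map_smul π Complex.I, map_one] at this
    have e1 : π Q - q = Complex.I • (π Q * (π b - h) * q) := by
      calc π Q - q = π Q * ((1 - Complex.I • h) * q) - π Q * (1 - Complex.I • π b) * q := by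
            rw [Q', q2, mul_one, one_mul]
        _ = _ := by
            simp only [mul_sub, sub_mul, mul_one, one_mul, mul_assoc, smul_mul_assoc,
              mul_smul_comm]
            module
    have h1 : T.n (π Q - q) ≤ T.n (π b - h) := by
      rw [e1, T.n_smul, Complex.norm_I, one_mul]
      exact (T.n_r1 _ hq).trans (T.n_l1 ((NonUnitalStarAlgHom.norm_apply_le π Q).trans hQ) _)
    have e2 : π (conj w • ((2 : ℂ) • Q - 1)) - y =
        conj w • ((2 : ℂ) • (π Q - q) + cfc (ee δ w) y) := by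
      rw [← e, map_smul, map_sub, map_smul, map_one]
      conv_lhs => rw [← one_smul ℂ y, ← ww]
      module
    rw [e2, T.n_smul, RCLike.norm_conj, hw, one_mul]
    refine (T.n_add_le _ _).trans_lt ?_
    rw [T.n_smul]
    simp only [Complex.norm_ofNat]
    linarith

end Crest.Agent.KR
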