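import Crest.Agent.KR.Defs
import Crest.Agent.KS.ExtB
/-! Kadison–Ringrose cohomology (S0161): pieces `Vn` (`vn`, `preT`, `ext`). -/
set_option autoImplicit false
set_option linter.deprecated false
namespace Crest.Agent.KR
open scoped InnerProductSpace ComplexConjugate BigOperators
open Filter Topology Crest.Agent.GP Crest.Agent.KS Crest.OpAlg

universe u

namespace VnP

theorem dec {M : Type*} [CStarAlgebra M] (y : M) : ∃ h1 h2 : M, IsSelfAdjoint h1 ∧
    IsSelfAdjoint h2 ∧ ‖h1‖ ≤ 1 ∧ ‖h2‖ ≤ 1 ∧ y = ((‖y‖ : ℝ) : ℂ) • (h1 + Complex.I • h2) := by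
  by_cases hy : y = 0
  · exact ⟨0, 0, .zero _, .zero _, by simp, by simp, by simp [hy]⟩
  have h0 : 0 < ‖y‖ := norm_pos_iff.2 hy
  have h0' : ((‖y‖ : ℝ) : ℂ) ≠ 0 := by exact_mod_cast h0.ne'
  refine ⟨(((2 * ‖y‖)⁻¹ : ℝ) : ℂ) • (y + star y),
    (((2 * ‖y‖)⁻¹ : ℝ) : ℂ) • (Complex.I • (star y - y)), ?_, ?_, ?_, ?_, ?_⟩
  · rw [IsSelfAdjoint, star_smul, star_add, star_star, add_comm, RCLike.star_def, Complex.conj_ofReal]
  · rw [IsSelfAdjoint, star_smul, star_smul, star_sub, star_star, RCLike.star_def,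
      Complex.conj_ofReal, Complex.conj_I]
    module
  · rw [norm_smul, Complex.norm_real, Real.norm_of_nonneg (by positivity),
      inv_mul_le_iff₀ (by positivity)]
    have := norm_add_le y (star y)
    rw [norm_star] at this
    linarith
  · rw [norm_smul, norm_smul, Complex.norm_I, one_mul, Complex.norm_real,
      Real.norm_of_nonneg (by positivity), inv_mul_le_iff₀ (by positivity)]
    have := norm_sub_le (star y) y
    rw [norm_star] at this
    linarith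
  · rw [smul_comm Complex.I, smul_smul Complex.I, Complex.I_mul_I, ← smul_add, smul_smul]
    have : ((‖y‖ : ℝ) : ℂ) * (((2 * ‖y‖)⁻¹ : ℝ) : ℂ) = 1 / 2 := by
      push_cast; field_simp
    rw [this]; module

theorem seq {A M : Type*} [CStarAlgebra A] [CStarAlgebra M] (T' : Tr M) (π : A →⋆ₐ[ℂ] M)
    (hd : ∀ y, ∀ ε > 0, ∃ a, T'.n (π a - y) < ε) {x : M} (hx : IsSelfAdjoint x) (h1 : ‖x‖ ≤ 1) :
    ∃ a : ℕ → A, (∀ k, ‖a k‖ ≤ 1) ∧ Tendsto (fun k => T'.ι (π (a k))) atTop (𝓝 (T'.ι x)) := by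
  choose a _ ha ha' using fun k : ℕ =>
    ExtB.kap T' π hd hx h1 (1 / ((k : ℝ) + 1)) Nat.one_div_pos_of_nat
  refine ⟨a, ha, ?_⟩
  rw [tendsto_iff_dist_tendsto_zero]
  simp only [Tr.dist_ι]
  exact squeeze_zero (fun _ => T'.n_nonneg _) ha' tendsto_one_div_add_atTop_nhds_zero_nat

theorem surj {A M : Type*} [CStarAlgebra A] [CStarAlgebra M] (T : Tr A) (hT : T.W) (T' : Tr M)
    (hf : ∀ x, T'.n x = 0 → x = 0) (π : A →⋆ₐ[ℂ] M) (hn : ∀ a, T'.n (π a) = T.n a)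
    (hd : ∀ y, ∀ ε > 0, ∃ a, T'.n (π a - y) < ε) (y : M) : ∃ a, π a = y := by
  have key : ∀ x : M, IsSelfAdjoint x → ‖x‖ ≤ 1 → ∃ a, π a = x := by
    intro x hx h1
    obtain ⟨a, ha, hl⟩ := seq T' π hd hx h1
    have hc : CauchySeq fun k => T.ι (a k) := by
      have := hl.cauchySeq
      rw [Metric.cauchySeq_iff] at this ⊢
      simpa only [Tr.dist_ι, ← map_sub, hn] using this
    obtain ⟨b, -, hb⟩ := hT.lim a 1 ha hc
    refine ⟨b, sub_eq_zero.1 (hf _ (le_antisymm ?_ (T'.n_nonneg _)))⟩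
    rw [tendsto_iff_dist_tendsto_zero] at hl
    simp only [Tr.dist_ι] at hl
    refine ge_of_tendsto' (by simpa using hb.add hl) fun k => ?_
    refine (T'.n_tri _ (π (a k)) _).trans_eq ?_
    rw [← map_sub, hn, T.n_sub_rev]
  obtain ⟨h1, h2, s1, s2, n1, n2, e⟩ := dec y
  obtain ⟨a1, rfl⟩ := key h1 s1 n1
  obtain ⟨a2, rfl⟩ := key h2 s2 n2
  exact ⟨((‖y‖ : ℝ) : ℂ) • (a1 + Complex.I • a2), by
    rw [map_smul, map_add, map_smul]; exact e.symm⟩

end VnP

open VnP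

theorem vn : VnStmt.{u} := by
  intro A _ T hT
  obtain ⟨H, _, _, _, ρ, Ω, hd, h1, h2⟩ := Form.gns T.τ T.n T.n_nonneg T.n_sq'
  let j : A →ₗ[ℂ] H :=
    { toFun := fun a => ρ a Ω
      map_add' := fun a b => by rw [map_add]; rfl
      map_smul' := fun z a => by rw [map_smul]; rfl }
  have hj : DenseRange j := hd
  have j1 : j 1 = Ω := by change ρ 1 Ω = Ω; simp
  have jn : ∀ a, ‖j a‖ = T.n a := h2
  have ji : ∀ a b, ⟪j a, j b⟫_ℂ = T.τ (star a * b) := h1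
  have jl : ∀ a b, ρ a (j b) = j (a * b) := fun a b => by
    change ρ a (ρ b Ω) = ρ (a * b) Ω
    rw [map_mul]; rfl
  have ext : ∀ S S' : H →L[ℂ] H, (∀ a, S (j a) = S' (j a)) → S = S' := fun S S' h =>
    ContinuousLinearMap.ext fun ξ => hj.induction_on (p := fun ξ => S ξ = S' ξ) ξ
      (isClosed_eq S.continuous S'.continuous) h
  have exR : ∀ b : A, ∃ R : H →L[ℂ] H, ∀ a, R (j a) = j (a * b) := fun b =>
    ⟨(j ∘ₗ LinearMap.mulRight ℂ b).extendOfNorm j, fun a =>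
      LinearMap.extendOfNorm_eq hj ⟨‖b‖, fun x => by
        change ‖j (x * b)‖ ≤ _
        rw [jn, jn, mul_comm]; exact T.n_mul_le' x b⟩ a⟩
  choose R hR using exR
  have RΩ : ∀ a, R a Ω = j a := fun a => by rw [← j1, hR, one_mul]
  have Rs : ∀ a, star (R a) = R (star a) := by
    intro a
    rw [ContinuousLinearMap.star_eq_adjoint, eq_comm, ContinuousLinearMap.eq_adjoint_iff]
    intro ξ η
    refine hj.induction_on₂ (p := fun ξ η => ⟪R (star a) ξ, η⟫_ℂ = ⟪ξ, R a η⟫_ℂ)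
      (isClosed_eq (by fun_prop) (by fun_prop)) (fun x y => ?_) ξ η
    rw [hR, hR, ji, ji, star_mul, star_star, mul_assoc, T.comm, mul_assoc]
  let s : A →ₛₗ[starRingEnd ℂ] H :=
    { toFun := fun a => j (star a)
      map_add' := fun a b => by rw [star_add, map_add]
      map_smul' := fun z a => by rw [star_smul, map_smul]; rfl }
  let J : H →SL[starRingEnd ℂ] H := s.extendOfNorm j
  have hJ : ∀ a, J (j a) = j (star a) := fun a =>
    LinearMap.extendOfNorm_eq hj ⟨1, fun x => by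
      change ‖j (star x)‖ ≤ _
      rw [jn, jn, T.n_star, one_mul]⟩ a
  have Ji : ∀ ξ η, ⟪J ξ, J η⟫_ℂ = ⟪η, ξ⟫_ℂ := fun ξ η =>
    hj.induction_on₂ (p := fun ξ η => ⟪J ξ, J η⟫_ℂ = ⟪η, ξ⟫_ℂ)
      (isClosed_eq (by fun_prop) (by fun_prop)) (fun x y => by
        rw [hJ, hJ, ji, ji, star_star, T.comm]) ξ η
  let M : StarSubalgebra ℂ (H →L[ℂ] H) := StarSubalgebra.centralizer ℂ (Set.range R)
  have hM : ∀ x, x ∈ M ↔ ∀ a, R a * x = x * R a := by
    intro x
    rw [StarSubalgebra.mem_centralizer_iff]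
    constructor
    · intro h a; exact (h _ ⟨a, rfl⟩).1
    · rintro h _ ⟨a, rfl⟩
      exact ⟨h a, by rw [Rs]; exact h _⟩
  have hc : IsClosed (M : Set (H →L[ℂ] H)) := by
    rw [StarSubalgebra.coe_centralizer]; exact Set.isClosed_centralizer _
  have Mj : ∀ x ∈ M, ∀ a, x (j a) = R a (x Ω) := fun x hx a => by
    rw [← RΩ, ← ContinuousLinearMap.mul_apply, ← (hM x).1 hx, ContinuousLinearMap.mul_apply]
  have JM : ∀ x ∈ M, J (x Ω) = star x Ω := by
    intro x hx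
    refine hj.eq_of_inner_right ℂ fun a => ?_
    have e1 : j a = J (j (star a)) := by rw [hJ, star_star]
    conv_lhs => rw [e1, Ji, ← RΩ, ← Rs]
    rw [ContinuousLinearMap.star_eq_adjoint, ContinuousLinearMap.star_eq_adjoint,
      ContinuousLinearMap.adjoint_inner_right, ContinuousLinearMap.adjoint_inner_right,
      Mj x hx]
  let T' : Tr M :=
    { τ :=
        { toFun := fun x => ⟪Ω, (x : H →L[ℂ] H) Ω⟫_ℂ
          map_add' := fun x y => by
            rw [AddMemClass.coe_add, ContinuousLinearMap.add_apply, inner_add_right]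
          map_smul' := fun z x => by
            rw [SetLike.val_smul, ContinuousLinearMap.smul_apply, inner_smul_right]; rfl }
      one := by
        change ⟪Ω, Ω⟫_ℂ = 1
        rw [← j1, ji]; simpa using T.one
      comm := fun x y => by
        change ⟪Ω, (x : H →L[ℂ] H) ((y : H →L[ℂ] H) Ω)⟫_ℂ =
          ⟪Ω, (y : H →L[ℂ] H) ((x : H →L[ℂ] H) Ω)⟫_ℂ
        have e1 := JM _ (star_mem y.2)
        rw [star_star] at e1
        have e2 : ∀ (S : H →L[ℂ] H) (η : H), ⟪Ω, S η⟫_ℂ = ⟪star S Ω, η⟫_ℂ := fun S η => by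
          rw [ContinuousLinearMap.star_eq_adjoint, ContinuousLinearMap.adjoint_inner_left]
        rw [e2 x, e2 y, ← JM _ x.2, ← e1, Ji]
      map_star := fun x => by
        change ⟪Ω, star (x : H →L[ℂ] H) Ω⟫_ℂ = conj ⟪Ω, (x : H →L[ℂ] H) Ω⟫_ℂ
        rw [ContinuousLinearMap.star_eq_adjoint, ContinuousLinearMap.adjoint_inner_right,
          inner_conj_symm]
      pos := fun x => by
        change 0 ≤ (⟪Ω, star (x : H →L[ℂ] H) ((x : H →L[ℂ] H) Ω)⟫_ℂ).re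
        rw [ContinuousLinearMap.star_eq_adjoint, ContinuousLinearMap.adjoint_inner_right]
        exact inner_self_nonneg (𝕜 := ℂ) }
  have hn : ∀ x : M, T'.n x = ‖(x : H →L[ℂ] H) Ω‖ := by
    intro x
    rw [← sq_eq_sq₀ (T'.n_nonneg _) (norm_nonneg _), T'.n_sq]
    change (⟪Ω, star (x : H →L[ℂ] H) ((x : H →L[ℂ] H) Ω)⟫_ℂ).re = _
    rw [ContinuousLinearMap.star_eq_adjoint, ContinuousLinearMap.adjoint_inner_right]
    exact inner_self_eq_norm_sq (𝕜 := ℂ) _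
  have hρ : ∀ a, ρ a ∈ M := fun a => (hM _).2 fun b => ext _ _ fun c => by
    simp only [ContinuousLinearMap.mul_apply, jl, hR, mul_assoc]
  have hs := surj T hT T' (fun x hx => by
      rw [hn, norm_eq_zero] at hx
      exact Subtype.ext (ext _ _ fun a => by rw [Mj _ x.2, hx, map_zero]; rfl))
    (ρ.codRestrict M hρ) (fun a => by rw [hn]; exact h2 a) (fun y ε hε => by
      obtain ⟨a, ha⟩ := Metric.denseRange_iff.1 hj ((y : H →L[ℂ] H) Ω) ε hε
      refine ⟨a, ?_⟩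
      rw [hn, AddSubgroupClass.coe_sub, ContinuousLinearMap.sub_apply, ← dist_eq_norm, dist_comm]
      exact ha)
  refine ⟨H, inferInstance, inferInstance, inferInstance, ρ, Ω, ⟨fun a b hab => ?_, fun X hX => ?_⟩,
    fun x => ?_⟩
  · refine sub_eq_zero.1 (hT.faith _ ?_)
    rw [← h2, map_sub, hab, sub_self]; simp
  · obtain ⟨a, ha⟩ := hs ⟨X, (hM X).2 fun a => hX _ fun b => (hM _).1 (hρ b) a⟩
    exact ⟨a, congrArg Subtype.val ha⟩
  · change _ = ⟪Ω, j x⟫_ℂ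
    rw [← j1, ji, star_one, one_mul]

theorem preT (hK : ∀ {A : Type u} [CStarAlgebra A] {H : Type u} [NormedAddCommGroup H]
    [InnerProductSpace ℂ H] [CompleteSpace H] (ρ : A →⋆ₐ[ℂ] (H →L[ℂ] H)), VN ρ → Kit ρ) :
    PreTStmt.{u} := by
  intro A _ T hT
  obtain ⟨H, _, _, _, ρ, Ω, hV, hΩ⟩ := vn T hT
  obtain ⟨P, hP⟩ := (hK ρ hV).pre
  let f : A → A →L[ℂ] ℂ := fun y =>
    (T.τ ∘ₗ LinearMap.mulRight ℂ y).mkContinuous ‖y‖ fun x => by
      change ‖T.τ (x * y)‖ ≤ _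
      rw [mul_comm ‖y‖]
      exact (T.τ_le _).trans (norm_mul_le _ _)
  have hf : ∀ y x, f y x = T.τ (x * y) := fun _ _ => rfl
  refine ⟨⟨{φ | ∃ y, ∀ x, φ x = T.τ (x * y)}, fun x hx => ?_, ?_, fun 𝔘 R h => ?_⟩,
    fun φ => Iff.rfl⟩
  · have h1 := hx (f (star x)) ⟨star x, fun _ => rfl⟩
    rw [hf, T.comm, T.n_sq'] at h1
    exact hT.faith x (by simpa using h1)
  · rintro φ ⟨y, hy⟩ a b
    refine ⟨f (b * y * a), ⟨_, fun _ => rfl⟩, fun x => ?_⟩
    rw [hf, hy, mul_assoc a, mul_assoc a, T.comm a]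
    simp only [mul_assoc]
  · obtain ⟨y, hy, hl⟩ := P.lim 𝔘 R h
    refine ⟨y, hy, ?_⟩
    rintro φ ⟨z, hz⟩
    refine hl φ ((hP φ).2 ⟨Ω, ρ z Ω, fun x => ?_⟩)
    rw [hz, hΩ, map_mul]; rfl

theorem ext : ExtStmt.{u} := by
  intro A M _ _ T' π hT hd θ K hK
  let c : M →ₗ[ℂ] UniformSpace.Completion T'.L2 :=
    (UniformSpace.Completion.toComplₗᵢ (𝕜 := ℂ) (E := T'.L2)).toLinearMap ∘ₗ T'.ι.toLinearMap
  have cn : ∀ y, ‖c y‖ = T'.n y := fun y =>
    (UniformSpace.Completion.toComplₗᵢ (𝕜 := ℂ) (E := T'.L2)).norm_map _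
  have cinj : ∀ y z, c y = c z → y = z := fun y z h =>
    sub_eq_zero.1 (hT.faith _ (by rw [← cn, map_sub, h, sub_self, norm_zero]))
  let j : A →ₗ[ℂ] T'.L2 := T'.ι.toLinearMap ∘ₗ π.toLinearMap
  have hj : DenseRange j := by
    refine Metric.denseRange_iff.2 fun y ε hε => ?_
    obtain ⟨a, ha⟩ := hd (T'.ι.symm y) ε hε
    refine ⟨a, ?_⟩
    rw [dist_comm]
    exact (T'.dist_ι (π a) (T'.ι.symm y)).trans_lt ha
  let f : A →ₗ[ℂ] UniformSpace.Completion T'.L2 := c ∘ₗ π.toLinearMap ∘ₗ θ.toLinearMap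
  have hf : ∀ a, ‖f a‖ ≤ K * ‖j a‖ := fun a => (cn _).trans_le (hK a)
  let V := f.extendOfNorm j
  have hV : ∀ a, V (T'.ι (π a)) = c (π (θ a)) := fun a => LinearMap.extendOfNorm_eq hj ⟨_, hf⟩ a
  have hVn : ∀ y, ‖V (T'.ι y)‖ ≤ K * T'.n y := fun y =>
    LinearMap.norm_extendOfNorm_apply_le hj K hf (T'.ι y)
  have key : ∀ x : M, IsSelfAdjoint x → ‖x‖ ≤ 1 → ∃ z, ‖z‖ ≤ ‖θ‖ ∧ c z = V (T'.ι x) := by
    intro x hx h1
    obtain ⟨a, ha, hl⟩ := seq T' π hd hx h1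
    have hl2 : Tendsto (fun k => c (π (θ (a k)))) atTop (𝓝 (V (T'.ι x))) := by
      simp only [← hV]
      exact (V.continuous.tendsto _).comp hl
    have hc : CauchySeq fun k => T'.ι (π (θ (a k))) := by
      have := hl2.cauchySeq
      rw [Metric.cauchySeq_iff] at this ⊢
      simpa only [Tr.dist_ι, dist_eq_norm (c _), ← map_sub c, cn] using this
    obtain ⟨z, hz, hz'⟩ := hT.lim _ ‖θ‖ (fun k => (NonUnitalStarAlgHom.norm_apply_le π _).trans
      ((θ.le_opNorm _).trans (mul_le_of_le_one_right (norm_nonneg _) (ha k)))) hc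
    refine ⟨z, hz, tendsto_nhds_unique ?_ hl2⟩
    rw [tendsto_iff_norm_sub_tendsto_zero]
    simpa only [← map_sub c, cn] using hz'
  have all : ∀ y : M, ∃ z, ‖z‖ ≤ 2 * ‖θ‖ * ‖y‖ ∧ c z = V (T'.ι y) := by
    intro y
    obtain ⟨h1, h2, s1, s2, n1, n2, e⟩ := dec y
    obtain ⟨z1, m1, e1⟩ := key h1 s1 n1
    obtain ⟨z2, m2, e2⟩ := key h2 s2 n2
    refine ⟨((‖y‖ : ℝ) : ℂ) • (z1 + Complex.I • z2), ?_, ?_⟩
    · rw [norm_smul, Complex.norm_real, norm_norm, mul_comm]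
      refine mul_le_mul_of_nonneg_right ((norm_add_le _ _).trans ?_) (norm_nonneg _)
      rw [norm_smul, Complex.norm_I]; linarith
    · conv_rhs => rw [e]
      simp only [map_smul, map_add, e1, e2]
  choose g hg hg' using all
  let G : M →ₗ[ℂ] M :=
    { toFun := g
      map_add' := fun y z => cinj _ _ (by simp only [map_add, hg'])
      map_smul' := fun r y => cinj _ _ (by simp only [map_smul, hg', RingHom.id_apply]) }
  refine ⟨G.mkContinuous _ hg, fun a => cinj _ _ ?_, fun y => ?_⟩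
  · change c (g (π a)) = _
    rw [hg', hV]
  · change T'.n (g y) ≤ _
    rw [← cn, hg']; exact hVn y

end Crest.Agent.KR
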