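import Crest.Agent.KR.Fin
import Crest.Agent.KR.Amf
import Crest.Agent.KR.Cmp
import Crest.Agent.KR.Cut
import Crest.Agent.KR.Dec
import Crest.Agent.KR.Fac
import Crest.Agent.KR.Fb
import Crest.Agent.KR.Glue
import Crest.Agent.KR.Inc
import Crest.Agent.KR.Key
import Crest.Agent.KR.Kit2
import Crest.Agent.KR.L2
import Crest.Agent.KR.Lc1
import Crest.Agent.KR.Loc
import Crest.Agent.KR.Mat
import Crest.Agent.KR.Nu
import Crest.Agent.KR.Row
import Crest.Agent.KR.Spl
import Crest.Agent.KR.Sub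
import Crest.Agent.KR.TW
import Crest.Agent.KR.Tr1
import Crest.Agent.KR.Tr2
import Crest.Agent.KR.Uap
import Crest.Agent.KR.Vn
/-! Kadison–Ringrose cohomology: all pieces together. -/
set_option autoImplicit false
namespace Crest.Agent.KR
open Crest.OpAlg

universe u

theorem all_of (hnd : NdStmt.{u}) {H : Type u} [NormedAddCommGroup H] [InnerProductSpace ℂ H]
    [CompleteSpace H] (M : VonNeumannAlgebra H) (hPI : PIStmt M)
    (n : ℕ) (f : Co (Al M) (n + 1)) (hf : ∀ a, hochschildDiff f a = 0) :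
    ∃ g : Co (Al M) n, ∀ a, hochschildDiff g a = f a := by
  have hV := vn_sub M
  have hK := kit _ hV
  have hpre : PreTStmt.{u} := preT fun ρ h => kit ρ h
  have hav : AVII.{u} := avII mu hpre (l2 mat hnd sub cp gt2)
    (cut (fac hpre (row hnd cp gt2) (key fb nu dec (inc (amf sub)))) uap ext)
  exact fin M hPI (glue _ hV hK) lc1 (fun c h1 h2 h3 => finite_split _ hK
    (loc _ hV hK (cmp _ hV hK)) (halv _ hV hK) (tr1 _ hV hK) (tr2 _ cor_) (trz _) (tw _ hV hK)
    sf1 spl sep hpre hav h1 h2 h3) n f hf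

end Crest.Agent.KR
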