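import Crest.Agent.KR.CB2
/-! The fixed point theorem for completely bounded maps on a von Neumann algebra. -/
set_option autoImplicit false
set_option linter.deprecated false
set_option linter.style.haveILetI false
namespace Crest.Agent.KR
open scoped InnerProductSpace ComplexConjugate
open Filter Topology
namespace CB

variable {H : Type*} [NormedAddCommGroup H] [InnerProductSpace ℂ H] [CompleteSpace H]
variable {M : VonNeumannAlgebra H}

theorem exists_p0' {A : Type*} [CStarAlgebra A] {c : A} (hc : c ≠ 0) :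
    ∃ p : A, p ≠ 0 ∧ star p = p ∧ ∃ δ : ℝ, 0 < δ ∧ ∃ q : A,
      star (c * p) * (c * p) = (δ : ℂ) • (star p * p) + star q * q := by
  letI := CStarAlgebra.spectralOrder A
  haveI := CStarAlgebra.spectralOrderedRing A
  haveI : Nontrivial A := ⟨c, 0, hc⟩
  set h := star c * c with hh
  have h0 : 0 ≤ h := star_mul_self_nonneg c
  have hs : IsSelfAdjoint h := h0.isSelfAdjoint
  have hn : 0 < ‖h‖ := by
    rw [hh, CStarRing.norm_star_mul_self]; exact mul_pos (norm_pos_iff.2 hc) (norm_pos_iff.2 hc)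
  set δ := ‖h‖ / 2 with hδ
  let f : ℝ → ℝ := fun t => max (t - δ) 0
  have hf : Continuous f := by fun_prop
  let g : ℝ → ℝ := fun t => f t * √(f t)
  have hg : Continuous g := by fun_prop
  have sa : ∀ k : ℝ → ℝ, star (cfc k h) = cfc k h := fun k => (cfc_predicate k h).star_eq
  refine ⟨cfc f h, fun e => ?_, sa f, δ, by positivity, cfc g h, ?_⟩
  · have := eqOn_of_cfc_eq_cfc (f := f) (g := fun _ => (0 : ℝ)) (a := h) (by rw [e, cfc_const_zero])
      hf.continuousOn continuousOn_const hs (CStarAlgebra.norm_mem_spectrum_of_nonneg h0)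
    simp only [f] at this
    have h2 := le_max_left (‖h‖ - δ) 0
    linarith
  · have e1 : star (c * cfc f h) * (c * cfc f h) = cfc f h * cfc (id : ℝ → ℝ) h * cfc f h := by
      rw [cfc_id ℝ h, star_mul, sa, hh]; simp only [mul_assoc]
    rw [e1, sa, sa, ← cfc_mul f id h, ← cfc_mul _ f h, ← cfc_mul f f h, ← cfc_mul g g h,
      Complex.coe_smul, ← cfc_smul δ (fun x => f x * f x) h, ← cfc_add (R := ℝ) (a := h) _ _ (by fun_prop) (by fun_prop)]
    congr 1; funext t
    have h1 : √(f t) * √(f t) = f t := Real.mul_self_sqrt (le_max_right _ _)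
    have h2 : f t * f t = f t * (t - δ) := by
      simp only [f]; rcases le_total (t - δ) 0 with h | h
      · simp [max_eq_right h]
      · simp [max_eq_left h]
    simp only [g, id, smul_eq_mul]
    linear_combination (-(f t * f t)) * h1 - f t * h2

/-- an element whose range is where `c` is bounded below -/
theorem exists_p0 {c : Al M} (hc : c ≠ 0) : ∃ p : Al M, p ≠ 0 ∧ star p = p ∧ ∃ δ : ℝ, 0 < δ ∧
    ∀ θ, δ * ‖p.1 θ‖ ^ 2 ≤ ‖c.1 (p.1 θ)‖ ^ 2 := by
  obtain ⟨p, h0, hp, δ, hδ, q, e⟩ := exists_p0' hc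
  refine ⟨p, h0, hp, δ, hδ, fun θ => ?_⟩
  have h1 := norm_sq_apply (c * p) θ
  rw [e, co_add, co_smul, ← norm_sq_apply, ← norm_sq_apply] at h1
  have h2 : ‖(c * p).1 θ‖ ^ 2 = δ * ‖p.1 θ‖ ^ 2 + ‖q.1 θ‖ ^ 2 := by exact_mod_cast h1
  have : (c * p).1 θ = c.1 (p.1 θ) := rfl
  rw [← this, h2]
  linarith [sq_nonneg ‖q.1 θ‖]

/-- columns supported on the range of `p` -/
theorem exists_col {A : Type*} [CStarAlgebra A] (p : A) (F : Finset A) {ε : ℝ} (hε : 0 < ε) :
    ∃ k : A, star k = k ∧ star ((√ε : ℂ) • k) * ((√ε : ℂ) • k) +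
      ∑ a : F, star (p * a * k) * (p * a * k) = 1 := by
  letI := CStarAlgebra.spectralOrder A
  haveI := CStarAlgebra.spectralOrderedRing A
  set b := ∑ a : F, star (p * a) * (p * a) with hb
  have b0 : 0 ≤ b := Finset.sum_nonneg fun a _ => star_mul_self_nonneg _
  have bs : IsSelfAdjoint b := b0.isSelfAdjoint
  let g : ℝ → ℝ := fun t => (√(|t| + ε))⁻¹
  have hg : Continuous g := Continuous.inv₀ (by fun_prop) fun t =>
    (Real.sqrt_pos.2 (by positivity)).ne'
  have sa : star (cfc g b) = cfc g b := (cfc_predicate g b).star_eq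
  refine ⟨cfc g b, sa, ?_⟩
  have e1 : ∑ a : F, star (p * a * cfc g b) * (p * a * cfc g b) = cfc g b * cfc (id : ℝ → ℝ) b * cfc g b := by
    rw [cfc_id ℝ b]
    conv_rhs => rw [hb, Finset.mul_sum, Finset.sum_mul, ← hb]
    refine Finset.sum_congr rfl fun a _ => ?_
    rw [star_mul (p * a), sa]; simp only [mul_assoc]
  have e2 : star ((√ε : ℂ) • cfc g b) * ((√ε : ℂ) • cfc g b) = ε • (cfc g b * cfc g b) := by
    rw [star_smul, sa, smul_mul_smul_comm, RCLike.star_def, Complex.conj_ofReal,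
      ← Complex.ofReal_mul, Real.mul_self_sqrt hε.le, Complex.coe_smul]
  rw [e1, e2, ← cfc_mul g g b hg.continuousOn hg.continuousOn,
    ← cfc_mul g id b hg.continuousOn continuousOn_id,
    ← cfc_mul (fun x => g x * id x) g b (hg.mul continuous_id).continuousOn hg.continuousOn,
    ← cfc_smul ε (fun x => g x * g x) b (hg.mul hg).continuousOn,
    ← cfc_add (R := ℝ) (a := b) (fun x => ε • (g x * g x)) (fun x => g x * id x * g x)
      ((hg.mul hg).const_smul ε).continuousOn ((hg.mul continuous_id).mul hg).continuousOn,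
    ← cfc_one ℝ b]
  refine cfc_congr fun t ht => ?_
  have t0 : 0 ≤ t := spectrum_nonneg_of_nonneg b0 ht
  have h1 : √(t + ε) * √(t + ε) = t + ε := Real.mul_self_sqrt (by positivity)
  have h2 : 0 < √(t + ε) := Real.sqrt_pos.2 (by positivity)
  simp only [g, id, smul_eq_mul, abs_of_nonneg t0, Pi.one_apply]
  field_simp
  nlinarith

theorem S_option {ι : Type*} [Fintype ι] (u : Option ι → H) :
    S u = ‖u none‖ ^ 2 + S fun l => u (some l) := by
  simp [S, Fintype.sum_option]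

theorem tendsto_S {Y J : Type*} [Fintype J] {l : Filter Y} {u : Y → J → H}
    (h : ∀ j, Tendsto (fun y => u y j) l (𝓝 0)) : Tendsto (fun y => S (u y)) l (𝓝 0) := by
  have := tendsto_finset_sum Finset.univ fun j _ => ((h j).norm.pow 2)
  simpa [S] using this

/-- localisation -/
theorem localise (p : Al M) (hp : star p = p) : ∃ L : Set H, (∀ a : Al M, ∀ ξ ∈ L, a.1 ξ ∈ L) ∧
    Set.range p.1 ⊆ L ∧ ∀ {X : Type*} {K : Set (X → Al M → W M)}, IsCompact K →
    (∀ T ∈ K, ∀ (ι : Type) [Fintype ι] (m : ι → Al M), ∑ l, star (m l) * m l = 1 → act m T ∈ K) →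
    ∀ T ∈ K, ∀ (x : X) (R C : ℝ), 0 ≤ R → CBd (fun y => ofW (T x y)) Set.univ C →
      CBd (fun y => ofW (T x y)) (Set.range p.1) R →
      ∃ T' ∈ K, CBd (fun y => ofW (T' x y)) L R := by
  classical
  let ε : Finset (Al M) × ℕ → ℝ := fun i => 1 / ((i.2 : ℝ) + 1)
  have hε : ∀ i, 0 < ε i := fun i => by positivity
  have εt : Tendsto ε atTop (𝓝 0) := by
    rw [← prod_atTop_atTop_eq]
    exact tendsto_one_div_add_atTop_nhds_zero_nat.comp tendsto_snd
  choose k hk hk1 using fun i : Finset (Al M) × ℕ => exists_col p i.1 (hε i)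
  let m : ∀ i : Finset (Al M) × ℕ, Option i.1 → Al M := fun i l =>
    l.elim ((√(ε i) : ℂ) • k i) fun a => p * a * k i
  have hm : ∀ i, ∑ l, star (m i l) * m i l = 1 := fun i => by
    rw [Fintype.sum_option]; exact hk1 i
  have m0 : ∀ i ξ, S (fun _ : Unit => (m i none).1 ξ) ≤ ‖ξ‖ ^ 2 := fun i ξ => by
    have := S_col (hm i) ξ
    rw [S_option] at this
    have h2 := S_nonneg fun l => (m i (some l)).1 ξ
    simp only [S, Finset.univ_unique, Finset.sum_singleton] at *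
    linarith
  have m1 : ∀ i ξ, S (fun l => (m i (some l)).1 ξ) ≤ ‖ξ‖ ^ 2 := fun i ξ => by
    have := S_col (hm i) ξ
    rw [S_option] at this
    linarith [sq_nonneg ‖(m i none).1 ξ‖]
  refine ⟨{ξ | ∀ a : Al M, Tendsto (fun i => (m i none).1 (a.1 ξ)) atTop (𝓝 0)},
    fun a ξ h b => h (b * a), ?_, fun {X K} hK inv T hT x R C hR hC hP => ?_⟩
  · rintro _ ⟨θ, rfl⟩ a
    rw [tendsto_zero_iff_norm_tendsto_zero]
    refine squeeze_zero' (g := fun i => √(ε i) * ‖θ‖) (Eventually.of_forall fun _ => norm_nonneg _)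
      ?_ (by simpa using εt.sqrt.mul_const ‖θ‖)
    filter_upwards [eventually_ge_atTop (({star a} : Finset (Al M)), 0)] with i hi
    have ha : star a ∈ i.1 := hi.1 (Finset.mem_singleton_self _)
    have h1 := row_le (m1 i) (Pi.single ⟨star a, ha⟩ θ)
    rw [Finset.sum_eq_single ⟨star a, ha⟩ (fun b _ hb => by simp [Pi.single_eq_of_ne hb])
      (by simp)] at h1
    have h2 : S (Pi.single (⟨star a, ha⟩ : i.1) θ : i.1 → H) = ‖θ‖ ^ 2 := by
      rw [S, Finset.sum_eq_single ⟨star a, ha⟩ (fun b _ hb => by simp [Pi.single_eq_of_ne hb])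
        (by simp)]; simp
    rw [h2, Pi.single_eq_same, sq_le_sq₀ (norm_nonneg _) (norm_nonneg _)] at h1
    have h3 : (m i none).1 (a.1 (p.1 θ)) = (√(ε i) : ℂ) • (star (m i (some ⟨star a, ha⟩))).1 θ := by
      simp only [m, Option.elim, star_mul, hk, hp, star_star]; rfl
    rw [h3, norm_smul, Complex.norm_real, Real.norm_of_nonneg (Real.sqrt_nonneg _)]
    exact mul_le_mul_of_nonneg_left h1 (Real.sqrt_nonneg _)
  · let 𝔘 : Ultrafilter (Finset (Al M) × ℕ) := Ultrafilter.of atTop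
    have hU : (𝔘 : Filter (Finset (Al M) × ℕ)) ≤ atTop := Ultrafilter.of_le _
    have mem : ∀ i, act (fun l : Fin (Fintype.card (Option i.1)) =>
        m i ((Fintype.equivFin _).symm l)) T ∈ K := fun i => inv T hT _ _ (by
      rw [← hm i]; exact (Fintype.equivFin _).symm.sum_comp fun l => star (m i l) * m i l)
    have eq : ∀ i, act (fun l : Fin (Fintype.card (Option i.1)) =>
        m i ((Fintype.equivFin _).symm l)) T = act (m i) T := fun i => by
      funext x y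
      apply ofW.injective
      simp only [ofW_act]
      exact (Fintype.equivFin _).symm.sum_comp fun l => ofW (T x (y * star (m i l))) * m i l
    simp only [eq] at mem
    obtain ⟨T', hT', lim⟩ := hK.ultrafilter_le_nhds (𝔘.map fun i => act (m i) T) (by
      rw [le_principal_iff, Ultrafilter.coe_map, mem_map]; exact Eventually.of_forall mem)
    refine ⟨T', hT', fun I J _ _ Y hY ξ ζ hξ => ?_⟩
    have l1 := ((continuous_bil x Y ξ ζ).tendsto T').comp lim
    let r : Finset (Al M) × ℕ → ℂ := fun i => bil (fun a (q : J × Unit) =>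
      ofW (T x (Y a q.1 * star (m i none)))) (fun q => (m i none).1 (ξ q.1)) ζ
    have l2 : Tendsto r 𝔘 (𝓝 0) := by
      rw [tendsto_zero_iff_norm_tendsto_zero]
      have l3 : Tendsto (fun i => C * S (fun q : J × Unit => (m i none).1 (ξ q.1)) * S ζ) 𝔘 (𝓝 0) := by
        simpa using ((tendsto_S fun q : J × Unit => (hξ q.1 1).mono_left hU).const_mul C).mul_const (S ζ)
      have l4 := squeeze_zero (fun i => sq_nonneg ‖r i‖) (fun i =>
        hC I (J × Unit) _ (hY.mul_row (m := fun _ : Unit => m i none) (m0 i)) _ ζ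
          fun _ => Set.mem_univ _) l3
      simpa using l4.sqrt
    have l5 := (l1.sub l2).norm.pow 2
    rw [sub_zero] at l5
    refine le_of_tendsto' l5 fun i => ?_
    let e := (Fintype.equivFin i.1).symm
    have := CBd.act (m := fun l => m i (some (e l))) (T := T) (x := x) (P := Set.range p.1)
      (L := Set.univ) (fun ξ => (e.sum_comp fun l => ‖(m i (some l)).1 ξ‖ ^ 2).trans_le (m1 i ξ)) hR
      (fun l ξ _ => ⟨((e l).1 * k i).1 ξ, rfl⟩) hP I J Y hY ξ ζ fun _ => Set.mem_univ _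
    refine le_of_eq_of_le (congrArg (fun z : ℂ => ‖z‖ ^ 2) ?_) this
    rw [Function.comp_apply, sub_eq_iff_eq_add']
    simp only [r, bil, ofW_act, co_sum, co_add, co_mul_right, Fintype.sum_option,
      Fintype.sum_prod_type, Finset.univ_unique, Finset.sum_singleton, Finset.sum_add_distrib]
    refine congrArg₂ (fun a b : ℂ => a + b) rfl ?_
    refine Finset.sum_congr rfl fun a _ => Finset.sum_congr rfl fun j _ => ?_
    exact (e.sum_comp fun l => co (ζ a) ((m i (some l)).1 (ξ j))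
      (ofW (T x (Y a j * star (m i (some l)))))).symm

/-- a minimal invariant set -/
theorem exists_min {X : Type*} {K : Set (X → Al M → W M)} (hK : IsCompact K) (ne : K.Nonempty)
    (inv : ∀ T ∈ K, ∀ (ι : Type) [Fintype ι] (m : ι → Al M), ∑ l, star (m l) * m l = 1 →
      act m T ∈ K) :
    ∃ K₀ ⊆ K, K₀.Nonempty ∧ IsClosed K₀ ∧ (∀ T ∈ K₀, ∀ (ι : Type) [Fintype ι] (m : ι → Al M),
      ∑ l, star (m l) * m l = 1 → act m T ∈ K₀) ∧ ∀ K₁ ⊆ K₀, K₁.Nonempty → IsClosed K₁ →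
      (∀ T ∈ K₁, ∀ (ι : Type) [Fintype ι] (m : ι → Al M),
        ∑ l, star (m l) * m l = 1 → act m T ∈ K₁) → K₀ ⊆ K₁ := by
  let 𝒮 : Set (Set (X → Al M → W M)) := {K₀ | K₀ ⊆ K ∧ K₀.Nonempty ∧ IsClosed K₀ ∧
    ∀ T ∈ K₀, ∀ (ι : Type) [Fintype ι] (m : ι → Al M), ∑ l, star (m l) * m l = 1 → act m T ∈ K₀}
  obtain ⟨K₀, -, h⟩ := zorn_superset_nonempty 𝒮 (fun c hc ch cne => by
    haveI := cne.to_subtype
    refine ⟨⋂₀ c, ⟨?_, ?_, isClosed_sInter fun s hs => (hc hs).2.2.1,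
      fun T hT ι _ m hm s hs => (hc hs).2.2.2 T (hT s hs) ι m hm⟩, fun s hs => Set.sInter_subset_of_mem hs⟩
    · obtain ⟨s, hs⟩ := cne
      exact (Set.sInter_subset_of_mem hs).trans (hc hs).1
    · exact IsCompact.nonempty_sInter_of_directed_nonempty_isCompact_isClosed
        (fun a ha b hb => by
          rcases ch.total ha hb with h | h
          · exact ⟨a, ha, subset_rfl, h⟩
          · exact ⟨b, hb, h, subset_rfl⟩)
        (fun s hs => (hc hs).2.1) (fun s hs => hK.of_isClosed_subset (hc hs).2.2.1 (hc hs).1)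
        fun s hs => (hc hs).2.2.1) K ⟨subset_rfl, ne, hK.isClosed, inv⟩
  exact ⟨K₀, h.prop.1, h.prop.2.1, h.prop.2.2.1, h.prop.2.2.2, fun K₁ h1 h2 h3 h4 =>
    h.le_of_le (show K₁ ∈ 𝒮 from ⟨h1.trans h.prop.1, h2, h3, h4⟩) h1⟩

end CB

open CB in
/-- **Fixed point theorem**: a compact invariant set of families of completely bounded maps contains a
family of right module maps. -/
theorem cb_fix {H : Type*} [NormedAddCommGroup H] [InnerProductSpace ℂ H] [CompleteSpace H]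
    {M : VonNeumannAlgebra H} {X : Type*} {K : Set (X → Al M → W M)} (hK : IsCompact K)
    (ne : K.Nonempty) (lin : ∀ T ∈ K, Lin T)
    (cb : ∀ x, ∃ C, ∀ T ∈ K, CBd (fun y => ofW (T x y)) Set.univ C)
    (inv : ∀ T ∈ K, ∀ (ι : Type) [Fintype ι] (m : ι → Al M), ∑ l, star (m l) * m l = 1 →
      act m T ∈ K) :
    ∃ T ∈ K, ∀ x y, ofW (T x y) = ofW (T x 1) * y := by
  obtain ⟨K₀, sub, ⟨T, hT⟩, cl, inv0, min⟩ := exists_min hK ne inv
  have cpt : IsCompact K₀ := hK.of_isClosed_subset cl sub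
  let O : Set (X → Al M → W M) := {T' | ∃ (ι : Type) (_ : Fintype ι) (m : ι → Al M),
    ∑ l, star (m l) * m l = 1 ∧ T' = act m T}
  have O1 : O ⊆ K₀ := by rintro _ ⟨ι, _, m, hm, rfl⟩; exact inv0 T hT ι m hm
  have O2 : K₀ ⊆ closure O := min _ (closure_minimal O1 cl)
    ⟨_, subset_closure ⟨Unit, inferInstance, fun _ => 1, by simp, rfl⟩⟩ isClosed_closure
    fun T' hT' ι _ m hm => map_mem_closure (continuous_act m) hT' (by
      rintro _ ⟨κ, _, m', hm', rfl⟩
      exact ⟨_, inferInstance, _, col_col hm hm', act_act m m' T⟩)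
  have pair : ∀ {Q : Set ((X → Al M → W M) × (X → Al M → W M))}, IsClosed Q → O ×ˢ O ⊆ Q →
      ∀ T₁ ∈ K₀, ∀ T₂ ∈ K₀, (T₁, T₂) ∈ Q := fun hQ h T₁ h1 T₂ h2 =>
    closure_minimal h hQ (by rw [closure_prod_eq]; exact ⟨O2 h1, O2 h2⟩)
  have key : ∀ T₁ ∈ K₀, ∀ T₂ ∈ K₀, ∀ x, ofW (T₁ x 1) = ofW (T₂ x 1) := by
    intro T₁ h1 T₂ h2 x
    by_contra hne
    obtain ⟨p, p0, hp, δ, hδ, hb⟩ := exists_p0 (c := (1 / 2 : ℂ) • (ofW (T₁ x 1) - ofW (T₂ x 1)))
      (smul_ne_zero (by norm_num) (sub_ne_zero.2 hne))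
    obtain ⟨L, hL, hPL, loc⟩ := localise p hp
    obtain ⟨C, hC⟩ := cb x
    obtain ⟨θ, hθ⟩ : ∃ θ, p.1 θ ≠ 0 := by
      by_contra! h; exact p0 (Subtype.ext (ContinuousLinearMap.ext h))
    have pos : ∀ (ψ : Al M → Al M) (R : ℝ), CBd ψ (Set.range p.1) R → 0 ≤ R := fun ψ R h => by
      have := h Unit Unit (fun _ _ => 1) (fun θ => by simp [S]) (fun _ => p.1 θ) (fun _ => p.1 θ)
        fun _ => ⟨θ, rfl⟩
      have h2 : 0 < S (fun _ : Unit => p.1 θ) := by
        simpa [S] using pow_pos (norm_pos_iff.2 hθ) 2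
      have := (sq_nonneg _).trans this
      rw [mul_assoc] at this
      exact nonneg_of_mul_nonneg_left this (mul_pos h2 h2)
    have mono : ∀ (ψ : Al M → Al M) {P P' : Set H} (R : ℝ), P ⊆ P' → CBd ψ P' R → CBd ψ P R :=
      fun ψ P P' R h h' I J _ _ Y hY ξ ζ hξ => h' I J Y hY ξ ζ fun j => h (hξ j)
    let 𝓡 : Set ℝ := {R | ∀ T' ∈ K₀, CBd (fun y => ofW (T' x y)) L R}
    have r1 : C ∈ 𝓡 := fun T' hT' => mono _ _ (Set.subset_univ _) (hC T' (sub hT'))
    have r2 : ∀ R ∈ 𝓡, 0 ≤ R := fun R hR => pos _ _ (mono _ _ hPL (hR T hT))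
    have r3 : sInf 𝓡 ∈ 𝓡 := fun T' hT' I J _ _ Y hY ξ ζ hξ => by
      have cl : IsClosed {R : ℝ | ‖bil (fun i j => ofW (T' x (Y i j))) ξ ζ‖ ^ 2 ≤ R * S ξ * S ζ} :=
        isClosed_le continuous_const (by fun_prop)
      exact closure_minimal (s := 𝓡) (fun R hR => hR T' hT' I J Y hY ξ ζ hξ) cl
        (csInf_mem_closure ⟨C, r1⟩ ⟨0, r2⟩)
    have had : Had x L (sInf 𝓡) T₁ T₂ := pair (isClosed_Had x L _) (by
      rintro ⟨_, _⟩ ⟨⟨ι, _, m, hm, rfl⟩, ⟨κ, _, m', hm', rfl⟩⟩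
      exact had_act hm hm' (lin T (sub hT)) x hL (r3 T hT)) T₁ h1 T₂ h2
    have hm : mid T₁ T₂ ∈ K₀ := pair (cl.preimage continuous_mid) (by
      rintro ⟨_, _⟩ ⟨⟨ι, _, m, hm, rfl⟩, ⟨κ, _, m', hm', rfl⟩⟩
      exact O1 ⟨_, inferInstance, _, col_mid hm hm', mid_act m m' (lin T (sub hT))⟩) T₁ h1 T₂ h2
    have imp := had.improve (r2 _ r3) hPL (δ := δ) (by rintro _ ⟨θ, rfl⟩; exact hb θ)
    obtain ⟨T', hT', h'⟩ := loc cpt inv0 _ hm x _ C (pos _ _ imp) (hC _ (sub hm)) imp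
    have r4 : sInf 𝓡 - δ ∈ 𝓡 := fun T'' hT'' =>
      (min (K₀ ∩ {T | CBd (fun y => ofW (T x y)) L (sInf 𝓡 - δ)}) Set.inter_subset_left
        ⟨T', hT', h'⟩ (cl.inter (isClosed_CBd x L _)) (fun T hT ι _ m hm => ⟨inv0 T hT.1 ι m hm,
          CBd.act (fun ξ => (S_col hm ξ).le) (pos _ _ imp) (fun l => hL _) hT.2⟩) hT'').2
    linarith [csInf_le ⟨0, r2⟩ r4]
  refine ⟨T, sub hT, fun x y => ?_⟩
  have hy : y ∈ Submodule.span ℂ (unitary (Al M) : Set (Al M)) := by
    rw [CStarAlgebra.span_unitary]; trivial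
  induction hy using Submodule.span_induction with
  | mem u hu =>
    have := key _ (inv0 T hT Unit (fun _ => star u) (by simpa using hu.2)) T hT x
    rw [ofW_act] at this
    simp only [Finset.univ_unique, Finset.sum_singleton, one_mul, star_star] at this
    rw [← this, mul_assoc, hu.1, mul_one]
  | zero => rw [(lin T (sub hT)).zero]; simp
  | add a b _ _ ha hb => rw [(lin T (sub hT) x).1, map_add, ha, hb, mul_add]
  | smul z a _ ha => rw [(lin T (sub hT) x).2, map_smul, ha, mul_smul_comm]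

end Crest.Agent.KR
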