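import Crest.Agent.KR.W
/-! Completely bounded maps on a von Neumann algebra: definitions and elementary estimates. -/
set_option autoImplicit false
set_option linter.deprecated false
namespace Crest.Agent.KR.CB
open scoped InnerProductSpace ComplexConjugate
open Filter Topology Crest.Agent.KR

variable {H : Type*} [NormedAddCommGroup H] [InnerProductSpace ℂ H] [CompleteSpace H]
variable {M : VonNeumannAlgebra H}

/-- squared `ℓ²` norm of a finite family of vectors -/
noncomputable def S {J : Type*} [Fintype J] (ξ : J → H) : ℝ := ∑ j, ‖ξ j‖ ^ 2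

/-- contractive matrices -/
def Con {I J : Type*} [Fintype I] [Fintype J] (Y : I → J → Al M) : Prop :=
  ∀ θ : J → H, S (fun i => ∑ j, (Y i j).1 (θ j)) ≤ S θ

/-- the bilinear form of the amplification -/
noncomputable def bil {I J : Type*} [Fintype I] [Fintype J] (Z : I → J → Al M) (ξ : J → H)
    (ζ : I → H) : ℂ := ∑ i, ∑ j, co (ζ i) (ξ j) (Z i j)

/-- complete bound `√R` on vectors from `L` -/
def CBd (ψ : Al M → Al M) (L : Set H) (R : ℝ) : Prop :=
  ∀ (I J : Type) [Fintype I] [Fintype J] (Y : I → J → Al M), Con Y →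
    ∀ (ξ : J → H) (ζ : I → H), (∀ j, ξ j ∈ L) →
      ‖bil (fun i j => ψ (Y i j)) ξ ζ‖ ^ 2 ≤ R * S ξ * S ζ

omit [InnerProductSpace ℂ H] [CompleteSpace H] in
theorem S_nonneg {J : Type*} [Fintype J] (ξ : J → H) : 0 ≤ S ξ :=
  Finset.sum_nonneg fun _ _ => sq_nonneg _

omit [CompleteSpace H] in
theorem cs {I : Type*} [Fintype I] (ζ u : I → H) : ‖∑ i, ⟪ζ i, u i⟫_ℂ‖ ^ 2 ≤ S u * S ζ := by
  have h1 : ‖∑ i, ⟪ζ i, u i⟫_ℂ‖ ≤ ∑ i, ‖u i‖ * ‖ζ i‖ :=
    (norm_sum_le _ _).trans (Finset.sum_le_sum fun i _ => (norm_inner_le_norm _ _).trans_eq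
      (mul_comm _ _))
  exact (pow_le_pow_left₀ (norm_nonneg _) h1 2).trans (Finset.sum_mul_sq_le_sq_mul_sq _ _ _)

omit [CompleteSpace H] in
theorem inner_self_S {I : Type*} [Fintype I] (u : I → H) : ∑ i, ⟪u i, u i⟫_ℂ = (S u : ℂ) := by
  simp [S, inner_self_eq_norm_sq_to_K]

omit [CompleteSpace H] in
theorem vec_of_bil {I : Type*} [Fintype I] (u : I → H) {Q : ℝ} (hQ : 0 ≤ Q)
    (h : ‖∑ i, ⟪u i, u i⟫_ℂ‖ ^ 2 ≤ Q * S u) : S u ≤ Q := by
  rw [inner_self_S, Complex.norm_real, Real.norm_of_nonneg (S_nonneg u)] at h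
  rcases (S_nonneg u).eq_or_lt with h0 | h0
  · rw [← h0]; exact hQ
  · nlinarith

theorem bil_eq {I J : Type*} [Fintype I] [Fintype J] (Z : I → J → Al M) (ξ : J → H) (ζ : I → H) :
    bil Z ξ ζ = ∑ i, ⟪ζ i, ∑ j, (Z i j).1 (ξ j)⟫_ℂ := by
  simp [bil, co, inner_sum]

theorem coe_sum {I : Type*} (s : Finset I) (a : I → Al M) (ξ : H) :
    (∑ i ∈ s, a i).1 ξ = ∑ i ∈ s, (a i).1 ξ := by
  simp

theorem norm_sq_apply (a : Al M) (ξ : H) : ((‖a.1 ξ‖ ^ 2 : ℝ) : ℂ) = co ξ ξ (star a * a) := by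
  rw [co_mul_left, star_star]
  simp [co, inner_self_eq_norm_sq_to_K]

/-- an isometric column -/
theorem S_col {ι : Type*} [Fintype ι] {m : ι → Al M} (hm : ∑ l, star (m l) * m l = 1) (ξ : H) :
    S (fun l => (m l).1 ξ) = ‖ξ‖ ^ 2 := by
  have : ((S (fun l => (m l).1 ξ) : ℝ) : ℂ) = ((‖ξ‖ ^ 2 : ℝ) : ℂ) := by
    simp only [S, Complex.ofReal_sum, norm_sq_apply, ← co_sum, hm]
    simp [co, inner_self_eq_norm_sq_to_K]
  exact_mod_cast this

theorem row_le {ι : Type*} [Fintype ι] {m : ι → Al M} (hm : ∀ ξ, S (fun l => (m l).1 ξ) ≤ ‖ξ‖ ^ 2)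
    (θ : ι → H) : ‖∑ l, (star (m l)).1 (θ l)‖ ^ 2 ≤ S θ := by
  set v := ∑ l, (star (m l)).1 (θ l) with hv
  have h1 : ⟪v, v⟫_ℂ = ∑ l, ⟪(m l).1 v, θ l⟫_ℂ := by
    conv_lhs => rw [hv, inner_sum]
    exact Finset.sum_congr rfl fun l _ => ContinuousLinearMap.adjoint_inner_right _ _ _
  have h2 := cs (fun l => (m l).1 v) θ
  rw [← h1, inner_self_eq_norm_sq_to_K] at h2
  simp only [norm_pow, RCLike.norm_ofReal, abs_norm, Complex.coe_algebraMap, Complex.norm_real,
    Real.norm_eq_abs] at h2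
  have h3 := mul_le_mul_of_nonneg_left (hm v) (S_nonneg θ)
  rcases (sq_nonneg ‖v‖).eq_or_lt with h0 | h0
  · rw [← h0]; exact S_nonneg _
  · nlinarith

theorem Con.mul_row {I J ι : Type*} [Fintype I] [Fintype J] [Fintype ι] {Y : I → J → Al M}
    (hY : Con Y) {m : ι → Al M} (hm : ∀ ξ, S (fun l => (m l).1 ξ) ≤ ‖ξ‖ ^ 2) :
    Con (fun i (p : J × ι) => Y i p.1 * star (m p.2)) := fun θ => by
  have := hY fun j => ∑ l, (star (m l)).1 (θ (j, l))
  simp only [map_sum] at this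
  simp only [Fintype.sum_prod_type]
  refine this.trans ?_
  simp only [S, Fintype.sum_prod_type]
  exact Finset.sum_le_sum fun j _ => row_le hm fun l => θ (j, l)

/-- the averaging operation -/
noncomputable def act {X ι : Type*} [Fintype ι] (m : ι → Al M) (T : X → Al M → W M) :
    X → Al M → W M := fun x y => ofW.symm (∑ l, ofW (T x (y * star (m l))) * m l)

theorem ofW_act {X ι : Type*} [Fintype ι] (m : ι → Al M) (T : X → Al M → W M) (x : X) (y : Al M) :
    ofW (act m T x y) = ∑ l, ofW (T x (y * star (m l))) * m l := rfl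

theorem continuous_act {X ι : Type*} [Fintype ι] (m : ι → Al M) :
    Continuous (act (X := X) m) := by
  refine continuous_pi fun x => continuous_pi fun y => continuous_iff.2 fun η ξ => ?_
  simp only [ofW_act, co_sum, co_mul_right]
  exact continuous_finset_sum _ fun l _ => (continuous_co _ _).comp (continuous_apply_apply _ _)

theorem act_act {X ι κ : Type*} [Fintype ι] [Fintype κ] (m : ι → Al M) (m' : κ → Al M)
    (T : X → Al M → W M) : act m (act m' T) = act (fun p : ι × κ => m' p.2 * m p.1) T := by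
  funext x y
  apply ofW.injective
  simp only [ofW_act, Fintype.sum_prod_type, Finset.sum_mul, star_mul, mul_assoc]

theorem col_col {ι κ : Type*} [Fintype ι] [Fintype κ] {m : ι → Al M} {m' : κ → Al M}
    (hm : ∑ l, star (m l) * m l = 1) (hm' : ∑ l, star (m' l) * m' l = 1) :
    ∑ p : ι × κ, star (m' p.2 * m p.1) * (m' p.2 * m p.1) = 1 := by
  rw [Fintype.sum_prod_type, ← hm]
  refine Finset.sum_congr rfl fun l _ => ?_
  simp only [star_mul, mul_assoc, ← Finset.mul_sum]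
  simp only [← mul_assoc, ← Finset.sum_mul, hm', one_mul]

theorem bil_act {X I J ι : Type*} [Fintype I] [Fintype J] [Fintype ι] (m : ι → Al M)
    (T : X → Al M → W M) (x : X) (Y : I → J → Al M) (ξ : J → H) (ζ : I → H) :
    bil (fun i j => ofW (act m T x (Y i j))) ξ ζ =
      bil (fun i (p : J × ι) => ofW (T x (Y i p.1 * star (m p.2)))) (fun p => (m p.2).1 (ξ p.1)) ζ := by
  simp only [bil, ofW_act, co_sum, co_mul_right, Fintype.sum_prod_type]

theorem S_act {J ι : Type*} [Fintype J] [Fintype ι] {m : ι → Al M}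
    (hm : ∀ ξ, S (fun l => (m l).1 ξ) ≤ ‖ξ‖ ^ 2) (ξ : J → H) :
    S (fun p : J × ι => (m p.2).1 (ξ p.1)) ≤ S ξ := by
  simp only [S, Fintype.sum_prod_type]
  exact Finset.sum_le_sum fun j _ => hm _

theorem CBd.act {X : Type*} {ι : Type} [Fintype ι] {m : ι → Al M}
    (hm : ∀ ξ, S (fun l => (m l).1 ξ) ≤ ‖ξ‖ ^ 2) {T : X → Al M → W M} {x : X} {P L : Set H}
    {R : ℝ} (hR : 0 ≤ R) (hL : ∀ l, ∀ ξ ∈ L, (m l).1 ξ ∈ P) (h : CBd (fun y => ofW (T x y)) P R) :
    CBd (fun y => ofW (act m T x y)) L R := by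
  intro I J _ _ Y hY ξ ζ hξ
  rw [bil_act]
  refine (h I (J × ι) _ (hY.mul_row hm) _ ζ fun p => hL _ _ (hξ _)).trans ?_
  exact mul_le_mul_of_nonneg_right (mul_le_mul_of_nonneg_left (S_act hm ξ) hR) (S_nonneg _)

theorem continuous_bil {X I J : Type*} [Fintype I] [Fintype J] (x : X) (Y : I → J → Al M)
    (ξ : J → H) (ζ : I → H) :
    Continuous fun T : X → Al M → W M => bil (fun i j => ofW (T x (Y i j))) ξ ζ :=
  continuous_finset_sum _ fun _ _ => continuous_finset_sum _ fun _ _ =>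
    (continuous_co _ _).comp (continuous_apply_apply _ _)

theorem isClosed_CBd {X : Type*} (x : X) (L : Set H) (R : ℝ) :
    IsClosed {T : X → Al M → W M | CBd (fun y => ofW (T x y)) L R} := by
  simp only [CBd, Set.setOf_forall]
  refine isClosed_iInter fun I => isClosed_iInter fun J => isClosed_iInter fun _ =>
    isClosed_iInter fun _ => isClosed_iInter fun Y => isClosed_iInter fun _ =>
    isClosed_iInter fun ξ => isClosed_iInter fun ζ => isClosed_iInter fun _ => ?_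
  exact isClosed_le ((continuous_bil x Y ξ ζ).norm.pow 2) continuous_const

end Crest.Agent.KR.CB
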