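import Crest.Agent.KR.CB1
/-! The Hadamard trick and the localisation lemma. -/
set_option autoImplicit false
set_option linter.deprecated false
namespace Crest.Agent.KR.CB
open scoped InnerProductSpace ComplexConjugate
open Filter Topology Crest.Agent.KR

variable {H : Type*} [NormedAddCommGroup H] [InnerProductSpace ℂ H] [CompleteSpace H]
variable {M : VonNeumannAlgebra H}

/-- each member of the family is linear -/
def Lin {X : Type*} (T : X → Al M → W M) : Prop :=
  ∀ x, (∀ y y', T x (y + y') = T x y + T x y') ∧ ∀ (z : ℂ) y, T x (z • y) = z • T x y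

theorem Lin.zero {X : Type*} {T : X → Al M → W M} (h : Lin T) (x : X) : T x 0 = 0 := by
  simpa using (h x).2 0 0

noncomputable def rs : ℂ := ((√2)⁻¹ : ℝ)

theorem rs_mul : rs * rs = 1 / 2 := by
  rw [rs, ← Complex.ofReal_mul, ← mul_inv, Real.mul_self_sqrt (by norm_num)]; simp
theorem conj_rs : conj rs = rs := Complex.conj_ofReal _
theorem norm_rs_sq : ‖rs‖ ^ 2 = 1 / 2 := by
  rw [sq, ← norm_mul, rs_mul]; simp

/-- midpoint -/
noncomputable def mid {X : Type*} (T T' : X → Al M → W M) : X → Al M → W M :=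
  fun x y => (1 / 2 : ℂ) • (T x y + T' x y)

theorem continuous_mid {X : Type*} :
    Continuous fun p : (X → Al M → W M) × (X → Al M → W M) => mid p.1 p.2 := by
  unfold mid
  fun_prop

theorem mid_act {X ι κ : Type*} [Fintype ι] [Fintype κ] (m : ι → Al M) (m' : κ → Al M)
    {T : X → Al M → W M} (hT : Lin T) :
    mid (act m T) (act m' T) = act (Sum.elim (fun l => rs • m l) fun l => rs • m' l) T := by
  funext x y
  apply ofW.injective
  simp only [mid, map_smul, map_add, ofW_act, Fintype.sum_sum_type, Sum.elim_inl, Sum.elim_inr,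
    star_smul, mul_smul_comm, (hT x).2, smul_mul_assoc, smul_smul, RCLike.star_def, conj_rs, rs_mul,
    smul_add, Finset.smul_sum]

theorem col_mid {ι κ : Type*} [Fintype ι] [Fintype κ] {m : ι → Al M} {m' : κ → Al M}
    (hm : ∑ l, star (m l) * m l = 1) (hm' : ∑ l, star (m' l) * m' l = 1) :
    ∑ l, star (Sum.elim (fun l => rs • m l) (fun l => rs • m' l) l) *
      Sum.elim (fun l => rs • m l) (fun l => rs • m' l) l = 1 := by
  simp only [Fintype.sum_sum_type, Sum.elim_inl, Sum.elim_inr, star_smul, mul_smul_comm,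
    smul_mul_assoc, smul_smul, RCLike.star_def, conj_rs, rs_mul, ← Finset.smul_sum, hm, hm']
  rw [← add_smul]; norm_num

/-- the Hadamard inequality -/
def Had {X : Type*} (x : X) (L : Set H) (R : ℝ) (T T' : X → Al M → W M) : Prop :=
  ∀ (I J : Type) [Fintype I] [Fintype J] (Y : I → J → Al M), Con Y →
    ∀ (ξ : J → H) (ζ : I → H) (η : J → H), (∀ j, ξ j ∈ L) →
      ‖bil (fun i j => ofW (mid T T' x (Y i j))) ξ ζ +
        ∑ j, co (η j) (ξ j) ((1 / 2 : ℂ) • (ofW (T x 1) - ofW (T' x 1)))‖ ^ 2 ≤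
          R * S ξ * (S ζ + S η)

theorem isClosed_Had {X : Type*} (x : X) (L : Set H) (R : ℝ) :
    IsClosed {p : (X → Al M → W M) × (X → Al M → W M) | Had x L R p.1 p.2} := by
  simp only [Had, Set.setOf_forall]
  refine isClosed_iInter fun I => isClosed_iInter fun J => isClosed_iInter fun _ =>
    isClosed_iInter fun _ => isClosed_iInter fun Y => isClosed_iInter fun _ =>
    isClosed_iInter fun ξ => isClosed_iInter fun ζ => isClosed_iInter fun η =>
    isClosed_iInter fun _ => ?_
  refine isClosed_le ((Continuous.add ((continuous_bil x Y ξ ζ).comp continuous_mid)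
    (continuous_finset_sum _ fun j _ => ?_)).norm.pow 2) continuous_const
  simp only [co_smul, co_sub]
  exact continuous_const.mul (((continuous_co _ _).comp ((continuous_apply_apply _ _).comp
    continuous_fst)).sub ((continuous_co _ _).comp ((continuous_apply_apply _ _).comp continuous_snd)))

omit [CompleteSpace H] in
theorem par (a b : H) : ‖rs • (a + b)‖ ^ 2 + ‖rs • (a - b)‖ ^ 2 = ‖a‖ ^ 2 + ‖b‖ ^ 2 := by
  rw [norm_smul, norm_smul, mul_pow, mul_pow, norm_rs_sq]
  have := parallelogram_law_with_norm ℂ a b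
  nlinarith

theorem had_act {X : Type*} {ι κ : Type} [Fintype ι] [Fintype κ] {m : ι → Al M} {m' : κ → Al M}
    (hm : ∑ l, star (m l) * m l = 1) (hm' : ∑ l, star (m' l) * m' l = 1)
    {T : X → Al M → W M} (hT : Lin T) (x : X) {L : Set H} (hL : ∀ a : Al M, ∀ ξ ∈ L, a.1 ξ ∈ L)
    {R : ℝ} (h : CBd (fun y => ofW (T x y)) L R) : Had x L R (act m T) (act m' T) := by
  classical
  intro I J _ _ Y hY ξ ζ η hξ
  let Wm : I ⊕ J → (J × ι) ⊕ (J × κ) → Al M := fun i p =>
    match i, p with
    | .inl i, .inl p => rs • (Y i p.1 * star (m p.2))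
    | .inl i, .inr p => rs • (Y i p.1 * star (m' p.2))
    | .inr j, .inl p => if j = p.1 then rs • star (m p.2) else 0
    | .inr j, .inr p => if j = p.1 then (-rs) • star (m' p.2) else 0
  have hW : Con Wm := fun θ => by
    let a : J → H := fun j => ∑ l, (star (m l)).1 (θ (.inl (j, l)))
    let b : J → H := fun j => ∑ l, (star (m' l)).1 (θ (.inr (j, l)))
    have e1 : ∀ i, ∑ p, (Wm (.inl i) p).1 (θ p) = ∑ j, (Y i j).1 (rs • (a j + b j)) := fun i => by
      simp only [Wm, Fintype.sum_sum_type, Fintype.sum_prod_type, a, b, map_smul, map_add, map_sum,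
        smul_add, Finset.sum_add_distrib, Finset.smul_sum]
      rfl
    have e2 : ∀ j, ∑ p, (Wm (.inr j) p).1 (θ p) = rs • (a j - b j) := fun j => by
      have : ∀ (c : Prop) [Decidable c] (u : Al M) (v : H),
          (if c then u else 0).1 v = if c then u.1 v else 0 := fun c _ u v => by split_ifs <;> simp
      simp only [Wm, Fintype.sum_sum_type, Fintype.sum_prod_type, a, b, this, Finset.sum_ite_irrel,
        Finset.sum_const_zero, Finset.sum_ite_eq, Finset.mem_univ, if_true, smul_sub,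
        Finset.smul_sum, sub_eq_add_neg, smul_add, smul_neg, ← Finset.sum_neg_distrib]
      simp
    have h1 := hY fun j => rs • (a j + b j)
    have h2 : ∑ j, ‖a j‖ ^ 2 ≤ ∑ j, ∑ l, ‖θ (.inl (j, l))‖ ^ 2 :=
      Finset.sum_le_sum fun j _ => row_le (fun ξ => (S_col hm ξ).le) _
    have h3 : ∑ j, ‖b j‖ ^ 2 ≤ ∑ j, ∑ l, ‖θ (.inr (j, l))‖ ^ 2 :=
      Finset.sum_le_sum fun j _ => row_le (fun ξ => (S_col hm' ξ).le) _
    have h4 : ∑ j, ‖rs • (a j + b j)‖ ^ 2 + ∑ j, ‖rs • (a j - b j)‖ ^ 2 =
        ∑ j, ‖a j‖ ^ 2 + ∑ j, ‖b j‖ ^ 2 := by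
      simp only [← Finset.sum_add_distrib, par]
    simp only [S] at h1 ⊢
    rw [Fintype.sum_sum_type]
    simp only [e1, e2]
    simp only [Fintype.sum_sum_type, Fintype.sum_prod_type]
    linarith
  let ξ' : (J × ι) ⊕ (J × κ) → H :=
    Sum.elim (fun p => (rs • m p.2).1 (ξ p.1)) fun p => (rs • m' p.2).1 (ξ p.1)
  have hξ' : S ξ' = S ξ := by
    simp only [S, Fintype.sum_sum_type, Fintype.sum_prod_type, ξ', Sum.elim_inl, Sum.elim_inr,
      ← Finset.sum_add_distrib]
    refine Finset.sum_congr rfl fun j _ => ?_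
    have := S_col (col_mid hm hm') (ξ j)
    simpa only [S, Fintype.sum_sum_type, Sum.elim_inl, Sum.elim_inr] using this
  have := h (I ⊕ J) _ Wm hW ξ' (Sum.elim ζ η) (by
    rintro (p | p) <;> exact hL _ _ (hξ _))
  rw [hξ', show S (Sum.elim ζ η) = S ζ + S η by simp [S]] at this
  convert this using 3
  rw [mid_act m m' hT, bil_act]
  have z : ∀ (c : Prop) [Decidable c] (u : Al M) (v w : H),
      co v w (ofW (T x (if c then u else 0))) = if c then co v w (ofW (T x u)) else 0 :=
    fun c _ u v w => by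
      split_ifs
      · rfl
      · rw [hT.zero]; simp [co]
  have sm : ∀ (c : ℂ) (u b : Al M) (v w : H), co v ((c • u).1 w) b = c * co v (u.1 w) b :=
    fun c u b v w => by simp [co, inner_smul_right]
  simp only [bil, Fintype.sum_sum_type, Fintype.sum_prod_type, Sum.elim_inl, Sum.elim_inr, Wm, ξ',
    star_smul, RCLike.star_def, conj_rs, mul_smul_comm, z, Finset.sum_ite_irrel,
    Finset.sum_const_zero, Finset.sum_ite_eq, Finset.mem_univ, if_true, Finset.sum_add_distrib]
  rw [add_add_add_comm _ _ _ (∑ j, ∑ l, co (η j) _ _)]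
  congr 1
  rw [← Finset.sum_add_distrib]
  refine Finset.sum_congr rfl fun j _ => ?_
  simp only [ofW_act, one_mul, co_smul, co_sub, co_sum, co_mul_right, (hT x).2, map_smul, sm,
    ← mul_assoc, neg_mul, rs_mul, mul_sub, Finset.mul_sum]
  simp only [mul_neg, ← mul_assoc, rs_mul, Finset.sum_neg_distrib, sub_eq_add_neg]

/-- the Hadamard inequality improves the bound where the difference is bounded below -/
theorem Had.improve {X : Type*} {x : X} {L P : Set H} {R δ : ℝ} {T T' : X → Al M → W M}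
    (h : Had x L R T T') (hR : 0 ≤ R) (hP : P ⊆ L)
    (hδ : ∀ ξ ∈ P, δ * ‖ξ‖ ^ 2 ≤ ‖((1 / 2 : ℂ) • (ofW (T x 1) - ofW (T' x 1))).1 ξ‖ ^ 2) :
    CBd (fun y => ofW (mid T T' x y)) P (R - δ) := by
  intro I J _ _ Y hY ξ ζ hξ
  set c := (1 / 2 : ℂ) • (ofW (T x 1) - ofW (T' x 1))
  let u : I → H := fun i => ∑ j, (ofW (mid T T' x (Y i j))).1 (ξ j)
  let v : J → H := fun j => c.1 (ξ j)
  have h1 := h I J Y hY ξ u v fun j => hP (hξ j)
  have h2 : S (Sum.elim u v) ≤ R * S ξ := vec_of_bil _ (mul_nonneg hR (S_nonneg _)) (by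
    rw [show S (Sum.elim u v) = S u + S v by simp [S], Fintype.sum_sum_type]
    rw [bil_eq] at h1
    exact h1)
  rw [show S (Sum.elim u v) = S u + S v by simp [S]] at h2
  have h3 : δ * S ξ ≤ S v := by
    simp only [S, Finset.mul_sum]
    exact Finset.sum_le_sum fun j _ => hδ _ (hξ j)
  rw [bil_eq]
  exact (cs ζ u).trans (mul_le_mul_of_nonneg_right (by linarith) (S_nonneg _))

end Crest.Agent.KR.CB
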