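import Crest.Agent.KR.Hull
/-! Kadison–Ringrose cohomology: analytic lemmas for the decoupling of signs. -/
set_option autoImplicit false
set_option linter.deprecated false
set_option linter.style.haveILetI false
namespace Crest.Agent.KR.Dec
open scoped InnerProductSpace ComplexConjugate BigOperators
open Filter Topology Crest.Agent.GP Crest.Agent.KS Crest.OpAlg

universe u

variable {A : Type u} [CStarAlgebra A] (T : Tr A)

theorem amgm (a b : ℝ) {γ : ℝ} (hγ : 0 < γ) : a * b ≤ (a ^ 2 / γ + γ * b ^ 2) / 2 := by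
  have : a ^ 2 / γ + γ * b ^ 2 - 2 * (a * b) = (a - γ * b) ^ 2 / γ := by field_simp; ring
  have h : 0 ≤ (a - γ * b) ^ 2 / γ := by positivity
  linarith

theorem le_of_sq_le_sq_of_nonneg' {a b : ℝ} (h : a ^ 2 ≤ b ^ 2) (hb : 0 ≤ b) : a ≤ b :=
  (abs_le_of_sq_le_sq' h hb).2

/-- cutting an element into an operator-small and a 2-small part -/
theorem cut (D : A) {γ : ℝ} (hγ : 0 < γ) :
    ∃ D₁ : A, ‖D₁‖ ^ 2 ≤ γ ∧ T.n (D - D₁) ^ 2 ≤ T.n (star D * D) ^ 2 / γ := by
  letI := CStarAlgebra.spectralOrder A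
  haveI := CStarAlgebra.spectralOrderedRing A
  set R := star D * D with hR
  have hs : IsSelfAdjoint R := IsSelfAdjoint.star_mul_self D
  have hp : ∀ t : ℝ, 0 < γ + |t| := fun t => by positivity
  have hg : Continuous fun t : ℝ => γ / (γ + |t|) :=
    continuous_const.div (by fun_prop) fun t => (hp t).ne'
  have e : ∀ f : ℝ → ℝ, Continuous f →
      star (D * cfc f R) * (D * cfc f R) = cfc (fun t => f t * t * f t) R := fun f hf => by
    rw [star_mul, (cfc_predicate f R : IsSelfAdjoint _).star_eq, mul_assoc, ← mul_assoc (star D),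
      ← hR, ← mul_assoc, cfc_mul (fun t => f t * t) f R (hf.mul continuous_id').continuousOn hf.continuousOn,
      cfc_mul _ _ R hf.continuousOn continuous_id'.continuousOn, cfc_id' ℝ R hs]
  refine ⟨D * cfc (fun t : ℝ => γ / (γ + |t|)) R, ?_, ?_⟩
  · rw [sq, ← CStarRing.norm_star_mul_self, e _ hg]
    refine norm_cfc_le hγ.le fun t _ => ?_
    have h := hp t
    rw [Real.norm_eq_abs, abs_mul, abs_mul, abs_of_pos (div_pos hγ h)]
    have : γ / (γ + |t|) * |t| * (γ / (γ + |t|)) = γ * (γ * |t| / (γ + |t|) ^ 2) := by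
      field_simp
    rw [this]
    refine mul_le_of_le_one_right hγ.le ((div_le_one (by positivity)).2 ?_)
    nlinarith [abs_nonneg t]
  · have e1 : D - D * cfc (fun t : ℝ => γ / (γ + |t|)) R =
        D * cfc (fun t : ℝ => 1 - γ / (γ + |t|)) R := by
      rw [cfc_sub _ _ R continuousOn_const hg.continuousOn, cfc_const_one ℝ R hs, mul_sub, mul_one]
    have e2 : star R * R = cfc (fun t : ℝ => t * t) R := by
      rw [hs.star_eq, cfc_mul _ _ R continuous_id'.continuousOn continuous_id'.continuousOn,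
        cfc_id' ℝ R hs]
    have hg' : Continuous fun t : ℝ => 1 - γ / (γ + |t|) := continuous_const.sub hg
    have hg'' : Continuous fun t : ℝ => (1 - γ / (γ + |t|)) * t * (1 - γ / (γ + |t|)) :=
      (hg'.mul continuous_id').mul hg'
    rw [e1, T.n_sq, T.n_sq, e _ hg', e2, le_div_iff₀ hγ, mul_comm,
      ← Complex.re_ofReal_mul, ← smul_eq_mul, ← map_smul, Complex.coe_smul,
      ← cfc_const_mul γ _ R hg''.continuousOn]
    refine T.re_mono (cfc_mono (fun t _ => ?_) (continuous_const.mul hg'').continuousOn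
      (continuous_id'.mul continuous_id').continuousOn)
    have h := hp t
    have : γ * ((1 - γ / (γ + |t|)) * t * (1 - γ / (γ + |t|))) =
        (γ * t / (γ + |t|) ^ 2) * (|t| * |t|) := by field_simp; ring
    rw [this, abs_mul_abs_self]
    refine mul_le_of_le_one_left (mul_self_nonneg t) ((div_le_one (by positivity)).2 ?_)
    nlinarith [abs_nonneg t, le_abs_self t]

/-- the fourth power of the 4-norm -/
noncomputable def F (X : A) : ℝ := T.n (star X * X) ^ 2

theorem F_add (X Y : A) : F T (X + Y) ≤ 8 * (F T X + F T Y) := by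
  have h : ∀ X Y : A, T.n (star X * Y) ^ 2 ≤ T.n (star X * X) * T.n (star Y * Y) := fun X Y => by
    have e : ∀ Z : A, T.n (Z * star Z) = T.n (star Z * Z) := fun Z => T.n_eq_of (by
      simp only [star_mul, star_star]
      rw [mul_assoc, T.comm]; simp only [mul_assoc])
    rw [T.n_sq, ← e X, ← e Y]
    refine (Complex.re_le_norm _).trans (le_of_eq_of_le ?_ (T.cs _ _))
    rw [star_mul, star_star, mul_assoc, T.comm]; simp only [mul_assoc]
  have e : star (X + Y) * (X + Y) = star X * X + star Y * Y + (star X * Y + star Y * X) := by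
    rw [star_add]; noncomm_ring
  have h1 := h X Y
  have h2 := h Y X
  have h3 := T.n_add_le (star X * X + star Y * Y) (star X * Y + star Y * X)
  have h4 := T.n_add_le (star X * X) (star Y * Y)
  have h5 := T.n_add_le (star X * Y) (star Y * X)
  unfold F
  rw [e]
  set a := T.n (star X * X)
  set b := T.n (star Y * Y)
  have a0 : 0 ≤ a := T.n_nonneg _
  have b0 : 0 ≤ b := T.n_nonneg _
  have k : ∀ c : ℝ, c ^ 2 ≤ a * b → c ≤ (a + b) / 2 := fun c hc =>
    le_of_sq_le_sq_of_nonneg' (by nlinarith [sq_nonneg (a - b)]) (by positivity)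
  have h6 := k _ h1
  have h7 := k _ (h2.trans_eq (mul_comm _ _))
  have h8 : T.n (star X * X + star Y * Y + (star X * Y + star Y * X)) ≤ 2 * (a + b) := by linarith
  have := pow_le_pow_left₀ (T.n_nonneg _) h8 2
  nlinarith [sq_nonneg (a - b)]

theorem F_unit {u : A} (hu : u ∈ unitary A) (X : A) : F T (u * X) = F T X := by
  unfold F
  rw [star_mul, mul_assoc, ← mul_assoc (star u), hu.1, one_mul]

theorem G_add (X Y : A) : T.n (X + Y) ^ 2 ≤ 8 * (T.n X ^ 2 + T.n Y ^ 2) := by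
  have := T.n_par X Y
  nlinarith [sq_nonneg (T.n (X - Y)), sq_nonneg (T.n X), sq_nonneg (T.n Y)]

section Part
variable {κ : Type} [Fintype κ] {P : κ → A} (h1 : ∀ a, Proj (P a))
  (h2 : ∀ a b, a ≠ b → P a * P b = 0) (h3 : ∑ a, P a = 1)
include h1 h3

theorem pyth (X : A) : ∑ a, T.n (X * P a) ^ 2 = T.n X ^ 2 := by
  have : ∀ a, T.n (X * P a) ^ 2 = (T.τ (star X * X * P a)).re := fun a => by
    rw [T.n_sq, star_mul, (h1 a).1, mul_assoc, T.comm]
    simp only [mul_assoc, (h1 a).2]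
  simp only [this]
  rw [← Complex.re_sum, ← map_sum, ← Finset.mul_sum, h3, mul_one, T.n_sq]

theorem pyth' (X : A) : ∑ a, T.n (P a * X) ^ 2 = T.n X ^ 2 := by
  rw [← T.n_star X, ← pyth T h1 h3]
  exact Finset.sum_congr rfl fun a _ => by rw [← T.n_star, star_mul, (h1 a).1]

theorem sum_P : ∑ a, T.n (P a) ^ 2 = 1 := by simpa using pyth T h1 h3 1

theorem blk (D : κ → A) {γ : ℝ} (hγ : 0 ≤ γ) (hD : ∀ a, ‖D a‖ ^ 2 ≤ γ) {x : A} (hx : ‖x‖ ≤ 1) :
    ‖∑ a, x * star (D a * P a) * star (x * star (D a * P a))‖ ≤ γ := by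
  letI := CStarAlgebra.spectralOrder A
  haveI := CStarAlgebra.spectralOrderedRing A
  have e : ∑ a, x * star (D a * P a) * star (x * star (D a * P a)) =
      x * (∑ a, star (D a * P a) * (D a * P a)) * star x := by
    simp only [Finset.mul_sum, Finset.sum_mul, star_mul x, star_star, mul_assoc]
  have k : ‖∑ a, star (D a * P a) * (D a * P a)‖ ≤ γ := by
    have l : ∑ a, star (D a * P a) * (D a * P a) ≤ γ • (1 : A) := by
      rw [← h3, Finset.smul_sum]
      refine Finset.sum_le_sum fun a _ => ?_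
      have := CStarAlgebra.star_left_conjugate_le_norm_smul (a := P a) (b := star (D a) * D a)
      rw [CStarRing.norm_star_mul_self, ← sq, (h1 a).1, (h1 a).2] at this
      refine le_trans (le_of_eq ?_) (this.trans (smul_le_smul_of_nonneg_right (hD a) ?_))
      · simp only [star_mul, (h1 a).1, mul_assoc]
      · simpa only [(h1 a).1, (h1 a).2] using star_mul_self_nonneg (P a)
    refine (CStarAlgebra.norm_le_norm_of_nonneg_of_le
      (Finset.sum_nonneg fun a _ => star_mul_self_nonneg _) l).trans ?_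
    rw [norm_smul, Real.norm_of_nonneg hγ]
    exact mul_le_of_le_one_right hγ norm_one_le
  rw [e]
  simpa using norm_mul_le' (norm_mul_le' hx k) (show ‖star x‖ ≤ 1 by rwa [norm_star])

include h2
theorem orth (X : κ → A) (hX : ∀ a, X a * P a = X a) : T.n (∑ a, X a) ^ 2 = ∑ a, T.n (X a) ^ 2 := by
  rw [← pyth T h1 h3]
  refine Finset.sum_congr rfl fun a _ => ?_
  rw [Finset.sum_mul, Finset.sum_eq_single a (fun b _ hb => by
    rw [← hX b, mul_assoc, h2 b a hb, mul_zero]) (by simp), hX]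

end Part

variable (θ : A →L[ℂ] A) (x y : A)

/-- the form -/
noncomputable def B (X Y : A) : ℂ := T.τ (θ (x * star X) * Y * y)

theorem B_add_left (X X' Y : A) : B T θ x y (X + X') Y = B T θ x y X Y + B T θ x y X' Y := by
  simp [B, mul_add, add_mul]
theorem B_add_right (X Y Y' : A) : B T θ x y X (Y + Y') = B T θ x y X Y + B T θ x y X Y' := by
  simp [B, mul_add, add_mul]
theorem B_sum {κ : Type} [Fintype κ] (X Y : κ → A) :
    B T θ x y (∑ a, X a) (∑ a, Y a) = ∑ a, ∑ b, B T θ x y (X a) (Y b) := by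
  simp only [B, star_sum, Finset.mul_sum, map_sum, Finset.sum_mul]
  exact Finset.sum_comm

variable {T θ x y} {K : ℝ}

theorem K_nonneg (h : L2 T K θ) : 0 ≤ K := by simpa using (T.n_nonneg _).trans (h 1)

theorem B_le (h : L2 T K θ) (hx : ‖x‖ ≤ 1) (hy : ‖y‖ ≤ 1) (X Y : A) :
    ‖B T θ x y X Y‖ ≤ K * (T.n X * T.n Y) := by
  rw [B, mul_assoc, ← mul_assoc K]
  refine (T.cs _ _).trans (mul_le_mul ((h _).trans (mul_le_mul_of_nonneg_left ?_ (K_nonneg h)))
    (T.n_r1 _ hy) (T.n_nonneg _) (mul_nonneg (K_nonneg h) (T.n_nonneg _)))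
  exact (T.n_l1 hx _).trans_eq (T.n_star _)

section Part
variable {κ : Type} [Fintype κ] {P : κ → A} (h1 : ∀ a, Proj (P a))
  (h2 : ∀ a b, a ≠ b → P a * P b = 0) (h3 : ∑ a, P a = 1)
  (h : L2 T K θ) (hx : ‖x‖ ≤ 1) (hy : ‖y‖ ≤ 1) {γ : ℝ} (hγ : 0 < γ)
include h1 h3 h hx hy hγ

/-- the cross terms -/
theorem cross (hr : Row T K θ) (D D' : κ → κ → A) (hD : ∀ a b, D a b * P a = D a b)
    (hD' : ∀ a b, D' a b * P b = D' a b) :
    ∑ a, ∑ b, ‖B T θ x y (D a b) (D' a b)‖ ≤ (K ^ 2 * γ + K * (∑ a, ∑ b, F T (D a b)) / γ ^ 3 +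
      (1 + K) * γ * ∑ a, ∑ b, T.n (D' a b) ^ 2) / 2 := by
  have K0 := K_nonneg h
  choose D₁ e1 e2 using fun a b => cut T (D a b) (pow_pos hγ 2)
  have k : ∀ a b, ‖B T θ x y (D a b) (D' a b)‖ ≤
      (T.n (P b * y * θ (x * star (D₁ a b * P a))) ^ 2 / γ + K * F T (D a b) / γ ^ 3 +
        (1 + K) * γ * T.n (D' a b) ^ 2) / 2 := fun a b => by
    have e : D a b = D₁ a b * P a + (D a b - D₁ a b) * P a := by rw [← add_mul]; simp [hD]
    have l1 : ‖B T θ x y (D₁ a b * P a) (D' a b)‖ ≤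
        T.n (P b * y * θ (x * star (D₁ a b * P a))) * T.n (D' a b) := by
      refine le_of_eq_of_le ?_ (T.cs _ _)
      rw [B, ← hD' a b, mul_assoc, mul_assoc, ← mul_assoc _ (D' a b), T.comm, hD']
      simp only [mul_assoc]
    have l2 := B_le h hx hy ((D a b - D₁ a b) * P a) (D' a b)
    have l3 : T.n ((D a b - D₁ a b) * P a) ^ 2 ≤ F T (D a b) / γ ^ 2 :=
      (pow_le_pow_left₀ (T.n_nonneg _) (T.n_r1 _ (h1 a).norm) 2).trans (e2 a b)
    have l4 := amgm (T.n (P b * y * θ (x * star (D₁ a b * P a)))) (T.n (D' a b)) hγ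
    have l5 := amgm (T.n ((D a b - D₁ a b) * P a)) (T.n (D' a b)) hγ
    have l6 : T.n ((D a b - D₁ a b) * P a) ^ 2 / γ ≤ F T (D a b) / γ ^ 3 := by
      rw [pow_succ γ 2, ← div_div]; exact div_le_div_of_nonneg_right l3 hγ.le
    have l7 := mul_le_mul_of_nonneg_left (l5.trans (show _ ≤ (F T (D a b) / γ ^ 3 +
      γ * T.n (D' a b) ^ 2) / 2 by linarith)) K0
    conv_lhs => rw [e, B_add_left]
    refine (norm_add_le _ _).trans ?_
    rw [mul_div_assoc K]
    linarith
  have r : ∑ a, ∑ b, T.n (P b * y * θ (x * star (D₁ a b * P a))) ^ 2 ≤ K ^ 2 * γ ^ 2 := by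
    rw [Finset.sum_comm]
    calc _ ≤ ∑ b, K ^ 2 * γ ^ 2 * T.n (P b) ^ 2 := Finset.sum_le_sum fun b _ => by
          refine (hr _ _).trans ?_
          have := mul_le_mul (pow_le_pow_left₀ (T.n_nonneg _) (T.n_r1 (P b) hy) 2)
            (blk h1 h3 (fun a => D₁ a b) (sq_nonneg γ) (fun a => e1 a b) hx) (norm_nonneg _)
            (sq_nonneg _)
          nlinarith [sq_nonneg K]
      _ = _ := by rw [← Finset.mul_sum, sum_P T h1 h3, mul_one]
  refine (Finset.sum_le_sum fun a _ => Finset.sum_le_sum fun b _ => k a b).trans ?_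
  simp only [← Finset.sum_div, Finset.sum_add_distrib, ← Finset.mul_sum]
  have : (∑ a, ∑ b, T.n (P b * y * θ (x * star (D₁ a b * P a))) ^ 2) / γ ≤ K ^ 2 * γ := by
    rw [div_le_iff₀ hγ]; linarith
  linarith

include h2
/-- removing the coherent parts -/
theorem coh [DecidableEq κ] (o c : κ → A) (ho : ∀ a, o a * P a = o a) (hc : ∀ a, c a * P a = c a)
    (ho' : ∑ a, T.n (o a) ^ 2 ≤ 1) (hm : ∑ a, T.n (o a + c a) ^ 2 ≤ 1) :
    ‖B T θ x y (∑ a, (o a + c a)) (∑ a, (o a + c a)) - ∑ a, B T θ x y (o a + c a) (o a + c a) -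
      ∑ a, ∑ b, if a = b then 0 else B T θ x y (o a) (o b)‖ ≤
      2 * K * ((∑ a, T.n (c a) ^ 2) / γ + γ) := by
  have K0 := K_nonneg h
  have e0 : ∑ a, ∑ b, (if a = b then 0 else B T θ x y (o a) (o b)) =
      B T θ x y (∑ a, o a) (∑ a, o a) - ∑ a, B T θ x y (o a) (o a) := by
    rw [B_sum, ← Finset.sum_sub_distrib]
    refine Finset.sum_congr rfl fun a _ => ?_
    have : ∀ b, (if a = b then 0 else B T θ x y (o a) (o b)) =
        B T θ x y (o a) (o b) - if a = b then B T θ x y (o a) (o b) else 0 := fun b => by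
      split_ifs <;> simp
    simp only [this, Finset.sum_sub_distrib, Finset.sum_ite_eq, Finset.mem_univ, if_true]
  have e1 : B T θ x y (∑ a, (o a + c a)) (∑ a, (o a + c a)) = B T θ x y (∑ a, o a) (∑ a, o a) +
      (B T θ x y (∑ a, c a) (∑ a, (o a + c a)) + B T θ x y (∑ a, o a) (∑ a, c a)) := by
    simp only [Finset.sum_add_distrib, B_add_left, B_add_right]; ring
  have e2 : ∑ a, B T θ x y (o a + c a) (o a + c a) = ∑ a, B T θ x y (o a) (o a) +
      ∑ a, (B T θ x y (c a) (o a + c a) + B T θ x y (o a) (c a)) := by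
    rw [← Finset.sum_add_distrib]
    refine Finset.sum_congr rfl fun a _ => ?_
    simp only [B_add_left, B_add_right]; ring
  set ζ := ∑ a, T.n (c a) ^ 2 with hζ
  have k : ∀ X Y X' : A, ‖B T θ x y X Y + B T θ x y X' X‖ ≤
      K * (T.n X ^ 2 / γ + γ * (T.n Y ^ 2 + T.n X' ^ 2) / 2) := fun X Y X' => by
    refine (norm_add_le _ _).trans ((add_le_add (B_le h hx hy _ _) (B_le h hx hy _ _)).trans ?_)
    rw [← mul_add]
    refine mul_le_mul_of_nonneg_left ?_ K0
    linarith [amgm (T.n X) (T.n Y) hγ, amgm (T.n X) (T.n X') hγ, mul_comm (T.n X') (T.n X)]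
  have l1 := k (∑ a, c a) (∑ a, (o a + c a)) (∑ a, o a)
  rw [orth T h1 h2 h3 c hc, orth T h1 h2 h3 o ho,
    orth T h1 h2 h3 _ fun a => by rw [add_mul, ho, hc]] at l1
  have l2 := (norm_sum_le _ _).trans
    (Finset.sum_le_sum fun a (_ : a ∈ Finset.univ) => k (c a) (o a + c a) (o a))
  replace l2 := l2.trans_eq (show _ = K * (ζ / γ + γ * (∑ a, T.n (o a + c a) ^ 2 +
      ∑ a, T.n (o a) ^ 2) / 2) by
    simp only [← Finset.mul_sum, Finset.sum_add_distrib, ← Finset.sum_div, hζ])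
  have l3 := mul_le_mul_of_nonneg_left (show ζ / γ + γ * (∑ a, T.n (o a + c a) ^ 2 +
    ∑ a, T.n (o a) ^ 2) / 2 ≤ ζ / γ + γ by nlinarith) K0
  rw [e0, e1, e2, show ∀ a b c d : ℂ, a + b - (c + d) - (a - c) = b - d
    from fun _ _ _ _ => by ring]
  refine (norm_sub_le _ _).trans ?_
  calc _ ≤ K * (ζ / γ + γ) + K * (ζ / γ + γ) := add_le_add (l1.trans l3) (l2.trans l3)
    _ = _ := by ring

end Part
end Crest.Agent.KR.Dec
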