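import Crest.Agent.KS.Form
import Crest.Agent.GP.Bridge
import Crest.Prelude.Def_Hochschild
/-! A von Neumann algebra with its weak operator topology. -/
set_option autoImplicit false
set_option linter.deprecated false
namespace Crest.Agent.KR
open scoped InnerProductSpace ComplexConjugate
open Filter Topology

variable {H : Type*} [NormedAddCommGroup H] [InnerProductSpace ℂ H] [CompleteSpace H]

/-- the algebra as a type -/
abbrev Al (M : VonNeumannAlgebra H) := ↥M.toStarSubalgebra

set_option linter.unusedVariables false in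
/-- the algebra with the weak operator topology -/
def W (M : VonNeumannAlgebra H) := Al M

variable {M : VonNeumannAlgebra H}

noncomputable instance : AddCommGroup (W M) := inferInstanceAs (AddCommGroup (Al M))
noncomputable instance : Module ℂ (W M) := inferInstanceAs (Module ℂ (Al M))

/-- from the weak copy to the algebra -/
noncomputable def ofW : W M ≃ₗ[ℂ] Al M := LinearEquiv.refl ℂ _

/-- matrix coefficient -/
noncomputable def co (η ξ : H) (a : Al M) : ℂ := ⟪η, a.1 ξ⟫_ℂ

noncomputable instance : TopologicalSpace (W M) :=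
  TopologicalSpace.induced (fun (a : W M) (p : H × H) => co p.1 p.2 (ofW a)) inferInstance

theorem ind : IsInducing (fun (a : W M) (p : H × H) => co p.1 p.2 (ofW a)) := ⟨rfl⟩

theorem co_add (η ξ : H) (a b : Al M) : co η ξ (a + b) = co η ξ a + co η ξ b := by
  simp [co, inner_add_right]
theorem co_sub (η ξ : H) (a b : Al M) : co η ξ (a - b) = co η ξ a - co η ξ b := by
  simp [co, inner_sub_right]
theorem co_smul (η ξ : H) (z : ℂ) (a : Al M) : co η ξ (z • a) = z * co η ξ a := by
  simp [co, inner_smul_right]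
theorem co_sum {I : Type*} (s : Finset I) (η ξ : H) (a : I → Al M) :
    co η ξ (∑ i ∈ s, a i) = ∑ i ∈ s, co η ξ (a i) := by
  simp [co, inner_sum]
theorem co_mul_right (η ξ : H) (a b : Al M) : co η ξ (a * b) = co η (b.1 ξ) a := rfl
theorem co_mul_left (η ξ : H) (a b : Al M) : co η ξ (a * b) = co ((star a).1 η) ξ b := by
  exact (ContinuousLinearMap.adjoint_inner_left a.1 (b.1 ξ) η).symm
theorem norm_co_le (η ξ : H) (a : Al M) : ‖co η ξ a‖ ≤ ‖a‖ * ‖ξ‖ * ‖η‖ := by
  refine (norm_inner_le_norm _ _).trans ?_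
  rw [mul_comm]
  exact mul_le_mul_of_nonneg_right (a.1.le_opNorm ξ) (norm_nonneg _)

theorem co_ext {a b : Al M} (h : ∀ η ξ, co η ξ a = co η ξ b) : a = b :=
  Subtype.ext (ContinuousLinearMap.ext fun ξ => ext_inner_left ℂ fun η => h η ξ)

theorem norm_le_of_co {a : Al M} {r : ℝ} (hr : 0 ≤ r) (h : ∀ η ξ, ‖co η ξ a‖ ≤ r * ‖ξ‖ * ‖η‖) :
    ‖a‖ ≤ r :=
  KS.Form.norm_le_of_dense (fun x : H => x) denseRange_id a.1 r hr fun η ξ =>
    (h η ξ).trans_eq (by ring)

@[fun_prop] theorem continuous_co (η ξ : H) : Continuous fun a : W M => co η ξ (ofW a) :=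
  (continuous_apply (η, ξ)).comp ind.continuous

theorem continuous_iff {Y : Type*} [TopologicalSpace Y] {f : Y → W M} :
    Continuous f ↔ ∀ η ξ, Continuous fun y => co η ξ (ofW (f y)) := by
  rw [ind.continuous_iff, continuous_pi_iff]
  exact ⟨fun h η ξ => h (η, ξ), fun h p => h p.1 p.2⟩

theorem tendsto_iff {Y : Type*} {l : Filter Y} {f : Y → W M} {a : W M} :
    Tendsto f l (𝓝 a) ↔ ∀ η ξ, Tendsto (fun y => co η ξ (ofW (f y))) l (𝓝 (co η ξ (ofW a))) := by
  rw [ind.tendsto_nhds_iff, tendsto_pi_nhds]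
  exact ⟨fun h η ξ => h (η, ξ), fun h p => h p.1 p.2⟩

instance : T2Space (W M) :=
  (IsEmbedding.mk ind fun a b h => ofW.injective (co_ext fun η ξ => congrFun h (η, ξ))).t2Space

instance : IsTopologicalAddGroup (W M) where
  continuous_add := continuous_iff.2 fun η ξ => by
    simp only [map_add, co_add]
    exact ((continuous_co η ξ).comp continuous_fst).add ((continuous_co η ξ).comp continuous_snd)
  continuous_neg := continuous_iff.2 fun η ξ => by
    have : ∀ a : W M, co η ξ (ofW (-a)) = -co η ξ (ofW a) := fun a => by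
      rw [map_neg, ← neg_one_smul ℂ, co_smul]; ring
    simp only [this]
    exact (continuous_co η ξ).neg

instance : ContinuousSMul ℂ (W M) where
  continuous_smul := continuous_iff.2 fun η ξ => by
    simp only [map_smul, co_smul]
    exact continuous_fst.mul ((continuous_co η ξ).comp continuous_snd)

theorem continuous_mul_left (b : Al M) : Continuous fun a : W M => ofW.symm (b * ofW a) :=
  continuous_iff.2 fun η ξ => by
    simp only [LinearEquiv.apply_symm_apply, co_mul_left]; exact continuous_co _ _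

theorem continuous_mul_right (b : Al M) : Continuous fun a : W M => ofW.symm (ofW a * b) :=
  continuous_iff.2 fun η ξ => by
    simp only [LinearEquiv.apply_symm_apply, co_mul_right]; exact continuous_co _ _

/-- bounded nets have weak ultralimits in the algebra -/
theorem exists_ulim {I : Type*} (𝔘 : Ultrafilter I) (a : I → Al M) (r : ℝ) (hr : 0 ≤ r)
    (h : ∀ᶠ i in 𝔘, ‖a i‖ ≤ r) :
    ∃ b : Al M, ‖b‖ ≤ r ∧ ∀ η ξ, Tendsto (fun i => co η ξ (a i)) 𝔘 (𝓝 (co η ξ b)) := by
  have hb : ∀ η ξ, ∀ᶠ i in 𝔘, ‖co η ξ (a i)‖ ≤ r * ‖η‖ * ‖ξ‖ := fun η ξ =>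
    h.mono fun i hi => (norm_co_le _ _ _).trans (by
      have := mul_le_mul_of_nonneg_right hi (mul_nonneg (norm_nonneg ξ) (norm_nonneg η))
      linarith)
  have h1 : ∀ η ξ, ∃ l, Tendsto (fun i => co η ξ (a i)) 𝔘 (𝓝 l) := fun η ξ => by
    obtain ⟨l, -, hl⟩ := (isCompact_closedBall (0 : ℂ) (r * ‖η‖ * ‖ξ‖)).ultrafilter_le_nhds
      (𝔘.map fun i => co η ξ (a i)) (by
        rw [le_principal_iff, Ultrafilter.coe_map, mem_map]
        exact (hb η ξ).mono fun i hi => by simpa using hi)
    exact ⟨l, hl⟩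
  choose Λ hΛ using h1
  obtain ⟨Y, hY, hY'⟩ := KS.Form.form (LinearMap.id : H →ₗ[ℂ] H) denseRange_id Λ
    (fun x y z => tendsto_nhds_unique (hΛ _ _) (by
      simpa only [co, inner_add_left] using (hΛ x z).add (hΛ y z)))
    (fun c x y => tendsto_nhds_unique (hΛ _ _) (by
      simpa only [co, inner_smul_left] using (hΛ x y).const_mul (conj c)))
    (fun x y z => tendsto_nhds_unique (hΛ _ _) (by
      simpa only [co, map_add, inner_add_right] using (hΛ x y).add (hΛ x z)))
    (fun c x y => tendsto_nhds_unique (hΛ _ _) (by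
      simpa only [co, map_smul, inner_smul_right] using (hΛ x y).const_mul c))
    r hr fun x y => le_of_tendsto (hΛ x y).norm (hb x y)
  simp only [LinearMap.id_apply] at hY'
  have hm : Y ∈ M := GP.mem_of_comm fun y hy => by
    ext ξ
    refine ext_inner_left ℂ fun η => ?_
    simp only [ContinuousLinearMap.mul_apply]
    rw [← ContinuousLinearMap.adjoint_inner_left, hY', hY']
    refine tendsto_nhds_unique (hΛ _ _) ((hΛ _ _).congr fun i => ?_)
    have := VonNeumannAlgebra.mem_commutant_iff.1 hy (a i).1 (a i).2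
    simp only [co]
    rw [ContinuousLinearMap.adjoint_inner_left]
    exact congrArg (fun z : H →L[ℂ] H => ⟪η, z ξ⟫_ℂ) this
  exact ⟨⟨Y, hm⟩, hY, fun η ξ => by simpa only [co, hY'] using hΛ η ξ⟩

theorem isCompact_ball (r : ℝ) : IsCompact {a : W M | ‖ofW a‖ ≤ r} := by
  rw [isCompact_iff_ultrafilter_le_nhds]
  intro 𝔘 h
  rw [le_principal_iff] at h
  obtain ⟨x, hx⟩ := 𝔘.nonempty_of_mem h
  obtain ⟨b, hb, hb'⟩ := exists_ulim 𝔘 (fun a : W M => ofW a) r ((norm_nonneg _).trans hx) h
  exact ⟨ofW.symm b, hb, tendsto_iff.2 hb'⟩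

theorem isClosed_ball (r : ℝ) : IsClosed {a : W M | ‖ofW a‖ ≤ r} := (isCompact_ball r).isClosed

/-- pointwise bounded families form a compact set -/
theorem isCompact_bdd {X : Type*} (c : X → ℝ) : IsCompact {T : X → W M | ∀ x, ‖ofW (T x)‖ ≤ c x} := by
  have := isCompact_univ_pi fun x => isCompact_ball (M := M) (c x)
  convert this using 1
  ext T; simp

end Crest.Agent.KR
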