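import Crest.Agent.KS.Core1
import Crest.Agent.KR.W
/-! Kadison–Ringrose cohomology (S0161): definitions and the statements of the pieces. -/
set_option autoImplicit false
namespace Crest.Agent.KR
open scoped InnerProductSpace ComplexConjugate BigOperators
open Filter Topology Crest.Agent.GP Crest.Agent.KS Crest.OpAlg

universe u v

section General
variable {A : Type u} [CStarAlgebra A]

/-- central projections -/
def CP (z : A) : Prop := Proj z ∧ ∀ y, z * y = y * z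

/-- `x ↦ θ (x u⋆) u` -/
noncomputable def act (u : A) (θ : A →L[ℂ] A) : A →L[ℂ] A :=
  (ContinuousLinearMap.mul ℂ A).flip u ∘L θ ∘L (ContinuousLinearMap.mul ℂ A).flip (star u)

@[simp] theorem act_apply (u : A) (θ : A →L[ℂ] A) (x : A) : act u θ x = θ (x * star u) * u := rfl

/-- `x ↦ a θ (b x)` -/
noncomputable def bim (a b : A) (θ : A →L[ℂ] A) : A →L[ℂ] A :=
  ContinuousLinearMap.mul ℂ A a ∘L θ ∘L ContinuousLinearMap.mul ℂ A b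

@[simp] theorem bim_apply (a b : A) (θ : A →L[ℂ] A) (x : A) : bim a b θ x = a * θ (b * x) := rfl

/-- a predual: separating functionals for which balls are compact -/
structure Pre (A : Type u) [CStarAlgebra A] where
  Φ : Set (A →L[ℂ] ℂ)
  sep : ∀ x, (∀ φ ∈ Φ, φ x = 0) → x = 0
  mul : ∀ φ ∈ Φ, ∀ a b, ∃ ψ ∈ Φ, ∀ x, ψ x = φ (a * x * b)
  lim : ∀ (𝔘 : Ultrafilter A) (R : ℝ), (∀ᶠ x in (𝔘 : Filter A), ‖x‖ ≤ R) →
    ∃ y, ‖y‖ ≤ R ∧ ∀ φ ∈ Φ, Tendsto φ 𝔘 (𝓝 (φ y))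

/-- simultaneous averages of a family of maps over the unitaries in `G` -/
def Avg {J : Type*} (G : Set A) (θ : J → A →L[ℂ] A) : Set (J → A →L[ℂ] A) :=
  convexHull ℝ {θ' | ∃ u ∈ G, θ' = fun j => act u (θ j)}

noncomputable def Pre.ev (P : Pre A) {J : Type*} (θ : J → A →L[ℂ] A) : J × A × P.Φ → ℂ :=
  fun t => t.2.2.1 (θ t.1 t.2.1)

/-- weak limits of averages -/
def Pre.Hull (P : Pre A) {J : Type*} (G : Set A) (θ θ' : J → A →L[ℂ] A) : Prop :=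
  (∀ j, ‖θ' j‖ ≤ ‖θ j‖) ∧ P.ev θ' ∈ closure (P.ev '' Avg G θ)

def Pre.Conv (P : Pre A) {J I : Type*} (l : Filter I) (θ : I → J → A →L[ℂ] A)
    (θ' : J → A →L[ℂ] A) : Prop :=
  ∀ j x, ∀ φ ∈ P.Φ, Tendsto (fun i => φ (θ i j x)) l (𝓝 (φ (θ' j x)))

/-- right modularity over a set -/
def ModS {J : Type*} (S : Set A) (θ : J → A →L[ℂ] A) : Prop :=
  ∀ j y, ∀ b ∈ S, θ j (y * b) = θ j y * b

def cor (p : A) : Set A := {x | p * x * p = x}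
def cen (A : Type u) [CStarAlgebra A] : Set A := {z | ∀ y, z * y = y * z}

/-- a bimodule splitting -/
structure Split (z : A) (E : (A →L[ℂ] A) → A) : Prop where
  add : ∀ θ θ', E (θ + θ') = E θ + E θ'
  smul : ∀ θ (c : ℂ), E (c • θ) = c • E θ
  norm : ∀ θ, ‖E θ‖ ≤ ‖θ‖
  bim : ∀ θ a b, E (bim a b θ) = a * E θ * b
  id : E (ContinuousLinearMap.id ℂ A) = z

/-- every family averages to a family modular over `S` -/
def Pre.Good (P : Pre A) (S : Set A) : Prop :=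
  ∀ {J : Type u} (θ : J → A →L[ℂ] A), ∃ θ', P.Hull (unitary A) θ θ' ∧ ModS S θ'

abbrev Co (A : Type u) [CStarAlgebra A] (n : ℕ) := ContinuousMultilinearMap ℂ (fun _ : Fin n => A) A

def HalvC (p : A) : Prop :=
  ∀ r, Proj r → p * r = r → ∃ v, star v * v + v * star v = r ∧ v * v = 0

/-- arbitrarily large unital matrix algebras -/
def BigMU (A : Type u) [CStarAlgebra A] : Prop := Nonempty (MU A (Fin 2)) ∧
  ∀ n : ℕ, ∃ (ι : Type) (_ : Fintype ι) (_ : DecidableEq ι) (_ : MU A ι), n ≤ Fintype.card ι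

def Abel (e : A) : Prop := Proj e ∧ ∀ x ∈ cor e, ∀ y ∈ cor e, x * y = y * x

/-- `z` is a finite sum of ranges of partial isometries starting under `e` -/
def Gen (e z : A) : Prop := ∃ (k : ℕ) (w : Fin k → A), (∀ i, w i * e = w i) ∧
  (∀ i, w i * star (w i) * w i = w i) ∧ (∀ i j, i ≠ j → star (w i) * w j = 0) ∧
  ∑ i, w i * star (w i) = z

/-- `z` is a finite sum of projections equivalent to `e` -/
def Hom (e z : A) : Prop := ∃ (k : ℕ) (w : Fin k → A),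
  (∀ i j, star (w i) * w j = if i = j then e else 0) ∧ ∑ i, w i * star (w i) = z

/-- properly infinite central projection -/
def Iso (z : A) : Prop := ∀ L : ℕ, ∃ s : Fin L → A, ∀ i j, star (s i) * s j = if i = j then z else 0

/-- no properly infinite piece under `c` -/
def NoPI (c : A) : Prop := ∀ z, CP z → z ≠ 0 → c * z = z → ¬ Iso z

/-! ### tracial algebras -/
variable (T : Tr A)

def L2 (K : ℝ) (θ : A →L[ℂ] A) : Prop := ∀ x, T.n (θ x) ≤ K * T.n x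

def Row (K : ℝ) (θ : A →L[ℂ] A) : Prop := ∀ {I : Type} [Fintype I] (x : I → A) (w : A),
  ∑ i, T.n (w * θ (x i)) ^ 2 ≤ K ^ 2 * T.n w ^ 2 * ‖∑ i, x i * star (x i)‖

/-- the functionals `x ↦ τ (x y)` -/
def IsTr (P : Pre A) : Prop := ∀ φ, φ ∈ P.Φ ↔ ∃ y, ∀ x, φ x = T.τ (x * y)

def AVp (Q : (A →L[ℂ] A) → Prop) : Prop :=
  ∀ {J : Type} [Fintype J] (θ : J → A →L[ℂ] A) (y b : J → A), (∀ j, Q (θ j)) →
    (∀ j, b j ∈ unitary A) → ∀ δ > 0, ∃ u ∈ unitary A,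
      (∑ j, T.τ ((θ j (b j * star u) * u - θ j (star u) * u * b j) * y j)).re < δ

section Signs
variable {ι L : Type} [Fintype ι] [DecidableEq ι] [DecidableEq L] (p : ι → A) (ty : ι → L)

/-- for each type, the atoms of that type form a partition of unity -/
structure Parts : Prop where
  proj : ∀ a, Proj (p a)
  orth : ∀ a b, ty a = ty b → a ≠ b → p a * p b = 0
  sum : ∀ l, ∑ a with ty a = l, p a = 1

noncomputable def sS (l : L) (ε : ι → Bool) : A := ∑ a with ty a = l, Core.sg (ε a) • p a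
noncomputable def wW (t : List L) (ε : ι → Bool) : A := (t.map fun l => sS p ty l ε).prod
noncomputable def pin (θ : A →L[ℂ] A) (l : L) : A →L[ℂ] A := ∑ a with ty a = l, act (p a) θ

/-- incoherence of the atoms along the word `t` -/
def Inc (δ : ℝ) (t : List L) : Prop := ∀ l β, (l :: β ++ [l]) <:+: t →
  𝔼 ε : ι → Bool, ∑ a with ty a = l, ∑ b with ty b = l,
    T.n (star (p a * wW p ty β ε * p b) * (p a * wW p ty β ε * p b)) ^ 2 ≤ δ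
end Signs
end General

section Concrete
variable {A : Type u} [CStarAlgebra A] {H : Type u} [NormedAddCommGroup H]
  [InnerProductSpace ℂ H] [CompleteSpace H] (ρ : A →⋆ₐ[ℂ] (H →L[ℂ] H))

/-- `ρ` is an isomorphism onto a von Neumann algebra -/
structure VN : Prop where
  inj : Function.Injective ρ
  bi : ∀ X : H →L[ℂ] H, (∀ S : H →L[ℂ] H, (∀ a, S * ρ a = ρ a * S) → S * X = X * S) →
    ∃ a, ρ a = X

def IsVec (P : Pre A) : Prop := ∀ φ, φ ∈ P.Φ ↔ ∃ η ξ : H, ∀ x, φ x = ⟪η, ρ x ξ⟫_ℂ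

/-- a normal faithful trace on the corner -/
def TrCor (p : A) : Prop := ∃ (τ : A →ₗ[ℂ] ℂ) (I : Type) (_ : Fintype I) (η Ω : I → H),
  (∀ x, τ x = ∑ i, ⟪η i, ρ x (Ω i)⟫_ℂ) ∧ τ p = 1 ∧ (∀ x ∈ cor p, ∀ y ∈ cor p, τ (x * y) = τ (y * x)) ∧
  (∀ x ∈ cor p, τ (star x) = conj (τ x)) ∧ (∀ x ∈ cor p, 0 ≤ (τ (star x * x)).re) ∧
  ∀ x ∈ cor p, τ (star x * x) = 0 → x = 0

/-- von Neumann algebra toolkit -/
structure Kit : Prop where
  pre : ∃ P : Pre A, IsVec ρ P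
  cyc : ∀ S : Set H, ∃ p, Proj p ∧ (∀ ξ ∈ S, ρ p ξ = ξ) ∧ ∀ x, (∀ ξ ∈ S, ρ x ξ = 0) → x * p = 0
  polar : ∀ a : A, ∃ v h k : A, h = star k * k ∧ v * h = a ∧ star v * a = h ∧ v * star v * v = v ∧
    (∀ b, a * b = 0 → v * b = 0) ∧ ∀ b, b * a = 0 → b * v = 0
  supp : ∀ S : Set A, ∃ z, CP z ∧ (∀ a ∈ S, z * a = a) ∧ ∀ b, (∀ a ∈ S, ∀ x, b * x * a = 0) → b * z = 0
  sum : ∀ {I : Type u} (v : I → A), (∀ i, ‖v i‖ ≤ 1) → (∀ i j, i ≠ j → star (v i) * v j = 0) →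
    (∀ i j, i ≠ j → v i * star (v j) = 0) → ∃ V : A, ‖V‖ ≤ 1 ∧
      (∀ ξ, HasSum (fun i => ρ (v i) ξ) (ρ V ξ)) ∧ ∀ ξ, HasSum (fun i => ρ (star (v i)) ξ) (ρ (star V) ξ)
  layer : ∀ (k : A) (δ : ℝ), 0 < δ → ∃ (n : ℕ) (e : Fin n → A), (∀ i, Proj (e i)) ∧
    (∀ i b, k * b = 0 → e i * b = 0) ∧ ‖star k * k - (δ : ℂ) • ∑ i, e i‖ ≤ δ

/-! ### structure theory -/
def Tr1Stmt : Prop := ∀ q : A, Proj q → q ≠ 0 →
  (∀ v, q * v * q = v → v * star v * v = v → star v * v * (v * star v) = v * star v →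
    v * star v = star v * v) → ∃ (r : A) (Ω : H) (C : ℝ), Proj r ∧ r ≠ 0 ∧ q * r = r ∧
      (∀ x ∈ cor r, ρ x Ω = 0 → x = 0) ∧ ∀ x ∈ cor r, ‖ρ (star x) Ω‖ ^ 2 ≤ C * ‖ρ x Ω‖ ^ 2

def Tr2Stmt : Prop := ∀ (r : A) (Ω : H) (C : ℝ), Proj r → r ≠ 0 →
  (∀ x ∈ cor r, ρ x Ω = 0 → x = 0) → (∀ x ∈ cor r, ‖ρ (star x) Ω‖ ^ 2 ≤ C * ‖ρ x Ω‖ ^ 2) →
  TrCor ρ r

/-- comparison of projections -/
def CmpStmt (A : Type u) [CStarAlgebra A] : Prop := ∀ e f : A, Proj e → Proj f → ∃ z v w : A, CP z ∧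
  star v * v = z * e ∧ f * v = v ∧ star w * w = (1 - z) * f ∧ e * w = w

/-- comparison: either a properly infinite piece, or a finite local decomposition -/
def LocStmt (A : Type u) [CStarAlgebra A] : Prop := ∀ c e : A, CP c → NoPI c → Proj e → e ≠ 0 → c * e = e →
  (∀ v, e * v * e = v → v * star v * v = v → star v * v * (v * star v) = v * star v →
    v * star v = star v * v) ∧ ∃ z, CP z ∧ z * e ≠ 0 ∧ c * z = z ∧ Gen e z ∧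
      (Abel e → Hom (e * z) z)

def HalvStmt (A : Type u) [CStarAlgebra A] : Prop := ∀ c : A, CP c → (∀ r, Abel r → c * r = r → r = 0) → HalvC c

def TrZStmt : Prop := ∀ e z : A, Proj e → CP z → z ≠ 0 → Gen e z → TrCor ρ e → TrCor ρ z

/-- the tracial model of a central corner -/
def TWStmt : Prop := ∀ z : A, CP z → TrCor ρ z →
  ∃ (N : Type u) (_ : CStarAlgebra N) (T : Tr N) (ι : N →⋆ₙₐ[ℂ] A) (π : A →⋆ₐ[ℂ] N), T.W ∧
    (∀ y, π (ι y) = y) ∧ ∀ a, ι (π a) = z * a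

end Concrete

/-- the properly infinite case -/
def PIStmt {H : Type u} [NormedAddCommGroup H] [InnerProductSpace ℂ H] [CompleteSpace H]
    (M : VonNeumannAlgebra H) : Prop := ∀ z : Al M, CP z → Iso z →
  ∀ (n : ℕ) (f : Co (Al M) (n + 1)), (∀ a, hochschildDiff f a = 0) →
    ∃ g : Co (Al M) n, ‖g‖ ≤ (n + 2) * ‖f‖ ∧ ∀ a, z * hochschildDiff g a = z * f a

def GlueStmt (A : Type u) [CStarAlgebra A] : Prop := ∀ (n : ℕ) (f : Co A (n + 1)) (C : ℝ),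
  (∀ c : A, CP c → c ≠ 0 → ∃ z, CP z ∧ z ≠ 0 ∧ c * z = z ∧
    ∃ g : Co A n, ‖g‖ ≤ C ∧ ∀ a, z * hochschildDiff g a = z * f a) →
  ∃ g : Co A n, ∀ a, hochschildDiff g a = f a

def Lc1Stmt : Prop := ∀ {A : Type u} [CStarAlgebra A] (z : A)
  (E : (A →L[ℂ] A) → A), Split z E → ∀ (n : ℕ) (f : Co A (n + 1)),
    (∀ a, hochschildDiff f a = 0) →
    ∃ g : Co A n, ‖g‖ ≤ ‖f‖ ∧ ∀ a, hochschildDiff g a = f a * z

def SplStmt : Prop := ∀ {A : Type u} [CStarAlgebra A] (P : Pre A) (z : A), CP z →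
  P.Good (cor z) → ∃ E, Split z E

/-- modularity over the centre and a system of matrix units -/
def MatStmt : Prop := ∀ {A : Type u} [CStarAlgebra A] (P : Pre A) (e z : A), CP z →
  ∀ (k : ℕ) (w : Fin k → A), (∀ i j, star (w i) * w j = if i = j then e else 0) →
    ∑ i, w i * star (w i) = z → ∀ {J : Type v} (θ : J → A →L[ℂ] A),
      ∃ θ', P.Hull (unitary A) θ θ' ∧ ModS (cen A) θ' ∧ ModS {x | ∃ i j, x = w i * star (w j)} θ'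

def Sf1Stmt : Prop := ∀ {A : Type u} [CStarAlgebra A] (P : Pre A) (e z : A), CP z → Abel e →
  Hom e z → P.Good (cor z)

def SepStmt : Prop := ∀ {A : Type u} [CStarAlgebra A] (T : Tr A) (P : Pre A), IsTr T P →
  AVp T (fun _ => True) → P.Good Set.univ

def AVII : Prop := ∀ {A : Type u} [CStarAlgebra A] (T : Tr A), T.W → HalvC (1 : A) →
  AVp T fun _ => True

def CorStmt : Prop := ∀ {A : Type u} [CStarAlgebra A] (p : A), Proj p →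
  ∃ (N : Type u) (_ : CStarAlgebra N) (ι : N →⋆ₙₐ[ℂ] A), Function.Injective ι ∧ ι 1 = p ∧
    ∀ x, x ∈ cor p ↔ ∃ y, ι y = x

/-! ### the II₁ case -/
def PreTStmt : Prop := ∀ {A : Type u} [CStarAlgebra A] (T : Tr A), T.W → ∃ P : Pre A, IsTr T P

/-- a tracial `W`-algebra is a von Neumann algebra -/
def VnStmt : Prop := ∀ {A : Type u} [CStarAlgebra A] (T : Tr A), T.W →
  ∃ (H : Type u) (_ : NormedAddCommGroup H) (_ : InnerProductSpace ℂ H) (_ : CompleteSpace H)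
    (ρ : A →⋆ₐ[ℂ] (H →L[ℂ] H)) (Ω : H), VN ρ ∧ ∀ x, T.τ x = ⟪Ω, ρ x Ω⟫_ℂ

/-- central partitions adapted to central elements -/
def CpStmt : Prop := ∀ {A : Type u} [CStarAlgebra A] (T : Tr A), T.W →
  ∀ {I : Type} [Fintype I] (c : I → A), (∀ i, c i ∈ cen A) → ∀ ε > 0,
    ∃ (J : Type) (_ : Fintype J) (z : J → A) (β : I → J → ℂ), (∀ j, CP (z j)) ∧ (∀ j, z j ≠ 0) ∧
      (∀ j k, j ≠ k → z j * z k = 0) ∧ ∑ j, z j = 1 ∧ ∀ i j, ‖c i * z j - β i j • z j‖ ≤ ε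

/-- little Grothendieck inequality, general families -/
def Gt2Stmt : Prop := ∀ {A : Type u} [CStarAlgebra A] (T : Tr A) (θ : A →ₗ[ℂ] A) (K : ℝ), 0 ≤ K →
  (∀ b, T.n (θ b) ≤ K * ‖b‖) → ∀ {J : Type} [Fintype J] (y : J → A),
    ∑ j, T.n (θ (y j)) ^ 2 ≤ 2 * K ^ 2 * (‖∑ j, y j * star (y j)‖ + ‖∑ j, star (y j) * y j‖)

def SubStmt : Prop := ∀ {A : Type u} [CStarAlgebra A] (T : Tr A), T.W →
  ∀ S : StarSubalgebra ℂ A, T.Cl S → ∃ (N : Type u) (_ : CStarAlgebra N) (T₀ : Tr N)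
    (ι : N →⋆ₐ[ℂ] A), T₀.W ∧ Function.Injective ι ∧ (∀ x, T₀.τ x = T.τ (ι x)) ∧
      ∀ x, x ∈ S ↔ ∃ y, ι y = x

def MuStmt : Prop := ∀ {A : Type u} [CStarAlgebra A], HalvC (1 : A) → BigMU A

/-- Dixmier approximation in norm -/
def NdStmt : Prop := ∀ {A : Type u} [CStarAlgebra A] (T : Tr A), T.W →
  ∀ {I : Type} [Fintype I] (x : I → A) (ε : ℝ), 0 < ε →
    ∃ (n : ℕ) (w : Fin n → ℝ) (u : Fin n → A) (c : I → A), (∀ k, 0 ≤ w k) ∧ ∑ k, w k = 1 ∧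
      (∀ k, u k ∈ unitary A) ∧ (∀ i, c i ∈ cen A) ∧
      ∀ i, ‖∑ k, (w k : ℂ) • (u k * x i * star (u k)) - c i‖ ≤ ε

def L2Stmt : Prop := ∀ {A : Type u} [CStarAlgebra A] (T : Tr A), T.W → BigMU A →
  ∀ P : Pre A, IsTr T P → ∀ {J : Type} [Fintype J] (θ : J → A →L[ℂ] A),
    ∃ θ' K, P.Hull (unitary A) θ θ' ∧ ModS (cen A) θ' ∧ ∀ j, L2 T K (θ' j)

def RowStmt : Prop := ∀ {A : Type u} [CStarAlgebra A] (T : Tr A), T.W →
  ∀ P : Pre A, IsTr T P → ∀ {J : Type} [Fintype J] (θ : J → A →L[ℂ] A) (K : ℝ),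
    (∀ j, L2 T K (θ j)) →
    ∃ θ' K', P.Hull (unitary A) θ θ' ∧ ∀ j, ‖θ' j‖ ≤ K' ∧ L2 T K' (θ' j) ∧ Row T K' (θ' j)

def FbStmt : Prop := ∀ {A : Type u} [CStarAlgebra A] (T : Tr A) (θ : A →L[ℂ] A),
  ∀ Z ∈ unitary A, ∀ (L : ℕ) (ν : ℕ → ℝ) (ε : ℝ),
    (∀ t : ℝ, |∑ k ∈ Finset.range L, ν k * Real.sin ((k + 1) * t)| ≤ ε) → ∀ x y,
    ‖∑ k ∈ Finset.range L, ν k * (T.τ (act (Z ^ (k + 1)) θ x * y) -
      T.τ (act (star Z ^ (k + 1)) θ x * y))‖ ≤ 2 * ε * ‖θ‖ * ‖x‖ * ‖y‖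

def NuStmt : Prop := ∀ ε > 0, ∃ (L : ℕ) (ν : ℕ → ℝ), (∀ k, 0 ≤ ν k) ∧
  ∑ k ∈ Finset.range L, ν k = 1 ∧ ∀ t : ℝ, |∑ k ∈ Finset.range L, ν k * Real.sin ((k + 1) * t)| ≤ ε

/-- decoupling of repeated random signs -/
def DecStmt : Prop := ∀ (r : ℕ) (K η : ℝ), 0 < η → ∃ δ > 0,
  ∀ {A : Type u} [CStarAlgebra A] (T : Tr A) {ι L : Type} [Fintype ι] [DecidableEq ι]
    [DecidableEq L] (p : ι → A) (ty : ι → L), Parts p ty → ∀ θ : A →L[ℂ] A,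
    L2 T K θ → Row T K θ → ∀ t : List L, t.length ≤ r → Inc T p ty δ t → ∀ x y,
    ‖𝔼 ε : ι → Bool, T.τ (act (wW p ty t ε) θ x * y) - T.τ (t.foldl (pin p ty) θ x * y)‖ ≤
      η * ‖x‖ * ‖y‖

/-- free unitaries commuting with matrix units -/
def AmfStmt : Prop := ∀ {A : Type u} [CStarAlgebra A] (T : Tr A), T.Gd ⊤ ⊤ → ∀ E : MU A (Fin 2),
  ∃ 𝔉 : Ultrafilter A, (∀ᶠ v in (𝔉 : Filter A), v ∈ unitary A ∧ ∀ i j, v * E.e i j = E.e i j * v) ∧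
    ∀ (x : A) (l : List (Bool × A)), l ≠ [] →
      l.IsChain (fun a b => a.1 ≠ b.1 → ∀ i j, T.τ (E.e i j * a.2) = 0) →
      Tendsto (fun v => T.τ (x * wd v l)) 𝔉 (𝓝 0)

def IncStmt : Prop := ∀ {A : Type u} [CStarAlgebra A] (T : Tr A), T.Gd ⊤ ⊤ → ∀ (E : MU A (Fin 2))
  {L : Type} [Fintype L] [DecidableEq L] (par : L → Bool) (g : L → A), (∀ l, g l ∈ unitary A) →
  ∀ (r : ℕ) (δ : ℝ), 0 < δ → ∃ (ι : Type) (_ : Fintype ι) (_ : DecidableEq ι) (p : ι → A)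
    (ty : ι → L), Parts p ty ∧
    (∀ l, ∃ s : Finset ι, (∀ a ∈ s, ty a = l) ∧ ∑ a ∈ s, p a = g l * E.e 0 0 * star (g l)) ∧
    ∀ t : List L, t.length ≤ r → t.IsChain (fun a b => par a ≠ par b) → Inc T p ty δ t

def KeyStmt : Prop := ∀ {A : Type u} [CStarAlgebra A] (T : Tr A), T.Gd ⊤ ⊤ → ∀ (E : MU A (Fin 2))
  {J : Type} [Fintype J] (θ : J → A →L[ℂ] A) (K : ℝ),
  (∀ j, ‖θ j‖ ≤ K ∧ L2 T K (θ j) ∧ Row T K (θ j)) → ∀ s : Finset A, (∀ g ∈ s, g ∈ unitary A) →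
  ∀ ε > 0, ∃ θ' ∈ Avg (unitary A) θ, ∀ j, ∀ g ∈ s, ∀ x y,
    ‖T.τ ((θ' j (x * (g * E.e 0 0 * star g)) - θ' j x * (g * E.e 0 0 * star g)) * y)‖ ≤
      ε * ‖x‖ * ‖y‖

def FacStmt : Prop := ∀ {A : Type u} [CStarAlgebra A] (T : Tr A), T.Gd ⊤ ⊤ →
  Nonempty (MU A (Fin 2)) → AVp T fun θ => ∃ K, L2 T K θ

def UapStmt : Prop := ∀ {A M : Type u} [CStarAlgebra A] [CStarAlgebra M] (T' : Tr M)
  (π : A →⋆ₐ[ℂ] M), (∀ y, ∀ ε > 0, ∃ a, T'.n (π a - y) < ε) →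
  ∀ y ∈ unitary M, ∀ ε > 0, ∃ a ∈ unitary A, T'.n (π a - y) < ε

def ExtStmt : Prop := ∀ {A M : Type u} [CStarAlgebra A] [CStarAlgebra M] (T' : Tr M)
  (π : A →⋆ₐ[ℂ] M), T'.W → (∀ y, ∀ ε > 0, ∃ a, T'.n (π a - y) < ε) →
  ∀ (θ : A →L[ℂ] A) (K : ℝ), (∀ a, T'.n (π (θ a)) ≤ K * T'.n (π a)) →
  ∃ θ' : M →L[ℂ] M, (∀ a, θ' (π a) = π (θ a)) ∧ L2 T' K θ'

def CutStmt : Prop := ∀ {A : Type u} [CStarAlgebra A] (T : Tr A), T.W → BigMU A →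
  AVp T fun θ => (∃ K, L2 T K θ) ∧ ModS (cen A) fun _ : Unit => θ

end Crest.Agent.KR
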