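import Crest.Agent.KR.Hull
/-! Kadison–Ringrose cohomology: assembly. -/
set_option autoImplicit false
set_option linter.deprecated false
namespace Crest.Agent.KR
open scoped InnerProductSpace ComplexConjugate BigOperators
open Filter Topology Crest.Agent.GP Crest.Agent.KS Crest.OpAlg

universe u

theorem avII (hmu : MuStmt.{u}) (hpre : PreTStmt.{u}) (hl2 : L2Stmt.{u}) (hcut : CutStmt.{u}) :
    AVII.{u} := by
  intro A _ T hT hH J _ θ y b _ hb δ hδ
  obtain ⟨P, hP⟩ := hpre T hT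
  obtain ⟨θ', K, h1, h2, h3⟩ := hl2 T hT (hmu hH) P hP θ
  obtain ⟨u, hu, h⟩ := hcut T hT (hmu hH) θ' y b
    (fun j => ⟨⟨K, h3 j⟩, fun _ y b hb => h2 j y b hb⟩) hb δ hδ
  exact hP.avred h1 y b hu h

/-- transport of a splitting from a central corner -/
theorem split_transport {A N : Type u} [CStarAlgebra A] [CStarAlgebra N] {z : A} (hz : CP z)
    (ι : N →⋆ₙₐ[ℂ] A) (π : A →⋆ₐ[ℂ] N) (h1 : ∀ y, π (ι y) = y) (h2 : ∀ a, ι (π a) = z * a)
    {E : (N →L[ℂ] N) → N} (hE : Split 1 E) : ∃ E', Split z E' := by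
  have nι : ∀ y, ‖ι y‖ ≤ 1 * ‖y‖ := fun y => by
    rw [one_mul]; exact NonUnitalStarAlgHom.norm_apply_le ι y
  have nπ : ∀ y, ‖π y‖ ≤ 1 * ‖y‖ := fun y => by
    rw [one_mul]; exact NonUnitalStarAlgHom.norm_apply_le π y
  let ι' : N →L[ℂ] A := LinearMap.mkContinuous
    { toFun := ι, map_add' := map_add ι, map_smul' := map_smul ι } 1 nι
  let π' : A →L[ℂ] N := LinearMap.mkContinuous
    { toFun := π, map_add' := map_add π, map_smul' := map_smul π } 1 nπ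
  have hz' : ∀ y, z * ι y = ι y := fun y => by rw [← h2, h1]
  refine ⟨fun θ => ι (E (π' ∘L θ ∘L ι')), fun θ θ' => ?_, fun θ c => ?_, fun θ => ?_,
    fun θ a b => ?_, ?_⟩
  · rw [← map_add, ← hE.add, ContinuousLinearMap.add_comp, ContinuousLinearMap.comp_add]
  · rw [← map_smul, ← hE.smul, ContinuousLinearMap.smul_comp, ContinuousLinearMap.comp_smul]
  · refine (NonUnitalStarAlgHom.norm_apply_le ι _).trans ((hE.norm _).trans ?_)
    refine ContinuousLinearMap.opNorm_le_bound _ (norm_nonneg _) fun y => ?_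
    refine (NonUnitalStarAlgHom.norm_apply_le π _).trans ((θ.le_opNorm _).trans ?_)
    exact mul_le_mul_of_nonneg_left (NonUnitalStarAlgHom.norm_apply_le ι y) (norm_nonneg _)
  · have e : π' ∘L bim a b θ ∘L ι' = bim (π a) (π b) (π' ∘L θ ∘L ι') := by
      ext y
      change π (a * θ (b * ι y)) = π a * π (θ (ι (π b * y)))
      rw [map_mul π, map_mul ι, h2, hz.2, mul_assoc, hz']
    rw [e, hE.bim, map_mul, map_mul, h2, h2, hz.2 a, mul_assoc a z, hz', mul_assoc, mul_assoc,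
      ← mul_assoc (ι _), ← hz.2, hz']
  · have e : π' ∘L ContinuousLinearMap.id ℂ A ∘L ι' = ContinuousLinearMap.id ℂ N := by
      ext y
      exact h1 y
    rw [e, hE.id, ← map_one π, h2, mul_one]

theorem finite_split {A : Type u} [CStarAlgebra A] {H : Type u} [NormedAddCommGroup H]
    [InnerProductSpace ℂ H] [CompleteSpace H] (ρ : A →⋆ₐ[ℂ] (H →L[ℂ] H)) (hK : Kit ρ)
    (hloc : LocStmt A) (hhalv : HalvStmt A) (h1 : Tr1Stmt ρ) (h2 : Tr2Stmt ρ) (hz : TrZStmt ρ)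
    (hw : TWStmt ρ) (hsf : Sf1Stmt.{u}) (hspl : SplStmt.{u}) (hsep : SepStmt.{u})
    (hpre : PreTStmt.{u}) (hav : AVII.{u}) {c : A} (hc : CP c) (hc0 : c ≠ 0) (hN : NoPI c) :
    ∃ z, CP z ∧ z ≠ 0 ∧ c * z = z ∧ ∃ E, Split z E := by
  by_cases hab : ∃ e, Abel e ∧ c * e = e ∧ e ≠ 0
  · obtain ⟨e, he, hce, he0⟩ := hab
    obtain ⟨-, z, z1, z2, z3, -, z4⟩ := hloc c e hc hN he.1 he0 hce
    obtain ⟨P, -⟩ := hK.pre
    have hsub : ∀ x ∈ cor (e * z), x ∈ cor e := fun x hx => by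
      change e * x * e = x
      change e * z * x * (e * z) = x at hx
      rw [← hx, ← z1.2 e]
      simp only [mul_assoc]
      rw [he.1.2, ← mul_assoc e z, ← z1.2 e, mul_assoc z e, ← mul_assoc e e, he.1.2]
    have hez : Abel (e * z) :=
      ⟨⟨by rw [star_mul, z1.1.1, he.1.1, z1.2], by
        rw [mul_assoc, z1.2, mul_assoc, z1.1.2, ← mul_assoc, he.1.2]⟩,
        fun x hx y hy => he.2 x (hsub x hx) y (hsub y hy)⟩
    exact ⟨z, z1, fun h => z2 (by rw [h, zero_mul]), z3, hspl P z z1 (hsf P _ z z1 hez (z4 he))⟩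
  · push Not at hab
    have hH := hhalv c hc hab
    obtain ⟨r, Ω, C, r1, r2, r3, r4, r5⟩ := h1 c hc.1 hc0 (hloc c c hc hN hc.1 hc0 hc.1.2).1
    obtain ⟨-, z, z1, z2, z3, z4, -⟩ := hloc c r hc hN r1 r2 r3
    have z0 : z ≠ 0 := fun h => z2 (by rw [h, zero_mul])
    obtain ⟨N, _, T, ι, π, hT, p1, p2⟩ := hw z z1 (hz r z r1 z1 z0 z4 (h2 r Ω C r1 r2 r4 r5))
    have hH' : HalvC (1 : N) := fun q hq _ => by
      obtain ⟨v, v1, v2⟩ := hH (ι q) ⟨by rw [← map_star, hq.1], by rw [← map_mul, hq.2]⟩ (by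
        have : z * ι q = ι q := by rw [← p2, p1]
        rw [← this, ← mul_assoc, z3])
      exact ⟨π v, by rw [← map_star, ← map_mul, ← map_mul, ← map_add, v1, p1], by
        rw [← map_mul, v2, map_zero]⟩
    obtain ⟨P, hP⟩ := hpre T hT
    have hg : P.Good (cor 1) := fun θ => by
      obtain ⟨θ', g1, g2⟩ := hsep T P hP (hav T hT hH') θ
      exact ⟨θ', g1, fun j y b _ => g2 j y b trivial⟩
    obtain ⟨E, hE⟩ := hspl P 1 ⟨⟨star_one _, one_mul _⟩, by simp⟩ hg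
    exact ⟨z, z1, z0, z3, split_transport z1 ι π p1 p2 hE⟩

theorem vn_sub {H : Type u} [NormedAddCommGroup H] [InnerProductSpace ℂ H] [CompleteSpace H]
    (M : VonNeumannAlgebra H) : VN (A := Al M) M.toStarSubalgebra.subtype := by
  refine ⟨Subtype.val_injective, fun X hX => ⟨⟨X, ?_⟩, rfl⟩⟩
  change X ∈ (M : Set (H →L[ℂ] H))
  rw [← M.centralizer_centralizer]
  intro S hS
  exact hX S fun a => (hS a.1 a.2).symm

theorem fin {H : Type u} [NormedAddCommGroup H] [InnerProductSpace ℂ H] [CompleteSpace H]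
    (M : VonNeumannAlgebra H) (hPI : PIStmt M) (hgl : GlueStmt (Al M)) (hlc : Lc1Stmt.{u})
    (hs : ∀ c : Al M, CP c → c ≠ 0 → NoPI c → ∃ z, CP z ∧ z ≠ 0 ∧ c * z = z ∧ ∃ E, Split z E)
    (n : ℕ) (f : Co (Al M) (n + 1)) (hf : ∀ a, hochschildDiff f a = 0) :
    ∃ g : Co (Al M) n, ∀ a, hochschildDiff g a = f a := by
  refine hgl n f ((n + 2) * ‖f‖) fun c hc hc0 => ?_
  by_cases hN : NoPI c
  · obtain ⟨z, z1, z2, z3, E, hE⟩ := hs c hc hc0 hN
    obtain ⟨g, g1, g2⟩ := hlc z E hE n f hf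
    refine ⟨z, z1, z2, z3, g, g1.trans (le_mul_of_one_le_left (norm_nonneg _) ?_), fun a => ?_⟩
    · have : (0 : ℝ) ≤ n := Nat.cast_nonneg n
      linarith
    · rw [g2, ← z1.2, ← mul_assoc, z1.1.2]
  · unfold NoPI at hN
    push Not at hN
    obtain ⟨z, z1, z2, z3, z4⟩ := hN
    exact ⟨z, z1, z2, z3, hPI z z1 z4 n f hf⟩

end Crest.Agent.KR
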