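import Crest.Agent.KR.Hull
/-! Kadison–Ringrose cohomology: small lemmas on traces and central partitions. -/
set_option autoImplicit false
set_option linter.deprecated false
namespace Crest.Agent.KR.H8
open scoped InnerProductSpace ComplexConjugate BigOperators
open Filter Topology Crest.Agent.GP Crest.Agent.KS Crest.OpAlg

universe u v

variable {A : Type u} [CStarAlgebra A] (T : Tr A)

theorem n_proj {z : A} (hz : Proj z) : T.n z ^ 2 = (T.τ z).re := by
  rw [T.n_sq, hz.1, hz.2]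

theorem tau_nonneg {z : A} (hz : Proj z) : 0 ≤ (T.τ z).re := by
  rw [← n_proj T hz]; positivity

theorem tau_pos (hT : T.W) {z : A} (hz : Proj z) (h0 : z ≠ 0) : 0 < (T.τ z).re := by
  rw [← n_proj T hz]
  exact pow_pos ((T.n_nonneg z).lt_of_ne fun h => h0 (hT.faith z h.symm)) 2

theorem norm_tau_proj {z : A} (hz : Proj z) : ‖T.τ z‖ = (T.τ z).re := by
  rw [← T.τ_sa hz.1, Complex.norm_real, Complex.ofReal_re, Real.norm_of_nonneg (tau_nonneg T hz)]

theorem tau_mul_proj {z : A} (hz : Proj z) (X : A) : ‖T.τ (X * z)‖ ≤ ‖X‖ * (T.τ z).re := by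
  have e : T.τ (X * z) = T.τ (z * (X * z)) := by
    rw [T.comm z, mul_assoc, hz.2]
  rw [e, ← n_proj T hz]
  refine (T.cs _ _).trans ?_
  have := mul_le_mul_of_nonneg_left (T.n_mul_le X z) (T.n_nonneg z)
  nlinarith

theorem n_conv {K : Type*} [Fintype K] (w : K → ℝ) (h0 : ∀ k, 0 ≤ w k) (h1 : ∑ k, w k = 1)
    (y : K → A) : T.n (∑ k, (w k : ℂ) • y k) ^ 2 ≤ ∑ k, w k * T.n (y k) ^ 2 := by
  refine le_trans ?_ (Real.pow_arith_mean_le_arith_mean_pow _ w (fun k => T.n (y k))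
    (fun k _ => h0 k) h1 (fun k _ => T.n_nonneg _) 2)
  refine pow_le_pow_left₀ (T.n_nonneg _) ((T.n_sum_le _ _).trans (le_of_eq ?_)) 2
  refine Finset.sum_congr rfl fun k _ => ?_
  rw [T.n_smul, Complex.norm_real, Real.norm_of_nonneg (h0 k)]

theorem n_split {B : Type*} [Fintype B] (s : B → A) (hs : ∑ b, s b * star (s b) = 1) (Y : A) :
    T.n Y ^ 2 = ∑ b, T.n (Y * s b) ^ 2 := by
  have : ∀ b, T.n (Y * s b) ^ 2 = (T.τ (Y * (s b * star (s b)) * star Y)).re := fun b => by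
    rw [← T.n_star, T.n_sq, star_star, star_mul]
    simp only [mul_assoc]
  simp only [this]
  rw [← Complex.re_sum, ← map_sum, ← Finset.sum_mul, ← Finset.mul_sum, hs, mul_one, ← T.n_star,
    T.n_sq, star_star]

theorem n_sqrt_smul {w : ℝ} (hw : 0 ≤ w) (y : A) :
    T.n (((√w : ℝ) : ℂ) • y) ^ 2 = w * T.n y ^ 2 := by
  rw [T.n_smul, mul_pow, Complex.norm_real, Real.norm_eq_abs, sq_abs, Real.sq_sqrt hw]

theorem sqrt_mul_star {w : ℝ} (hw : 0 ≤ w) (y : A) :
    (((√w : ℝ) : ℂ) • y) * star (((√w : ℝ) : ℂ) • y) = (w : ℂ) • (y * star y) := by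
  rw [star_smul, smul_mul_smul_comm, Complex.star_def, Complex.conj_ofReal, ← Complex.ofReal_mul,
    Real.mul_self_sqrt hw]

theorem star_mul_sqrt {w : ℝ} (hw : 0 ≤ w) (y : A) :
    star (((√w : ℝ) : ℂ) • y) * (((√w : ℝ) : ℂ) • y) = (w : ℂ) • (star y * y) := by
  rw [star_smul, smul_mul_smul_comm, Complex.star_def, Complex.conj_ofReal, ← Complex.ofReal_mul,
    Real.mul_self_sqrt hw]

/-- the norm is the maximum over a central partition -/
theorem norm_le_of_part {J : Type*} [Fintype J] (z : J → A) (hz : ∀ j, CP (z j))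
    (h1 : ∑ j, z j = 1) {c : A} {R : ℝ} (hR : 0 ≤ R) (h : ∀ j, ‖c * z j‖ ≤ R) : ‖c‖ ≤ R := by
  letI := CStarAlgebra.spectralOrder A
  haveI := CStarAlgebra.spectralOrderedRing A
  have h2 : star c * c ≤ algebraMap ℝ A (R ^ 2) := by
    calc star c * c = ∑ j, z j * (star (c * z j) * (c * z j)) * z j := by
          conv_lhs => rw [← mul_one (star c * c), ← h1, Finset.mul_sum]
          refine Finset.sum_congr rfl fun j _ => ?_
          rw [star_mul, (hz j).1.1, ← mul_assoc (z j), ← mul_assoc (z j), (hz j).1.2,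
            (hz j).2 (star c), mul_assoc (star c) (z j), (hz j).2 (c * z j)]
          simp only [mul_assoc, (hz j).1.2]
      _ ≤ ∑ j, z j * algebraMap ℝ A (R ^ 2) * z j := Finset.sum_le_sum fun j _ => by
          refine IsSelfAdjoint.conjugate_le_conjugate
            (CStarAlgebra.star_mul_le_algebraMap_norm_sq.trans ?_) (hz j).1.1
          rw [← sub_nonneg, ← map_sub, Algebra.algebraMap_eq_smul_one]
          exact smul_nonneg (sub_nonneg.2 (pow_le_pow_left₀ (norm_nonneg _) (h j) 2)) zero_le_one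
      _ = algebraMap ℝ A (R ^ 2) := by
          conv_rhs => rw [← mul_one (algebraMap ℝ A (R ^ 2)), ← h1, Finset.mul_sum]
          refine Finset.sum_congr rfl fun j _ => ?_
          rw [(hz j).2, mul_assoc, (hz j).1.2]
  have h3 := (CStarAlgebra.norm_le_iff_le_algebraMap (star c * c) (sq_nonneg R)
    (star_mul_self_nonneg c)).2 h2
  rw [CStarRing.norm_star_mul_self] at h3
  nlinarith [norm_nonneg c]

/-- on a piece of an adapted partition the norm is computed by the trace -/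
theorem norm_mul_tau {z c : A} (hz : CP z) {β : ℂ} {ε : ℝ} (h : ‖c * z - β • z‖ ≤ ε) :
    ‖c * z‖ * (T.τ z).re ≤ ‖T.τ (c * z)‖ + 2 * ε * (T.τ z).re := by
  have t0 := tau_nonneg T hz.1
  have h1 : ‖c * z‖ ≤ ‖β‖ + ε := by
    have : ‖β • z‖ ≤ ‖β‖ := by
      rw [norm_smul]; exact mul_le_of_le_one_right (norm_nonneg _) hz.1.norm
    have h2 := norm_add_le (c * z - β • z) (β • z)
    rw [sub_add_cancel] at h2
    linarith
  have h2 : ‖β‖ * (T.τ z).re ≤ ‖T.τ (c * z)‖ + ε * (T.τ z).re := by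
    have h3 := tau_mul_proj T hz.1 (c * z - β • z)
    rw [sub_mul, mul_assoc, smul_mul_assoc, hz.1.2, map_sub, map_smul] at h3
    have h4 := norm_sub_le (T.τ (c * z)) (T.τ (c * z) - β • T.τ z)
    rw [sub_sub_cancel, norm_smul, norm_tau_proj T hz.1] at h4
    have h5 := mul_le_mul_of_nonneg_right h t0
    linarith
  nlinarith [mul_le_mul_of_nonneg_right h1 t0]

/-- traces of averages against central elements -/
theorem tau_avg {K : Type*} [Fintype K] (w : K → ℝ) (h1 : ∑ k, w k = 1) (u : K → A)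
    (hu : ∀ k, u k ∈ unitary A) (a : A) {z : A} (hz : ∀ y, z * y = y * z) :
    T.τ ((∑ k, (w k : ℂ) • (u k * a * star (u k))) * z) = T.τ (a * z) := by
  have : ∀ k, T.τ (u k * a * star (u k) * z) = T.τ (a * z) := fun k => by
    rw [mul_assoc, ← hz, ← mul_assoc, mul_assoc (u k), T.τ_conj (hu k).1]
  simp only [Finset.sum_mul, smul_mul_assoc, map_sum, map_smul, this, ← Finset.sum_smul]
  rw [← Complex.ofReal_sum, h1]
  simp

theorem nd' (h : NdStmt.{u}) {T : Tr A} (hT : T.W) {I : Type v} [Fintype I] (x : I → A) {ε : ℝ}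
    (hε : 0 < ε) : ∃ (n : ℕ) (w : Fin n → ℝ) (u : Fin n → A) (c : I → A), (∀ k, 0 ≤ w k) ∧
      ∑ k, w k = 1 ∧ (∀ k, u k ∈ unitary A) ∧ (∀ i, c i ∈ cen A) ∧
      ∀ i, ‖∑ k, (w k : ℂ) • (u k * x i * star (u k)) - c i‖ ≤ ε := by
  obtain ⟨n, w, u, c, h1, h2, h3, h4, h5⟩ := h T hT (x ∘ (Fintype.equivFin I).symm) ε hε
  exact ⟨n, w, u, c ∘ Fintype.equivFin I, h1, h2, h3, fun i => h4 _, fun i => by
    simpa using h5 (Fintype.equivFin I i)⟩

theorem exists_small {C : Type*} (F : Finset C) (a ε : C → ℝ) (ha : ∀ c, 0 ≤ a c)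
    (hε : ∀ c, 0 < ε c) : ∃ δ > 0, ∀ c ∈ F, a c * δ ≤ ε c := by
  have : ∀ᶠ δ in 𝓝[>] (0 : ℝ), ∀ c ∈ F, a c * δ ≤ ε c := by
    rw [eventually_all_finset]
    intro c _
    have h1 : Tendsto (fun δ : ℝ => a c * δ) (𝓝[>] 0) (𝓝 0) := by
      have : Tendsto (fun δ : ℝ => a c * δ) (𝓝 0) (𝓝 (a c * 0)) :=
        tendsto_const_nhds.mul tendsto_id
      rw [mul_zero] at this
      exact this.mono_left nhdsWithin_le_nhds
    exact (h1.eventually (gt_mem_nhds (hε c))).mono fun _ h => h.le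
  obtain ⟨δ, h1, h2⟩ := (this.and self_mem_nhdsWithin).exists
  exact ⟨δ, h2, h1⟩

end Crest.Agent.KR.H8
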