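import Crest.Agent.KR.Defs
/-! Kadison–Ringrose cohomology: averages and their weak limits. -/
set_option autoImplicit false
set_option linter.deprecated false
namespace Crest.Agent.KR
open scoped InnerProductSpace ComplexConjugate BigOperators
open Filter Topology Crest.Agent.GP Crest.Agent.KS Crest.OpAlg

universe u

variable {A : Type u} [CStarAlgebra A] {J : Type*}

@[simp] theorem act_one (θ : A →L[ℂ] A) : act 1 θ = θ := by ext x; simp

theorem act_mul (u w : A) (θ : A →L[ℂ] A) : act (u * w) θ = act w (act u θ) := by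
  ext x; simp [mul_assoc]

theorem act_add (u : A) (θ θ' : A →L[ℂ] A) : act u (θ + θ') = act u θ + act u θ' := by
  ext x; simp [add_mul]

theorem act_sub (u : A) (θ θ' : A →L[ℂ] A) : act u (θ - θ') = act u θ - act u θ' := by
  ext x; simp [sub_mul]

theorem act_smul (u : A) (c : ℂ) (θ : A →L[ℂ] A) : act u (c • θ) = c • act u θ := by
  ext x; simp

theorem act_rsmul (u : A) (c : ℝ) (θ : A →L[ℂ] A) : act u (c • θ) = c • act u θ := by
  ext x; simp

theorem act_sum {I : Type*} (s : Finset I) (u : A) (θ : I → A →L[ℂ] A) :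
    act u (∑ i ∈ s, θ i) = ∑ i ∈ s, act u (θ i) := by
  ext x; simp [Finset.sum_mul]

theorem act_bim (u a b : A) (θ : A →L[ℂ] A) : act u (bim a b θ) = bim a b (act u θ) := by
  ext x; simp [mul_assoc]

theorem norm_act_le {u : A} (hu : u ∈ unitary A) (θ : A →L[ℂ] A) : ‖act u θ‖ ≤ ‖θ‖ :=
  ContinuousLinearMap.opNorm_le_bound _ (norm_nonneg _) fun x => by
    rw [act_apply, CStarRing.norm_mul_mem_unitary _ hu]
    exact (θ.le_opNorm _).trans_eq (by rw [CStarRing.norm_mul_mem_unitary _ (Unitary.star_mem hu)])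

/-- fixed by `u` iff modular over `u` -/
theorem act_eq_iff {u : A} (hu : u ∈ unitary A) {θ : A →L[ℂ] A} :
    act u θ = θ ↔ ∀ y, θ (y * u) = θ y * u := by
  constructor
  · intro h y
    conv_lhs => rw [← h]
    rw [act_apply, mul_assoc, hu.2, mul_one]
  · intro h
    ext x
    rw [act_apply, ← h, mul_assoc, hu.1, mul_one]

/-- the elements over which a map is right modular -/
def modAlg (θ : A →L[ℂ] A) : Subalgebra ℂ A where
  carrier := {b | ∀ y, θ (y * b) = θ y * b}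
  mul_mem' ha hb y := by rw [← mul_assoc, hb, ha, mul_assoc]
  add_mem' ha hb y := by rw [mul_add, map_add, ha, hb, mul_add]
  algebraMap_mem' c y := by simp [Algebra.algebraMap_eq_smul_one]

theorem mem_modAlg {θ : A →L[ℂ] A} {b : A} : b ∈ modAlg θ ↔ ∀ y, θ (y * b) = θ y * b := Iff.rfl

theorem isClosed_modAlg (θ : A →L[ℂ] A) : IsClosed (modAlg θ : Set A) := by
  change IsClosed {b | ∀ y, θ (y * b) = θ y * b}
  simp only [Set.setOf_forall]
  exact isClosed_iInter fun y => isClosed_eq (by fun_prop) (by fun_prop)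

variable {G : Set A} {θ θ' θ'' : J → A →L[ℂ] A}

theorem avg_act {u : A} (hu : u ∈ G) (θ : J → A →L[ℂ] A) : (fun j => act u (θ j)) ∈ Avg G θ :=
  subset_convexHull ℝ _ ⟨u, hu, rfl⟩

theorem avg_self (h1 : (1 : A) ∈ G) (θ : J → A →L[ℂ] A) : θ ∈ Avg G θ := by
  simpa using avg_act h1 θ

theorem avg_convex (G : Set A) (θ : J → A →L[ℂ] A) : Convex ℝ (Avg G θ) := convex_convexHull ℝ _

/-- induction over averages -/
theorem avg_ind {S : Set (J → A →L[ℂ] A)} (h1 : ∀ u ∈ G, (fun j => act u (θ j)) ∈ S)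
    (h2 : Convex ℝ S) (h : θ' ∈ Avg G θ) : θ' ∈ S :=
  convexHull_min (by rintro _ ⟨u, hu, rfl⟩; exact h1 u hu) h2 h

theorem coe_smul' (c : ℝ) (θ : A →L[ℂ] A) : (c : ℂ) • θ = c • θ := by ext x; simp

theorem convex_sum {S : Set (J → A →L[ℂ] A)} (hS : Convex ℝ S) {I : Type*} (s : Finset I)
    (w : I → ℝ) (h0 : ∀ i ∈ s, 0 ≤ w i) (h1 : ∑ i ∈ s, w i = 1) (η : I → J → A →L[ℂ] A)
    (h : ∀ i ∈ s, η i ∈ S) : (fun j => ∑ i ∈ s, (w i : ℂ) • η i j) ∈ S := by
  convert hS.sum_mem h0 h1 h using 1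
  funext j; simp [Finset.sum_apply, coe_smul']

theorem avg_sum {I : Type*} (s : Finset I) (w : I → ℝ) (h0 : ∀ i ∈ s, 0 ≤ w i)
    (h1 : ∑ i ∈ s, w i = 1) (η : I → J → A →L[ℂ] A) (h : ∀ i ∈ s, η i ∈ Avg G θ) :
    (fun j => ∑ i ∈ s, (w i : ℂ) • η i j) ∈ Avg G θ := convex_sum (avg_convex G θ) s w h0 h1 η h

theorem avg_expect {I : Type*} [Fintype I] [Nonempty I] (η : I → J → A →L[ℂ] A)
    (h : ∀ i, η i ∈ Avg G θ) :
    (fun j => ((Fintype.card I : ℂ))⁻¹ • ∑ i, η i j) ∈ Avg G θ := by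
  have hc : (Fintype.card I : ℝ) ≠ 0 := by simp
  convert avg_sum Finset.univ (fun _ : I => (Fintype.card I : ℝ)⁻¹) (fun _ _ => by positivity)
    (by simp) η fun i _ => h i using 2
  simp [Finset.smul_sum]

theorem avg_mono {G' : Set A} (h : G ⊆ G') : Avg G θ ⊆ Avg G' θ :=
  fun _ => avg_ind (fun _ hu => avg_act (h hu) θ) (avg_convex _ _)

theorem avg_act_of (hG : ∀ u ∈ G, ∀ w ∈ G, u * w ∈ G) (h : θ' ∈ Avg G θ) {w : A} (hw : w ∈ G) :
    (fun j => act w (θ' j)) ∈ Avg G θ := by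
  refine avg_ind (S := {η | (fun j => act w (η j)) ∈ Avg G θ}) (fun u hu => ?_) ?_ h
  · simpa only [Set.mem_setOf_eq, ← act_mul] using avg_act (hG u hu w hw) θ
  · intro x hx y hy a b ha hb hab
    have := avg_convex G θ hx hy ha hb hab
    simp only [Set.mem_setOf_eq, Pi.add_apply, Pi.smul_apply, act_add, act_rsmul]
    exact this

theorem avg_trans (hG : ∀ u ∈ G, ∀ w ∈ G, u * w ∈ G) (h : θ' ∈ Avg G θ) (h' : θ'' ∈ Avg G θ') :
    θ'' ∈ Avg G θ := avg_ind (fun _ hw => avg_act_of hG h hw) (avg_convex _ _) h'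

theorem unit_mul : ∀ u ∈ (unitary A : Set A), ∀ w ∈ (unitary A : Set A),
    u * w ∈ (unitary A : Set A) := fun _ hu _ hw => mul_mem hu hw

theorem avg_norm (hG : G ⊆ unitary A) (h : θ' ∈ Avg G θ) (j : J) : ‖θ' j‖ ≤ ‖θ j‖ := by
  refine avg_ind (S := {η | ‖η j‖ ≤ ‖θ j‖}) (fun u hu => norm_act_le (hG hu) _) ?_ h
  intro x hx y hy a b ha hb hab
  have := convex_closedBall (0 : A →L[ℂ] A) ‖θ j‖ (x := x j) (by simpa using hx) (y := y j)
    (by simpa using hy) ha hb hab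
  simpa using this

/-- every average is a finite convex combination -/
theorem avg_repr (h : θ' ∈ Avg G θ) : ∃ (n : ℕ) (w : Fin n → ℝ) (u : Fin n → A), (∀ k, 0 ≤ w k) ∧
    ∑ k, w k = 1 ∧ (∀ k, u k ∈ G) ∧ ∀ j, θ' j = ∑ k, (w k : ℂ) • act (u k) (θ j) := by
  obtain ⟨ι, _, w, z, h0, h1, hz, rfl⟩ := mem_convexHull_iff_exists_fintype.1 h
  choose u hu hz using hz
  let e := Fintype.equivFin ι
  refine ⟨_, w ∘ e.symm, u ∘ e.symm, fun k => h0 _, by rw [← h1]; exact e.symm.sum_comp w,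
    fun k => hu _, fun j => ?_⟩
  rw [Finset.sum_apply, ← e.symm.sum_comp]
  simp [hz, coe_smul']

namespace Pre
variable (P : Pre A)

theorem ext {x y : A} (h : ∀ φ ∈ P.Φ, φ x = φ y) : x = y :=
  sub_eq_zero.1 (P.sep _ fun φ hφ => by rw [map_sub, h φ hφ, sub_self])

theorem hull_of_avg (hG : G ⊆ unitary A) (h : θ' ∈ Avg G θ) : P.Hull G θ θ' :=
  ⟨avg_norm hG h, subset_closure ⟨θ', h, rfl⟩⟩

theorem hull_refl (h1 : (1 : A) ∈ G) (θ : J → A →L[ℂ] A) : P.Hull G θ θ :=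
  ⟨fun _ => le_rfl, subset_closure ⟨θ, avg_self h1 θ, rfl⟩⟩

theorem conv_iff {I : Type*} {l : Filter I} {η : I → J → A →L[ℂ] A} :
    P.Conv l η θ' ↔ Tendsto (fun i => P.ev (η i)) l (𝓝 (P.ev θ')) := by
  rw [tendsto_pi_nhds]
  exact ⟨fun h t => h _ _ _ t.2.2.2, fun h j x φ hφ => h (j, x, ⟨φ, hφ⟩)⟩

variable {P}

theorem Conv.mul {I : Type*} {l : Filter I} {η : I → J → A →L[ℂ] A} (h : P.Conv l η θ')
    (j : J) (x a b : A) {φ : A →L[ℂ] ℂ} (hφ : φ ∈ P.Φ) :
    Tendsto (fun i => φ (a * η i j x * b)) l (𝓝 (φ (a * θ' j x * b))) := by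
  obtain ⟨ψ, hψ, e⟩ := P.mul φ hφ a b
  simpa only [e] using h j x ψ hψ

theorem Conv.mul_right {I : Type*} {l : Filter I} {η : I → J → A →L[ℂ] A} (h : P.Conv l η θ')
    (j : J) (x b : A) {φ : A →L[ℂ] ℂ} (hφ : φ ∈ P.Φ) :
    Tendsto (fun i => φ (η i j x * b)) l (𝓝 (φ (θ' j x * b))) := by
  simpa using h.mul j x 1 b hφ

theorem Conv.act {I : Type*} {l : Filter I} {η : I → J → A →L[ℂ] A} (h : P.Conv l η θ') (u : A) :
    P.Conv l (fun i j => act u (η i j)) fun j => act u (θ' j) :=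
  fun j _ _ hφ => h.mul_right j _ u hφ

/-- weakly closed sets of families -/
def Closed (P : Pre A) (S : Set (J → A →L[ℂ] A)) : Prop :=
  ∀ (𝔘 : Ultrafilter (J → A →L[ℂ] A)) (θ' : J → A →L[ℂ] A), (∀ᶠ η in (𝔘 : Filter _), η ∈ S) →
    P.Conv 𝔘 (fun η => η) θ' → θ' ∈ S

theorem Closed.mem {S : Set (J → A →L[ℂ] A)} (hS : P.Closed S) {I : Type*} (𝔘 : Ultrafilter I)
    {η : I → J → A →L[ℂ] A} (h : ∀ᶠ i in (𝔘 : Filter I), η i ∈ S) (hc : P.Conv 𝔘 η θ') : θ' ∈ S :=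
  hS (𝔘.map η) θ' h fun j x φ hφ => hc j x φ hφ

theorem Closed.inter {S S' : Set (J → A →L[ℂ] A)} (h : P.Closed S) (h' : P.Closed S') :
    P.Closed (S ∩ S') := fun 𝔘 θ' h1 h2 =>
  ⟨h 𝔘 θ' (h1.mono fun _ h => h.1) h2, h' 𝔘 θ' (h1.mono fun _ h => h.2) h2⟩

theorem closed_forall {C : Sort*} {p : C → (J → A →L[ℂ] A) → Prop}
    (h : ∀ c, P.Closed {η | p c η}) : P.Closed {η | ∀ c, p c η} := fun 𝔘 θ' h1 h2 c =>
  h c 𝔘 θ' (h1.mono fun _ h => h c) h2

theorem closed_mod (j : J) (y b : A) : P.Closed {η : J → A →L[ℂ] A | η j (y * b) = η j y * b} :=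
  fun _ _ h1 h2 => P.ext fun φ hφ => tendsto_nhds_unique
    ((h2 j _ φ hφ).congr' (h1.mono fun _ h => congrArg φ h)) (h2.mul_right j y b hφ)

theorem closed_modS (S : Set A) : P.Closed {η : J → A →L[ℂ] A | ModS S η} :=
  closed_forall fun j => closed_forall fun y => closed_forall fun b => closed_forall fun _ =>
    closed_mod j y b

theorem Hull.exists_conv (h : P.Hull G θ θ') : ∃ 𝔘 : Ultrafilter (J → A →L[ℂ] A),
    (∀ᶠ η in (𝔘 : Filter _), η ∈ Avg G θ) ∧ P.Conv 𝔘 (fun η => η) θ' := by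
  have h1 := mem_closure_iff_nhdsWithin_neBot.1 h.2
  have h2 : (comap P.ev (𝓝 (P.ev θ')) ⊓ 𝓟 (Avg G θ)).NeBot := by
    rw [← map_neBot_iff P.ev, Filter.push_pull', map_principal]
    exact h1
  obtain ⟨𝔘, h3⟩ := Ultrafilter.exists_le (comap P.ev (𝓝 (P.ev θ')) ⊓ 𝓟 (Avg G θ))
  exact ⟨𝔘, le_principal_iff.1 (h3.trans inf_le_right),
    P.conv_iff.2 (tendsto_iff_comap.2 (h3.trans inf_le_left))⟩

/-- closed sets containing the averages contain the hull -/
theorem Hull.mem (h : P.Hull G θ θ') {S : Set (J → A →L[ℂ] A)} (hS : P.Closed S)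
    (h1 : Avg G θ ⊆ S) : θ' ∈ S := by
  obtain ⟨𝔘, h2, h3⟩ := h.exists_conv
  exact hS 𝔘 θ' (h2.mono fun _ h => h1 h) h3

/-- induction over the hull -/
theorem Hull.ind (h : P.Hull G θ θ') {S : Set (J → A →L[ℂ] A)} (hS : P.Closed S)
    (h2 : Convex ℝ S) (h1 : ∀ u ∈ G, (fun j => act u (θ j)) ∈ S) : θ' ∈ S :=
  h.mem hS fun _ => avg_ind h1 h2

theorem closed_cl (S : Set (J × A × P.Φ → ℂ)) :
    P.Closed {η : J → A →L[ℂ] A | P.ev η ∈ closure S} := fun _ _ h1 h2 =>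
  isClosed_closure.mem_of_tendsto (P.conv_iff.1 h2) h1

theorem convex_cl : Convex ℝ {η : J → A →L[ℂ] A | P.ev η ∈ closure (P.ev '' Avg G θ)} := by
  let L : (J → A →L[ℂ] A) →ₗ[ℝ] (J × A × P.Φ → ℂ) :=
    { toFun := P.ev
      map_add' := fun a b => by funext t; simp [Pre.ev]
      map_smul' := fun c a => by funext t; simp [Pre.ev] }
  exact (((avg_convex G θ).linear_image L).closure).linear_preimage L

theorem Hull.convex : Convex ℝ {η | P.Hull G θ η} := by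
  intro x hx y hy a b ha hb hab
  refine ⟨fun j => ?_, convex_cl hx.2 hy.2 ha hb hab⟩
  have := convex_closedBall (0 : A →L[ℂ] A) ‖θ j‖ (x := x j) (by simpa using hx.1 j) (y := y j)
    (by simpa using hy.1 j) ha hb hab
  simpa using this

theorem Hull.act (hG : G ⊆ unitary A) (hm : ∀ u ∈ G, ∀ w ∈ G, u * w ∈ G) (h : P.Hull G θ θ')
    {w : A} (hw : w ∈ G) : P.Hull G θ fun j => act w (θ' j) := by
  obtain ⟨𝔘, h2, h3⟩ := h.exists_conv
  exact ⟨fun j => (norm_act_le (hG hw) _).trans (h.1 j), (closed_cl _).mem 𝔘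
    (h2.mono fun η hη => subset_closure ⟨_, avg_act_of hm hη hw, rfl⟩) (h3.act w)⟩

theorem Hull.trans' (hG : G ⊆ unitary A) (hm : ∀ u ∈ G, ∀ w ∈ G, u * w ∈ G) (h : P.Hull G θ θ')
    (h' : P.Hull G θ' θ'') : P.Hull G θ θ'' :=
  ⟨fun j => (h'.1 j).trans (h.1 j), h'.ind (closed_cl _) convex_cl fun _ hu => (h.act hG hm hu).2⟩

theorem Hull.trans (h : P.Hull (unitary A) θ θ') (h' : P.Hull (unitary A) θ' θ'') :
    P.Hull (unitary A) θ θ'' := h.trans' subset_rfl unit_mul h'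

theorem Hull.mono {G' : Set A} (hG : G ⊆ G') (h : P.Hull G θ θ') : P.Hull G' θ θ' :=
  ⟨h.1, closure_mono (Set.image_mono (avg_mono hG)) h.2⟩

theorem Hull.avg (h : P.Hull (unitary A) θ θ') (hG : G ⊆ unitary A) (h' : θ'' ∈ Avg G θ') :
    P.Hull (unitary A) θ θ'' := h.trans (P.hull_of_avg subset_rfl (avg_mono hG h'))

/-- modularity over `S` survives averaging over a set commuting with `S` -/
theorem Hull.modS {S : Set A} (h : P.Hull G θ θ') (hθ : ModS S θ)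
    (hc : ∀ u ∈ G, ∀ b ∈ S, u * b = b * u ∧ star u * b = b * star u) : ModS S θ' := by
  refine h.ind (closed_modS S) ?_ fun u hu j y b hb => ?_
  · intro x hx y hy a b ha hb hab j t c hc
    simp only [Pi.add_apply, Pi.smul_apply, ContinuousLinearMap.add_apply,
      ContinuousLinearMap.smul_apply, hx j t c hc, hy j t c hc, add_mul, smul_mul_assoc]
  · simp only [act_apply]
    rw [mul_assoc y, ← (hc u hu b hb).2, ← mul_assoc, hθ j _ b hb, mul_assoc, ← (hc u hu b hb).1,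
      mul_assoc]

theorem Hull.modS_cen (h : P.Hull G θ θ') (hθ : ModS (cen A) θ) : ModS (cen A) θ' :=
  h.modS hθ fun _ _ _ hb => ⟨(hb _).symm, (hb _).symm⟩

variable (P)

/-- pointwise ultralimits in the algebra -/
theorem lim' {I : Type*} (𝔘 : Ultrafilter I) (x : I → A) (R : ℝ)
    (h : ∀ᶠ i in (𝔘 : Filter I), ‖x i‖ ≤ R) :
    ∃ y, ‖y‖ ≤ R ∧ ∀ φ ∈ P.Φ, Tendsto (fun i => φ (x i)) 𝔘 (𝓝 (φ y)) := P.lim (𝔘.map x) R h

/-- ultralimits of bounded families of maps -/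
theorem exists_conv {I : Type*} (𝔘 : Ultrafilter I) (η : I → J → A →L[ℂ] A) (R : J → ℝ)
    (h : ∀ j, ∀ᶠ i in (𝔘 : Filter I), ‖η i j‖ ≤ R j) :
    ∃ θ' : J → A →L[ℂ] A, (∀ j, ‖θ' j‖ ≤ R j) ∧ P.Conv 𝔘 η θ' := by
  have h1 : ∀ j x, ∃ y, ‖y‖ ≤ R j * ‖x‖ ∧
      ∀ φ ∈ P.Φ, Tendsto (fun i => φ (η i j x)) 𝔘 (𝓝 (φ y)) := fun j x =>
    P.lim' 𝔘 _ _ ((h j).mono fun i hi =>
      ((η i j).le_opNorm x).trans (mul_le_mul_of_nonneg_right hi (norm_nonneg _)))
  choose f hf hf' using h1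
  have R0 : ∀ j, 0 ≤ R j := fun j => by
    obtain ⟨i, hi⟩ := (h j).exists
    exact (norm_nonneg _).trans hi
  let L : J → A →ₗ[ℂ] A := fun j =>
    { toFun := f j
      map_add' := fun x y => P.ext fun φ hφ => tendsto_nhds_unique (hf' j _ φ hφ) (by
        simpa only [map_add] using (hf' j x φ hφ).add (hf' j y φ hφ))
      map_smul' := fun c x => P.ext fun φ hφ => tendsto_nhds_unique (hf' j _ φ hφ) (by
        simpa only [map_smul, RingHom.id_apply] using (hf' j x φ hφ).const_smul c) }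
  exact ⟨fun j => (L j).mkContinuous (R j) (hf j),
    fun j => LinearMap.mkContinuous_norm_le _ (R0 j) _, fun j x φ hφ => hf' j x φ hφ⟩

/-- ultralimits of elements of the hull -/
theorem ulim {I : Type*} (𝔘 : Ultrafilter I) (η : I → J → A →L[ℂ] A)
    (h : ∀ᶠ i in (𝔘 : Filter I), P.Hull G θ (η i)) : ∃ θ', P.Hull G θ θ' ∧ P.Conv 𝔘 η θ' := by
  obtain ⟨θ', h1, h2⟩ := P.exists_conv 𝔘 η (fun j => ‖θ j‖) fun j => h.mono fun _ hi => hi.1 j
  exact ⟨θ', ⟨h1, (closed_cl _).mem 𝔘 (h.mono fun _ hi => hi.2) h2⟩, h2⟩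

/-- finite intersection property -/
theorem fip {C : Type*} (S : C → Set (J → A →L[ℂ] A)) (hS : ∀ c, P.Closed (S c))
    (h : ∀ F : Finset C, ∃ η, P.Hull G θ η ∧ ∀ c ∈ F, η ∈ S c) :
    ∃ η, P.Hull G θ η ∧ ∀ c, η ∈ S c := by
  classical
  choose η h1 h2 using h
  obtain ⟨θ', h3, h4⟩ := P.ulim (Ultrafilter.of atTop) η (Eventually.of_forall h1)
  refine ⟨θ', h3, fun c => (hS c).mem _ ?_ h4⟩
  exact (Ultrafilter.of_le atTop) ((eventually_ge_atTop {c}).mono fun F hF =>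
    h2 F c (Finset.singleton_subset_iff.1 hF))

end Pre

section Tracial
variable {T : Tr A} {P : Pre A}

theorem IsTr.mem (h : IsTr T P) (y : A) : ∃ φ ∈ P.Φ, ∀ x, φ x = T.τ (x * y) := by
  refine ⟨LinearMap.mkContinuous (T.τ ∘ₗ LinearMap.mulRight ℂ y) ‖y‖ fun x => ?_,
    (h _).2 ⟨y, fun _ => rfl⟩, fun _ => rfl⟩
  exact (T.τ_le _).trans ((norm_mul_le _ _).trans_eq (mul_comm _ _))

theorem IsTr.conv (h : IsTr T P) {I : Type*} {l : Filter I} {η : I → J → A →L[ℂ] A}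
    (hc : P.Conv l η θ') (j : J) (x a b : A) :
    Tendsto (fun i => T.τ (a * η i j x * b)) l (𝓝 (T.τ (a * θ' j x * b))) := by
  obtain ⟨φ, hφ, e⟩ := h.mem 1
  simpa only [e, mul_one] using hc.mul j x a b hφ

theorem IsTr.conv' (h : IsTr T P) {I : Type*} {l : Filter I} {η : I → J → A →L[ℂ] A}
    (hc : P.Conv l η θ') (j : J) (x b : A) :
    Tendsto (fun i => T.τ (η i j x * b)) l (𝓝 (T.τ (θ' j x * b))) := by
  simpa using h.conv hc j x 1 b

/-- lower semicontinuity of sums of squares of 2-norms -/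
theorem IsTr.closed_sum (h : IsTr T P) {I : Type*} [Fintype I] (j : I → J) (x w : I → A) (C : ℝ) :
    P.Closed {η : J → A →L[ℂ] A | ∑ i, T.n (w i * η (j i) (x i)) ^ 2 ≤ C} := by
  intro 𝔘 θ' h1 h2
  set X : I → A := fun i => w i * θ' (j i) (x i)
  have h3 : Tendsto (fun η : J → A →L[ℂ] A => ∑ i, (T.τ (star (X i) * (w i * η (j i) (x i)))).re) 𝔘
      (𝓝 (∑ i, T.n (X i) ^ 2)) := tendsto_finset_sum _ fun i _ => by
    rw [T.n_sq]
    have := h.conv h2 (j i) (x i) (star (X i) * w i) 1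
    simp only [mul_one, mul_assoc] at this
    exact (Complex.continuous_re.tendsto _).comp this
  have h4 : ∑ i, T.n (X i) ^ 2 ≤ (∑ i, T.n (X i) ^ 2 + C) / 2 := le_of_tendsto h3 (h1.mono fun η hη => by
    have : ∑ i, (T.τ (star (X i) * (w i * η (j i) (x i)))).re ≤
        ∑ i, (T.n (X i) ^ 2 + T.n (w i * η (j i) (x i)) ^ 2) / 2 := Finset.sum_le_sum fun i _ => by
      have := (Complex.re_le_norm _).trans (T.cs (star (X i)) (w i * η (j i) (x i)))
      rw [T.n_star] at this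
      nlinarith [sq_nonneg (T.n (X i) - T.n (w i * η (j i) (x i)))]
    rw [← Finset.sum_div, Finset.sum_add_distrib] at this
    have hη' : ∑ i, T.n (w i * η (j i) (x i)) ^ 2 ≤ C := hη
    linarith)
  change ∑ i, T.n (X i) ^ 2 ≤ C
  linarith

theorem IsTr.closed_n (h : IsTr T P) (j : J) (x w : A) (C : ℝ) :
    P.Closed {η : J → A →L[ℂ] A | T.n (w * η j x) ≤ C} := by
  intro 𝔘 θ' h1 h2
  obtain ⟨η, hη⟩ := h1.exists
  have C0 : 0 ≤ C := (T.n_nonneg _).trans hη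
  have := h.closed_sum (I := Unit) (fun _ => j) (fun _ => x) (fun _ => w) (C ^ 2) 𝔘 θ'
    (h1.mono fun η hη => by simpa using pow_le_pow_left₀ (T.n_nonneg _) hη 2) h2
  exact (pow_le_pow_iff_left₀ (T.n_nonneg _) C0 two_ne_zero).1 (by simpa using this)

theorem L2.act {K : ℝ} {θ : A →L[ℂ] A} (h : L2 T K θ) {u : A} (hu : u ∈ unitary A) :
    L2 T K (act u θ) := fun x => by
  rw [act_apply, T.n_unit_r hu.2]
  exact (h _).trans_eq (by rw [T.n_unit_r (Unitary.star_mem hu).2])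

theorem convex_L2 (K : ℝ) (j : J) : Convex ℝ {η : J → A →L[ℂ] A | L2 T K (η j)} := by
  intro x hx y hy a b ha hb hab t
  simp only [Pi.add_apply, Pi.smul_apply, ContinuousLinearMap.add_apply,
    ContinuousLinearMap.smul_apply]
  refine (T.n_add_le _ _).trans ?_
  rw [← Complex.coe_smul, ← Complex.coe_smul, T.n_smul, T.n_smul, Complex.norm_real,
    Complex.norm_real, Real.norm_of_nonneg ha, Real.norm_of_nonneg hb]
  have h1 := mul_le_mul_of_nonneg_left (hx t) ha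
  have h2 := mul_le_mul_of_nonneg_left (hy t) hb
  calc _ ≤ (a + b) * (K * T.n t) := by linarith
    _ = _ := by rw [hab, one_mul]

theorem IsTr.closed_L2 (h : IsTr T P) (K : ℝ) (j : J) :
    P.Closed {η : J → A →L[ℂ] A | L2 T K (η j)} :=
  Pre.closed_forall fun x => by simpa using h.closed_n j x 1 (K * T.n x)

theorem IsTr.hull_L2 (h : IsTr T P) (hG : G ⊆ unitary A) (hh : P.Hull G θ θ') {K : ℝ} {j : J}
    (hθ : L2 T K (θ j)) : L2 T K (θ' j) :=
  hh.ind (h.closed_L2 K j) (convex_L2 K j) fun _ hu => hθ.act (hG hu)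

/-- the averaging property passes from the hull to the original family -/
theorem IsTr.avred (h : IsTr T P) [Fintype J] (hh : P.Hull (unitary A) θ θ') (y b : J → A) {δ : ℝ}
    {u : A} (hu : u ∈ unitary A)
    (hδ : (∑ j, T.τ ((θ' j (b j * star u) * u - θ' j (star u) * u * b j) * y j)).re < δ) :
    ∃ v ∈ unitary A,
      (∑ j, T.τ ((θ j (b j * star v) * v - θ j (star v) * v * b j) * y j)).re < δ := by
  by_contra! H
  refine absurd hδ (not_lt.2 (hh.ind (S := {η | δ ≤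
    (∑ j, T.τ ((η j (b j * star u) * u - η j (star u) * u * b j) * y j)).re}) ?_ ?_ fun v hv => ?_))
  · intro 𝔘 θ' h1 h2
    refine ge_of_tendsto ((Complex.continuous_re.tendsto _).comp (tendsto_finset_sum _ fun j _ => ?_)) h1
    simp only [sub_mul, map_sub, mul_assoc]
    exact (h.conv' h2 j _ _).sub (h.conv' h2 j _ _)
  · intro x hx t ht a c ha hc hac
    simp only [Set.mem_setOf_eq] at hx ht ⊢
    have e : ∀ j, T.τ (((a • x + c • t) j (b j * star u) * u - (a • x + c • t) j (star u) * u * b j) * y j)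
        = a * T.τ ((x j (b j * star u) * u - x j (star u) * u * b j) * y j) +
          c * T.τ ((t j (b j * star u) * u - t j (star u) * u * b j) * y j) := fun j => by
      simp only [Pi.add_apply, Pi.smul_apply, ContinuousLinearMap.add_apply,
        ContinuousLinearMap.smul_apply, ← Complex.coe_smul, add_mul, sub_mul, smul_mul_assoc,
        map_add, map_sub, map_smul, smul_eq_mul]
      ring
    simp only [e, Finset.sum_add_distrib, ← Finset.mul_sum, Complex.add_re, Complex.re_ofReal_mul]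
    have h1 := mul_le_mul_of_nonneg_left hx ha
    have h2 := mul_le_mul_of_nonneg_left ht hc
    calc δ = (a + c) * δ := by rw [hac, one_mul]
      _ ≤ _ := by linarith
  · have := H (v * u) (mul_mem hv hu)
    simpa only [Set.mem_setOf_eq, act_apply, star_mul, mul_assoc] using this

end Tracial
end Crest.Agent.KR
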