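import Crest.Agent.KR.Defs
/-! Incoherence, part 1: deterministic estimates. -/
set_option autoImplicit false
namespace Crest.Agent.KR.IncA
open scoped InnerProductSpace ComplexConjugate BigOperators
open Finset Crest.Agent.GP Crest.Agent.KS Crest.Agent.KS.Core

theorem exp_sg {ι : Type} [Fintype ι] [DecidableEq ι] (a b : ι) :
    𝔼 ε : ι → Bool, sg (ε a) * sg (ε b) = if a = b then 1 else 0 := by
  split_ifs with h
  · subst h; simp [sg_sq]
  let σ : (ι → Bool) ≃ (ι → Bool) := Function.Involutive.toPerm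
    (fun ε => Function.update ε a (!ε a)) fun ε => by simp
  have h1 := Fintype.expect_equiv σ (fun ε => -(sg (ε a) * sg (ε b)))
    (fun ε => sg (ε a) * sg (ε b)) fun ε => by
      change _ = sg (Function.update ε a (!ε a) a) * sg (Function.update ε a (!ε a) b)
      rw [Function.update_self, Function.update_of_ne (Ne.symm h)]
      cases ε a <;> cases ε b <;> simp [sg]
  rw [expect_neg_distrib] at h1
  linear_combination (-1 / 2 : ℂ) * h1

theorem exp_sq {ι J : Type} [Fintype ι] [DecidableEq ι] [Fintype J] (f : J → ι)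
    (hf : Function.Injective f) (c : J → ℂ) :
    𝔼 ε : ι → Bool, ‖∑ j, sg (ε (f j)) * c j‖ ^ 2 = ∑ j, ‖c j‖ ^ 2 := by
  classical
  apply Complex.ofReal_injective
  rw [Complex.ofReal_expect]
  push_cast
  simp only [← Complex.mul_conj', map_sum, map_mul, sg_conj, sum_mul_sum, expect_sum_comm]
  refine sum_congr rfl fun j _ => ?_
  have : ∀ k, 𝔼 ε : ι → Bool, sg (ε (f j)) * c j * (sg (ε (f k)) * conj (c k)) =
      if j = k then c j * conj (c k) else 0 := fun k => by
    simp only [mul_mul_mul_comm _ (c j), ← expect_mul, exp_sg, hf.eq_iff]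
    split_ifs <;> simp
  simp [this]

variable {A : Type*} [CStarAlgebra A] (T : Tr A) {J : Type} [Fintype J]

/-- fourth power of the block Schatten norm -/
noncomputable def FF (p : J → A) (Z : A) : ℝ :=
  ∑ a, ∑ b, T.n (star (p a * Z * p b) * (p a * Z * p b)) ^ 2

theorem n_cross (x y : A) : T.n (star x * y) ^ 2 ≤ T.n (star x * x) * T.n (star y * y) := by
  have e : ∀ z : A, T.n (z * star z) = T.n (star z * z) := fun z => T.n_eq_of (by
    simp only [star_mul, star_star, mul_assoc]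
    rw [T.comm]; simp only [mul_assoc])
  rw [T.n_sq, ← e x, ← e y]
  refine (Complex.re_le_norm _).trans (le_of_eq_of_le ?_ (T.cs _ _))
  simp only [star_mul, star_star, mul_assoc]
  rw [T.comm]; simp only [mul_assoc]

theorem n_add4 (x y : A) : T.n (star (x + y) * (x + y)) ^ 2 ≤
    8 * T.n (star x * x) ^ 2 + 8 * T.n (star y * y) ^ 2 := by
  have h1 : T.n (star (x + y) * (x + y)) ≤ T.n (star x * x) + T.n (star x * y) +
      (T.n (star y * x) + T.n (star y * y)) := by
    rw [star_add, add_mul, mul_add, mul_add]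
    exact (T.n_add_le _ _).trans (add_le_add (T.n_add_le _ _) (T.n_add_le _ _))
  have h2 := n_cross T x y
  have h3 := n_cross T y x
  have a0 := T.n_nonneg (star x * x)
  have b0 := T.n_nonneg (star y * y)
  have h4 : T.n (star x * y) ≤ (T.n (star x * x) + T.n (star y * y)) / 2 :=
    le_of_sq_le_sq (h2.trans (by nlinarith [sq_nonneg (T.n (star x * x) - T.n (star y * y))]))
      (by positivity)
  have h5 : T.n (star y * x) ≤ (T.n (star x * x) + T.n (star y * y)) / 2 :=
    le_of_sq_le_sq (h3.trans (by nlinarith [sq_nonneg (T.n (star x * x) - T.n (star y * y))]))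
      (by positivity)
  have h6 : T.n (star (x + y) * (x + y)) ≤ 2 * (T.n (star x * x) + T.n (star y * y)) := by linarith
  refine (pow_le_pow_left₀ (T.n_nonneg _) h6 2).trans ?_
  nlinarith [sq_nonneg (T.n (star x * x) - T.n (star y * y))]

theorem FF_add (p : J → A) (X Y : A) : FF T p (X + Y) ≤ 8 * FF T p X + 8 * FF T p Y := by
  simp only [FF, mul_sum, ← sum_add_distrib]
  refine sum_le_sum fun a _ => sum_le_sum fun b _ => ?_
  rw [mul_add, add_mul]; exact n_add4 T _ _

variable {p : J → A} (hp : ∀ a, Proj (p a)) (hs : ∑ a, p a = 1)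
include hp hs

theorem sum_n_r (y : A) : ∑ b, T.n (y * p b) ^ 2 = T.n y ^ 2 := by
  have : ∀ b, T.n (y * p b) ^ 2 = (T.τ (star y * y * p b)).re := fun b => by
    rw [T.n_sq, star_mul, (hp b).1, mul_assoc, T.comm, mul_assoc, mul_assoc, (hp b).2, mul_assoc]
  simp only [this, ← Complex.re_sum, ← map_sum, ← mul_sum, hs, mul_one, T.n_sq]

theorem sum_n_l (y : A) : ∑ b, T.n (p b * y) ^ 2 = T.n y ^ 2 := by
  rw [← T.n_star y, ← sum_n_r T hp hs]
  exact sum_congr rfl fun b _ => by rw [← T.n_star, star_mul, (hp b).1]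

theorem FF_le (Z : A) : FF T p Z ≤ ‖Z‖ ^ 4 := by
  calc FF T p Z ≤ ∑ a, ∑ b, ‖Z‖ ^ 2 * T.n (p a * Z * p b) ^ 2 := by
        refine sum_le_sum fun a _ => sum_le_sum fun b _ => ?_
        rw [← mul_pow]
        refine pow_le_pow_left₀ (T.n_nonneg _) (T.n_l ?_ le_rfl) 2
        rw [norm_star]
        simpa using norm_mul_le' (norm_mul_le' (hp a).norm (le_refl ‖Z‖)) (hp b).norm
    _ = ‖Z‖ ^ 2 * T.n Z ^ 2 := by simp only [← mul_sum, sum_n_r T hp hs, sum_n_l T hp hs]
    _ ≤ ‖Z‖ ^ 2 * ‖Z‖ ^ 2 := by gcongr; exacts [T.n_nonneg _, T.n_le _]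
    _ = _ := by ring

theorem FF_cen {c : J → A} {γ R : ℝ} (hc : ∀ a, star (c a) = c a) (hγ : γ ≤ 1)
    (h1 : ∀ a, ‖c a‖ ≤ γ) (h2 : ∑ a, ‖c a‖ ^ 2 ≤ γ) (W : A) (hW : ‖W‖ ≤ R) :
    FF T p W ≤ 2 * ∑ a, ∑ b, ‖T.τ ((p b - c b) * star W * (p a - c a) * W *
      ((p b - c b) * star W * (p a - c a) * W))‖ + 26 * γ * R ^ 4 := by
  have hγ0 : 0 ≤ γ := (sum_nonneg fun _ _ => by positivity).trans h2
  have hR : 0 ≤ R := (norm_nonneg _).trans hW
  have hW' : ‖star W‖ ≤ R := by rwa [norm_star]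
  set Y : J → A := fun a => star W * (p a - c a) * W with hY
  have sY : ∀ a, star (Y a) = Y a := fun a => by simp [hY, (hp a).1, hc, mul_assoc]
  have nY : ∑ a, T.n (Y a) ^ 2 ≤ 4 * R ^ 4 := by
    calc ∑ a, T.n (Y a) ^ 2 ≤ ∑ a, R ^ 4 * (2 * T.n (p a * 1) ^ 2 + 2 * ‖c a‖ ^ 2) := by
          refine sum_le_sum fun a _ => ?_
          have e1 : T.n (p a - c a) ≤ T.n (p a * 1) + ‖c a‖ := by
            rw [mul_one]; exact (T.n_sub_le _ _).trans (add_le_add_right (T.n_le _) _)
          have e2 : T.n (Y a) ≤ R * (T.n (p a * 1) + ‖c a‖) * R := T.n_r (T.n_l hW' e1) hW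
          refine (pow_le_pow_left₀ (T.n_nonneg _) e2 2).trans ?_
          have : 0 ≤ R ^ 4 * (T.n (p a * 1) - ‖c a‖) ^ 2 := by positivity
          nlinarith
      _ = R ^ 4 * (2 + 2 * ∑ a, ‖c a‖ ^ 2) := by
          rw [← mul_sum, sum_add_distrib, ← mul_sum, ← mul_sum, sum_n_l T hp hs]; simp
      _ ≤ R ^ 4 * (2 + 2 * 1) := by gcongr; exact h2.trans hγ
      _ = _ := by ring
  have key : ∀ a b, T.n (star (p a * W * p b) * (p a * W * p b)) ^ 2 ≤
      2 * ‖T.τ ((p b - c b) * star W * (p a - c a) * W *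
        ((p b - c b) * star W * (p a - c a) * W))‖ + 4 * γ * T.n (p b * Y a) ^ 2 +
        2 * ‖c b‖ ^ 2 * T.n (Y a) ^ 2 + 2 * T.n (star W * c a * W * p b) ^ 2 := by
    intro a b
    have e : star (p a * W * p b) * (p a * W * p b) =
        p b * Y a * p b + p b * (star W * c a * W * p b) := by
      simp only [hY, star_mul, (hp a).1, (hp b).1, mul_assoc, mul_sub, sub_mul, sub_add_cancel]
      rw [← mul_assoc (p a) (p a), (hp a).2]
    have f1 := T.n_add_le (p b * Y a * p b) (p b * (star W * c a * W * p b))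
    have f2 := T.n_l1 (hp b).norm (star W * c a * W * p b)
    have f3 : T.n (p b * Y a * p b) ^ 2 = (T.τ (p b * Y a * (p b * Y a))).re := by
      rw [T.n_sq]
      simp only [star_mul, sY, (hp b).1, mul_assoc]
      rw [← mul_assoc (p b) (p b), (hp b).2, T.comm (p b), T.comm (p b)]
      simp only [mul_assoc, (hp b).2]
    have f4 : T.τ (p b * Y a * (p b * Y a)) = T.τ ((p b - c b) * star W * (p a - c a) * W *
        ((p b - c b) * star W * (p a - c a) * W)) + 2 * T.τ (c b * (Y a * p b) * (p b * Y a)) -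
        T.τ (c b * Y a * (c b * Y a)) := by
      have g1 : (p b - c b) * star W * (p a - c a) * W = p b * Y a - c b * Y a := by
        simp only [hY]; noncomm_ring
      have g2 : c b * (Y a * p b) * (p b * Y a) = c b * Y a * (p b * Y a) := by
        simp only [mul_assoc]; rw [← mul_assoc (p b), (hp b).2]
      rw [g1, g2, sub_mul, mul_sub, mul_sub, map_sub, map_sub, map_sub,
        T.comm (p b * Y a) (c b * Y a)]
      ring
    have f5 : ‖T.τ (c b * (Y a * p b) * (p b * Y a))‖ ≤ γ * T.n (p b * Y a) ^ 2 := by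
      refine (T.cs _ _).trans ?_
      have : T.n (Y a * p b) = T.n (p b * Y a) := by rw [← T.n_star, star_mul, sY, (hp b).1]
      rw [sq, ← mul_assoc γ]
      exact mul_le_mul_of_nonneg_right (T.n_l (h1 b) this.le) (T.n_nonneg _)
    have f6 : ‖T.τ (c b * Y a * (c b * Y a))‖ ≤ ‖c b‖ ^ 2 * T.n (Y a) ^ 2 := by
      refine (T.cs _ _).trans ?_
      rw [← mul_pow, ← sq]
      exact pow_le_pow_left₀ (T.n_nonneg _) (T.n_mul_le _ _) 2
    have f7 : T.n (p b * Y a * p b) ^ 2 ≤ ‖T.τ ((p b - c b) * star W * (p a - c a) * W *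
        ((p b - c b) * star W * (p a - c a) * W))‖ + 2 * (γ * T.n (p b * Y a) ^ 2) +
        ‖c b‖ ^ 2 * T.n (Y a) ^ 2 := by
      rw [f3, f4]
      refine (Complex.re_le_norm _).trans ((norm_sub_le _ _).trans (add_le_add
        ((norm_add_le _ _).trans (add_le_add_right ?_ _)) f6))
      rw [norm_mul, Complex.norm_ofNat]; linarith
    rw [e]
    refine (pow_le_pow_left₀ (T.n_nonneg _) (f1.trans (add_le_add_right f2 _)) 2).trans ?_
    nlinarith [sq_nonneg (T.n (p b * Y a * p b) - T.n (star W * c a * W * p b))]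
  refine (sum_le_sum fun a _ => sum_le_sum fun b _ => key a b).trans ?_
  simp only [sum_add_distrib, ← mul_sum, ← sum_mul, sum_n_r T hp hs, sum_n_l T hp hs]
  have k1 : ∑ a, T.n (star W * c a * W) ^ 2 ≤ R ^ 4 * γ := by
    refine le_trans (sum_le_sum fun a _ => ?_) (mul_le_mul_of_nonneg_left h2 (by positivity)
      |>.trans_eq' (mul_sum _ _ _))
    have := pow_le_pow_left₀ (T.n_nonneg _) (T.n_r (T.n_l hW' (T.n_le (c a))) hW) 2
    refine this.trans_eq (by ring)
  have k2 : (∑ a, ‖c a‖ ^ 2) * ∑ a, T.n (Y a) ^ 2 ≤ γ * (4 * R ^ 4) :=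
    mul_le_mul h2 nY (sum_nonneg fun _ _ => by positivity) hγ0
  have k3 := mul_le_mul_of_nonneg_left nY hγ0
  nlinarith

omit hp hs in
theorem prod_close {L : Type} (S S' : L → A) {μ : ℝ} (hS : ∀ l, ‖S l‖ ≤ 3) (hS' : ∀ l, ‖S' l‖ ≤ 3)
    (h : ∀ l, ‖S l - S' l‖ ≤ μ) (β : List L) :
    ‖(β.map S).prod‖ ≤ 3 ^ β.length ∧ ‖(β.map S').prod‖ ≤ 3 ^ β.length ∧
      ‖(β.map S).prod - (β.map S').prod‖ ≤ β.length * 3 ^ β.length * μ := by
  induction β with
  | nil => simp [norm_one_le]
  | cons l β ih =>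
    simp only [List.map_cons, List.prod_cons, List.length_cons, pow_succ']
    refine ⟨norm_mul_le' (hS l) ih.1, norm_mul_le' (hS' l) ih.2.1, ?_⟩
    have e : S l * (β.map S).prod - S' l * (β.map S').prod =
        (S l - S' l) * (β.map S).prod + S' l * ((β.map S).prod - (β.map S').prod) := by
      noncomm_ring
    rw [e]
    refine (norm_add_le _ _).trans ((add_le_add (norm_mul_le' (h l) ih.1)
      (norm_mul_le' (hS' l) ih.2.2)).trans ?_)
    have : 0 ≤ μ * 3 ^ β.length := mul_nonneg ((norm_nonneg _).trans (h l)) (by positivity)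
    push_cast; nlinarith

end Crest.Agent.KR.IncA
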