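import Crest.Agent.GP.Bridge
import Crest.Agent.KS.Form
/-! Basic structure theory of concrete von Neumann algebras: range projections, gluing of partial
isometries, polar decomposition, central supports, comparison. -/
set_option autoImplicit false
namespace Crest.Agent.KR.VN
open scoped ComplexConjugate InnerProductSpace
open Filter Topology Crest.Agent.GP

variable {H : Type*} [NormedAddCommGroup H] [InnerProductSpace ℂ H] [CompleteSpace H]
  {M : VonNeumannAlgebra H}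

theorem comm_of_mem {a z : H →L[ℂ] H} (ha : a ∈ M) (hz : z ∈ M.commutant) : z * a = a * z :=
  (VonNeumannAlgebra.mem_commutant_iff.1 hz a ha).symm

theorem smul_mem (c : ℂ) {a : H →L[ℂ] H} (ha : a ∈ M) : c • a ∈ M :=
  M.toStarSubalgebra.smul_mem ha c

theorem cfc_mem' (f : ℝ → ℝ) {a : H →L[ℂ] H} (ha : a ∈ M) : cfc f a ∈ M :=
  cfc_mem (𝕜' := ℂ) (s := M.toStarSubalgebra) f ha

theorem cfcₙ_mem' (f : ℝ → ℝ) {a : H →L[ℂ] H} (ha : a ∈ M) : cfcₙ f a ∈ M :=
  cfcₙ_mem (𝕜' := ℂ) (s := M.toStarSubalgebra) f ha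

/-- closed span of the ranges -/
def spn (S : Set (H →L[ℂ] H)) : Submodule ℂ H :=
  (Submodule.span ℂ {η | ∃ x ∈ S, ∃ ξ, η = x ξ}).topologicalClosure

instance (S : Set (H →L[ℂ] H)) : CompleteSpace (spn S) :=
  inferInstanceAs (CompleteSpace (Submodule.topologicalClosure _))

/-- the projection onto the closed span of the ranges -/
noncomputable def sp (S : Set (H →L[ℂ] H)) : H →L[ℂ] H := (spn S).starProjection

theorem sp_proj (S : Set (H →L[ℂ] H)) : Proj (sp S) :=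
  ⟨(isStarProjection_starProjection (U := spn S)).isSelfAdjoint.star_eq,
    (spn S).isIdempotentElem_starProjection.eq⟩

theorem sp_mul {S : Set (H →L[ℂ] H)} {x : H →L[ℂ] H} (hx : x ∈ S) : sp S * x = x := by
  ext ξ
  exact Submodule.starProjection_eq_self_iff.2
    (Submodule.le_topologicalClosure _ (Submodule.subset_span ⟨x, hx, ξ, rfl⟩))

theorem mul_sp {S : Set (H →L[ℂ] H)} {y : H →L[ℂ] H} (h : ∀ x ∈ S, y * x = 0) : y * sp S = 0 := by
  ext ξ
  have h1 : spn S ≤ y.ker := by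
    refine Submodule.topologicalClosure_minimal _ (Submodule.span_le.2 ?_) y.isClosed_ker
    rintro _ ⟨x, hx, ξ, rfl⟩
    exact congr($(h x hx) ξ)
  exact h1 (Submodule.starProjection_apply_mem _ ξ)

theorem mul_sp_eq {S : Set (H →L[ℂ] H)} {y z : H →L[ℂ] H} (h : ∀ x ∈ S, y * x = z * x) :
    y * sp S = z * sp S := by
  rw [← sub_eq_zero, ← sub_mul]
  exact mul_sp fun x hx => by rw [sub_mul, h x hx, sub_self]

theorem mul_sp_self {S : Set (H →L[ℂ] H)} {y : H →L[ℂ] H} (h : ∀ x ∈ S, y * x = x) :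
    y * sp S = sp S := by
  simpa using mul_sp_eq (y := y) (z := 1) (S := S) (by simpa using h)

theorem sp_mul_zero {S : Set (H →L[ℂ] H)} {y : H →L[ℂ] H} (h : ∀ x ∈ S, star x * y = 0) :
    sp S * y = 0 := by
  have := congrArg star (mul_sp (y := star y) (S := S) fun x hx => by
    simpa using congrArg star (h x hx))
  simpa [(sp_proj S).1] using this

/-- commutation with `sp` -/
theorem sp_comm {S : Set (H →L[ℂ] H)} {z : H →L[ℂ] H}
    (h : ∀ x ∈ S, sp S * (z * x) = z * x) (h' : ∀ x ∈ S, sp S * (star z * x) = star z * x) :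
    z * sp S = sp S * z := by
  have h1 := mul_sp_eq (y := sp S * z) (z := z) (S := S) fun x hx => by rw [mul_assoc, h x hx]
  have h2 := congrArg star (mul_sp_eq (y := sp S * star z) (z := star z) (S := S)
    fun x hx => by rw [mul_assoc, h' x hx])
  simp only [star_mul, star_star, (sp_proj S).1] at h2
  rw [← h1, mul_assoc, h2]

theorem sp_comm' {S : Set (H →L[ℂ] H)} {z : H →L[ℂ] H}
    (h : ∀ x ∈ S, z * x = x * z) (h' : ∀ x ∈ S, star z * x = x * star z) :
    z * sp S = sp S * z :=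
  sp_comm (fun x hx => by rw [h x hx, ← mul_assoc, sp_mul hx])
    fun x hx => by rw [h' x hx, ← mul_assoc, sp_mul hx]

theorem sp_mem {S : Set (H →L[ℂ] H)} (h : ∀ x ∈ S, x ∈ M) : sp S ∈ M :=
  mem_of_comm fun _ hz => sp_comm' (fun x hx => comm_of_mem (h x hx) hz)
    fun x hx => comm_of_mem (h x hx) (star_mem hz)

theorem sp_eq_zero {S : Set (H →L[ℂ] H)} (h : ∀ x ∈ S, x = 0) : sp S = 0 := by
  simpa using mul_sp (y := 1) (S := S) (by simpa using h)

theorem norm_proj_sq {p : H →L[ℂ] H} (hp : Proj p) (ξ : H) :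
    ‖ξ‖ ^ 2 = ‖p ξ‖ ^ 2 + ‖(1 - p) ξ‖ ^ 2 := by
  have h : ⟪p ξ, (1 - p) ξ⟫_ℂ = 0 := by
    rw [← ContinuousLinearMap.adjoint_inner_right, ← ContinuousLinearMap.star_eq_adjoint, hp.1,
      ← ContinuousLinearMap.mul_apply, mul_sub, hp.2, mul_one, sub_self]
    simp
  have := norm_add_sq_eq_norm_sq_add_norm_sq_of_inner_eq_zero _ _ h
  simpa [sq] using this

/-- Douglas type lemma -/
theorem douglas {I : Type*} (x y : I → H →L[ℂ] H) (hx : ∀ i, x i ∈ M) (hy : ∀ i, y i ∈ M) {C : ℝ}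
    (hC : 0 ≤ C) (h : ∀ (s : Finset I) (f : I → H), ‖∑ i ∈ s, x i (f i)‖ ≤ C * ‖∑ i ∈ s, y i (f i)‖) :
    ∃ w ∈ M, ‖w‖ ≤ C ∧ (∀ i, w * y i = x i) ∧ w * sp (Set.range y) = w := by
  classical
  set P := sp (Set.range y) with hP
  let j : (I →₀ H) × H →ₗ[ℂ] H :=
    (Finsupp.lsum ℂ fun i => (y i : H →ₗ[ℂ] H)).coprod ((1 - P : H →L[ℂ] H) : H →ₗ[ℂ] H)
  let W : (I →₀ H) × H →ₗ[ℂ] H :=
    (Finsupp.lsum ℂ fun i => (x i : H →ₗ[ℂ] H)) ∘ₗ LinearMap.fst ℂ _ _
  have hj1 : ∀ i ξ, j (Finsupp.single i ξ, 0) = y i ξ := fun i ξ => by simp [j]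
  have hj2 : ∀ ξ, j (0, ξ) = (1 - P) ξ := fun ξ => by simp [j]
  have hj : DenseRange j := by
    intro ξ
    have h1 : spn (Set.range y) ≤ (LinearMap.range j).topologicalClosure := by
      refine Submodule.topologicalClosure_mono (Submodule.span_le.2 ?_)
      rintro _ ⟨_, ⟨i, rfl⟩, ξ, rfl⟩
      exact ⟨_, hj1 i ξ⟩
    have h2 : P ξ + (1 - P) ξ ∈ (LinearMap.range j).topologicalClosure :=
      add_mem (h1 (Submodule.starProjection_apply_mem _ ξ))
        (Submodule.le_topologicalClosure _ ⟨_, hj2 ξ⟩)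
    rw [sub_apply, one_apply_eq_self, add_sub_cancel] at h2
    exact h2
  have hW : ∀ a, ‖W a‖ ≤ C * ‖j a‖ := by
    rintro ⟨f, η⟩
    have e1 : W (f, η) = ∑ i ∈ f.support, x i (f i) := by simp [W, Finsupp.sum]
    have e2 : P (j (f, η)) = ∑ i ∈ f.support, y i (f i) := by
      have : ∀ i, P (y i (f i)) = y i (f i) := fun i => congr($(sp_mul (S := Set.range y) ⟨i, rfl⟩) (f i))
      have h3 : P (P η) = P η := congr($((sp_proj (Set.range y)).2) η)
      simp [j, Finsupp.sum, this, h3]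
    rw [e1]
    refine (h _ _).trans (mul_le_mul_of_nonneg_left ?_ hC)
    rw [← e2]
    exact Submodule.norm_starProjection_apply_le _ _
  set w := W.extendOfNorm j with hw
  have hwj : ∀ a, w (j a) = W a := fun a => LinearMap.extendOfNorm_eq hj ⟨_, hW⟩ a
  have h1 : ∀ i, w * y i = x i := fun i => by
    ext ξ
    have := hwj (Finsupp.single i ξ, 0)
    rw [hj1] at this
    simpa [W] using this
  have h2 : w * P = w := by
    ext ξ
    have := hwj (0, ξ)
    rw [hj2] at this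
    simp only [W, ContinuousLinearMap.sub_apply, map_sub, ContinuousLinearMap.one_apply,
      LinearMap.comp_apply, LinearMap.fst_apply, map_zero] at this
    exact (sub_eq_zero.1 this).symm
  refine ⟨w, mem_of_comm fun z hz => ?_, LinearMap.opNorm_extendOfNorm_le hj hC hW, h1, h2⟩
  have h3 : z * w * P = w * z * P := mul_sp_eq (by
    rintro _ ⟨i, rfl⟩
    rw [mul_assoc, h1, mul_assoc, comm_of_mem (hy i) hz, ← mul_assoc, h1, comm_of_mem (hx i) hz])
  have h4 : z * P = P * z := comm_of_mem (sp_mem (by rintro _ ⟨i, rfl⟩; exact hy i)) hz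
  rwa [mul_assoc, h2, mul_assoc, h4, ← mul_assoc, h2] at h3

theorem norm_sum_sq {I : Type*} (x : I → H →L[ℂ] H) (s : Finset I) (f : I → H) :
    ((‖∑ i ∈ s, x i (f i)‖ ^ 2 : ℝ) : ℂ) = ∑ i ∈ s, ∑ k ∈ s, ⟪f i, (star (x i) * x k) (f k)⟫_ℂ := by
  have := inner_self_eq_norm_sq_to_K (𝕜 := ℂ) (∑ i ∈ s, x i (f i))
  rw [Complex.ofReal_pow]
  refine this.symm.trans ?_
  rw [sum_inner]
  refine Finset.sum_congr rfl fun i _ => ?_
  rw [inner_sum]
  refine Finset.sum_congr rfl fun k _ => ?_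
  rw [ContinuousLinearMap.mul_apply, ContinuousLinearMap.star_eq_adjoint,
    ContinuousLinearMap.adjoint_inner_right]

/-- isometric gluing -/
theorem glue {I : Type*} (x y : I → H →L[ℂ] H) (hx : ∀ i, x i ∈ M) (hy : ∀ i, y i ∈ M)
    (h : ∀ i k, star (x i) * x k = star (y i) * y k) :
    ∃ w ∈ M, (∀ i, w * y i = x i) ∧ star w * w = sp (Set.range y) ∧
      w * star w = sp (Set.range x) ∧ w * star w * w = w := by
  obtain ⟨w, hwM, -, h1, h2⟩ := douglas x y hx hy zero_le_one fun s f => by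
    have : ‖∑ i ∈ s, x i (f i)‖ ^ 2 = ‖∑ i ∈ s, y i (f i)‖ ^ 2 := by
      have := norm_sum_sq x s f
      simp only [h] at this
      rw [← norm_sum_sq y s f] at this
      exact_mod_cast this
    rw [one_mul]
    exact ((sq_eq_sq₀ (norm_nonneg _) (norm_nonneg _)).1 this).le
  set P := sp (Set.range y) with hP
  set Q := sp (Set.range x) with hQ
  have hPp : Proj P := sp_proj _
  have hQp : Proj Q := sp_proj _
  have h2' : P * star w = star w := by simpa [hPp.1] using congrArg star h2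
  have h3 : star w * w = P := by
    have a1 : ∀ k, P * ((star w * w - 1) * y k) = 0 := fun k => sp_mul_zero (by
      rintro _ ⟨i, rfl⟩
      rw [sub_mul, mul_assoc, h1, one_mul, mul_sub, ← mul_assoc, ← star_mul, h1, h, sub_self])
    have a2 : P * (star w * w - 1) * P = 0 := mul_sp (by
      rintro _ ⟨k, rfl⟩
      rw [mul_assoc, a1])
    rw [mul_sub, sub_mul, mul_one, hPp.2, ← mul_assoc, h2', mul_assoc, h2, sub_eq_zero] at a2
    exact a2
  have h4 : w * star w * w = w := by rw [mul_assoc, h3, h2]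
  refine ⟨w, hwM, h1, h3, ?_, h4⟩
  have a1 : w * star w * Q = Q := mul_sp_self (by
    rintro _ ⟨i, rfl⟩
    rw [← h1, ← mul_assoc, h4])
  have a2 : Q * w * P = w * P := mul_sp_eq (by
    rintro _ ⟨i, rfl⟩
    rw [mul_assoc, h1]; exact sp_mul ⟨i, rfl⟩)
  rw [mul_assoc, h2] at a2
  have a3 := congrArg star a1
  simp only [star_mul, star_star, hQp.1] at a3
  rw [← a3, ← mul_assoc, a2]

/-- range projection -/
noncomputable def rp (x : H →L[ℂ] H) : H →L[ℂ] H := sp {x}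

theorem rp_proj (x : H →L[ℂ] H) : Proj (rp x) := sp_proj _
theorem rp_mul (x : H →L[ℂ] H) : rp x * x = x := sp_mul rfl
theorem mul_rp {x y : H →L[ℂ] H} (h : y * x = 0) : y * rp x = 0 := mul_sp (by simpa using h)
theorem mul_rp_eq {x y z : H →L[ℂ] H} (h : y * x = z * x) : y * rp x = z * rp x :=
  mul_sp_eq (by simpa using h)
theorem mul_rp_self {x y : H →L[ℂ] H} (h : y * x = x) : y * rp x = rp x :=
  mul_sp_self (by simpa using h)
theorem rp_mem {x : H →L[ℂ] H} (h : x ∈ M) : rp x ∈ M := sp_mem (by simpa using h)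
theorem rp_comm {x z : H →L[ℂ] H} (h : z * x = x * z) (h' : star z * x = x * star z) :
    z * rp x = rp x * z := sp_comm' (by simpa using h) (by simpa using h')
theorem rp_ne {x : H →L[ℂ] H} (h : x ≠ 0) : rp x ≠ 0 := fun h' => h (by
  rw [← rp_mul x, h', zero_mul])
theorem rp_of_proj {p : H →L[ℂ] H} (hp : Proj p) : rp p = p := by
  have h1 := congrArg star (mul_rp_self hp.2)
  simp only [star_mul, hp.1, (rp_proj p).1] at h1
  rw [← h1, rp_mul]

/-- polar decomposition -/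
theorem polar {x : H →L[ℂ] H} (hx : x ∈ M) : ∃ v ∈ M, ∃ a ∈ M, 0 ≤ a ∧ a * a = star x * x ∧
    v * a = x ∧ v * star v * v = v ∧ star v * v = rp (star x) ∧ v * star v = rp x ∧
    star v * x = a := by
  set a := cfc Real.sqrt (star x * x) with ha
  have hxx : 0 ≤ star x * x := star_mul_self_nonneg x
  have haM : a ∈ M := cfc_mem' _ (mul_mem (star_mem hx) hx)
  have ha0 : 0 ≤ a := cfc_nonneg fun t _ => Real.sqrt_nonneg t
  have haa : a * a = star x * x := by
    rw [ha, ← cfc_mul ..]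
    conv_rhs => rw [← cfc_id' ℝ (star x * x)]
    exact cfc_congr fun t ht => Real.mul_self_sqrt (spectrum_nonneg_of_nonneg hxx ht)
  have hsa : star a = a := (IsSelfAdjoint.of_nonneg ha0).star_eq
  obtain ⟨v, hv, h1, h2, h3, h4⟩ := glue (fun _ : Unit => x) (fun _ => a) (fun _ => hx)
    (fun _ => haM) fun _ _ => by rw [hsa, haa]
  have h1' : v * a = x := h1 ()
  simp only [Set.range_const] at h2 h3
  have h5 : star v * x = a := by rw [← h1', ← mul_assoc, h2]; exact rp_mul a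
  refine ⟨v, hv, a, haM, ha0, haa, h1', h4, ?_, h3, h5⟩
  rw [h2]
  change rp a = rp (star x)
  have b1 : rp a * rp (star x) = rp (star x) := mul_rp_self (by
    rw [← h1', star_mul, hsa, ← mul_assoc, rp_mul])
  have b2 : rp (star x) * rp a = rp a := mul_rp_self (by
    have : a = star x * v := by simpa [hsa] using congrArg star h5.symm
    rw [this, ← mul_assoc, rp_mul])
  have b3 := congrArg star b2
  simp only [star_mul, (rp_proj _).1] at b3
  rw [← b3, b1]

/-- a nonzero element of `p M q` gives a nonzero partial isometry in `p M q` -/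
theorem exists_pi {x p q : H →L[ℂ] H} (hx : x ∈ M) (h0 : x ≠ 0) (hp : p * x = x)
    (hq : x * q = x) : ∃ v ∈ M, v ≠ 0 ∧ v * star v * v = v ∧ p * v = v ∧ v * q = v := by
  obtain ⟨v, hv, a, -, -, -, h1, h2, h3, h4, -⟩ := polar hx
  refine ⟨v, hv, fun h => h0 (by rw [← h1, h, zero_mul]), h2, ?_, ?_⟩
  · rw [← h2, h4, ← mul_assoc, mul_rp_self hp]
  · have : star q * rp (star x) = rp (star x) :=
      mul_rp_self (by rw [← star_mul, hq])
    have := congrArg star this
    simp only [star_mul, star_star, (rp_proj _).1] at this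
    rw [← h2, mul_assoc v, h3, mul_assoc, this]

/-- weak ultralimits -/
theorem exists_wlim {I : Type*} (𝔘 : Ultrafilter I) (x : I → H →L[ℂ] H) {R : ℝ} (hR : 0 ≤ R)
    (h : ∀ i, ‖x i‖ ≤ R) :
    ∃ y : H →L[ℂ] H, ‖y‖ ≤ R ∧ ∀ η ξ, Tendsto (fun i => ⟪η, x i ξ⟫_ℂ) 𝔘 (𝓝 ⟪η, y ξ⟫_ℂ) := by
  have hb : ∀ η ξ i, ‖⟪η, x i ξ⟫_ℂ‖ ≤ R * ‖η‖ * ‖ξ‖ := fun η ξ i => by
    refine (norm_inner_le_norm _ _).trans ?_
    have := (x i).le_of_opNorm_le (h i) ξ
    nlinarith [norm_nonneg η]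
  choose l hl using fun η ξ => KS.Form.exists_ulim 𝔘 (fun i => ⟪η, x i ξ⟫_ℂ) _ (hb η ξ)
  obtain ⟨y, hy, hy'⟩ := KS.Form.form (LinearMap.id : H →ₗ[ℂ] H) denseRange_id l
    (fun a b c => tendsto_nhds_unique (hl _ _) (by
      simpa [inner_add_left] using (hl a c).add (hl b c)))
    (fun z a b => tendsto_nhds_unique (hl _ _) (by
      simpa only [inner_smul_left] using (hl a b).const_mul (conj z)))
    (fun a b c => tendsto_nhds_unique (hl _ _) (by
      simpa [inner_add_right] using (hl a b).add (hl a c)))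
    (fun z a b => tendsto_nhds_unique (hl _ _) (by
      simpa [inner_smul_right] using (hl a b).const_mul z)) R hR
    fun a b => le_of_tendsto' (hl a b).norm (hb a b)
  exact ⟨y, hy, fun η ξ => by simpa [← hy'] using hl η ξ⟩

omit [CompleteSpace H] in
theorem ext_inner {a b : H →L[ℂ] H} (h : ∀ η ξ, ⟪η, a ξ⟫_ℂ = ⟪η, b ξ⟫_ℂ) : a = b := by
  ext ξ
  exact ext_inner_left ℂ fun η => h η ξ

/-- weak limits respect eventual two-sided identities -/
theorem wlim_eq {I : Type*} {l : Filter I} [l.NeBot] {x : I → H →L[ℂ] H} {y : H →L[ℂ] H}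
    (hy : ∀ η ξ, Tendsto (fun i => ⟪η, x i ξ⟫_ℂ) l (𝓝 ⟪η, y ξ⟫_ℂ)) {a b c d e : H →L[ℂ] H}
    (h : ∀ᶠ i in l, a * x i * b = c * x i * d + e) : a * y * b = c * y * d + e := by
  refine ext_inner fun η ξ => ?_
  have k : ∀ u v t : H →L[ℂ] H, ⟪η, (u * t * v) ξ⟫_ℂ = ⟪star u η, t (v ξ)⟫_ℂ := fun u v t => by
    rw [ContinuousLinearMap.star_eq_adjoint, ContinuousLinearMap.adjoint_inner_left]; rfl
  rw [ContinuousLinearMap.add_apply, inner_add_right, k, k]
  refine tendsto_nhds_unique ((hy _ _).congr' ?_) ((hy (star c η) (d ξ)).add_const ⟪η, e ξ⟫_ℂ)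
  filter_upwards [h] with i hi
  rw [← k, hi, ContinuousLinearMap.add_apply, inner_add_right, k]

theorem wlim_mem {I : Type*} {l : Filter I} [l.NeBot] {x : I → H →L[ℂ] H} {y : H →L[ℂ] H}
    (hy : ∀ η ξ, Tendsto (fun i => ⟪η, x i ξ⟫_ℂ) l (𝓝 ⟪η, y ξ⟫_ℂ)) (h : ∀ᶠ i in l, x i ∈ M) :
    y ∈ M := mem_of_comm fun z hz => by
  simpa using wlim_eq hy (a := z) (b := 1) (c := 1) (d := z) (e := 0) (by
    filter_upwards [h] with i hi
    simpa using comm_of_mem hi hz)

/-- spectral projection of the positive half line -/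
theorem exists_spec {a : H →L[ℂ] H} (ha : a ∈ M) (hs : star a = a) :
    ∃ e ∈ M, Proj e ∧ (∀ z, z * a = a * z → star z * a = a * star z → z * e = e * z) ∧
      e * a = a⁺ ∧ (1 - e) * a = -a⁻ ∧ ∀ y, y * a⁺ = 0 → y * e = 0 := by
  have hs' : IsSelfAdjoint a := hs
  have h1 : a⁺ ∈ M := cfcₙ_mem' _ ha
  have h2 : a⁻ * rp a⁺ = 0 := mul_rp (CFC.negPart_mul_posPart a)
  have h3 : rp a⁺ * a⁻ = 0 := by
    simpa [(rp_proj _).1, (IsSelfAdjoint.of_nonneg (CFC.negPart_nonneg a)).star_eq] using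
      congrArg star h2
  have h4 : rp a⁺ * a = a⁺ := by
    conv_lhs => enter [2]; rw [← CFC.posPart_sub_negPart a]
    rw [mul_sub, h3, rp_mul, sub_zero]
  refine ⟨rp a⁺, rp_mem h1, rp_proj _, fun z hz hz' => rp_comm ?_ ?_, h4, ?_, fun y hy => mul_rp hy⟩
  · exact (Commute.cfcₙ_real (a := a) (b := z) hz.symm _).symm
  · exact (Commute.cfcₙ_real (a := a) (b := star z) hz'.symm _).symm
  · rw [sub_mul, h4, one_mul]
    conv_lhs => enter [1]; rw [← CFC.posPart_sub_negPart a]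
    abel

/-- central support -/
noncomputable def cs (M : VonNeumannAlgebra H) (p : H →L[ℂ] H) : H →L[ℂ] H :=
  sp {x | ∃ a ∈ M, x = a * p}

theorem cs_proj (p : H →L[ℂ] H) : Proj (cs M p) := sp_proj _
theorem cs_mem {p : H →L[ℂ] H} (hp : p ∈ M) : cs M p ∈ M :=
  sp_mem (by rintro _ ⟨a, ha, rfl⟩; exact mul_mem ha hp)
theorem cs_mul' (p : H →L[ℂ] H) {a : H →L[ℂ] H} (ha : a ∈ M) : cs M p * (a * p) = a * p :=
  sp_mul ⟨a, ha, rfl⟩
theorem cs_mul (p : H →L[ℂ] H) : cs M p * p = p := by simpa using cs_mul' p (one_mem M)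
theorem cs_comm (p : H →L[ℂ] H) {z : H →L[ℂ] H} (hz : z ∈ M) : z * cs M p = cs M p * z :=
  sp_comm (by rintro _ ⟨a, ha, rfl⟩; rw [← mul_assoc z]; exact cs_mul' p (mul_mem hz ha))
    (by rintro _ ⟨a, ha, rfl⟩; rw [← mul_assoc (star z)]; exact cs_mul' p (mul_mem (star_mem hz) ha))
theorem mul_cs {p y : H →L[ℂ] H} (h : ∀ a ∈ M, y * a * p = 0) : y * cs M p = 0 :=
  mul_sp (by rintro _ ⟨a, ha, rfl⟩; rw [← mul_assoc, h a ha])

end Crest.Agent.KR.VN
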