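import Crest.Agent.KR.Defs
import Crest.Agent.KR.VN
/-! The von Neumann algebra toolkit, part 1. -/
set_option autoImplicit false
set_option linter.deprecated false
namespace Crest.Agent.KR
open scoped InnerProductSpace ComplexConjugate
open Filter Topology Crest.Agent.GP VN

universe u

variable {A : Type u} [CStarAlgebra A] {H : Type u} [NormedAddCommGroup H]
  [InnerProductSpace ℂ H] [CompleteSpace H] (ρ : A →⋆ₐ[ℂ] (H →L[ℂ] H))

namespace Kt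

/-- the image as a von Neumann algebra -/
noncomputable def vM (hV : VN ρ) : VonNeumannAlgebra H where
  toStarSubalgebra := (⊤ : StarSubalgebra ℂ A).map ρ
  centralizer_centralizer' := by
    refine Set.Subset.antisymm (fun X hX => ?_) Set.subset_centralizer_centralizer
    obtain ⟨a, ha⟩ := hV.bi X fun S hS => hX S (by
      rintro _ ⟨a, -, rfl⟩
      exact (hS a).symm)
    exact ⟨a, trivial, ha⟩

variable {ρ}

theorem mem_vM (hV : VN ρ) {X : H →L[ℂ] H} : X ∈ vM ρ hV ↔ ∃ a, ρ a = X :=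
  ⟨fun ⟨a, _, ha⟩ => ⟨a, ha⟩, fun ⟨a, ha⟩ => ⟨a, trivial, ha⟩⟩

theorem rho_mem (hV : VN ρ) (a : A) : ρ a ∈ vM ρ hV := (mem_vM hV).2 ⟨a, rfl⟩

theorem norm_rho (hV : VN ρ) (a : A) : ‖ρ a‖ = ‖a‖ := NonUnitalStarAlgHom.norm_map ρ hV.inj a

theorem proj_of (hV : VN ρ) {p : A} (h : Proj (ρ p)) : Proj p :=
  ⟨hV.inj (by rw [map_star, h.1]), hV.inj (by rw [map_mul, h.2])⟩

theorem zero_of (hV : VN ρ) {p : A} (h : ρ p = 0) : p = 0 := hV.inj (by rw [h, map_zero])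

omit [CompleteSpace H] in
theorem orth_sq {I : Type*} (f : I → H) (h : ∀ i j, i ≠ j → ⟪f i, f j⟫_ℂ = 0) (s : Finset I) :
    ‖∑ i ∈ s, f i‖ ^ 2 = ∑ i ∈ s, ‖f i‖ ^ 2 := by
  classical
  induction s using Finset.induction_on with
  | empty => simp
  | insert a s ha ih =>
    rw [Finset.sum_insert ha, Finset.sum_insert ha, ← ih, sq, sq, sq]
    refine norm_add_sq_eq_norm_sq_add_norm_sq_of_inner_eq_zero (𝕜 := ℂ) _ _ ?_
    rw [inner_sum]
    exact Finset.sum_eq_zero fun i hi => h _ _ fun e => ha (e ▸ hi)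

theorem inner_zero_of {x y : H →L[ℂ] H} (h : star x * y = 0) (ξ η : H) : ⟪x ξ, y η⟫_ℂ = 0 := by
  rw [← ContinuousLinearMap.adjoint_inner_right, ← ContinuousLinearMap.star_eq_adjoint,
    ← ContinuousLinearMap.mul_apply, h]
  simp

theorem exists_sum {M : VonNeumannAlgebra H} {I : Type*} (v : I → H →L[ℂ] H) (hM : ∀ i, v i ∈ M)
    (h0 : ∀ i, ‖v i‖ ≤ 1) (h1 : ∀ i j, i ≠ j → star (v i) * v j = 0)
    (h2 : ∀ i j, i ≠ j → v i * star (v j) = 0) :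
    ∃ V ∈ M, ‖V‖ ≤ 1 ∧ ∀ ξ, HasSum (fun i => v i ξ) (V ξ) := by
  have b1 : ∀ ξ (s : Finset I), ∑ i ∈ s, ‖v i ξ‖ ^ 2 ≤ ‖ξ‖ ^ 2 := by
    intro ξ s
    have e1 : ∑ i ∈ s, ‖v i ξ‖ ^ 2 = (⟪ξ, ∑ i ∈ s, star (v i) (v i ξ)⟫_ℂ).re := by
      rw [inner_sum, Complex.re_sum]
      refine Finset.sum_congr rfl fun i _ => ?_
      rw [ContinuousLinearMap.star_eq_adjoint, ContinuousLinearMap.adjoint_inner_right]
      exact (inner_self_eq_norm_sq (𝕜 := ℂ) _).symm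
    have e2 : ‖∑ i ∈ s, star (v i) (v i ξ)‖ ^ 2 ≤ ∑ i ∈ s, ‖v i ξ‖ ^ 2 := by
      rw [orth_sq _ fun i j hij => inner_zero_of (by simpa using h2 i j hij) _ _]
      refine Finset.sum_le_sum fun i _ => pow_le_pow_left₀ (norm_nonneg _) ?_ 2
      exact ((star (v i)).le_of_opNorm_le (c := 1) (by rw [norm_star]; exact h0 i) (v i ξ)).trans_eq
        (one_mul _)
    have e3 := (Complex.re_le_norm _).trans
      (norm_inner_le_norm (𝕜 := ℂ) ξ (∑ i ∈ s, star (v i) (v i ξ)))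
    rw [← e1] at e3
    nlinarith [sq_nonneg (‖ξ‖ - ‖∑ i ∈ s, star (v i) (v i ξ)‖)]
  have b2 : ∀ ξ (s : Finset I), ‖∑ i ∈ s, v i ξ‖ ^ 2 = ∑ i ∈ s, ‖v i ξ‖ ^ 2 := fun ξ =>
    orth_sq _ fun i j hij => inner_zero_of (h1 i j hij) _ _
  have b3 : ∀ ξ, Summable fun i => v i ξ := by
    intro ξ
    have hs : Summable fun i => ‖v i ξ‖ ^ 2 :=
      summable_of_sum_le (fun _ => by positivity) (b1 ξ)
    rw [summable_iff_vanishing_norm] at hs ⊢
    intro ε hε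
    obtain ⟨s, hs⟩ := hs (ε ^ 2) (by positivity)
    refine ⟨s, fun t ht => ?_⟩
    have := hs t ht
    rw [← b2, Real.norm_of_nonneg (by positivity)] at this
    exact lt_of_pow_lt_pow_left₀ 2 hε.le this
  let L : H →ₗ[ℂ] H :=
    { toFun := fun ξ => ∑' i, v i ξ
      map_add' := fun ξ η => by
        simp only [map_add]; exact (b3 ξ).tsum_add (b3 η)
      map_smul' := fun c ξ => by
        simp only [map_smul, RingHom.id_apply]; exact (b3 ξ).tsum_const_smul c }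
  have b4 : ∀ ξ, ‖L ξ‖ ≤ 1 * ‖ξ‖ := by
    intro ξ
    rw [one_mul]
    refine le_of_tendsto' (b3 ξ).hasSum.norm fun s => ?_
    exact le_of_pow_le_pow_left₀ two_ne_zero (norm_nonneg _) ((b2 ξ s).trans_le (b1 ξ s))
  have b5 : ∀ ξ, HasSum (fun i => v i ξ) (L.mkContinuous 1 b4 ξ) := fun ξ => (b3 ξ).hasSum
  refine ⟨L.mkContinuous 1 b4, mem_of_comm fun z hz => ?_,
    LinearMap.mkContinuous_norm_le _ zero_le_one _, b5⟩
  ext ξ
  refine HasSum.unique ((b5 ξ).mapL z) ?_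
  have : (fun i => z (v i ξ)) = fun i => v i (z ξ) :=
    funext fun i => congr($(comm_of_mem (hM i) hz) ξ)
  rw [this]
  exact b5 _

end Kt
open Kt

theorem kit_pre (hV : VN ρ) : ∃ P : Pre A, IsVec ρ P := by
  have hφ : ∀ η ξ : H, ∃ φ : A →L[ℂ] ℂ, ∀ x, φ x = ⟪η, ρ x ξ⟫_ℂ := fun η ξ =>
    ⟨innerSL ℂ η ∘L ContinuousLinearMap.apply ℂ H ξ ∘L
      (ρ : A →ₗ[ℂ] (H →L[ℂ] H)).mkContinuous 1 (fun a => by
        rw [one_mul]; exact (norm_rho hV a).le), fun x => rfl⟩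
  refine ⟨⟨{φ | ∃ η ξ : H, ∀ x, φ x = ⟪η, ρ x ξ⟫_ℂ}, fun x hx => ?_, ?_, ?_⟩, fun φ => Iff.rfl⟩
  · refine zero_of hV (ext_inner fun η ξ => ?_)
    obtain ⟨φ, h⟩ := hφ η ξ
    rw [← h, hx φ ⟨η, ξ, h⟩]; simp
  · rintro φ ⟨η, ξ, h⟩ a b
    obtain ⟨ψ, hψ⟩ := hφ (ρ (star a) η) (ρ b ξ)
    refine ⟨ψ, ⟨_, _, hψ⟩, fun x => ?_⟩
    rw [hψ, h, map_star, ContinuousLinearMap.star_eq_adjoint,
      ContinuousLinearMap.adjoint_inner_left, map_mul, map_mul]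
    rfl
  · intro 𝔘 R hR
    classical
    have hR0 : 0 ≤ R := by
      obtain ⟨x, hx⟩ := hR.exists
      exact (norm_nonneg _).trans hx
    obtain ⟨y, hy, hy'⟩ := exists_wlim 𝔘 (fun x => ρ (if ‖x‖ ≤ R then x else 0)) hR0 fun x => by
      rw [norm_rho hV]; split_ifs with h
      · exact h
      · simpa using hR0
    obtain ⟨a, rfl⟩ := (mem_vM hV).1 (wlim_mem hy' (Eventually.of_forall fun x => rho_mem hV _))
    refine ⟨a, by rwa [norm_rho hV] at hy, ?_⟩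
    rintro φ ⟨η, ξ, h⟩
    rw [h]
    refine (hy' η ξ).congr' ?_
    filter_upwards [hR] with x hx
    rw [if_pos hx, h]

theorem kit_cyc (hV : VN ρ) : ∀ S : Set H, ∃ p, Proj p ∧ (∀ ξ ∈ S, ρ p ξ = ξ) ∧
    ∀ x, (∀ ξ ∈ S, ρ x ξ = 0) → x * p = 0 := by
  intro S
  let S' : Set (H →L[ℂ] H) :=
    {x | ∃ T ∈ (vM ρ hV).commutant, ∃ ξ ∈ S, x = T * (innerSL ℂ ξ).smulRight ξ}
  have hm : sp S' ∈ vM ρ hV := mem_of_comm fun z hz => sp_comm
    (by rintro _ ⟨T, hT, ξ, hξ, rfl⟩; rw [← mul_assoc z]; exact sp_mul ⟨_, mul_mem hz hT, ξ, hξ, rfl⟩)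
    (by
      rintro _ ⟨T, hT, ξ, hξ, rfl⟩
      rw [← mul_assoc (star z)]
      exact sp_mul ⟨_, mul_mem (star_mem hz) hT, ξ, hξ, rfl⟩)
  obtain ⟨p, hp⟩ := (mem_vM hV).1 hm
  refine ⟨p, proj_of hV (hp ▸ sp_proj _), fun ξ hξ => ?_, fun x hx => zero_of hV ?_⟩
  · by_cases h0 : ξ = 0
    · simp [h0]
    have := congr($(sp_mul (S := S') ⟨1, one_mem _, ξ, hξ, rfl⟩) ξ)
    simp only [one_mul, ContinuousLinearMap.mul_apply, ContinuousLinearMap.smulRight_apply,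
      innerSL_apply_apply, map_smul] at this
    rw [hp]
    exact smul_right_injective H (inner_self_ne_zero.2 h0) this
  · rw [map_mul, hp]
    refine mul_sp ?_
    rintro _ ⟨T, hT, ξ, hξ, rfl⟩
    rw [← mul_assoc, ← comm_of_mem (rho_mem hV x) hT, mul_assoc]
    ext η
    simp [hx ξ hξ]

theorem kit_supp (hV : VN ρ) : ∀ S : Set A, ∃ z, CP z ∧ (∀ a ∈ S, z * a = a) ∧
    ∀ b, (∀ a ∈ S, ∀ x, b * x * a = 0) → b * z = 0 := by
  intro S
  let S' : Set (H →L[ℂ] H) := {y | ∃ x, ∃ a ∈ S, y = ρ (x * a)}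
  obtain ⟨z, hz⟩ := (mem_vM hV).1 (sp_mem (S := S') (by rintro _ ⟨x, a, -, rfl⟩; exact rho_mem hV _))
  refine ⟨z, ⟨proj_of hV (hz ▸ sp_proj _), fun y => hV.inj ?_⟩, fun a ha => hV.inj ?_,
    fun b hb => zero_of hV ?_⟩
  · rw [map_mul, map_mul, hz]
    refine (sp_comm ?_ ?_).symm
    · rintro _ ⟨x, a, ha, rfl⟩
      rw [← map_mul, ← mul_assoc y]; exact sp_mul ⟨_, a, ha, rfl⟩
    · rintro _ ⟨x, a, ha, rfl⟩
      rw [← map_star, ← map_mul, ← mul_assoc (star y)]; exact sp_mul ⟨_, a, ha, rfl⟩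
  · rw [map_mul, hz]; exact sp_mul ⟨1, a, ha, by rw [one_mul]⟩
  · rw [map_mul, hz]
    refine mul_sp ?_
    rintro _ ⟨x, a, ha, rfl⟩
    rw [← map_mul, ← mul_assoc, hb a ha, map_zero]

theorem kit_sum (hV : VN ρ) : ∀ {I : Type u} (v : I → A), (∀ i, ‖v i‖ ≤ 1) →
    (∀ i j, i ≠ j → star (v i) * v j = 0) → (∀ i j, i ≠ j → v i * star (v j) = 0) →
    ∃ V : A, ‖V‖ ≤ 1 ∧ (∀ ξ, HasSum (fun i => ρ (v i) ξ) (ρ V ξ)) ∧
      ∀ ξ, HasSum (fun i => ρ (star (v i)) ξ) (ρ (star V) ξ) := by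
  intro I v h0 h1 h2
  obtain ⟨V, hM, hV1, hV2⟩ := exists_sum (fun i => ρ (v i)) (fun i => rho_mem hV _)
    (fun i => by rw [norm_rho hV]; exact h0 i)
    (fun i j hij => by rw [← map_star, ← map_mul, h1 i j hij, map_zero])
    (fun i j hij => by rw [← map_star, ← map_mul, h2 i j hij, map_zero])
  obtain ⟨V', -, -, hV3⟩ := exists_sum (fun i => ρ (star (v i))) (fun i => rho_mem hV _)
    (fun i => by rw [norm_rho hV, norm_star]; exact h0 i)
    (fun i j hij => by rw [← map_star, ← map_mul, star_star, h2 i j hij, map_zero])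
    (fun i j hij => by rw [← map_star, ← map_mul, star_star, h1 i j hij, map_zero])
  obtain ⟨a, rfl⟩ := (mem_vM hV).1 hM
  refine ⟨a, by rwa [norm_rho hV] at hV1, hV2, fun ξ => ?_⟩
  have : V' = ρ (star a) := by
    refine ext_inner fun η ξ => ?_
    rw [map_star, ContinuousLinearMap.star_eq_adjoint, ContinuousLinearMap.adjoint_inner_right]
    refine HasSum.unique ((hV3 ξ).mapL (innerSL ℂ η)) ?_
    have := ((hV2 η).mapL (innerSL ℂ ξ)).star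
    simp only [innerSL_apply_apply, RCLike.star_def, inner_conj_symm] at this ⊢
    convert this using 2 with i
    rw [map_star, ContinuousLinearMap.star_eq_adjoint, ContinuousLinearMap.adjoint_inner_right]
  exact this ▸ hV3 ξ

end Crest.Agent.KR
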