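import Crest.Agent.KR.Kit2
import Crest.Agent.KR.Cmp
/-! Dixmier approximation in norm. -/
set_option autoImplicit false
set_option linter.deprecated false
set_option linter.unusedSimpArgs false
set_option linter.style.haveILetI false
namespace Crest.Agent.KR
open scoped InnerProductSpace ComplexConjugate
open Filter Topology Crest.Agent.GP Kt

universe u

namespace Nd
variable {A : Type u} [CStarAlgebra A]

/-- averaging maps -/
def IsAv (Φ : A → A) : Prop := ∃ (K : Type) (_ : Fintype K) (w : K → ℝ) (u : K → A),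
  (∀ k, 0 ≤ w k) ∧ ∑ k, w k = 1 ∧ (∀ k, u k ∈ unitary A) ∧
    ∀ x, Φ x = ∑ k, (w k : ℂ) • (u k * x * star (u k))

theorem IsAv.id : IsAv (fun x : A => x) :=
  ⟨Unit, inferInstance, fun _ => 1, fun _ => 1, by simp, by simp, fun _ => one_mem _, by simp⟩

theorem IsAv.comp {Φ Ψ : A → A} (h : IsAv Φ) (h' : IsAv Ψ) : IsAv fun x => Φ (Ψ x) := by
  obtain ⟨K, _, w, u, h1, h2, h3, h4⟩ := h
  obtain ⟨K', _, w', u', h1', h2', h3', h4'⟩ := h'
  refine ⟨K × K', inferInstance, fun k => w k.1 * w' k.2, fun k => u k.1 * u' k.2,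
    fun k => mul_nonneg (h1 _) (h1' _), ?_, fun k => mul_mem (h3 _) (h3' _), fun x => ?_⟩
  · rw [Fintype.sum_prod_type]
    simp only [← Finset.mul_sum, h2', mul_one, h2]
  · beta_reduce
    rw [Fintype.sum_prod_type, h4, h4']
    refine Finset.sum_congr rfl fun k _ => ?_
    rw [Finset.mul_sum, Finset.sum_mul, Finset.smul_sum]
    refine Finset.sum_congr rfl fun k' _ => ?_
    simp only [mul_smul_comm, smul_mul_assoc, smul_smul, star_mul, mul_assoc, Complex.ofReal_mul]

theorem IsAv.add {Φ : A → A} (h : IsAv Φ) (x y : A) : Φ (x + y) = Φ x + Φ y := by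
  obtain ⟨K, _, w, u, -, -, -, h4⟩ := h
  simp only [h4, mul_add, add_mul, smul_add, Finset.sum_add_distrib]

theorem IsAv.smul {Φ : A → A} (h : IsAv Φ) (c : ℂ) (x : A) : Φ (c • x) = c • Φ x := by
  obtain ⟨K, _, w, u, -, -, -, h4⟩ := h
  simp only [h4, mul_smul_comm, smul_mul_assoc, Finset.smul_sum, smul_comm c]

theorem IsAv.star {Φ : A → A} (h : IsAv Φ) (x : A) : star (Φ x) = Φ (star x) := by
  obtain ⟨K, _, w, u, -, -, -, h4⟩ := h
  simp only [h4, star_sum, star_smul, star_mul, star_star, mul_assoc, Complex.star_def,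
    Complex.conj_ofReal]

theorem IsAv.cen {Φ : A → A} (h : IsAv Φ) {c : A} (hc : c ∈ cen A) : Φ c = c := by
  obtain ⟨K, _, w, u, -, h2, h3, h4⟩ := h
  have : ∀ k, u k * c * Star.star (u k) = c := fun k => by
    rw [← hc, mul_assoc, (h3 k).2, mul_one]
  simp only [h4, this, ← Finset.sum_smul, ← Complex.ofReal_sum, h2, Complex.ofReal_one, one_smul]

theorem IsAv.norm {Φ : A → A} (h : IsAv Φ) (x : A) : ‖Φ x‖ ≤ ‖x‖ := by
  obtain ⟨K, _, w, u, h1, h2, h3, h4⟩ := h
  rw [h4]
  refine (norm_sum_le _ _).trans ?_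
  have : ∀ k, ‖(w k : ℂ) • (u k * x * Star.star (u k))‖ ≤ w k * ‖x‖ := fun k => by
    rw [norm_smul, Complex.norm_real, Real.norm_of_nonneg (h1 k)]
    refine mul_le_mul_of_nonneg_left ?_ (h1 k)
    simpa using norm_mul_le' (norm_mul_le' (norm_unit (h3 k)) (le_refl ‖x‖))
      (norm_unit (Unitary.star_mem (h3 k)))
  refine (Finset.sum_le_sum fun k _ => this k).trans ?_
  rw [← Finset.sum_mul, h2, one_mul]

theorem IsAv.norm_sub {Φ : A → A} (h : IsAv Φ) (x : A) {c : A} (hc : c ∈ KR.cen A) :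
    ‖Φ x - c‖ ≤ ‖x - c‖ := by
  have := h.add (x - c) c
  rw [sub_add_cancel, h.cen hc] at this
  rw [this, add_sub_cancel_right]
  exact h.norm _

theorem norm_le_of_order [PartialOrder A] [StarOrderedRing A] {a : A} (ha : IsSelfAdjoint a) {R : ℝ}
    (hR : 0 ≤ R) (h1 : a ≤ R • 1) (h2 : -(R • 1) ≤ a) : ‖a‖ ≤ R := by
  rw [← neg_smul] at h2
  rw [← Algebra.algebraMap_eq_smul_one] at h1 h2
  rw [← cfc_id' ℝ a]
  refine norm_cfc_le hR fun t ht => ?_
  exact abs_le.2 ⟨(algebraMap_le_iff_le_spectrum (a := a)).1 h2 t ht,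
    (le_algebraMap_iff_spectrum_le (a := a)).1 h1 t ht⟩

/-- the flip attached to a nilpotent partial isometry -/
theorem flip {t e : A} (ht : t * star t * t = t) (he : Proj e) (h1 : e * t = 0) (h2 : t * e = t) :
    ∃ u ∈ unitary A, star u = u ∧ u * e * u = e - star t * t + t * star t := by
  have h0 : t * t = 0 := by rw [← h2, mul_assoc, ← mul_assoc e, h1]; simp
  have h0' : star t * star t = 0 := by simpa using congrArg star h0
  have h1' : star t * e = 0 := by simpa [he.1] using congrArg star h1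
  have h2' : e * star t = star t := by simpa [he.1] using congrArg star h2
  have ht' := pi_star ht
  have a1 : ∀ x, t * (t * x) = 0 := fun x => by rw [← mul_assoc, h0, zero_mul]
  have a2 : ∀ x, star t * (star t * x) = 0 := fun x => by rw [← mul_assoc, h0', zero_mul]
  have a3 : ∀ x, t * (star t * (t * x)) = t * x := fun x => by rw [← mul_assoc, ← mul_assoc, ht]
  have a4 : ∀ x, star t * (t * (star t * x)) = star t * x := fun x => by
    rw [← mul_assoc, ← mul_assoc, ht']
  have a5 : t * (star t * t) = t := by rw [← mul_assoc, ht]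
  have a6 : star t * (t * star t) = star t := by rw [← mul_assoc, ht']
  have a7 : ∀ x, e * (t * x) = 0 := fun x => by rw [← mul_assoc, h1, zero_mul]
  have a8 : ∀ x, e * (star t * x) = star t * x := fun x => by rw [← mul_assoc, h2']
  have hs : star (t + star t + (1 - star t * t - t * star t)) =
      t + star t + (1 - star t * t - t * star t) := by
    simp [add_comm]
  have hu : (t + star t + (1 - star t * t - t * star t)) *
      (t + star t + (1 - star t * t - t * star t)) = 1 := by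
    simp only [mul_add, add_mul, mul_sub, sub_mul, mul_assoc, mul_one, one_mul, h0, h0', a1, a2, a3,
      a4, a5, a6, mul_zero]
    abel
  refine ⟨_, ⟨by rw [hs, hu], by rw [hs, hu]⟩, hs, ?_⟩
  simp only [mul_add, add_mul, mul_sub, sub_mul, mul_assoc, mul_one, one_mul, h0, h0', a1, a2, a3,
    a4, a5, a6, a7, a8, mul_zero, h1, h2, h1', h2']
  abel

variable {H : Type u} [NormedAddCommGroup H]
  [InnerProductSpace ℂ H] [CompleteSpace H] {ρ : A →⋆ₐ[ℂ] (H →L[ℂ] H)}

theorem step (hK : Kit ρ) (hC : CmpStmt A) {h : A} (hs : star h = h) :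
    ∃ Φ, IsAv Φ ∧ ∃ c ∈ cen A, star c = c ∧ ‖Φ h - c‖ ≤ 3 / 4 * ‖h‖ := by
  letI := CStarAlgebra.spectralOrder A
  haveI := CStarAlgebra.spectralOrderedRing A
  have hs' : IsSelfAdjoint h := hs
  obtain ⟨v0, h', k, -, g1, -, g2, -, g4⟩ := hK.polar h⁺
  set e := v0 * star v0 with hed
  have he : Proj e := pi_proj' g2
  have e1 : e * h⁺ = h⁺ := by rw [← g1, ← mul_assoc, g2]
  have e2 : h⁻ * e = 0 := by rw [hed, ← mul_assoc, g4 _ (CFC.negPart_mul_posPart h), zero_mul]
  have sp : star h⁺ = h⁺ := (IsSelfAdjoint.of_nonneg (CFC.posPart_nonneg h)).star_eq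
  have sn : star h⁻ = h⁻ := (IsSelfAdjoint.of_nonneg (CFC.negPart_nonneg h)).star_eq
  have e1' : h⁺ * e = h⁺ := by simpa [he.1, sp] using congrArg star e1
  have e2' : e * h⁻ = 0 := by simpa [he.1, sn] using congrArg star e2
  set r := ‖h‖ with hr
  have r0 : 0 ≤ r := norm_nonneg _
  have hd := CFC.posPart_sub_negPart h
  have u1 : h ≤ r • e := by
    have := star_left_conjugate_le_conjugate (hs'.le_algebraMap_norm_self) e
    rw [he.1, Algebra.algebraMap_eq_smul_one, mul_smul_comm, smul_mul_assoc, mul_one, he.2] at this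
    refine le_trans ?_ this
    conv_rhs => rw [← hd]
    rw [mul_sub, e1, e2', sub_zero, e1']
    conv_lhs => rw [← hd]
    exact sub_le_self _ (CFC.negPart_nonneg h)
  have u2 : -(r • (1 - e)) ≤ h := by
    have := star_left_conjugate_le_conjugate (hs'.neg_algebraMap_norm_le_self) (1 - e)
    rw [he.compl.1, Algebra.algebraMap_eq_smul_one, mul_neg, neg_mul, mul_smul_comm, smul_mul_assoc,
      mul_one, he.compl.2] at this
    refine this.trans ?_
    have : (1 - e) * h * (1 - e) = -h⁻ := by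
      conv_lhs => rw [← hd]
      simp only [mul_sub, sub_mul, one_mul, mul_one, e1, e2', e1', e2, zero_mul]
      abel
    rw [this]
    conv_rhs => rw [← hd, sub_eq_add_neg]
    exact le_add_of_nonneg_left (CFC.posPart_nonneg h)
  obtain ⟨z, v, w, hz, c1, c2, c3, c4⟩ := hC e (1 - e) he he.compl
  have hz' : CP (1 - z) := ⟨hz.1.compl, fun y => by rw [sub_mul, mul_sub, hz.2, one_mul, mul_one]⟩
  have cp : ∀ {y x : A}, CP y → Proj x → Proj (y * x) := fun {y x} hy hx =>
    ⟨by rw [star_mul, hy.1.1, hx.1, hy.2], by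
      rw [mul_assoc, ← mul_assoc x, ← hy.2, ← mul_assoc, ← mul_assoc, hy.1.2, mul_assoc, hx.2]⟩
  have pi : ∀ {x : A}, Proj (star x * x) → x * (star x * x) = x := fun {x} hx => by
    refine mul_right_of ((CStarRing.star_mul_self_eq_zero_iff _).1 ?_)
    rw [star_mul, hx.compl.1, mul_assoc, ← mul_assoc (star x), mul_sub, mul_one, hx.2, sub_self,
      mul_zero]
  have v1 : v * (z * e) = v := by rw [← c1]; exact pi (c1 ▸ cp hz he)
  have w1 : w * ((1 - z) * (1 - e)) = w := by rw [← c3]; exact pi (c3 ▸ cp hz' he.compl)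
  have v2 : z * v = v := by rw [← v1, hz.2, mul_assoc, mul_assoc, ← hz.2, ← mul_assoc z, hz.1.2]
  have v3 : v * e = v := by rw [← v1, mul_assoc, mul_assoc, he.2]
  have v4 : e * v = 0 := by rw [← c2, ← mul_assoc, mul_sub, he.2]; simp
  have w2 : z * w = 0 := by
    rw [← w1, hz.2, mul_assoc, mul_assoc, ← hz.2, ← mul_assoc (1 - z), sub_mul, hz.1.2]; simp
  have w3 : w * e = 0 := by rw [← w1, mul_assoc, mul_assoc, sub_mul 1 e e, he.2]; simp
  have w2' : z * star w = 0 := by
    have := congrArg star w2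
    rwa [star_mul, hz.1.1, ← hz.2, star_zero] at this
  have wv : w * v = 0 := by rw [← v2, ← mul_assoc, ← hz.2, w2, zero_mul]
  have vw : v * w = 0 := by rw [← v2, hz.2, mul_assoc, w2, mul_zero]
  have wv' : star v * star w = 0 := by simpa using congrArg star wv
  have vw' : star w * star v = 0 := by simpa using congrArg star vw
  set t := v + star w with htd
  have t1 : star t * t = z * e + w * star w := by
    rw [htd, star_add, star_star, add_mul, mul_add, mul_add, c1, wv, wv']; simp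
  have t2 : t * star t = v * star v + (1 - z) * (1 - e) := by
    rw [htd, star_add, star_star, add_mul, mul_add, mul_add, c3, vw, vw']; simp
  have ht : t * star t * t = t := by
    have w1' : star w * (w * star w) = star w := by
      have := congrArg star (pi (c3 ▸ cp hz' he.compl))
      simpa [mul_assoc] using this
    rw [mul_assoc, t1, htd, add_mul, mul_add, mul_add, v1, ← mul_assoc v, vw, w1',
      ← mul_assoc (star w), ← hz.2, w2']
    simp
  have t3 : e * t = 0 := by
    have : e * star w = 0 := by simpa [he.1] using congrArg star w3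
    rw [htd, mul_add, v4, this, add_zero]
  have t4 : t * e = t := by
    have : star w * e = star w := by simpa [he.1] using congrArg star c4
    rw [htd, add_mul, v3, this]
  obtain ⟨u, hu, us, hue⟩ := flip ht he t3 t4
  set p := star t * t with hpd
  set q := t * star t with hqd
  have hp : Proj p := pi_proj ht
  have hq : Proj q := pi_proj' ht
  have p1 : e * p = p := by
    have : e * star t = star t := by simpa [he.1] using congrArg star t4
    rw [hpd, ← mul_assoc, this]
  have q1 : (1 - e) * q = q := by rw [sub_mul, hqd, ← mul_assoc e, t3]; simp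
  have p2 : z * p = z * e := by
    rw [t1, mul_add, ← mul_assoc, hz.1.2, ← mul_assoc z w, w2, zero_mul, add_zero]
  have q2 : (1 - z) * q = (1 - z) * (1 - e) := by
    rw [t2, mul_add, ← mul_assoc, ← mul_assoc, hz'.1.2, sub_mul 1 z v, v2]; simp
  have nn : ∀ {x : A}, Proj x → 0 ≤ x := fun {x} hx => by
    have := star_mul_self_nonneg x
    rwa [hx.1, hx.2] at this
  have uu : u * u = 1 := by have := hu.1; rwa [us] at this
  have u1' : u * h * u ≤ r • (e - p + q) := by
    have := star_left_conjugate_le_conjugate u1 u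
    rwa [us, mul_smul_comm, smul_mul_assoc, hue] at this
  have u2' : -(r • (1 - (e - p + q))) ≤ u * h * u := by
    have := star_left_conjugate_le_conjugate u2 u
    rwa [us, mul_neg, neg_mul, mul_smul_comm, smul_mul_assoc, mul_sub, sub_mul, hue, mul_one,
      uu] at this
  have i1 : 0 ≤ 1 + (1 - z) - e - (e - p + q) := by
    have : 1 + (1 - z) - e - (e - p + q) = z * (1 - e - q) + ((1 - z) * q + (1 - z) * p) := by
      rw [q2, mul_sub z, sub_mul 1 z p, p2]
      have : z * q = q - (1 - z) * (1 - e) := by rw [← q2, sub_mul, one_mul, sub_sub_cancel]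
      rw [this]
      noncomm_ring
    rw [this]
    exact add_nonneg (nn (cp hz (Proj.sub' he.compl hq q1)))
      (add_nonneg (nn (cp hz' hq)) (nn (cp hz' hp)))
  have i2 : 0 ≤ 1 + z - (1 - e) - (1 - (e - p + q)) := by
    have : 1 + z - (1 - e) - (1 - (e - p + q)) = z * p + z * q + (1 - z) * (e - p) := by
      have : z * q = q - (1 - z) * (1 - e) := by rw [← q2, sub_mul, one_mul, sub_sub_cancel]
      rw [this, mul_sub (1 - z) e, sub_mul 1 z p, p2]
      noncomm_ring
    rw [this]
    exact add_nonneg (add_nonneg (nn (cp hz hp)) (nn (cp hz hq))) (nn (cp hz' (Proj.sub' he hp p1)))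
  refine ⟨fun x => (1 / 2 : ℝ) • (x + u * x * u), ⟨Bool, inferInstance, fun _ => 1 / 2,
    fun b => if b then 1 else u, fun _ => by norm_num, by simp, fun b => by
      cases b
      · exact hu
      · exact one_mem _, fun x => by
      simp only [Fintype.sum_bool, if_true, Bool.false_eq_true, if_false, star_one, one_mul,
        mul_one, us, Complex.coe_smul, smul_add]⟩,
    (r / 4) • (1 - z - z), fun y => by
      simp only [smul_mul_assoc, mul_smul_comm, sub_mul, mul_sub, hz.2, one_mul, mul_one], by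
      simp [hz.1.1], ?_⟩
  refine norm_le_of_order ?_ (by positivity) ?_ ?_
  · change star _ = _
    simp [hz.1.1, hs, us, mul_assoc]
  · rw [← sub_nonneg]
    have : (3 / 4 * r) • (1 : A) - ((1 / 2 : ℝ) • (h + u * h * u) - (r / 4) • (1 - z - z)) =
        (1 / 2 : ℝ) • (r • e - h) + (1 / 2 : ℝ) • (r • (e - p + q) - u * h * u) +
          (r / 2) • (1 + (1 - z) - e - (e - p + q)) := by module
    rw [this]
    exact add_nonneg (add_nonneg (smul_nonneg (by norm_num) (sub_nonneg.2 u1))
      (smul_nonneg (by norm_num) (sub_nonneg.2 u1'))) (smul_nonneg (by positivity) i1)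
  · rw [← sub_nonneg]
    have : (1 / 2 : ℝ) • (h + u * h * u) - (r / 4) • (1 - z - z) - -((3 / 4 * r) • (1 : A)) =
        (1 / 2 : ℝ) • (h - -(r • (1 - e))) + (1 / 2 : ℝ) • (u * h * u - -(r • (1 - (e - p + q)))) +
          (r / 2) • (1 + z - (1 - e) - (1 - (e - p + q))) := by module
    rw [this]
    exact add_nonneg (add_nonneg (smul_nonneg (by norm_num) (sub_nonneg.2 u2))
      (smul_nonneg (by norm_num) (sub_nonneg.2 u2'))) (smul_nonneg (by positivity) i2)

theorem iter (hK : Kit ρ) (hC : CmpStmt A) {h : A} (hs : star h = h) (m : ℕ) :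
    ∃ Φ, IsAv Φ ∧ ∃ c ∈ cen A, star c = c ∧ ‖Φ h - c‖ ≤ (3 / 4) ^ m * ‖h‖ := by
  induction m with
  | zero => exact ⟨_, IsAv.id, 0, fun y => by simp, by simp, by simp⟩
  | succ m ih =>
    obtain ⟨Φ, hΦ, c, hc, hc', h1⟩ := ih
    obtain ⟨Ψ, hΨ, d, hd, hd', h2⟩ := step hK hC (h := Φ h - c) (by rw [star_sub, hΦ.star, hs, hc'])
    refine ⟨_, hΨ.comp hΦ, c + d, fun y => by rw [add_mul, mul_add, hc y, hd y], by
      rw [star_add, hc', hd'], ?_⟩
    have := hΨ.add (Φ h - c) c
    rw [sub_add_cancel, hΨ.cen hc] at this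
    rw [this, add_comm c d, add_sub_add_right_eq_sub, pow_succ]
    nlinarith

theorem fam (hK : Kit ρ) (hC : CmpStmt A) {I : Type} (h : I → A) (hs : ∀ i, star (h i) = h i)
    {ε : ℝ} (hε : 0 < ε) (s : Finset I) :
    ∃ Φ, IsAv Φ ∧ ∀ i ∈ s, ∃ c ∈ cen A, ‖Φ (h i) - c‖ ≤ ε := by
  classical
  induction s using Finset.induction_on with
  | empty => exact ⟨_, IsAv.id, by simp⟩
  | insert a s _ ih =>
    obtain ⟨Φ, hΦ, h1⟩ := ih
    obtain ⟨m, hm⟩ := exists_pow_lt_of_lt_one (show 0 < ε / (‖Φ (h a)‖ + 1) by positivity)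
      (show (3 / 4 : ℝ) < 1 by norm_num)
    obtain ⟨Ψ, hΨ, d, hd, -, h2⟩ := iter hK hC (h := Φ (h a)) (by rw [hΦ.star, hs]) m
    refine ⟨_, hΨ.comp hΦ, fun i hi => ?_⟩
    rcases Finset.mem_insert.1 hi with rfl | hi
    · refine ⟨d, hd, h2.trans ?_⟩
      rw [lt_div_iff₀ (by positivity)] at hm
      have : (0 : ℝ) ≤ (3 / 4) ^ m := by positivity
      nlinarith
    · obtain ⟨c, hc, h3⟩ := h1 i hi
      exact ⟨c, hc, (hΨ.norm_sub _ hc).trans h3⟩

end Nd
open Nd

theorem nd' (hVn : VnStmt.{u}) : NdStmt.{u} := by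
  intro A _ T hT I _ x ε hε
  obtain ⟨H, _, _, _, ρ, -, hV, -⟩ := hVn T hT
  choose a b ha hb _ _ hab _ using fun i => Tr.decomp (x i)
  obtain ⟨Φ, hΦ, h1⟩ := fam (kit ρ hV) (cmp ρ hV (kit ρ hV)) (Sum.elim a b)
    (by rintro (i | i); exacts [ha i, hb i]) (half_pos hε) Finset.univ
  choose c hc hc' using fun i => h1 i (Finset.mem_univ i)
  obtain ⟨K, _, w, u, h2, h3, h4, h5⟩ := id hΦ
  let e := (Fintype.equivFin K).symm
  refine ⟨_, w ∘ e, u ∘ e, fun i => c (.inl i) + Complex.I • c (.inr i), fun k => h2 _,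
    (e.sum_comp w).trans h3, fun k => h4 _, fun i y => by
      rw [add_mul, mul_add, smul_mul_assoc, mul_smul_comm, hc _ y, hc _ y], fun i => ?_⟩
  have e1 : ∑ k, ((w ∘ e) k : ℂ) • ((u ∘ e) k * x i * star ((u ∘ e) k)) = Φ (x i) :=
    (e.sum_comp fun k => (w k : ℂ) • (u k * x i * star (u k))).trans (h5 _).symm
  rw [e1, hab i, hΦ.add, hΦ.smul, add_sub_add_comm, ← smul_sub]
  refine (norm_add_le _ _).trans ?_
  rw [norm_smul, Complex.norm_I, one_mul]
  have := hc' (.inl i)
  have := hc' (.inr i)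
  simp only [Sum.elim_inl, Sum.elim_inr] at *
  linarith

theorem nd (hVn : VnStmt.{u})
    (_ : ∀ {A : Type u} [CStarAlgebra A] {H : Type u} [NormedAddCommGroup H]
      [InnerProductSpace ℂ H] [CompleteSpace H] (ρ : A →⋆ₐ[ℂ] (H →L[ℂ] H)), VN ρ → Kit ρ)
    (_ : ∀ {A : Type u} [CStarAlgebra A] {H : Type u} [NormedAddCommGroup H]
      [InnerProductSpace ℂ H] [CompleteSpace H] (ρ : A →⋆ₐ[ℂ] (H →L[ℂ] H)), VN ρ → CmpStmt A) :
    NdStmt.{u} := nd' hVn

end Crest.Agent.KR
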