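import Crest.Prelude.Def_Hochschild
/-! The prism homotopy attached to an intertwiner. -/
set_option autoImplicit false
namespace Crest.Agent.KR.Pr
open Crest.OpAlg Finset

theorem tele {V : Type*} [AddCommGroup V] (n : ℕ) (E G : ℕ → ℕ → V)
    (row : ∀ j < n + 2, ∑ k ∈ range (n + 3), (-1 : ℤ) ^ k • E j k = 0)
    (lo : ∀ j < n + 1, ∀ k < j + 1, E (j + 1) k = G j k)
    (hi : ∀ j k, j + 1 ≤ k → k < n + 2 → E j (k + 1) = G j k)
    (dg : ∀ j < n + 1, E j (j + 1) = E (j + 1) (j + 1)) :
    ∑ j ∈ range (n + 1), (-1 : ℤ) ^ j • ∑ k ∈ range (n + 2), (-1 : ℤ) ^ k • G j k =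
      E 0 0 - E (n + 1) (n + 2) := by
  let c : ℕ → V := fun j => (-1 : ℤ) ^ j • ∑ k ∈ range j, (-1 : ℤ) ^ k • E j k + E j j
  have sq : ∀ j : ℕ, (-1 : ℤ) ^ j * (-1) ^ j = 1 := fun j => by rw [← mul_pow]; simp
  have r : ∀ j < n + 2, c j = E j (j + 1) + (-1 : ℤ) ^ j •
      ∑ k ∈ range (n + 1 - j), (-1 : ℤ) ^ (j + 1 + k) • G j (j + 1 + k) := fun j hj => by
    have := row j hj
    rw [show n + 3 = j + 1 + 1 + (n + 1 - j) by omega, sum_range_add, sum_range_succ,
      sum_range_succ] at this
    have e : ∑ k ∈ range (n + 1 - j), (-1 : ℤ) ^ (j + 1 + 1 + k) • E j (j + 1 + 1 + k) =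
        -∑ k ∈ range (n + 1 - j), (-1 : ℤ) ^ (j + 1 + k) • G j (j + 1 + k) := by
      rw [← sum_neg_distrib]
      refine sum_congr rfl fun k hk => ?_
      rw [mem_range] at hk
      rw [show j + 1 + 1 + k = j + 1 + k + 1 by omega, hi j _ (by omega) (by omega), pow_succ]
      simp
    rw [e] at this
    have h2 := congrArg (fun v => (-1 : ℤ) ^ j • v) this
    simp only [smul_add, smul_smul, pow_succ, ← mul_assoc, sq, smul_neg, smul_zero, one_smul,
      one_mul, neg_smul] at h2
    simp only [c]
    rw [← sub_eq_zero, ← h2]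
    abel
  have s : ∀ j ∈ range (n + 1), (-1 : ℤ) ^ j • ∑ k ∈ range (n + 2), (-1 : ℤ) ^ k • G j k =
      c j - c (j + 1) := fun j hj => by
    rw [mem_range] at hj
    rw [r j (by omega), show n + 2 = j + 1 + (n + 1 - j) by omega, sum_range_add, dg j hj]
    simp only [c]
    rw [sum_congr rfl fun k hk => show (-1 : ℤ) ^ k • E (j + 1) k = (-1 : ℤ) ^ k • G j k by
      rw [lo j hj k (mem_range.1 hk)], pow_succ, smul_add]
    simp only [mul_neg, mul_one, neg_smul]
    abel
  rw [sum_congr rfl s, sum_range_sub', r (n + 1) (by omega)]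
  simp [c]

variable {A : Type*} [Ring A]

def tl (u : ℕ → A) : ℕ → A := fun i => u (i + 1)
def mer (k : ℕ) (u : ℕ → A) : ℕ → A :=
  fun i => if i < k then u i else if i = k then u i * u (i + 1) else u (i + 1)
def face (F : (ℕ → A) → A) (N : ℕ) (u : ℕ → A) (k : ℕ) : A :=
  if k = 0 then u 0 * F (tl u) else if k ≤ N then F (mer (k - 1) u) else F u * u N
def lift {N : ℕ} (f : (Fin N → A) → A) (u : ℕ → A) : A := f fun i => u i

theorem diff_eq {N : ℕ} (f : (Fin N → A) → A) (u : ℕ → A) :
    hochschildDiff f (fun i : Fin (N + 1) => u i) =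
      ∑ k ∈ range (N + 2), (-1 : ℤ) ^ k • face (lift f) N u k := by
  rw [sum_range_succ, sum_range_succ', hochschildDiff, add_comm (∑ _ ∈ range N, _), sum_range]
  congr 1
  · congr 1
    · simp [face, lift, tl]
    · refine sum_congr rfl fun j _ => ?_
      have : j.val + 1 ≤ N := j.2
      simp only [face, Nat.succ_ne_zero, if_false, this, if_true, lift, Nat.add_sub_cancel]
      rfl
  · simp [face, lift]

/-- the mixed sequence -/
def ins (σ : A → A) (s : A) (j : ℕ) (u : ℕ → A) : ℕ → A :=
  fun i => if i < j then σ (u i) else if i = j then s else u (i - 1)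

theorem prism' {n : ℕ} (f : (Fin (n + 1) → A) → A) (hf : ∀ a, hochschildDiff f a = 0)
    (σ : A → A) (hσ : ∀ a b, σ (a * b) = σ a * σ b) (s t : A) (hs : ∀ a, σ a * s = s * a)
    (ht : ∀ a, t * σ a = a * t) (u : ℕ → A) :
    ∑ j ∈ range (n + 1), (-1 : ℤ) ^ j • ∑ k ∈ range (n + 2), (-1 : ℤ) ^ k •
      face (fun v => t * lift f (ins σ s j v)) n u k =
        t * s * lift f u - t * lift f (fun i => σ (u i)) * s := by
  have cg : ∀ v w : ℕ → A, (∀ i < n + 1, v i = w i) → lift f v = lift f w := fun v w h => by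
    simp only [lift]; congr 1; funext i; exact h i i.2
  rw [tele n (fun j k => t * face (lift f) (n + 1) (ins σ s j u) k)
    (fun j k => face (fun v => t * lift f (ins σ s j v)) n u k)]
  · have e1 : lift f (tl (ins σ s 0 u)) = lift f u := cg _ _ fun i _ => by simp [tl, ins]
    have e2 : lift f (ins σ s (n + 1) u) = lift f fun i => σ (u i) :=
      cg _ _ fun i hi => by simp [ins, hi]
    simp only [face, if_true, e1, e2, show n + 2 ≠ 0 by omega, show ¬ n + 2 ≤ n + 1 by omega,
      if_false, mul_assoc]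
    simp [ins]
  · intro j _
    simp only [← mul_smul_comm, ← mul_sum]
    rw [← diff_eq, hf, mul_zero]
  · intro j hj k hk
    simp only [face]
    by_cases h0 : k = 0
    · simp only [h0, if_true]
      rw [← mul_assoc, ← mul_assoc, ← ht]
      congr 1
      exact cg _ _ fun i _ => by simp [tl, ins]; split_ifs <;> first | rfl | (congr 1; omega)
    · rw [if_neg h0, if_neg h0, if_pos (by omega), if_pos (by omega)]
      congr 1
      refine cg _ _ fun i _ => ?_
      simp only [mer, ins]
      split_ifs <;> first | rfl | omega | exact (hσ _ _).symm | (congr 1; omega)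
  · intro j k h1 h2
    simp only [face]
    rw [if_neg (by omega), if_neg (show k ≠ 0 by omega)]
    by_cases h0 : k ≤ n
    · rw [if_pos (by omega), if_pos h0]
      congr 1
      refine cg _ _ fun i _ => ?_
      simp only [mer, ins]
      split_ifs <;> first | rfl | omega | (congr 1; omega) | (congr 2; omega)
    · rw [if_neg (by omega), if_neg h0, mul_assoc]
      simp only [ins]
      rw [if_neg (by omega), if_neg (by omega)]
      rfl
  · intro j hj
    simp only [face]
    simp only [show j + 1 ≠ 0 by omega, show j + 1 ≤ n + 1 by omega, if_true, if_false]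
    congr 1
    refine cg _ _ fun i _ => ?_
    simp only [mer, ins]
    split_ifs <;> first | rfl | omega | exact (hs _).symm

/-- **Prism identity** -/
theorem prism {n : ℕ} (f : (Fin (n + 1) → A) → A) (hf : ∀ a, hochschildDiff f a = 0)
    (σ : A → A) (hσ : ∀ a b, σ (a * b) = σ a * σ b) (s t : A) (hs : ∀ a, σ a * s = s * a)
    (ht : ∀ a, t * σ a = a * t) (a : Fin (n + 1) → A) :
    hochschildDiff (fun x : Fin n → A => ∑ j : Fin (n + 1), (-1 : ℤ) ^ j.val •
      (t * f (j.insertNth s fun i => if i.val < j.val then σ (x i) else x i))) a =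
        t * s * f a - t * f (fun i => σ (a i)) * s := by
  let u : ℕ → A := fun i => if h : i < n + 1 then a ⟨i, h⟩ else 0
  have hu : a = fun i : Fin (n + 1) => u i := funext fun i => by
    simp only [u]; rw [dif_pos i.2]
  have := prism' f hf σ hσ s t hs ht u
  rw [hu, diff_eq]
  simp only [lift] at this
  rw [← this]
  have e : ∀ (v : ℕ → A) (j : Fin (n + 1)),
      (j.insertNth s fun i : Fin n => if i.val < j.val then σ (v i) else v i : Fin (n + 1) → A) =
        fun i : Fin (n + 1) => ins σ s j v i := fun v j => by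
    rw [Fin.insertNth_eq_iff]
    refine ⟨by simp [ins], funext fun i => ?_⟩
    simp only [Fin.removeNth, ins, Fin.succAbove, Fin.lt_def, Fin.val_castSucc]
    split_ifs with h1 h2 h3 h4 <;> simp only [Fin.val_castSucc, Fin.val_succ] at * <;>
      first | rfl | omega
  simp only [smul_sum]
  rw [sum_comm]
  refine sum_congr rfl fun k _ => ?_
  rw [sum_range]
  simp only [face, lift, e]
  split_ifs <;> simp only [mul_sum, sum_mul, smul_sum, mul_smul_comm, smul_mul_assoc] <;>
    exact sum_congr rfl fun j _ => smul_comm _ _ _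

end Crest.Agent.KR.Pr
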