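import Crest.Agent.KR.Lc1
import Crest.Agent.KR.Prism
/-! The approximants in the properly infinite case: algebraic part. -/
set_option autoImplicit false
namespace Crest.Agent.KR.PIa
open Crest.OpAlg Crest.Agent.GP Crest.Agent.KR

variable {A : Type*} [CStarAlgebra A] {n : ℕ}

/-- the differential with values in maps -/
noncomputable def D (a : Fin (n + 1) → A) (y : A) : ((Fin n → A) → A → A) →ₗ[ℂ] A where
  toFun T := a 0 * T (fun i => a i.succ) y + ∑ j : Fin n, (-1 : ℤ) ^ (j.val + 1) • T (mergeArgs j a) y +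
    (-1 : ℤ) ^ (n + 1) • T (fun i => a i.castSucc) (a (Fin.last n) * y)
  map_add' T T' := by
    simp only [Pi.add_apply, mul_add, smul_add, Finset.sum_add_distrib]; abel
  map_smul' c T := by
    simp only [Pi.smul_apply, mul_smul_comm, smul_add, Finset.smul_sum, RingHom.id_apply,
      smul_comm c]

theorem D_apply (a : Fin (n + 1) → A) (y : A) (T : (Fin n → A) → A → A) : D a y T =
    a 0 * T (fun i => a i.succ) y + ∑ j : Fin n, (-1 : ℤ) ^ (j.val + 1) • T (mergeArgs j a) y +
    (-1 : ℤ) ^ (n + 1) • T (fun i => a i.castSucc) (a (Fin.last n) * y) := rfl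

theorem D_mul (a : Fin (n + 1) → A) (y : A) (h : (Fin n → A) → A) :
    D a y (fun x y => h x * y) = hochschildDiff h a * y := by
  simp only [D_apply, hochschildDiff, add_mul, Finset.sum_mul, smul_mul_assoc, mul_assoc]

theorem D_right (a : Fin (n + 1) → A) (y u v : A) (T : (Fin n → A) → A → A) :
    D a y (fun x y => T x (y * u) * v) = D a (y * u) T * v := by
  simp only [D_apply, add_mul, Finset.sum_mul, smul_mul_assoc, mul_assoc]

theorem D_left (a : Fin (n + 1) → A) (y s t : A) (σ : A → A) (hσ : ∀ a b, σ (a * b) = σ a * σ b)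
    (hs : ∀ a, σ a * s = s * a) (ht : ∀ a, t * σ a = a * t) (T : (Fin n → A) → A → A) :
    D a y (fun x y => t * T (fun i => σ (x i)) (s * y)) = t * D (fun i => σ (a i)) (s * y) T := by
  simp only [D_apply, mul_add, Finset.mul_sum, mul_smul_comm, Pr.merge_map σ hσ, ← mul_assoc, hs, ht]

theorem D_snoc (f : (Fin (n + 1) → A) → A) (hf : ∀ a, hochschildDiff f a = 0)
    (a : Fin (n + 1) → A) (y : A) :
    D a y (fun x y => f (Fin.snoc x y)) = (-1 : ℤ) ^ (n + 1) • (f a * y) := by
  have := Pr.diff_snoc f a y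
  rw [hf] at this
  rw [D_apply, eq_neg_of_add_eq_zero_left this.symm, pow_succ _ (n + 1)]
  simp

theorem diff_lin {I : Type*} [Fintype I] (c : ℂ) (g : I → (Fin n → A) → A) (a : Fin (n + 1) → A) :
    hochschildDiff (fun x => c • ∑ i, g i x) a = c • ∑ i, hochschildDiff (g i) a := by
  have := fun h => D_mul a 1 h
  simp only [mul_one] at this
  simp only [← this, ← map_sum, ← map_smul]
  congr 1; funext x y
  simp [Finset.sum_mul]

theorem approx {z : A} (hz : CP z) {L : ℕ} (s : Fin (L + 1) → A)
    (hs : ∀ i j, star (s i) * s j = if i = j then z else 0) (f : Co A (n + 1))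
    (hf : ∀ a, hochschildDiff f a = 0) :
    ∃ (θ : ContinuousMultilinearMap ℂ (fun _ : Fin n => A) (A →L[ℂ] A)) (h : Co A n),
      ‖θ‖ ≤ ‖f‖ ∧ ‖h‖ ≤ (n + 1) * ‖f‖ ∧ ∀ a y, D a y (fun x y => (((L + 1 : ℕ) : ℂ) ^ 2)⁻¹ •
        ∑ p, ∑ q, star (s p) * θ x (s p * y * star (s q)) * s q + h x * y) =
          (-1 : ℤ) ^ (n + 1) • (z * f a * y) := by
  have hss : ∀ i, star (s i) * s i = z := fun i => by rw [hs, if_pos rfl]
  have hsz : ∀ i, s i * z = s i := fun i => by
    have : star (s i * (1 - z)) * (s i * (1 - z)) = 0 := by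
      rw [star_mul, mul_assoc, ← mul_assoc (star (s i)), hss, mul_sub, mul_one, hz.1.2]; simp
    rw [CStarRing.star_mul_self_eq_zero_iff, mul_sub, mul_one, sub_eq_zero] at this
    exact this.symm
  have hzs : ∀ i, z * star (s i) = star (s i) := fun i => by
    rw [← hz.1.1, ← star_mul, hsz]
  have hn : ∀ i, ‖s i‖ ≤ 1 := fun i => by
    have := hz.1.norm
    rw [← hss i, CStarRing.norm_star_mul_self] at this
    nlinarith [norm_nonneg (s i)]
  let σ : A →L[ℂ] A := ∑ p, ContinuousLinearMap.mulLeftRight ℂ A (s p) (star (s p))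
  have σe : ∀ x, σ x = ∑ p, s p * x * star (s p) := fun x => by simp [σ]
  have σs : ∀ i a, σ a * s i = s i * a := fun i a => by
    simp only [σe, Finset.sum_mul, mul_assoc, hs, mul_ite, mul_zero, Finset.sum_ite_eq',
      Finset.mem_univ, if_true]
    rw [← hz.2, ← mul_assoc, hsz]
  have σt : ∀ i a, star (s i) * σ a = a * star (s i) := fun i a => by
    simp only [σe, Finset.mul_sum, ← mul_assoc, hs, ite_mul, zero_mul, Finset.sum_ite_eq,
      Finset.mem_univ, if_true]
    rw [hz.2, mul_assoc, hzs]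
  have σm : ∀ a b, σ (a * b) = σ a * σ b := fun a b => by
    rw [σe b, σe (a * b), Finset.mul_sum]
    simp only [← mul_assoc, σs]
  have σn : ‖σ‖ ≤ 1 := σ.opNorm_le_bound zero_le_one fun x => by
    let φ : A →⋆ₙₐ[ℂ] A :=
      { toFun := σ, map_smul' := map_smul σ, map_zero' := map_zero σ, map_add' := map_add σ
        map_mul' := σm, map_star' := fun x => by simp [σe, star_sum, mul_assoc] }
    rw [one_mul]
    exact NonUnitalStarAlgHom.norm_apply_le φ x
  let θ := f.curryRight.compContinuousLinearMap fun _ => σ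
  let g : Fin (L + 1) → Fin (n + 1) → Co A n := fun p j =>
    (ContinuousLinearMap.mul ℂ A (star (s p))).compContinuousMultilinearMap
      ((f.curryMid j (s p)).compContinuousLinearMap fun i =>
        if i.val < j.val then σ else ContinuousLinearMap.id ℂ A)
  have ge : ∀ p j x, g p j x = star (s p) *
      f (j.insertNth (s p) fun i => if i.val < j.val then σ (x i) else x i) := fun p j x => by
    simp only [g, ContinuousLinearMap.compContinuousMultilinearMap_coe, Function.comp_apply,
      ContinuousMultilinearMap.compContinuousLinearMap_apply,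
      ContinuousMultilinearMap.curryMid_apply, ContinuousLinearMap.mul_apply']
    congr 3; funext i; split_ifs <;> rfl
  have gn : ∀ p j, ‖g p j‖ ≤ ‖f‖ := fun p j => by
    refine (ContinuousLinearMap.norm_compContinuousMultilinearMap_le _ _).trans ?_
    refine (mul_le_of_le_one_left (norm_nonneg _) ((ContinuousLinearMap.opNorm_mul_apply_le _ _ _).trans
      (by rw [norm_star]; exact hn p))).trans ?_
    refine (ContinuousMultilinearMap.norm_compContinuousLinearMap_le _ _).trans ?_
    refine (mul_le_of_le_one_right (norm_nonneg _) (Finset.prod_le_one (fun _ _ => norm_nonneg _)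
      fun i _ => ?_)).trans ?_
    · split_ifs
      · exact σn
      · exact ContinuousLinearMap.norm_id_le
    · refine ((f.curryMid j).le_opNorm _).trans ?_
      rw [ContinuousMultilinearMap.norm_curryMid]
      exact mul_le_of_le_one_right (norm_nonneg _) (hn p)
  have N0 : ((L + 1 : ℕ) : ℂ) ≠ 0 := by exact_mod_cast Nat.succ_ne_zero L
  let h : Co A n := ((L + 1 : ℕ) : ℂ)⁻¹ • ∑ p, ∑ j : Fin (n + 1), (-1 : ℤ) ^ j.val • g p j
  have hd : ∀ a, hochschildDiff h a =
      z * f a - ((L + 1 : ℕ) : ℂ)⁻¹ • ∑ p, star (s p) * f (fun i => σ (a i)) * s p := fun a => by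
    have e : (h : (Fin n → A) → A) = fun x => ((L + 1 : ℕ) : ℂ)⁻¹ • ∑ p, ∑ j : Fin (n + 1),
        (-1 : ℤ) ^ j.val • (star (s p) *
          f (j.insertNth (s p) fun i => if i.val < j.val then σ (x i) else x i)) := by
      funext x; simp only [h, smul_apply, sum_apply, ge]
    rw [e, diff_lin]
    simp only [Pr.prism f hf σ σm _ _ (σs _) (σt _), hss, Finset.sum_sub_distrib, smul_sub,
      Finset.sum_const, Finset.card_univ, Fintype.card_fin]
    rw [← Nat.cast_smul_eq_nsmul ℂ, inv_smul_smul₀ N0]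
  refine ⟨θ, (-1 : ℤ) ^ (n + 1) • h, ?_, ?_, fun a y => ?_⟩
  · refine (ContinuousMultilinearMap.norm_compContinuousLinearMap_le _ _).trans ?_
    rw [ContinuousMultilinearMap.curryRight_norm]
    exact mul_le_of_le_one_right (norm_nonneg _) (Finset.prod_le_one (fun _ _ => norm_nonneg _)
      fun i _ => σn)
  · rw [norm_sign, norm_smul, norm_inv, Complex.norm_natCast, inv_mul_le_iff₀ (by positivity)]
    refine (norm_sum_le _ _).trans ((Finset.sum_le_sum fun p _ => (norm_sum_le _ _).trans
      (Finset.sum_le_sum fun j _ => (norm_sign _ _).trans_le (gn p j))).trans_eq ?_)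
    simp
  · have e : (fun (x : Fin n → A) y => (((L + 1 : ℕ) : ℂ) ^ 2)⁻¹ •
        ∑ p, ∑ q, star (s p) * θ x (s p * y * star (s q)) * s q + ((-1 : ℤ) ^ (n + 1) • h) x * y) =
        (((L + 1 : ℕ) : ℂ) ^ 2)⁻¹ • ∑ p, ∑ q, (fun x y => (fun x y => star (s p) *
          (fun x y => f (Fin.snoc x y)) (fun i => σ (x i)) (s p * y)) x (y * star (s q)) * s q) +
        (-1 : ℤ) ^ (n + 1) • fun x y => h x * y := by
      funext x y
      simp only [θ, Pi.add_apply, Pi.smul_apply, Finset.sum_apply, smul_apply, smul_mul_assoc,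
        ContinuousMultilinearMap.compContinuousLinearMap_apply,
        ContinuousMultilinearMap.curryRight_apply, mul_assoc]
    rw [e, map_add, map_smul, map_zsmul, D_mul, hd, map_sum]
    simp only [map_sum]
    have e2 : ∀ p q, D a y (fun x y => (fun x y => star (s p) *
          (fun x y => f (Fin.snoc x y)) (fun i => σ (x i)) (s p * y)) x (y * star (s q)) * s q) =
        (-1 : ℤ) ^ (n + 1) • (star (s p) * f (fun i => σ (a i)) * s p * y) := fun p q => by
      rw [D_right a y (star (s q)) (s q) fun x y => star (s p) *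
          (fun x y => f (Fin.snoc x y)) (fun i => σ (x i)) (s p * y),
        D_left _ _ _ _ σ σm (σs p) (σt p) fun x y => f (Fin.snoc x y), D_snoc f hf]
      simp only [mul_smul_comm, smul_mul_assoc, mul_assoc, hss]
      rw [← hz.2, ← mul_assoc (s p), hsz]
    simp only [e2, Finset.sum_const, Finset.card_univ, Fintype.card_fin, ← Finset.smul_sum, sub_mul,
      smul_sub, smul_mul_assoc, Finset.sum_mul]
    rw [← Nat.cast_smul_eq_nsmul ℂ, smul_smul, smul_comm _ ((-1 : ℤ) ^ (n + 1)),
      show (((L + 1 : ℕ) : ℂ) ^ 2)⁻¹ * ((L + 1 : ℕ) : ℂ) = ((L + 1 : ℕ) : ℂ)⁻¹ by field_simp]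
    abel

end Crest.Agent.KR.PIa
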