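import Crest.Agent.KR.PI1
import Crest.Agent.KR.PI2
/-! The properly infinite case. -/
set_option autoImplicit false
set_option linter.deprecated false
namespace Crest.Agent.KR
open scoped InnerProductSpace ComplexConjugate BigOperators
open Filter Topology Crest.Agent.KR.CB Crest.Agent.GP Crest.OpAlg
namespace PIa

variable {H : Type*} [NormedAddCommGroup H] [InnerProductSpace ℂ H] [CompleteSpace H]
variable {M : VonNeumannAlgebra H} {n : ℕ}

theorem co_zsmul (η ξ : H) (k : ℤ) (a : Al M) : co η ξ (k • a) = k * co η ξ a := by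
  rw [← Int.cast_smul_eq_zsmul ℂ, co_smul]

/-- the algebraic conditions -/
def Alg (w : (Fin (n + 1) → Al M) → Al M) : Set ((Fin n → Al M) → Al M → W M) :=
  {T | (∀ x i a b y, T (Function.update x i (a + b)) y =
      T (Function.update x i a) y + T (Function.update x i b) y) ∧
    (∀ x i (c : ℂ) a y, T (Function.update x i (c • a)) y = c • T (Function.update x i a) y) ∧
    Lin T ∧ ∀ a y η ξ, co η ξ (D a y fun x y => ofW (T x y)) = co η ξ (w a * y)}

theorem isClosed_Alg (w : (Fin (n + 1) → Al M) → Al M) : IsClosed (Alg w) := by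
  simp only [Alg, Lin, Set.setOf_and, Set.setOf_forall]
  refine (isClosed_iInter fun _ => isClosed_iInter fun _ => isClosed_iInter fun _ =>
    isClosed_iInter fun _ => isClosed_iInter fun _ => isClosed_eq (by fun_prop) (by fun_prop)).inter
    ((isClosed_iInter fun _ => isClosed_iInter fun _ => isClosed_iInter fun _ =>
    isClosed_iInter fun _ => isClosed_iInter fun _ => isClosed_eq (by fun_prop) (by fun_prop)).inter
    ((isClosed_iInter fun _ => (isClosed_iInter fun _ => isClosed_iInter fun _ =>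
      isClosed_eq (by fun_prop) (by fun_prop)).inter (isClosed_iInter fun _ =>
        isClosed_iInter fun _ => isClosed_eq (by fun_prop) (by fun_prop))).inter
    (isClosed_iInter fun a => isClosed_iInter fun y => isClosed_iInter fun η =>
      isClosed_iInter fun ξ => isClosed_eq ?_ continuous_const)))
  have c : ∀ η ξ x y, Continuous fun T : (Fin n → Al M) → Al M → W M => co η ξ (ofW (T x y)) :=
    fun η ξ x y => (continuous_co η ξ).comp (continuous_apply_apply x y)
  simp only [D_apply, co_add, co_sum, co_zsmul, co_mul_left]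
  exact ((c _ _ _ _).add (continuous_finset_sum _ fun j _ => continuous_const.mul (c _ _ _ _))).add
    (continuous_const.mul (c _ _ _ _))

theorem Alg_act {w : (Fin (n + 1) → Al M) → Al M} {T : (Fin n → Al M) → Al M → W M} (h : T ∈ Alg w)
    {ι : Type} [Fintype ι] {m : ι → Al M} (hm : ∑ l, star (m l) * m l = 1) : CB.act m T ∈ Alg w := by
  obtain ⟨h1, h2, h3, h4⟩ := h
  refine ⟨fun x i a b y => ofW.injective ?_, fun x i c a y => ofW.injective ?_,
    fun x => ⟨fun y y' => ofW.injective ?_, fun c y => ofW.injective ?_⟩, fun a y η ξ => ?_⟩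
  · simp only [ofW_act, map_add, h1, add_mul, Finset.sum_add_distrib]
  · simp only [ofW_act, map_smul, h2, smul_mul_assoc, Finset.smul_sum]
  · simp only [ofW_act, map_add, (h3 x).1, add_mul, Finset.sum_add_distrib]
  · simp only [ofW_act, map_smul, (h3 x).2, smul_mul_assoc, Finset.smul_sum]
  · have e : (fun x y => ofW (CB.act m T x y)) =
        ∑ l, fun x y => (fun x y => ofW (T x y)) x (y * star (m l)) * m l := by
      funext x y; simp only [ofW_act, Finset.sum_apply]
    have e2 : ∀ l, D a y (fun x y => (fun x y => ofW (T x y)) x (y * star (m l)) * m l) =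
        w a * y * (star (m l) * m l) := fun l => by
      rw [D_right a y (star (m l)) (m l) fun x y => ofW (T x y), co_ext (h4 a _)]
      simp only [mul_assoc]
    rw [e, map_sum]
    simp only [e2, ← Finset.mul_sum, hm, mul_one]

theorem bil_add {I J : Type*} [Fintype I] [Fintype J] (Y Z : I → J → Al M) (ξ : J → H) (ζ : I → H) :
    bil (fun i j => Y i j + Z i j) ξ ζ = bil Y ξ ζ + bil Z ξ ζ := by
  simp only [bil, co_add, Finset.sum_add_distrib]

end PIa

universe u
open PIa in
theorem pi_ {H : Type u} [NormedAddCommGroup H] [InnerProductSpace ℂ H] [CompleteSpace H]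
    (M : VonNeumannAlgebra H) : PIStmt M := by
  intro z hz hI n f hf
  choose s hs using fun L => hI (L + 1)
  choose θ h hθ hh hD using fun L => approx hz (s L) (hs L) f hf
  let C : (Fin n → Al M) → ℝ := fun x => (n + 2) * ‖f‖ * ∏ i, ‖x i‖
  have C0 : ∀ x, 0 ≤ C x := fun x => by positivity
  let w : (Fin (n + 1) → Al M) → Al M := fun a => (-1 : ℤ) ^ (n + 1) • (z * f a)
  let B := Set.pi Set.univ fun x : Fin n → Al M => {T : Al M → W M | ∀ y, ‖ofW (T y)‖ ≤ C x * ‖y‖}
  have hB : IsCompact B := isCompact_univ_pi fun x => isCompact_bdd _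
  let T : ℕ → (Fin n → Al M) → Al M → W M := fun L x y => ofW.symm ((((L + 1 : ℕ) : ℂ) ^ 2)⁻¹ •
    ∑ p, ∑ q, star (s L p) * θ L x (s L p * y * star (s L q)) * s L q + h L x * y)
  have T1 : ∀ L, T L ∈ Alg w := fun L => by
    refine ⟨fun x i a b y => ?_, fun x i c a y => ?_, fun x => ⟨fun y y' => ?_, fun c y => ?_⟩,
      fun a y η ξ => ?_⟩
    · simp only [T, ← map_add, ContinuousMultilinearMap.map_update_add, add_apply, mul_add, add_mul,
        Finset.sum_add_distrib, smul_add]
      congr 1; abel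
    · simp only [T, ← map_smul ofW.symm, ContinuousMultilinearMap.map_update_smul, smul_apply, mul_smul_comm,
        smul_mul_assoc, smul_add, ← Finset.smul_sum, smul_comm c]
    · simp only [T, mul_add, add_mul, map_add (θ L x), ← map_add ofW.symm,
        Finset.sum_add_distrib, smul_add]
      congr 1; abel
    · simp only [T, map_smul (θ L x), ← map_smul ofW.symm, mul_smul_comm,
        smul_mul_assoc, smul_add, ← Finset.smul_sum, smul_comm c]
    · simp only [T, LinearEquiv.apply_symm_apply, hD, w, smul_mul_assoc]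
  have T2 : ∀ L x (I J : Type) [Fintype I] [Fintype J], Fintype.card I ≤ L → Fintype.card J ≤ L →
      ∀ Y : I → J → Al M, Con Y → ∀ ξ ζ,
        ‖bil (fun i j => ofW (T L x (Y i j))) ξ ζ‖ ^ 2 ≤ C x ^ 2 * S ξ * S ζ := by
    intro L x I J _ _ hI hJ Y hY ξ ζ
    simp only [T, LinearEquiv.apply_symm_apply, bil_add]
    have h1 := avg_le hz.1.norm (hs L) hI hJ hY (θ L x) ξ ζ
    have h2 := mul_le hY (h L x) ξ ζ
    have h3 := ((θ L).le_opNorm x).trans (mul_le_mul_of_nonneg_right (hθ L) (by positivity))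
    have h4 := ((h L).le_opNorm x).trans (mul_le_mul_of_nonneg_right (hh L) (by positivity))
    rw [← Real.sq_sqrt (S_nonneg ξ), ← Real.sq_sqrt (S_nonneg ζ), ← mul_pow, ← mul_pow]
    refine pow_le_pow_left₀ (norm_nonneg _) ((norm_add_le _ _).trans ((add_le_add h1 h2).trans ?_)) 2
    rw [← add_mul, ← add_mul]
    gcongr
    simp only [C]
    linarith
  have nb : ∀ T ∈ Alg w, (∀ x (Y : Unit → Unit → Al M), Con Y → ∀ ξ ζ : Unit → H,
      ‖bil (fun i j => ofW (T x (Y i j))) ξ ζ‖ ^ 2 ≤ C x ^ 2 * S ξ * S ζ) → T ∈ B :=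
    fun T hT h x _ => norm_le_of_CBd (ψ := fun y => ofW (T x y))
      (fun c y => by simp only [(hT.2.2.1 x).2, map_smul]) (C0 x) (h x)
  let K := Alg w ∩ {T | ∀ x, CBd (fun y => ofW (T x y)) Set.univ (C x ^ 2)}
  have hK : IsCompact K := hB.of_isClosed_subset ((isClosed_Alg w).inter (by
      rw [Set.setOf_forall]; exact isClosed_iInter fun x => isClosed_CBd x _ _))
    fun T hT => nb T hT.1 fun x Y hY ξ ζ => hT.2 x _ _ Y hY ξ ζ fun _ => trivial
  have ne : K.Nonempty := by
    let 𝔘 : Ultrafilter ℕ := Ultrafilter.of atTop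
    have hU : (𝔘 : Filter ℕ) ≤ atTop := Ultrafilter.of_le _
    obtain ⟨T', hT', lim⟩ := (hB.inter_left (isClosed_Alg w)).ultrafilter_le_nhds (𝔘.map T) (by
      rw [le_principal_iff, Ultrafilter.coe_map, mem_map]
      filter_upwards [hU (eventually_ge_atTop 1)] with L hL
      exact ⟨T1 L, nb _ (T1 L) fun x => T2 L x _ _ (by simpa using hL) (by simpa using hL)⟩)
    refine ⟨T', hT'.1, fun x I J _ _ Y hY ξ ζ _ => ?_⟩
    refine le_of_tendsto ((((continuous_bil x Y ξ ζ).tendsto T').comp lim).norm.pow 2) ?_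
    filter_upwards [hU (eventually_ge_atTop (Fintype.card I)),
      hU (eventually_ge_atTop (Fintype.card J))] with L h1 h2
    exact T2 L x I J h1 h2 Y hY ξ ζ
  obtain ⟨T, hT, fix⟩ := cb_fix hK ne (fun T hT => hT.1.2.2.1) (fun x => ⟨_, fun T hT => hT.2 x⟩)
    fun T hT ι _ m hm => ⟨Alg_act hT.1 hm, fun x => CBd.act (fun ξ => (S_col hm ξ).le) (sq_nonneg _)
      (fun _ _ _ => Set.mem_univ _) (hT.2 x)⟩
  let g : MultilinearMap ℂ (fun _ : Fin n => Al M) (Al M) := MultilinearMap.mk' (fun x => ofW (T x 1))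
    (fun x i a b => by convert (congrArg ofW (hT.1.1 x i a b 1)).trans (map_add _ _ _))
    (fun x i c a => by convert (congrArg ofW (hT.1.2.1 x i c a 1)).trans (map_smul _ _ _))
  have gb : ∀ x, ‖g x‖ ≤ (n + 2) * ‖f‖ * ∏ i, ‖x i‖ := fun x =>
    (nb T hT.1 (fun x Y hY ξ ζ => hT.2 x _ _ Y hY ξ ζ fun _ => trivial) x trivial 1).trans
      (mul_le_of_le_one_right (C0 x) (Proj.norm ⟨star_one _, one_mul _⟩))
  refine ⟨(-1 : ℤ) ^ (n + 1) • g.mkContinuous _ gb, ?_, fun a => ?_⟩
  · rw [norm_sign]; exact g.mkContinuous_norm_le (by positivity) gb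
  · have h1 := co_ext (hT.1.2.2.2 a 1)
    rw [show (fun x y => ofW (T x y)) = fun x y => g x * y from funext₂ fix, D_mul, mul_one,
      mul_one] at h1
    rw [show hochschildDiff ((-1 : ℤ) ^ (n + 1) • g.mkContinuous _ gb : Co (Al M) n) a = _ from
      diff_zsmul _ g a, h1, smul_smul, ← mul_pow]
    simp [← mul_assoc, hz.1.2]

end Crest.Agent.KR
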