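import Crest.Agent.KR.CB
import Crest.Agent.KR.Defs
/-! Orthogonal families of isometries make maps completely bounded. -/
set_option autoImplicit false
set_option linter.deprecated false
namespace Crest.Agent.KR.PIa
open scoped InnerProductSpace ComplexConjugate BigOperators
open Filter Topology Crest.Agent.KR Crest.Agent.KR.CB Crest.Agent.GP

variable {H : Type*} [NormedAddCommGroup H] [InnerProductSpace ℂ H] [CompleteSpace H]
variable {M : VonNeumannAlgebra H}

/-- orthogonal families -/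
def Orth {I : Type*} [DecidableEq I] (z : Al M) (a : I → Al M) : Prop :=
  ∀ i j, star (a i) * a j = if i = j then z else 0

theorem Orth.row {I : Type*} [Fintype I] [DecidableEq I] {z : Al M} (hz : ‖z‖ ≤ 1) {a : I → Al M}
    (h : Orth z a) (v : I → H) : ‖∑ i, (a i).1 (v i)‖ ^ 2 ≤ S v := by
  have e : ⟪∑ i, (a i).1 (v i), ∑ i, (a i).1 (v i)⟫_ℂ = ∑ i, co (v i) (v i) z := by
    rw [sum_inner]
    refine Finset.sum_congr rfl fun i _ => ?_
    rw [inner_sum, Finset.sum_eq_single i _ (by simp)]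
    · have := co_mul_left (v i) (v i) (star (a i)) (a i)
      rw [h, if_pos rfl, star_star] at this
      exact this.symm
    · intro j _ hj
      have := co_mul_left (v i) (v j) (star (a i)) (a j)
      rw [h, if_neg hj.symm, star_star] at this
      exact this.symm.trans (by simp [co])
  have e2 : ‖∑ i, (a i).1 (v i)‖ ^ 2 = ‖∑ i, co (v i) (v i) z‖ := by
    rw [← e, inner_self_eq_norm_sq_to_K]; simp
  rw [e2]
  refine (norm_sum_le _ _).trans (Finset.sum_le_sum fun i _ => (norm_co_le _ _ _).trans ?_)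
  nlinarith [sq_nonneg ‖v i‖]

theorem Orth.col {I : Type*} [Fintype I] [DecidableEq I] {z : Al M} (hz : ‖z‖ ≤ 1) {a : I → Al M}
    (h : Orth z a) (θ : H) : S (fun i => (star (a i)).1 θ) ≤ ‖θ‖ ^ 2 := by
  refine vec_of_bil _ (sq_nonneg _) ?_
  have e : ∑ i, ⟪(star (a i)).1 θ, (star (a i)).1 θ⟫_ℂ = ⟪θ, ∑ i, (a i).1 ((star (a i)).1 θ)⟫_ℂ := by
    rw [inner_sum]
    exact Finset.sum_congr rfl fun i _ => ContinuousLinearMap.adjoint_inner_left _ _ _
  rw [e]
  refine (pow_le_pow_left₀ (norm_nonneg _) (norm_inner_le_norm _ _) 2).trans ?_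
  rw [mul_pow]
  exact mul_le_mul_of_nonneg_left (h.row hz _) (sq_nonneg _)

theorem norm_le_of_sq {a : Al M} {r : ℝ} (hr : 0 ≤ r) (h : ∀ θ, ‖a.1 θ‖ ^ 2 ≤ r ^ 2 * ‖θ‖ ^ 2) :
    ‖a‖ ≤ r :=
  a.1.opNorm_le_bound hr fun θ => by
    rw [← sq_le_sq₀ (norm_nonneg _) (mul_nonneg hr (norm_nonneg _)), mul_pow]; exact h θ

theorem hat_le {I J : Type*} [Fintype I] [DecidableEq I] [Fintype J] [DecidableEq J] {z : Al M}
    (hz : ‖z‖ ≤ 1) {a : I → Al M} {b : J → Al M} (ha : Orth z a) (hb : Orth z b)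
    {Y : I → J → Al M} (hY : Con Y) : ‖∑ i, ∑ j, a i * Y i j * star (b j)‖ ≤ 1 := by
  refine norm_le_of_sq zero_le_one fun θ => ?_
  have e : (∑ i, ∑ j, a i * Y i j * star (b j)).1 θ =
      ∑ i, (a i).1 (∑ j, (Y i j).1 ((star (b j)).1 θ)) := by
    simp only [coe_sum, map_sum]; rfl
  rw [e, one_pow, one_mul]
  exact ((ha.row hz _).trans (hY _)).trans (hb.col hz θ)

noncomputable def sg (b : Bool) : ℂ := if b then 1 else -1

theorem sg_sq (b : Bool) : sg b * sg b = 1 := by cases b <;> simp [sg]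
theorem star_sg (b : Bool) : star (sg b) = sg b := by cases b <;> simp [sg]

theorem sum_sg {I : Type*} [Fintype I] [DecidableEq I] {i j : I} (h : i ≠ j) :
    ∑ ε : I → Bool, sg (ε i) * sg (ε j) = 0 := by
  refine Finset.sum_involution (fun ε _ => Function.update ε i (!ε i)) (fun ε _ => ?_)
    (fun ε _ _ e => ?_) (fun _ _ => Finset.mem_univ _) fun ε _ => by simp
  · rw [Function.update_self, Function.update_of_ne h.symm]
    cases ε i <;> cases ε j <;> simp [sg]
  · simpa using congrFun e i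

theorem sign_avg {I : Type*} [Fintype I] [DecidableEq I] (B : I → I → ℂ) {r : ℝ}
    (h : ∀ ε : I → Bool, ‖∑ i, ∑ j, sg (ε i) * sg (ε j) * B i j‖ ≤ r) : ‖∑ i, B i i‖ ≤ r := by
  have e : ∑ ε : I → Bool, ∑ i, ∑ j, sg (ε i) * sg (ε j) * B i j =
      (Fintype.card (I → Bool) : ℂ) * ∑ i, B i i := by
    rw [Finset.sum_comm, Finset.mul_sum]
    refine Finset.sum_congr rfl fun i _ => ?_
    rw [Finset.sum_comm, Finset.sum_eq_single i _ (by simp)]
    · simp [sg_sq]
    · intro j _ hj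
      rw [← Finset.sum_mul, sum_sg hj.symm, zero_mul]
  have h1 := (norm_sum_le _ _).trans (Finset.sum_le_sum fun ε (_ : ε ∈ Finset.univ) => h ε)
  rw [e, norm_mul, Complex.norm_natCast, Finset.sum_const, Finset.card_univ, nsmul_eq_mul] at h1
  exact le_of_mul_le_mul_left h1 (by exact_mod_cast Fintype.card_pos)

theorem Orth.sign {I : Type*} [DecidableEq I] {z : Al M} {a : I → Al M} (h : Orth z a)
    (ε : I → Bool) : Orth z fun i => sg (ε i) • a i := fun i j => by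
  rw [star_smul, smul_mul_smul_comm, h, star_sg]
  split_ifs with e
  · rw [e, sg_sq, one_smul]
  · simp

theorem co_left_sum {I : Type*} [Fintype I] (c : I → ℂ) (hc : ∀ i, star (c i) = c i) (v : I → H)
    (ξ : H) (b : Al M) : co (∑ i, c i • v i) ξ b = ∑ i, c i * co (v i) ξ b := by
  simp only [co, sum_inner, inner_smul_left]
  exact Finset.sum_congr rfl fun i _ => by rw [← RCLike.star_def, hc]

theorem co_right_sum {I : Type*} [Fintype I] (c : I → ℂ) (v : I → H)
    (η : H) (b : Al M) : co η (∑ i, c i • v i) b = ∑ i, c i * co η (v i) b := by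
  simp only [co, map_sum, map_smul, inner_sum, inner_smul_right]

theorem sum4 {I J : Type*} [Fintype I] [Fintype J] (F : J → J → I → I → ℂ) :
    ∑ j, ∑ j', ∑ i, ∑ i', F j j' i i' = ∑ i', ∑ i, ∑ j, ∑ j', F j j' i i' := by
  calc _ = ∑ p : J × J, ∑ q : I × I, F p.1 p.2 q.1 q.2 := by simp only [Fintype.sum_prod_type]
    _ = ∑ q : I × I, ∑ p : J × J, F p.1 p.2 q.1 q.2 := Finset.sum_comm
    _ = ∑ i, ∑ i', ∑ j, ∑ j', F j j' i i' := by simp only [Fintype.sum_prod_type]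
    _ = _ := Finset.sum_comm

/-- the diagonal estimate -/
theorem diag_le {I J : Type*} [Fintype I] [DecidableEq I] [Fintype J] [DecidableEq J] {z : Al M}
    (hz : ‖z‖ ≤ 1) {a : I → Al M} {b : J → Al M} (ha : Orth z a) (hb : Orth z b)
    {Y : I → J → Al M} (hY : Con Y) (ψ : Al M →L[ℂ] Al M) (ξ : J → H) (ζ : I → H) :
    ‖bil (fun i j => star (a i) * ψ (a i * Y i j * star (b j)) * b j) ξ ζ‖ ≤
      ‖ψ‖ * √(S ξ) * √(S ζ) := by
  let B : I → I → J → J → ℂ := fun i i' j j' =>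
    co ((a i').1 (ζ i')) ((b j').1 (ξ j')) (ψ (a i * Y i j * star (b j)))
  have e : bil (fun i j => star (a i) * ψ (a i * Y i j * star (b j)) * b j) ξ ζ =
      ∑ i, ∑ j, B i i j j := by
    refine Finset.sum_congr rfl fun i _ => Finset.sum_congr rfl fun j _ => ?_
    rw [co_mul_right, co_mul_left, star_star]
  rw [e]
  refine sign_avg (fun i i' => ∑ j, B i i' j j) fun ε => ?_
  have e2 : ∑ i, ∑ i', sg (ε i) * sg (ε i') * ∑ j, B i i' j j =
      ∑ j, ∑ i, ∑ i', sg (ε i) * sg (ε i') * B i i' j j := by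
    simp only [Finset.mul_sum]
    rw [Finset.sum_comm (s := (Finset.univ : Finset J))]
    exact Finset.sum_congr rfl fun i _ => Finset.sum_comm
  rw [e2]
  refine sign_avg (fun j j' => ∑ i, ∑ i', sg (ε i) * sg (ε i') * B i i' j j') fun ε' => ?_
  have h1 := norm_co_le (∑ i, sg (ε i) • (a i).1 (ζ i)) (∑ j, sg (ε' j) • (b j).1 (ξ j))
    (ψ (∑ i, ∑ j, (sg (ε i) • a i) * Y i j * star (sg (ε' j) • b j)))
  have h2 := (ψ.le_opNorm _).trans (mul_le_of_le_one_right (norm_nonneg _)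
    (hat_le hz (ha.sign ε) (hb.sign ε') hY))
  have h3 : ‖∑ i, sg (ε i) • (a i).1 (ζ i)‖ ≤ √(S ζ) :=
    Real.le_sqrt_of_sq_le ((ha.sign ε).row hz ζ)
  have h4 : ‖∑ j, sg (ε' j) • (b j).1 (ξ j)‖ ≤ √(S ξ) :=
    Real.le_sqrt_of_sq_le ((hb.sign ε').row hz ξ)
  refine le_of_eq_of_le (congrArg norm ?_) (h1.trans (by gcongr))
  simp only [co_left_sum _ fun i => star_sg (ε i), co_right_sum, star_smul, star_sg, smul_mul_assoc,
    mul_smul_comm, map_sum, map_smul, co_sum, co_smul, Finset.mul_sum, B]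
  rw [sum4]
  refine Finset.sum_congr rfl fun i' _ => Finset.sum_congr rfl fun i _ =>
    Finset.sum_congr rfl fun j _ => Finset.sum_congr rfl fun j' _ => by ring

/-- the averaged map -/
theorem avg_le {L : ℕ} {z : Al M} (hz : ‖z‖ ≤ 1) {s : Fin (L + 1) → Al M} (hs : Orth z s)
    {I J : Type*} [Fintype I] [Fintype J] (hI : Fintype.card I ≤ L) (hJ : Fintype.card J ≤ L)
    {Y : I → J → Al M} (hY : Con Y) (ψ : Al M →L[ℂ] Al M) (ξ : J → H) (ζ : I → H) :
    ‖bil (fun i j => (((L + 1 : ℕ) : ℂ) ^ 2)⁻¹ •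
      ∑ p, ∑ q, star (s p) * ψ (s p * Y i j * star (s q)) * s q) ξ ζ‖ ≤ ‖ψ‖ * √(S ξ) * √(S ζ) := by
  classical
  obtain ⟨eI⟩ := Function.Embedding.nonempty_of_card_le (α := I) (β := Fin (L + 1)) (by simp; omega)
  obtain ⟨eJ⟩ := Function.Embedding.nonempty_of_card_le (α := J) (β := Fin (L + 1)) (by simp; omega)
  have oI : ∀ (c : Fin (L + 1)), Orth z fun i => s (eI i + c) := fun c i j => by rw [hs]; simp
  have oJ : ∀ (c : Fin (L + 1)), Orth z fun i => s (eJ i + c) := fun c i j => by rw [hs]; simp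
  have e : bil (fun i j => (((L + 1 : ℕ) : ℂ) ^ 2)⁻¹ •
      ∑ p, ∑ q, star (s p) * ψ (s p * Y i j * star (s q)) * s q) ξ ζ =
      (((L + 1 : ℕ) : ℂ) ^ 2)⁻¹ * ∑ c, ∑ c', bil (fun i j => star (s (eI i + c)) *
        ψ (s (eI i + c) * Y i j * star (s (eJ j + c'))) * s (eJ j + c')) ξ ζ := by
    simp only [bil, co_smul, co_sum, ← Finset.mul_sum]
    congr 1
    symm
    rw [Finset.sum_congr rfl fun c _ => Finset.sum_comm, Finset.sum_comm]
    refine Finset.sum_congr rfl fun i _ => ?_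
    rw [Finset.sum_congr rfl fun c _ => Finset.sum_comm, Finset.sum_comm]
    refine Finset.sum_congr rfl fun j _ => ?_
    let G : Fin (L + 1) → Fin (L + 1) → ℂ := fun p q =>
      co (ζ i) (ξ j) (star (s p) * ψ (s p * Y i j * star (s q)) * s q)
    exact (Equiv.sum_comp (Equiv.addLeft (eI i)) fun p => ∑ c', G p (eJ j + c')).trans
      (Finset.sum_congr rfl fun p _ => Equiv.sum_comp (Equiv.addLeft (eJ j)) (G p))
  rw [e, norm_mul, norm_inv, norm_pow, Complex.norm_natCast, inv_mul_le_iff₀ (by positivity)]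
  refine (norm_sum_le _ _).trans ((Finset.sum_le_sum fun c _ => (norm_sum_le _ _).trans
    (Finset.sum_le_sum fun c' _ => diag_le hz (oI c) (oJ c') hY ψ ξ ζ)).trans_eq ?_)
  simp only [Finset.sum_const, Finset.card_univ, Fintype.card_fin, nsmul_eq_mul]
  ring

theorem mul_le {I J : Type*} [Fintype I] [Fintype J] {Y : I → J → Al M} (hY : Con Y) (h : Al M)
    (ξ : J → H) (ζ : I → H) : ‖bil (fun i j => h * Y i j) ξ ζ‖ ≤ ‖h‖ * √(S ξ) * √(S ζ) := by
  have e : bil (fun i j => h * Y i j) ξ ζ = ∑ i, ⟪ζ i, h.1 (∑ j, (Y i j).1 (ξ j))⟫_ℂ := by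
    simp only [bil_eq, map_sum]; rfl
  have h1 : S (fun i => h.1 (∑ j, (Y i j).1 (ξ j))) ≤ ‖h‖ ^ 2 * S ξ := by
    refine le_trans ?_ (mul_le_mul_of_nonneg_left (hY ξ) (sq_nonneg _))
    simp only [S, Finset.mul_sum, ← mul_pow]
    exact Finset.sum_le_sum fun i _ => pow_le_pow_left₀ (norm_nonneg _) (h.1.le_opNorm _) 2
  rw [e, ← sq_le_sq₀ (norm_nonneg _) (by positivity), mul_pow, mul_pow, Real.sq_sqrt (S_nonneg _),
    Real.sq_sqrt (S_nonneg _)]
  exact (cs _ _).trans (mul_le_mul_of_nonneg_right h1 (S_nonneg _))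

theorem norm_le_of_CBd {ψ : Al M → Al M} (hψ : ∀ (c : ℂ) y, ψ (c • y) = c • ψ y) {C : ℝ}
    (hC : 0 ≤ C) (h : ∀ Y : Unit → Unit → Al M, Con Y → ∀ ξ ζ : Unit → H,
      ‖bil (fun i j => ψ (Y i j)) ξ ζ‖ ^ 2 ≤ C ^ 2 * S ξ * S ζ) (y : Al M) : ‖ψ y‖ ≤ C * ‖y‖ := by
  have k : ∀ y : Al M, ‖y‖ ≤ 1 → ‖ψ y‖ ≤ C := fun y hy => norm_le_of_co hC fun η ξ => by
    have := h (fun _ _ => y) (fun θ => by
      simp only [S, Finset.univ_unique, Finset.sum_singleton]
      exact pow_le_pow_left₀ (norm_nonneg _) ((y.1.le_opNorm _).trans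
        (mul_le_of_le_one_left (norm_nonneg _) hy)) 2) (fun _ => ξ) (fun _ => η)
    simp only [S, bil, Finset.univ_unique, Finset.sum_singleton] at this
    rw [← sq_le_sq₀ (norm_nonneg _) (by positivity), mul_pow, mul_pow]
    exact this
  rcases eq_or_ne y 0 with rfl | h0
  · have := hψ 0 0
    simp only [zero_smul] at this
    simp [this]
  · have hp : 0 < ‖y‖ := norm_pos_iff.2 h0
    have := k (((‖y‖ : ℝ) : ℂ)⁻¹ • y) (by
      rw [norm_smul, norm_inv, Complex.norm_real, norm_norm, inv_mul_cancel₀ hp.ne'])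
    rw [hψ, norm_smul, norm_inv, Complex.norm_real, norm_norm, inv_mul_le_iff₀ hp] at this
    linarith

end Crest.Agent.KR.PIa
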