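import Crest.Agent.KR.Defs
/-! Strong sums in a concrete von Neumann algebra, partial isometries. -/
set_option autoImplicit false
namespace Crest.Agent.KR
open Crest.Agent.GP

universe u

section Alg
variable {A : Type u} [CStarAlgebra A]

theorem eq_zero_of_star_mul {a : A} (h : star a * a = 0) : a = 0 :=
  (CStarRing.star_mul_self_eq_zero_iff a).1 h

theorem eq_zero_of_mul_star {a : A} (h : a * star a = 0) : a = 0 :=
  (CStarRing.mul_star_self_eq_zero_iff a).1 h

/-- an element with `w⋆ w` idempotent is a partial isometry -/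
theorem pi_of_idem {w : A} (h : star w * w * (star w * w) = star w * w) : w * star w * w = w := by
  have : w * star w * w - w = 0 := by
    apply eq_zero_of_star_mul
    have e : star (w * star w * w - w) * (w * star w * w - w) =
        (star w * w * (star w * w)) * (star w * w) - star w * w * (star w * w) -
          star w * w * (star w * w) + star w * w := by
      simp only [star_sub, star_mul, star_star]; noncomm_ring
    rw [e, h, h]; abel
  exact sub_eq_zero.1 this

theorem proj_pi {e : A} (h : Proj e) : e * star e * e = e := by rw [h.1, h.2, h.2]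

theorem proj_comm {e f : A} (he : Proj e) (hf : Proj f) (h : e * f = f) : f * e = f := by
  have := congrArg star h
  rwa [star_mul, he.1, hf.1] at this

theorem proj_sub {e f : A} (he : Proj e) (hf : Proj f) (h : e * f = f) : Proj (e - f) :=
  ⟨by rw [star_sub, he.1, hf.1], by
    rw [sub_mul, mul_sub, mul_sub, he.2, hf.2, h, proj_comm he hf h]; abel⟩

theorem CP.mul_proj {z e : A} (hz : CP z) (he : Proj e) : Proj (z * e) :=
  ⟨by rw [star_mul, hz.1.1, he.1, hz.2], by
    rw [mul_assoc, ← mul_assoc e, ← hz.2 e, mul_assoc, he.2, ← mul_assoc, hz.1.2]⟩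

theorem CP.mul {z y : A} (hz : CP z) (hy : CP y) : CP (z * y) :=
  ⟨hz.mul_proj hy.1, fun x => by rw [mul_assoc, hy.2, ← mul_assoc, hz.2, mul_assoc]⟩

theorem CP.compl {z : A} (hz : CP z) : CP (1 - z) :=
  ⟨hz.1.compl, fun x => by rw [sub_mul, mul_sub, one_mul, mul_one, hz.2]⟩

end Alg

variable {A : Type u} [CStarAlgebra A] {H : Type u} [NormedAddCommGroup H]
  [InnerProductSpace ℂ H] [CompleteSpace H] (ρ : A →⋆ₐ[ℂ] (H →L[ℂ] H))

/-- `V` is the strong sum of the family `v` -/
def SS {I : Type*} (v : I → A) (V : A) : Prop := ∀ ξ, HasSum (fun i => ρ (v i) ξ) (ρ V ξ)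

variable {ρ}

theorem SS.mul_left {I : Type*} {v : I → A} {V : A} (h : SS ρ v V) (a : A) :
    SS ρ (fun i => a * v i) (a * V) := fun ξ => by
  simpa only [map_mul, mul_apply_eq_comp] using (h ξ).mapL (ρ a)

theorem SS.mul_right {I : Type*} {v : I → A} {V : A} (h : SS ρ v V) (a : A) :
    SS ρ (fun i => v i * a) (V * a) := fun ξ => by
  simpa only [map_mul, mul_apply_eq_comp] using h (ρ a ξ)

theorem SS.unique (hV : VN ρ) {I : Type*} {v : I → A} {V W : A} (h : SS ρ v V) (h' : SS ρ v W) :
    V = W := hV.inj (ContinuousLinearMap.ext fun ξ => (h ξ).unique (h' ξ))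

theorem SS.congr {I : Type*} {v w : I → A} {V : A} (h : SS ρ v V) (e : ∀ i, v i = w i) :
    SS ρ w V := by rwa [← funext e]

theorem SS.fin {I : Type*} [Fintype I] (v : I → A) : SS ρ v (∑ i, v i) := fun ξ => by
  simpa only [map_sum, _root_.sum_apply] using hasSum_fintype fun i => ρ (v i) ξ

theorem SS.eq_zero (hV : VN ρ) {I : Type*} {v : I → A} {V : A} (h : SS ρ v V) (e : ∀ i, v i = 0) :
    V = 0 := h.unique hV fun ξ => by simp [e]

theorem SS.eq_single (hV : VN ρ) {I : Type*} {v : I → A} {V : A} (h : SS ρ v V) (j : I)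
    (e : ∀ i, i ≠ j → v i = 0) : V = v j :=
  h.unique hV fun ξ => hasSum_single j fun i hi => by simp [e i hi]

theorem SS.sum {I J : Type*} {v : I ⊕ J → A} {V W : A} (h : SS ρ (fun i => v (Sum.inl i)) V)
    (h' : SS ρ (fun j => v (Sum.inr j)) W) : SS ρ v (V + W) := fun ξ => by
  simpa only [map_add, _root_.add_apply] using
    HasSum.sum (f := fun i => ρ (v i) ξ) (h ξ) (h' ξ)

/-- sums of partial isometries with orthogonal initial and final projections -/
theorem Kit.sum_pi (hV : VN ρ) (hK : Kit ρ) {I : Type u} (v : I → A)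
    (h0 : ∀ i, v i * star (v i) * v i = v i) (h1 : ∀ i j, i ≠ j → star (v i) * v j = 0)
    (h2 : ∀ i j, i ≠ j → v i * star (v j) = 0) :
    ∃ V : A, SS ρ v V ∧ SS ρ (fun i => star (v i)) (star V) ∧ V * star V * V = V ∧
      (∀ i, star (v i) * V = star (v i) * v i) ∧ (∀ i, V * star (v i) = v i * star (v i)) ∧
      SS ρ (fun i => star (v i) * v i) (star V * V) ∧
      SS ρ (fun i => v i * star (v i)) (V * star V) := by
  obtain ⟨V, -, a1, a2⟩ := hK.sum v (fun i => pi_norm (h0 i)) h1 h2
  have a1 : SS ρ v V := a1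
  have a2 : SS ρ (fun i => star (v i)) (star V) := a2
  have b1 : ∀ i, star (v i) * V = star (v i) * v i := fun i =>
    (a1.mul_left (star (v i))).eq_single hV i fun j hj => h1 i j hj.symm
  have b2 : ∀ i, V * star (v i) = v i * star (v i) := fun i =>
    (a1.mul_right (star (v i))).eq_single hV i fun j hj => h2 j i hj
  have b2' : ∀ i, v i * star V = v i * star (v i) := fun i => by
    have := congrArg star (b2 i)
    simpa only [star_mul, star_star] using this
  have c1 : SS ρ (fun i => star (v i) * v i) (star V * V) := (a2.mul_right V).congr b1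
  have c2 : SS ρ (fun i => v i * star (v i)) (V * star V) := (a1.mul_right (star V)).congr b2'
  refine ⟨V, a1, a2, ?_, b1, b2, c1, c2⟩
  refine ((c2.mul_right V).congr fun i => ?_).unique hV a1
  rw [mul_assoc, b1, ← mul_assoc, h0]

/-- sums of orthogonal projections -/
theorem Kit.sum_proj (hV : VN ρ) (hK : Kit ρ) {I : Type u} (p : I → A) (h0 : ∀ i, Proj (p i))
    (h1 : ∀ i j, i ≠ j → p i * p j = 0) :
    ∃ P : A, Proj P ∧ SS ρ p P ∧ ∀ i, P * p i = p i := by
  obtain ⟨V, a1, a2, a3, a4, a5, -, -⟩ := hK.sum_pi hV p (fun i => proj_pi (h0 i))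
    (fun i j h => by rw [(h0 i).1, h1 i j h]) (fun i j h => by rw [(h0 j).1, h1 i j h])
  have hs : star V = V := (a2.congr fun i => (h0 i).1).unique hV a1
  have hp : ∀ i, V * p i = p i := fun i => by
    have := a5 i
    rwa [(h0 i).1, (h0 i).2] at this
  exact ⟨V, ⟨hs, ((a1.mul_left V).congr hp).unique hV a1⟩, a1, hp⟩

end Crest.Agent.KR
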