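import Crest.Agent.KR.H8
import Crest.Agent.KS.Cut
import Crest.Agent.KS.Dix2
import Crest.Agent.KS.GT
/-! Kadison–Ringrose cohomology: subalgebras, matrix units, central partitions, Grothendieck. -/
set_option autoImplicit false
set_option linter.deprecated false
namespace Crest.Agent.KR
open scoped InnerProductSpace ComplexConjugate BigOperators
open Filter Topology Crest.Agent.GP Crest.Agent.KS Crest.OpAlg

universe u

theorem sub : SubStmt.{u} := by
  intro A _ T hT S hS
  haveI : IsClosed (S : Set A) := hS.isClosed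
  let T₀ : Tr S :=
    { τ := T.τ ∘ₗ S.subtype.toLinearMap
      one := T.one
      comm := fun a b => T.comm a b
      map_star := fun a => T.map_star a
      pos := fun a => T.pos a }
  have hn : ∀ x : S, T₀.n x = T.n x := fun x => by
    rw [← sq_eq_sq₀ (T₀.n_nonneg _) (T.n_nonneg _), T₀.n_sq, T.n_sq]; rfl
  refine ⟨S, inferInstance, T₀, S.subtype, ⟨fun x hx => ?_, fun x C hx hc => ?_⟩,
    Subtype.val_injective, fun _ => rfl, fun x => ⟨fun h => ⟨⟨x, h⟩, rfl⟩, ?_⟩⟩
  · exact Subtype.ext (hT.faith _ (hn x ▸ hx))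
  · have hc' : CauchySeq fun k => T.ι (x k : A) := by
      rw [Metric.cauchySeq_iff] at hc ⊢
      simp only [Tr.dist_ι, hn] at hc ⊢
      exact hc
    obtain ⟨y, hy, hy'⟩ := hT.lim (fun k => x k) C hx hc'
    refine ⟨⟨y, hS.lim (fun k => (x k).2) hy'⟩, hy, ?_⟩
    simp only [hn]
    exact hy'
  · rintro ⟨y, rfl⟩
    exact y.2

namespace Sub
variable {A : Type u} [CStarAlgebra A]

/-- matrix units from a column -/
def mkMU {ι : Type} [Fintype ι] [DecidableEq ι] (w : ι → A) (p : A)
    (h1 : ∀ x y, star (w x) * w y = if x = y then p else 0) (h2 : ∀ x, w x * p = w x)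
    (h3 : ∑ x, w x * star (w x) = 1) : MU A ι where
  e x y := w x * star (w y)
  star_e x y := by simp
  mul_e x y z t := by
    rw [mul_assoc, ← mul_assoc (star (w y)), h1]
    split_ifs
    · rw [← mul_assoc, h2]
    · simp
  sum_e := h3

theorem half (h : HalvC (1 : A)) {r : A} (hr : Proj r) : ∃ (t : Fin 2 → A) (p : A),
    (∀ a b, star (t a) * t b = if a = b then p else 0) ∧ (∀ a, t a * p = t a) ∧
      (∀ a, r * t a = t a) ∧ ∑ a, t a * star (t a) = r := by
  letI := CStarAlgebra.spectralOrder A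
  haveI := CStarAlgebra.spectralOrderedRing A
  obtain ⟨v, h1, h2⟩ := h r hr (one_mul r)
  have h3 : v * (1 - r) = 0 := by
    have e : star (v * (1 - r)) * (v * (1 - r)) + star (star v * (1 - r)) * (star v * (1 - r)) = 0 := by
      have : star (v * (1 - r)) * (v * (1 - r)) + star (star v * (1 - r)) * (star v * (1 - r)) =
          star (1 - r) * (star v * v + v * star v) * (1 - r) := by
        simp only [star_mul, star_star]; noncomm_ring
      rw [this, h1, mul_assoc, mul_sub, hr.2]; simp
    exact (CStarRing.star_mul_self_eq_zero_iff _).1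
      ((add_eq_zero_iff_of_nonneg (star_mul_self_nonneg _) (star_mul_self_nonneg _)).1 e).1
  have h4 : v * (star v * v) = v := by
    have : v * r = v := by rw [mul_sub, mul_one, sub_eq_zero] at h3; exact h3.symm
    rwa [← h1, mul_add, ← mul_assoc v v, h2, zero_mul, add_zero] at this
  have h5 : star v * star v = 0 := by rw [← star_mul, h2, star_zero]
  have h6 : r * v = v := by
    rw [← h1, add_mul, mul_assoc, h2, mul_zero, zero_add, mul_assoc, h4]
  have h7 : star v * v * (star v * v) = star v * v := by rw [mul_assoc, h4]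
  refine ⟨![star v * v, v], star v * v, ?_, ?_, ?_, ?_⟩
  · intro a b
    fin_cases a <;> fin_cases b
    · simpa using h7
    · simp [mul_assoc, h2]
    · simp [← mul_assoc, h5]
    · simp
  · intro a
    fin_cases a
    · simpa using h7
    · simpa using h4
  · intro a
    fin_cases a
    · have : r * star v = star v := by
        have := congrArg star (show v * r = v by
          rw [mul_sub, mul_one, sub_eq_zero] at h3; exact h3.symm)
        rwa [star_mul, hr.1] at this
      simp [← mul_assoc, this]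
    · simpa using h6
  · simp [h7, h1]

end Sub

open Sub in
theorem mu : MuStmt.{u} := by
  intro A _ h
  have base : Nonempty (MU A (Fin 2)) := by
    obtain ⟨t, p, h1, h2, -, h4⟩ := half h (r := 1) ⟨star_one _, one_mul _⟩
    exact ⟨mkMU t p h1 h2 h4⟩
  have key : ∀ n : ℕ, ∃ (ι : Type) (_ : Fintype ι) (_ : DecidableEq ι) (_ : MU A ι),
      n + 1 ≤ Fintype.card ι := by
    intro n
    induction n with
    | zero => exact ⟨Fin 2, inferInstance, inferInstance, base.some, by simp⟩
    | succ n ih =>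
      obtain ⟨ι, _, _, E, hn⟩ := ih
      obtain ⟨o⟩ : Nonempty ι := Fintype.card_pos_iff.1 (by omega)
      obtain ⟨t, p, h1, h2, h3, h4⟩ := half h (r := E.e o o)
        ⟨E.star_e o o, by rw [E.mul_e, if_pos rfl]⟩
      refine ⟨ι × Fin 2, inferInstance, inferInstance,
        mkMU (fun x => E.e x.1 o * t x.2) p ?_ (fun x => by rw [mul_assoc, h2]) ?_, ?_⟩
      · rintro ⟨i, a⟩ ⟨j, b⟩
        rw [star_mul, E.star_e, mul_assoc, ← mul_assoc (E.e o i), E.mul_e]
        by_cases hij : i = j
        · simp [hij, h3, h1]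
        · simp [hij]
      · rw [Fintype.sum_prod_type, ← E.sum_e]
        refine Finset.sum_congr rfl fun i _ => ?_
        have : ∀ a, E.e i o * t a * star (E.e i o * t a) =
            E.e i o * (t a * star (t a)) * E.e o i := fun a => by
          rw [star_mul, E.star_e]; simp only [mul_assoc]
        simp only [this]
        rw [← Finset.sum_mul, ← Finset.mul_sum, h4, E.mul_e, if_pos rfl, E.mul_e, if_pos rfl]
      · rw [Fintype.card_prod, Fintype.card_fin]; omega
  refine ⟨base, fun n => ?_⟩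
  obtain ⟨ι, i1, i2, E, hn⟩ := key n
  exact ⟨ι, i1, i2, E, by omega⟩

theorem cp : CpStmt.{u} := by
  intro A _ T hT I _ c hc ε hε
  classical
  let S : Set A := {w | Proj w ∧ ∀ y, w * y = y * w}
  have h1 : ∀ i, ∃ d ∈ Submodule.span ℂ S, ‖c i - d‖ < ε := fun i => by
    have := dix2 T hT (Submodule.span ℂ S).topologicalClosure
      (Submodule.isClosed_topologicalClosure _)
      (fun w h h' => (Submodule.span ℂ S).le_topologicalClosure (Submodule.subset_span ⟨h, h'⟩))
      (c i) (hc i)
    obtain ⟨d, hd, h⟩ := Metric.mem_closure_iff.1 this ε hε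
    exact ⟨d, hd, by rwa [dist_eq_norm] at h⟩
  choose d hd hd' using h1
  choose F hF hF' using fun i => Submodule.mem_span_finite_of_mem_span (hd i)
  obtain ⟨J, _, z, z1, z2, z3, z4⟩ := Cut.exists_part
    ((Finset.univ.biUnion F).subtype fun w => Proj w ∧ ∀ y, w * y = y * w)
  have h2 : ∀ i j, ∃ β : ℂ, d i * z j = β • z j := fun i j => by
    refine Submodule.span_induction (p := fun x _ => ∃ β : ℂ, x * z j = β • z j)
      (fun w hw => ?_) ⟨0, by simp⟩ ?_ ?_ (hF' i)
    · rcases z4 ⟨w, hF i hw⟩ (by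
        rw [Finset.mem_subtype]
        exact Finset.mem_biUnion.2 ⟨i, Finset.mem_univ _, hw⟩) j with h | h
      · exact ⟨1, by rw [← z2, one_smul]; exact h⟩
      · exact ⟨0, by rw [← z2, zero_smul]; exact h⟩
    · rintro x y - - ⟨a, ha⟩ ⟨b, hb⟩
      exact ⟨a + b, by rw [add_mul, ha, hb, add_smul]⟩
    · rintro a x - ⟨b, hb⟩
      exact ⟨a * b, by rw [smul_mul_assoc, hb, mul_smul]⟩
  choose β hβ using h2
  have orth : ∀ j k, j ≠ k → z j * z k = 0 := fun j k hjk => by
    have e := H8.n_split T z (by simp only [(z1 _).1, (z1 _).2, z3]) (z j)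
    rw [← Finset.add_sum_erase _ _ (Finset.mem_univ j), (z1 j).2, left_eq_add] at e
    have := (Finset.sum_eq_zero_iff_of_nonneg fun _ _ => sq_nonneg _).1 e k (by simp [hjk.symm])
    exact hT.faith _ (pow_eq_zero_iff two_ne_zero |>.1 this)
  refine ⟨{j // z j ≠ 0}, inferInstance, fun j => z j, fun i j => β i j,
    fun j => ⟨z1 _, z2 _⟩, fun j => j.2, fun j k h => orth _ _ fun e => h (Subtype.ext e), ?_,
    fun i j => ?_⟩
  · rw [← z3, ← Finset.sum_filter_ne_zero Finset.univ (f := z)]
    exact (Finset.sum_subtype _ (by simp) z).symm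
  · rw [← hβ, ← sub_mul]
    exact (norm_mul_le _ _).trans ((mul_le_of_le_one_right (norm_nonneg _) (z1 _).norm).trans
      (hd' i).le)

theorem gt2 : Gt2Stmt.{u} := by
  intro A _ T θ K hK hθ J _ y
  let Θ : A →ₗ[ℂ] UniformSpace.Completion T.L2 :=
    (UniformSpace.Completion.toComplₗᵢ : T.L2 →ₗᵢ[ℂ] _).toLinearMap ∘ₗ T.ι.toLinearMap ∘ₗ θ
  have hΘ : ∀ b, ‖Θ b‖ = T.n (θ b) := fun b =>
    (UniformSpace.Completion.toComplₗᵢ : T.L2 →ₗᵢ[ℂ] _).norm_map _
  choose b c hb hc _ _ e eb ec using fun j => Tr.decomp (y j)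
  have h1 := gt Θ K hK (fun b => by rw [hΘ]; exact hθ b) (Sum.elim b c : J ⊕ J → A)
    (by rintro (j | j); exacts [hb j, hc j])
  simp only [Fintype.sum_sum_type, Sum.elim_inl, Sum.elim_inr, hΘ] at h1
  have h2 : ∑ j, b j * b j + ∑ j, c j * c j =
      (1 / 2 : ℂ) • (∑ j, y j * star (y j) + ∑ j, star (y j) * y j) := by
    rw [← Finset.sum_add_distrib, ← Finset.sum_add_distrib, Finset.smul_sum]
    refine Finset.sum_congr rfl fun j _ => ?_
    rw [e j]
    simp only [star_add, star_smul, hb, hc, mul_add, add_mul, smul_mul_assoc, mul_smul_comm,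
      Complex.star_def, Complex.conj_I, smul_smul]
    match_scalars <;> ring_nf <;> simp
  have h3 : ∀ j, T.n (θ (y j)) ^ 2 ≤ 2 * (T.n (θ (b j)) ^ 2 + T.n (θ (c j)) ^ 2) := fun j => by
    have := T.n_add_le (θ (b j)) (Complex.I • θ (c j))
    rw [T.n_smul, Complex.norm_I, one_mul, ← map_smul, ← map_add, ← e j] at this
    nlinarith [T.n_nonneg (θ (y j)), T.n_nonneg (θ (b j)), T.n_nonneg (θ (c j)),
      sq_nonneg (T.n (θ (b j)) - T.n (θ (c j)))]
  rw [h2, norm_smul] at h1
  have h4 := mul_le_mul_of_nonneg_left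
    (norm_add_le (∑ j, y j * star (y j)) (∑ j, star (y j) * y j)) (sq_nonneg K)
  refine (Finset.sum_le_sum fun j _ => h3 j).trans ?_
  rw [← Finset.mul_sum, Finset.sum_add_distrib]
  norm_num at h1
  linarith

end Crest.Agent.KR
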